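import Vale.Agent.P192.Compile

/-! Label-blindness of the compiled programs. -/

namespace Vale.Agent.P192

/-- The instruction accesses a digit of the label stored on side `s`. -/
def Ins.Touches (s : Bool) (i : Ins) : Prop := ∃ d, i.adr = (s, .D .lab d)

def Loud (s : Bool) (a b : Cell) : Prop :=
  a .sh = 2 ∨ b .sh = 2 ∨ (if s then b else a) .m ≠ 0

/-- The address is not a digit of a label on side `s`. -/
def NL (s : Bool) (α : Adr) : Prop := ∀ d, α ≠ (s, .D .lab d) ∧ α ≠ (s, .S .lab d)

theorem NL_K (s : Bool) (c : Fin 27) : NL s (false, .K c) := by intro d; simp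

theorem NL_swA (s : Bool) (chA chB : List Fld) (α : Adr) (h : NL s α) : NL s (swA chA chB α) := by
  obtain ⟨s', l⟩ := α
  intro d
  have := h d
  cases l with
  | K c => simp [swA]
  | D f i => simp only [swA]; split_ifs <;> simp_all
  | S f i => simp only [swA]; split_ifs <;> simp_all

/-- The variable is not a label. -/
def nolab (v : Var) : Bool := decide (v.2 ≠ .lab)

/-- The variable is not a label of the right side. -/
def nolabR (v : Var) : Bool := decide (v.2 ≠ .lab ∨ v.1 = .A)

theorem NL_am (s : Bool) (chA chB : List Fld) (v : Var) (hv : nolab v = true) (i : Fin Dg) :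
    NL s (am chA chB v i) := by
  obtain ⟨p, f⟩ := v
  have hf : f ≠ .lab := by simpa [nolab] using hv
  intro d
  cases p <;> simp only [am] <;> (try split_ifs) <;> simp [hf]

theorem NL_amR (chA chB : List Fld) (v : Var) (hv : nolabR v = true) (i : Fin Dg) :
    NL true (am chA chB v i) := by
  obtain ⟨p, f⟩ := v
  have hf : f ≠ .lab ∨ p = .A := by simpa [nolabR] using hv
  intro d
  rcases hf with hf | rfl
  · cases p <;> simp only [am] <;> (try split_ifs) <;> simp [hf]
  · simp [am]

theorem not_touch {s : Bool} {i : Ins} (h : NL s i.adr) : ¬ i.Touches s := by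
  rintro ⟨d, hd⟩; exact (h d).1 hd

theorem erules_lab {ρ : ERule} (h : ρ ∈ erules) :
    ρ.guard.allB (Atom.vars nolab) = true ∧
      ((ρ.body.allB (Atom.vars nolab) = true ∧ Fld.lab ∉ ρ.chA ∧ Fld.lab ∉ ρ.chB) ∨
        ρ.guard = .and (fc .A .sh 2) (fc .D .sh 2)) := by
  simp only [erules, List.mem_cons, List.not_mem_nil, or_false] at h
  rcases h with rfl | rfl | rfl | rfl | rfl | rfl | rfl | rfl | rfl | rfl | rfl | rfl <;>
    first
    | exact ⟨by decide, Or.inl (by decide)⟩
    | exact ⟨by decide, Or.inr rfl⟩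

theorem zrules_lab {ρ : ZRule} (h : ρ ∈ zrules) :
    ρ.guard.allB (Atom.vars nolab) = true ∧
      ((ρ.body.allB (Atom.vars nolab) = true ∧ ρ.term.vars nolab = true) ∨
        ρ.guard = fc .A .sh 2 ∨
        (ρ.guard = .not (fc .A .m 0) ∧ ρ.body.allB (Atom.vars nolabR) = true ∧
          ρ.term.vars nolabR = true)) := by
  simp only [zrules, List.mem_cons, List.not_mem_nil, or_false] at h
  rcases h with rfl | rfl | rfl | rfl | rfl | rfl | rfl | rfl | rfl | rfl | rfl | rfl | rfl | rfl <;>
    first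
    | exact ⟨by decide, Or.inl (by decide)⟩
    | exact ⟨by decide, Or.inr (Or.inl rfl)⟩
    | exact ⟨by decide, Or.inr (Or.inr ⟨rfl, by decide⟩)⟩

theorem take_append_of_touch {P : Ins → Prop} {l l' : List Ins} {e : ℕ} (hl : ∀ i ∈ l, ¬ P i)
    (ht : ∃ i ∈ (l ++ l').take e, P i) : ∃ e', (l ++ l').take e = l ++ l'.take e' := by
  by_cases h : e ≤ l.length
  · obtain ⟨i, hi, hP⟩ := ht
    rw [List.take_append_of_le_length h] at hi
    exact absurd hP (hl i (List.mem_of_mem_take hi))
  · exact ⟨e - l.length, by rw [List.take_append, List.take_of_length_le (by omega)]⟩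

theorem drop_append_of_touch {P : Ins → Prop} {l l' : List Ins} {e : ℕ} (hl : ∀ i ∈ l', ¬ P i)
    (ht : ∃ i ∈ (l ++ l').drop e, P i) : (l ++ l').drop e = l.drop e ++ l' := by
  by_cases h : e ≤ l.length
  · rw [List.drop_append_of_le_length h]
  · obtain ⟨i, hi, hP⟩ := ht
    rw [List.drop_append, List.drop_of_length_le (by omega), List.nil_append] at hi
    exact absurd hP (hl i (List.mem_of_mem_drop hi))

theorem blind_pre {n : ℕ} (hn : Big n) {π : Prog} (h : π ∈ progs) (e : ℕ) (s : Bool)
    {σ : PS} (hσ : MV n σ) (hok : okAll n (π.pre.take e) σ)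
    (ht : ∃ i ∈ π.pre.take e, i.Touches s) :
    Loud s (letter n σ.mem false) (letter n σ.mem true) := by
  rcases mem_progs.1 h with ⟨ρ, hρ, h⟩ | ⟨ρ, hρ, h⟩
  · obtain ⟨gc, hg, bc, hb, rfl⟩ := ERule.mem_progs.1 h
    obtain ⟨h1, h2⟩ := erules_lab hρ
    have gg := comp_good (NL_K s) (NL_am s _ _) h1 hg
    simp only at hok ht
    rcases h2 with ⟨h2, h3, h4⟩ | h2
    · exfalso
      have gb := comp_good (NL_K s) (NL_am s _ _) h2 hb
      obtain ⟨i, hi, hP⟩ := ht
      rcases List.mem_append.1 (List.mem_of_mem_take hi) with hi | hi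
      · exact not_touch (clauseCode_mem (good_append gg gb) i hi).2.2 hP
      · obtain ⟨d, hd⟩ := hP
        rcases List.mem_append.1 hi with hi | hi <;>
        · obtain ⟨f, hf, j, rfl | rfl⟩ := swapSide_mem hi <;>
          simp only [Ins.adr, Prod.mk.injEq, Loc.D.injEq, reduceCtorEq, and_false] at hd
          obtain ⟨-, rfl, -⟩ := hd
          contradiction
    · rw [clauseCode_append, List.append_assoc] at hok ht
      obtain ⟨e', he'⟩ := take_append_of_touch
        (fun i hi => not_touch (clauseCode_mem gg i hi).2.2) ht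
      rw [he', okAll_append, okAll_clauseCode n false _ (ne_of_good gg)] at hok
      have h5 := (comp_eval hn.ge27 hσ.1 hσ.2.1 _ _).1 ⟨gc, hg, hok.1⟩
      rw [env_am, h2] at h5
      exact Or.inl h5.1
  · obtain ⟨gc, hg, bc, hb, en, hen, rfl⟩ := ZRule.mem_progs.1 h
    obtain ⟨h1, h2⟩ := zrules_lab hρ
    have gg := comp_good (NL_K s) (NL_am s _ _) h1 hg
    simp only at hok ht
    have key : ρ.guard.eval (Atom.eval (n ^ Dg) (env (letter n σ.mem false) (letter n σ.mem true)
        (letter n σ.mem false) (letter n σ.mem true))) := by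
      rw [clauseCode_append, List.append_assoc] at hok ht
      obtain ⟨e', he'⟩ := take_append_of_touch
        (fun i hi => not_touch (clauseCode_mem gg i hi).2.2) ht
      rw [he', okAll_append, okAll_clauseCode n false _ (ne_of_good gg)] at hok
      have h5 := (comp_eval hn.ge27 hσ.1 hσ.2.1 _ _).1 ⟨gc, hg, hok.1⟩
      rwa [env_am_nil] at h5
    rcases h2 with ⟨h2, h3⟩ | h2 | ⟨h2, h3, h4⟩
    · exfalso
      have gb := comp_good (NL_K s) (NL_am s _ _) h2 hb
      obtain ⟨i, hi, hP⟩ := ht
      rcases List.mem_append.1 (List.mem_of_mem_take hi) with hi | hi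
      · exact not_touch (clauseCode_mem (good_append gg gb) i hi).2.2 hP
      · exact not_touch (ends_mem (NL_K s) (NL_am s _ _) h3 hen i hi).2.2 hP
    · rw [h2] at key
      exact Or.inl key
    · cases s
      · rw [h2] at key
        exact Or.inr (Or.inr key)
      · exfalso
        have gb := comp_good (NL_K true) (NL_amR _ _) h3 hb
        obtain ⟨i, hi, hP⟩ := ht
        rcases List.mem_append.1 (List.mem_of_mem_take hi) with hi | hi
        · exact not_touch (clauseCode_mem (good_append gg gb) i hi).2.2 hP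
        · exact not_touch (ends_mem (NL_K true) (NL_amR _ _) h4 hen i hi).2.2 hP

theorem blind_post {n : ℕ} (hn : Big n) {π : Prog} (h : π ∈ progs) (e : ℕ) (s : Bool)
    {σ : PS} (hσ : MV n σ) (hok : okAll n (π.post.drop e) σ)
    (ht : ∃ i ∈ π.post.drop e, i.Touches s) :
    Loud s (letter n (fwd (π.post.drop e) σ).mem false)
      (letter n (fwd (π.post.drop e) σ).mem true) := by
  have hdyn := (prog_shape h).2.1
  rcases mem_progs.1 h with ⟨ρ, hρ, h⟩ | ⟨ρ, hρ, h⟩
  · obtain ⟨gc, hg, bc, hb, rfl⟩ := ERule.mem_progs.1 h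
    obtain ⟨h1, h2⟩ := erules_lab hρ
    have gg := good_map ρ.chA ρ.chB (NL_swA s _ _) (comp_good (NL_K s) (NL_am s _ _) h1 hg)
    simp only at hok ht hdyn ⊢
    rcases h2 with ⟨h2, h3, h4⟩ | h2
    · exfalso
      have gb := good_map ρ.chA ρ.chB (NL_swA s _ _) (comp_good (NL_K s) (NL_am s _ _) h2 hb)
      obtain ⟨i, hi, hP⟩ := ht
      rw [List.map_append] at hi
      exact not_touch (clauseCode_mem (good_append gb gg) i (List.mem_of_mem_drop hi)).2.2 hP
    · have hτ : MV n (fwd (List.drop e (clauseCode true ((bc ++ gc).map (swLit ρ.chA ρ.chB)))) σ) :=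
        hσ.fwd fun i hi => (hdyn i (List.mem_of_mem_drop hi)).1
      rw [List.map_append, clauseCode_append] at hok ht hτ ⊢
      have he' := drop_append_of_touch (fun i hi => not_touch (clauseCode_mem gg i hi).2.2) ht
      rw [he'] at hok hτ ⊢
      rw [okAll_append, okAll_clauseCode n true _ (ne_of_good gg)] at hok
      rw [fwd_append, fwd_clauseCode] at hτ ⊢
      generalize fwd (List.drop e (clauseCode true (bc.map (swLit ρ.chA ρ.chB)))) σ = τ at hok hτ ⊢
      have h5 := (comp_eval (μ := fun α => τ.mem (swA ρ.chA ρ.chB α)) hn.ge27 (fun _ => hτ.1 _)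
        (fun s c => hτ.2.1 s c) _ _).1 ⟨gc, hg, fun l hl => hok.2 _ (List.mem_map_of_mem hl)⟩
      rw [env_am n ρ.chA ρ.chB fun α => τ.mem (swA ρ.chA ρ.chB α), h2] at h5
      have h6 := h5.2
      simp only [swA_swA] at h6
      exact Or.inr (Or.inl h6)
  · obtain ⟨gc, hg, bc, hb, en, hen, rfl⟩ := ZRule.mem_progs.1 h
    simp at ht

end Vale.Agent.P192
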