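import Vale.Agent.P192.SimInst
import Vale.Agent.P192.CompileBlind

/-! The token structure between two consecutive levels. -/

namespace Vale.Agent.P192

namespace Blind

/-! ### Overwriting the label digits in a memory state -/

/-- The address holds a digit of the label on side `s`. -/
def Tch (s : Bool) (α : Adr) : Prop := ∃ d, α = (s, .D .lab d)

open Classical in
/-- Overwrite the label digits on side `s`. -/
noncomputable def ovw (s : Bool) (ν : Adr → ℕ) (σ : PS) : PS :=
  ⟨fun α => if Tch s α then ν α else σ.mem α, σ.r1, σ.r2⟩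

theorem exec_ovw {s : Bool} (ν : Adr → ℕ) {i : Ins} (hi : ¬ i.Touches s) (σ : PS) :
    i.exec (ovw s ν σ) = ovw s ν (i.exec σ) := by
  cases i with
  | x1 α =>
    have h : ¬ Tch s α := hi
    simp only [Ins.exec, ovw, if_neg h, PS.mk.injEq, and_true]
    funext β
    by_cases e : β = α
    · subst e; simp [h]
    · simp [Function.update_of_ne e]
  | x2 α =>
    have h : ¬ Tch s α := hi
    simp only [Ins.exec, ovw, if_neg h, PS.mk.injEq, and_true]
    funext β
    by_cases e : β = α
    · subst e; simp [h]
    · simp [Function.update_of_ne e]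
  | gate md pol k β => rfl

theorem ok_ovw {n : ℕ} {s : Bool} (ν : Adr → ℕ) {i : Ins} (hi : ¬ i.Touches s) (σ : PS) :
    i.ok n (ovw s ν σ) ↔ i.ok n σ := by
  cases i with
  | x1 α => rfl
  | x2 α => rfl
  | gate md pol k β =>
    have h : ¬ Tch s β := hi
    simp only [Ins.ok, ovw, if_neg h]

theorem fwd_ovw {s : Bool} (ν : Adr → ℕ) {l : List Ins} (hl : ∀ i ∈ l, ¬ i.Touches s) (σ : PS) :
    fwd l (ovw s ν σ) = ovw s ν (fwd l σ) := by
  induction l generalizing σ with
  | nil => rfl
  | cons i l ih =>
    simp only [fwd]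
    rw [exec_ovw ν (hl i (by simp)), ih fun j hj => hl j (by simp [hj])]

theorem bwd_ovw {s : Bool} (ν : Adr → ℕ) {l : List Ins} (hl : ∀ i ∈ l, ¬ i.Touches s) (σ : PS) :
    bwd l (ovw s ν σ) = ovw s ν (bwd l σ) :=
  fwd_ovw ν (fun i hi => hl i (List.mem_reverse.1 hi)) σ

theorem okAll_ovw {n : ℕ} {s : Bool} (ν : Adr → ℕ) {l : List Ins}
    (hl : ∀ i ∈ l, ¬ i.Touches s) (σ : PS) : okAll n l (ovw s ν σ) ↔ okAll n l σ := by
  induction l generalizing σ with
  | nil => rfl
  | cons i l ih =>
    simp only [okAll]
    rw [exec_ovw ν (hl i (by simp)), ih fun j hj => hl j (by simp [hj]),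
      ok_ovw ν (hl i (by simp))]

open Classical in
theorem blind_core {n : ℕ} (hn : Big n) {c : Cfg} (hc : c.Valid n) (s : Bool)
    (hl : c.two = true → ¬ Loud s (letter n (c.dmem n) false) (letter n (c.dmem n) true))
    (μ : ℕ → ℕ) (hμ : ∀ α, ¬ Tch s α → μ (pos n α) = c.mem (pos n α)) :
    Cfg.Legit n { c with mem := μ } ∧
      ∀ α, Cfg.dmem n { c with mem := μ } α = if Tch s α then μ (pos n α) else c.dmem n α := by
  have hps : Cfg.ps n { c with mem := μ } = ovw s (fun α => μ (pos n α)) (c.ps n) := by
    simp only [Cfg.ps, ovw, PS.mk.injEq, and_true]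
    funext α
    split_ifs with h
    · rfl
    · exact hμ α h
  by_cases hq : c.q = 0
  · refine ⟨Or.inl hq, fun α => ?_⟩
    have e : Cfg.dmem n { c with mem := μ } = (Cfg.ps n { c with mem := μ }).mem := if_pos hq
    have e' : c.dmem n = (c.ps n).mem := if_pos hq
    rw [e, e', hps]
    rfl
  · obtain ⟨π, j, h1, h2, h3, h4, h5, h6⟩ := hc.legit.resolve_left hq
    have h2' : c.two = true := by
      rcases hc.sv.ctl with h | h
      · exact absurd h.1 hq
      · exact h.1
    have hm := hc.sv.mv hn h2'
    have hp := (locate_spec h1).1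
    have hd : c.dmem n = π.dmem (c.ex j) (c.ps n) := by
      simp only [Cfg.dmem, hq, if_false, h1]
    have hd' : Cfg.dmem n { c with mem := μ } =
        π.dmem (c.ex j) (ovw s (fun α => μ (pos n α)) (c.ps n)) := by
      rw [← hps]
      simp only [Cfg.dmem, hq, if_false, h1]
      rfl
    have hl' := hl h2'
    rw [hd] at hl'
    suffices key : π.Ok n (c.ex j) (ovw s (fun α => μ (pos n α)) (c.ps n)) ∧
        π.dmem (c.ex j) (ovw s (fun α => μ (pos n α)) (c.ps n)) =
          fun α => if Tch s α then μ (pos n α) else π.dmem (c.ex j) (c.ps n) α by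
      refine ⟨Or.inr ⟨π, j, h1, h2, h3, h4, h5, ?_⟩, fun α => ?_⟩
      · rw [hps]; exact key.1
      · rw [hd', hd, key.2]
    by_cases he : c.ex j ≤ π.pre.length
    · simp only [Prog.Ok, Prog.dmem, he, if_true] at h6 hl' ⊢
      have hb : ∀ i ∈ π.pre.take (c.ex j), ¬ i.Touches s := fun i hi ht =>
        hl' (blind_pre hn hp (c.ex j) s
          (hm.bwd fun i hi => ((prog_shape hp).1 i (List.mem_of_mem_take hi)).1) h6.2.2
          ⟨i, hi, ht⟩)
      rw [bwd_ovw _ hb, okAll_ovw _ hb]
      exact ⟨h6, rfl⟩
    · simp only [Prog.Ok, Prog.dmem, he, if_false] at h6 hl' ⊢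
      have hb : ∀ i ∈ π.post.drop (c.ex j - π.pre.length), ¬ i.Touches s := fun i hi ht =>
        hl' (blind_post hn hp _ s hm h6.1 ⟨i, hi, ht⟩)
      rw [fwd_ovw _ hb, okAll_ovw _ hb]
      exact ⟨h6, rfl⟩

/-! ### Relabelling a configuration -/

/-- Offset of the label digits. -/
noncomputable def off (n : ℕ) (s : Bool) : ℕ := (if s then n else 0) + (PP + 12 * Dg)

theorem pos_lab (n : ℕ) (s : Bool) (d : Fin Dg) : pos n (s, .D .lab d) = off n s + d.val := by
  cases s
  · simp [pos, off, Loc.adr, Fld.idx]
  · simp [pos, off, Loc.adr, Fld.idx]; omega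

theorem tch_of_pos {n : ℕ} (hn : Big n) {s : Bool} {α : Adr} (h1 : off n s ≤ pos n α)
    (h2 : pos n α < off n s + Dg) : Tch s α :=
  ⟨⟨pos n α - off n s, by omega⟩, pos_inj hn (by rw [pos_lab]; simp only; omega)⟩

/-- Write the digits of `l` into the values of a region. -/
def put (n : ℕ) (r : List Cell) (l : ℕ) : List Cell :=
  r.mapIdx fun i a => Function.update a .val (dig n l i)

/-- The configuration with a new label on one side. -/
def relab (n : ℕ) (c : Cfg) (p l : ℕ) : Cfg :=
  { c with mem := fun x => if p ≤ x ∧ x < p + Dg then dig n l (x - p) else c.mem x }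

theorem cell_relab (n : ℕ) (c : Cfg) (p l x : ℕ) : (relab n c p l).cell n x =
    if p ≤ x ∧ x < p + Dg then Function.update (c.cell n x) .val (dig n l (x - p))
    else c.cell n x := by
  funext f
  by_cases h : p ≤ x ∧ x < p + Dg
  · rw [if_pos h]
    cases f
    case val => exact if_pos h
    all_goals rfl
  · rw [if_neg h]
    cases f
    case val => exact if_neg h
    all_goals rfl

theorem regAt_render {n : ℕ} {c : Cfg} {p D : ℕ} (h : p + D ≤ c.len n) :
    regAt p D (c.render n) = (List.range D).map fun i => c.cell n (p + i) := by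
  apply List.ext_getElem
  · simp [regAt, Cfg.render]; omega
  · intro i h1 h2
    simp [regAt, Cfg.render]

theorem put_map (n D : ℕ) (f : ℕ → Cell) (l : ℕ) : put n ((List.range D).map f) l =
    (List.range D).map fun i => Function.update (f i) .val (dig n l i) := by
  apply List.ext_getElem
  · simp [put]
  · intro i h1 h2
    simp [put]

theorem render_relab {n : ℕ} {c : Cfg} {p : ℕ} (h : p + Dg ≤ c.len n) (l : ℕ) :
    modAt p Dg (fun r => put n r l) (c.render n) = (relab n c p l).render n := by
  have hlen : (relab n c p l).len n = c.len n := rfl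
  rw [modAt, regAt_render h, put_map]
  apply List.ext_getElem
  · simp [Cfg.render, hlen]; omega
  · intro i h1 h2
    have hp : min p (c.len n) = p := by omega
    simp only [Cfg.render, List.getElem_map, List.getElem_range, cell_relab, List.getElem_append,
      List.length_append, List.length_take, List.length_map, List.length_range, hp,
      List.getElem_take, List.getElem_drop]
    by_cases h3 : i < p
    · rw [dif_pos (by omega), dif_pos h3, if_neg (by omega)]
    · by_cases h4 : i < p + Dg
      · rw [dif_pos h4, dif_neg h3, if_pos (by omega), show p + (i - p) = i by omega]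
      · rw [dif_neg h4, if_neg (by omega), show p + Dg + (i - (p + Dg)) = i by omega]

theorem off_spec {n : ℕ} (hn : Big n) {c : Cfg} {s : Bool} (hs : s = true → c.two = true) :
    off n s + Dg ≤ c.len n ∧ ∀ x, off n s ≤ x → x < off n s + Dg →
      PP ≤ adx n x ∧ adx n x < P1 := by
  have := P1_eq; have := P1_lt_P2; unfold Big at hn
  cases s
  · refine ⟨?_, fun x h1 h2 => ?_⟩
    · simp only [off, Cfg.len, Bool.false_eq_true, if_false]; split_ifs <;> omega
    · simp only [off, Bool.false_eq_true, if_false] at h1 h2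
      unfold adx; split_ifs <;> omega
  · refine ⟨?_, fun x h1 h2 => ?_⟩
    · simp only [off, Cfg.len, hs rfl, if_true]; omega
    · simp only [off, if_true] at h1 h2
      unfold adx; split_ifs <;> omega

theorem relab_sv {n : ℕ} (hn : Big n) {c : Cfg} (hc : c.SV n) {s : Bool}
    (hs : s = true → c.two = true) (l : ℕ) : (relab n c (off n s) l).SV n := by
  refine ⟨hc.h_lt, hc.regs, hc.ctl, fun x hx => ?_, fun x hx h => ?_, hc.s0_mem, hc.s1_mem,
    hc.lab_lt⟩
  · simp only [relab]
    split_ifs
    · exact dig_lt (by unfold Big at hn; omega) _ _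
    · exact hc.mem_lt x hx
  · simp only [relab]
    split_ifs with h'
    · have := (off_spec hn hs).2 x h'.1 h'.2
      omega
    · exact hc.mem_prog x hx h

/-- The erased label region. -/
noncomputable def era (n : ℕ) (t : Bool × Bool × ℕ × ℕ × ℕ × ℕ × ℕ × ℕ × ℕ) : List Cell :=
  (List.range Dg).map fun i => Function.update
    (Cfg.cell n ⟨t.1, t.2.2.1, t.2.2.2.1, t.2.2.2.2.1, t.2.2.2.2.2.1, t.2.2.2.2.2.2.1,
      t.2.2.2.2.2.2.2.1, t.2.2.2.2.2.2.2.2, fun _ => 0, 0, 0, fun _ => 0⟩ (off n t.2.1 + i))
    .val (dig n 0 i)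

open Classical in
/-- All erased label regions. -/
noncomputable def CC (n : ℕ) : Finset (List Cell) :=
  ((Finset.univ : Finset Bool) ×ˢ (Finset.univ : Finset Bool) ×ˢ Finset.range (2 * n) ×ˢ
    Finset.range n ×ˢ Finset.range n ×ˢ Finset.range n ×ˢ Finset.range n ×ˢ Finset.range n ×ˢ
    Finset.range n).image (era n)

theorem card_CC (n : ℕ) : (CC n).card ≤ 8 * n ^ 7 := by
  classical
  refine Finset.card_image_le.trans (le_of_eq ?_)
  simp only [Finset.card_product, Finset.card_univ, Fintype.card_bool, Finset.card_range]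
  ring

theorem mem_CC {n : ℕ} (hn : Big n) {c : Cfg} (hc : c.SV n) {s : Bool}
    (hs : s = true → c.two = true) : put n (regAt (off n s) Dg (c.render n)) 0 ∈ CC n := by
  obtain ⟨h1, h2⟩ := off_spec hn hs
  rw [regAt_render h1, put_map]
  refine Finset.mem_image.2 ⟨(c.two, s, c.h, c.q, c.pc, c.hm, c.ha, c.r1, c.r2), ?_, ?_⟩
  · have h3 := hc.h_lt
    have h4 := hc.regs
    have h5 : c.q < n := by
      unfold Big at hn
      have := PP_le_P1; have := P1_lt_P2
      rcases hc.ctl with h | h
      · have := h.1; omega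
      · omega
    have h6 : c.h < 2 * n := by
      unfold Cfg.len at h3; split_ifs at h3 <;> omega
    simp only [Finset.mem_product, Finset.mem_univ, Finset.mem_range, true_and]
    exact ⟨h6, h5, h4⟩
  · unfold era
    refine List.map_congr_left fun i hi => ?_
    have h3 := (h2 (off n s + i) (by omega) (by have := List.mem_range.1 hi; omega)).2
    funext f
    cases f <;> simp [Cfg.cell, h3]

theorem blind_main {n : ℕ} (hn : Big n) {c : Cfg} (hc : c.Valid n) {s : Bool}
    (hs : s = true → c.two = true)
    (hl : c.two = true → ¬ Loud s (letter n (c.dmem n) false) (letter n (c.dmem n) true)) :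
    put n (regAt (off n s) Dg (c.render n)) (letter n (c.dmem n) s .lab) =
      regAt (off n s) Dg (c.render n) ∧
    ∀ l, l < n ^ Dg → (relab n c (off n s) l).Valid n ∧
      letter n ((relab n c (off n s) l).dmem n) s =
        Function.update (letter n (c.dmem n) s) .lab l ∧
      letter n ((relab n c (off n s) l).dmem n) (!s) = letter n (c.dmem n) (!s) := by
  obtain ⟨h1, h2⟩ := off_spec hn hs
  constructor
  · have h3 := (blind_core hn hc s hl c.mem fun _ _ => rfl).2
    have h4 : ∀ d : Fin Dg, c.dmem n (s, .D .lab d) = c.mem (off n s + d.val) := by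
      intro d
      have := h3 (s, .D .lab d)
      rw [if_pos ⟨d, rfl⟩, pos_lab] at this
      exact this
    rw [regAt_render h1, put_map]
    refine List.map_congr_left fun i hi => ?_
    have hi' := List.mem_range.1 hi
    have h5 : dig n (letter n (c.dmem n) s .lab) i = c.mem (off n s + i) := by
      rw [← h4 ⟨i, hi'⟩]
      exact dig_num (fun d => c.dmem n (s, .D .lab d))
        (fun d => by rw [h4]; exact hc.sv.mem_lt _ (by have := d.2; omega)) ⟨i, hi'⟩
    rw [h5]
    exact Function.update_eq_self_iff.2 rfl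
  · intro l hl'
    obtain ⟨h3, h4⟩ := blind_core hn hc s hl (relab n c (off n s) l).mem fun α hα => by
      simp only [relab]
      rw [if_neg fun h => hα (tch_of_pos hn h.1 h.2)]
    refine ⟨⟨relab_sv hn hc.sv hs l, ⟨hc.tok.lab_ge, hc.tok.lab_inj⟩, h3⟩, ?_, ?_⟩
    · funext f
      by_cases hf : f = .lab
      · subst hf
        rw [Function.update_self]
        refine Eq.trans (Finset.sum_congr rfl fun d _ => ?_) (num_dig hl')
        have := h4 (s, .D .lab d)
        rw [if_pos ⟨d, rfl⟩, pos_lab] at this
        congr 1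
        refine this.trans ?_
        simp only [relab]
        rw [if_pos ⟨by omega, by have := d.2; omega⟩, Nat.add_sub_cancel_left]
      · rw [Function.update_of_ne hf]
        refine Finset.sum_congr rfl fun d _ => ?_
        have := h4 (s, .D f d)
        rw [if_neg] at this
        · exact congrArg (· * n ^ d.val) this
        · rintro ⟨d', e⟩
          simp only [Prod.mk.injEq, Loc.D.injEq] at e
          exact hf e.2.1
    · refine letter_congr fun f d => ?_
      have := h4 (!s, .D f d)
      rw [if_neg] at this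
      · exact this
      · rintro ⟨d', e⟩
        simp only [Prod.mk.injEq] at e
        cases s <;> simp at e

/-! ### The permutable positions -/

/-- Default letter. -/
def dflt : Cell := fun _ => 0

/-- The word with its labels erased, as a function. -/
def ers (w : List Cell) (i : ℕ) : Cell := Function.update (w.getD i dflt) .lab 0

theorem ers_set (w : List Cell) (j l : ℕ) :
    ers (w.set j (Function.update (w.getD j dflt) .lab l)) = ers w := by
  funext i
  simp only [ers, List.getD_eq_getElem?_getD, List.getElem?_set]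
  by_cases h : j = i
  · subst h
    by_cases h' : j < w.length
    · simp [h']
    · simp [h']
  · simp [h]

open Classical in
/-- Quiet window positions of the first block. -/
noncomputable def JJ (N : ℕ) (F : ℕ → Cell) : Finset ℕ :=
  (Finset.Ico (sInf {i | startC (F i)} + P1) (sInf {i | startC (F i)} + N)).filter
    fun j => ∀ i, j ≤ i + 1 → i ≤ j + 1 → F i .sh ≠ 2

theorem split_first {α : Type} (P : α → Prop) {t : List α} (h : ∃ z ∈ t, P z) :
    ∃ u x v, t = u ++ x :: v ∧ (∀ z ∈ u, ¬ P z) ∧ P x := by
  induction t with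
  | nil => simp at h
  | cons a t ih =>
    by_cases ha : P a
    · exact ⟨[], a, t, rfl, by simp, ha⟩
    · obtain ⟨z, hz, hP⟩ := h
      rcases List.mem_cons.1 hz with rfl | hz
      · exact absurd hP ha
      · obtain ⟨u, x, v, rfl, h1, h2⟩ := ih ⟨z, hz, hP⟩
        exact ⟨a :: u, x, v, rfl, by simpa [ha] using h1, h2⟩

theorem exists_block {N : ℕ} (hN : Big N) {w : List Cell} (hw : ∀ a ∈ w, Bd N a)
    (hl : 4 * N + 6 ≤ w.length) (hz : ¬ (Lv N).Null w) :
    ∃ (u v : List Cell) (c : Cfg), c.Valid N ∧ w = u ++ c.render N ++ v ∧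
      sInf {i | startC (ers w i)} = u.length := by
  have key : ∀ l t r : List Cell, w = l ++ t ++ r → 2 * N + 2 ≤ t.length → ∃ z ∈ t, startC z := by
    intro l t r e ht
    by_contra h
    push Not at h
    refine hz ?_
    rw [e]
    exact QP.Null.ctx ⟨t, QP.Eqv.refl _,
      long_hasZ hN (fun z hz => hw z (by rw [e]; simp [hz])) h ht⟩ l r
  obtain ⟨u, a, t, rfl, hu, ha⟩ := split_first startC (key [] w [] (by simp) (by omega))
  have hul : u.length < 2 * N + 2 := by
    by_contra h
    obtain ⟨z, hz, hz'⟩ := key [] u (a :: t) (by simp) (by omega)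
    exact hu z hz hz'
  obtain ⟨t1, x, v, rfl, ht, hx⟩ := split_first startC
    (key (u ++ [a]) t [] (by simp) (by simp at hl; omega))
  obtain ⟨c, hc, e⟩ := complete_seg hN (g := a :: t1) (x := x)
    (fun z hz => hw z (by rcases List.mem_cons.1 hz with rfl | hz <;> simp [*]))
    ⟨a, t1, rfl, ha, ht⟩ (hw x (by simp)) hx
    (fun h => hz (by simpa using h.ctx u v))
  refine ⟨u, x :: v, c, hc, by rw [← e]; simp, ?_⟩
  have hst : ∀ b : Cell, startC (Function.update b .lab 0) ↔ startC b := by
    intro b; simp [startC]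
  have hmem : u.length ∈ {i | startC (ers (u ++ a :: (t1 ++ x :: v)) i)} := by
    simp only [Set.mem_ofPred_eq, ers, hst]
    simpa using ha
  refine le_antisymm (Nat.sInf_le hmem) ?_
  by_contra h
  have h1 := Nat.sInf_mem ⟨_, hmem⟩
  generalize sInf {i | startC (ers (u ++ a :: (t1 ++ x :: v)) i)} = k at h h1
  have hk : k < u.length := by omega
  simp only [Set.mem_ofPred_eq, ers, hst] at h1
  rw [List.getD_append _ _ _ _ hk, List.getD_eq_getElem _ _ hk] at h1
  exact hu _ (List.getElem_mem hk) h1

theorem getD_block {N : ℕ} (u v : List Cell) (c : Cfg) {x : ℕ} (hx : x < c.len N) :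
    (u ++ c.render N ++ v).getD (u.length + x) dflt = c.cell N x := by
  rw [List.append_assoc, List.getD_append_right _ _ _ _ (by omega), Nat.add_sub_cancel_left,
    List.getD_append _ _ _ _ (by rwa [Cfg.render_length]),
    List.getD_eq_getElem _ _ (by rwa [Cfg.render_length])]
  simp [Cfg.render]

theorem swap_render {N : ℕ} (c : Cfg) {x y : ℕ} (wx : P1 ≤ adx N x) (wy : P1 ≤ adx N y) :
    ((c.render N).set x (Function.update (c.cell N x) .lab (c.cell N y .lab))).set y
      (Function.update (c.cell N y) .lab (c.cell N x .lab)) =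
      Cfg.render N { c with lab := c.lab ∘ Equiv.swap x y } := by
  apply List.ext_getElem
  · simp [Cfg.render, Cfg.len]
  · intro z h1 h2
    simp only [List.getElem_set, Cfg.render, List.getElem_map, List.getElem_range]
    have wx' := not_lt.2 wx
    have wy' := not_lt.2 wy
    by_cases e1 : y = z
    · subst e1
      rw [if_pos rfl]
      funext f
      cases f <;> simp [Cfg.cell, wx', wy']
    · rw [if_neg e1]
      by_cases e2 : x = z
      · subst e2
        rw [if_pos rfl]
        funext f
        cases f <;> simp [Cfg.cell, wx', wy']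
      · rw [if_neg e2]
        funext f
        cases f <;>
          simp only [Cfg.cell, Function.comp, Equiv.swap_apply_of_ne_of_ne (Ne.symm e2) (Ne.symm e1)]

theorem J_spec {N : ℕ} (hN : Big N) {w : List Cell} (hw : ∀ a ∈ w, Bd N a)
    (hl : 4 * N + 6 ≤ w.length) (hz : ¬ (Lv N).Null w) :
    N - P1 - 4 ≤ (JJ N (ers w)).card ∧
    (∀ j ∈ JJ N (ers w), j < w.length ∧ w.getD j dflt .m = 0 ∧
      ∀ i, i < w.length → j ≤ i + 1 → i ≤ j + 1 → ¬ w.getD i dflt .sh = 2) ∧
    (∀ j ∈ JJ N (ers w), ∀ j' ∈ JJ N (ers w),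
      w.getD j dflt .lab = w.getD j' dflt .lab → j = j') ∧
    (∀ j ∈ JJ N (ers w), ∀ j' ∈ JJ N (ers w), (Lv N).Eqv w
      ((w.set j (Function.update (w.getD j dflt) .lab (w.getD j' dflt .lab))).set j'
        (Function.update (w.getD j' dflt) .lab (w.getD j dflt .lab)))) := by
  classical
  obtain ⟨u, v, c, hc, rfl, hp⟩ := exists_block hN hw hl hz
  have hlen : N ≤ c.len N := by unfold Cfg.len; split_ifs <;> omega
  have hsh : ∀ i, ers (u ++ c.render N ++ v) i .sh = (u ++ c.render N ++ v).getD i dflt .sh := by
    intro i; simp [ers]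
  have hmem : ∀ j, j ∈ JJ N (ers (u ++ c.render N ++ v)) ↔
      (u.length + P1 ≤ j ∧ j < u.length + N) ∧ ∀ i, j ≤ i + 1 → i ≤ j + 1 →
        (u ++ c.render N ++ v).getD i dflt .sh ≠ 2 := by
    intro j
    simp only [JJ, hp, Finset.mem_filter, Finset.mem_Ico, hsh]
  have hx : ∀ j ∈ JJ N (ers (u ++ c.render N ++ v)), ∃ x, j = u.length + x ∧ x < N ∧
      P1 ≤ adx N x := by
    intro j hj
    obtain ⟨⟨h1, h2⟩, -⟩ := (hmem j).1 hj
    refine ⟨j - u.length, by omega, by omega, ?_⟩
    unfold adx; rw [if_pos (by omega)]; omega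
  refine ⟨?_, ?_, ?_, ?_⟩
  · have hsub : Finset.Ico (u.length + P1) (u.length + N) \
        {u.length + c.s0 - 1, u.length + c.s0, u.length + c.s0 + 1, u.length + N - 1} ⊆
        JJ N (ers (u ++ c.render N ++ v)) := by
      intro j hj
      simp only [Finset.mem_sdiff, Finset.mem_Ico, Finset.mem_insert, Finset.mem_singleton,
        not_or] at hj
      have := PP_ge; have := PP_le_P1
      refine (hmem j).2 ⟨hj.1, fun i h1 h2 => ?_⟩
      obtain ⟨x, rfl⟩ : ∃ x, i = u.length + x := ⟨i - u.length, by omega⟩
      have hxN : x < N := by omega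
      rw [getD_block u v c (by omega)]
      simp only [Cfg.cell, hxN, if_true]
      split_ifs <;> omega
    have h1 := Finset.card_le_card hsub
    have h2 := Finset.le_card_sdiff
      ({u.length + c.s0 - 1, u.length + c.s0, u.length + c.s0 + 1, u.length + N - 1} : Finset ℕ)
      (Finset.Ico (u.length + P1) (u.length + N))
    have h3 : ({u.length + c.s0 - 1, u.length + c.s0, u.length + c.s0 + 1, u.length + N - 1} :
      Finset ℕ).card ≤ 4 := Finset.card_le_four
    rw [Nat.card_Ico] at h2
    omega
  · intro j hj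
    obtain ⟨x, rfl, h1, h2⟩ := hx j hj
    refine ⟨?_, ?_, fun i _ h3 h4 => ((hmem _).1 hj).2 i h3 h4⟩
    · simp only [List.length_append, Cfg.render_length]; omega
    · rw [getD_block u v c (by omega)]
      exact tb_eq_zero.2 h2
  · intro j hj j' hj' e
    obtain ⟨x, rfl, h1, h2⟩ := hx j hj
    obtain ⟨y, rfl, h3, h4⟩ := hx j' hj'
    rw [getD_block u v c (by omega), getD_block u v c (by omega)] at e
    simp only [Cfg.cell, not_lt.2 h2, not_lt.2 h4, if_false] at e
    rw [hc.tok.lab_inj x y (by omega) (by omega) h2 h4 (by simp [h1, h3]) e]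
  · intro j hj j' hj'
    obtain ⟨x, rfl, h1, h2⟩ := hx j hj
    obtain ⟨y, rfl, h3, h4⟩ := hx j' hj'
    rw [getD_block u v c (by omega), getD_block u v c (by omega)]
    have h5 := (eqv_lab_swap hN hc.sv (x := x) (y := y) (by omega) (by omega) h2 h4
      (by simp [h1, h3])).ctx u v
    rw [← swap_render c h2 h4] at h5
    convert h5 using 1
    have e1 : x < (c.render N).length := by rw [Cfg.render_length]; omega
    have e2 : y < (c.render N).length := by rw [Cfg.render_length]; omega
    simp only [List.append_assoc]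
    rw [List.set_append_right _ _ (by omega), List.set_append_right _ _ (by omega),
      Nat.add_sub_cancel_left, Nat.add_sub_cancel_left, List.set_append_left _ _ e1,
      List.set_append_left _ _ (by simpa using e2)]

end Blind

open Blind in
theorem exists_tok {n : ℕ} (hn : Big n) :
    ∃ τ : Tok (simLv hn), τ.C.card ≤ 8 * n ^ 7 ∧ τ.r = n ^ Dg - P1 - 4 := by
  have o0 : off n false = PP + 12 * Dg := by simp [off]
  have o1 : off n true = n + (PP + 12 * Dg) := by simp [off]
  refine ⟨{
    Lab := Finset.range (n ^ Dg)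
    lab := fun a => a .lab
    setLab := fun a l => Function.update a .lab l
    win := fun a => a .m = 0
    loud := fun a => a .sh = 2
    dflt := dflt
    o := PP + 12 * Dg
    D := Dg
    oD := ?_
    put := put n
    C := CC n
    l0 := 0
    put_len := ?_
    put_put := ?_
    lab_set := ?_
    set_set := ?_
    set_lab := ?_
    win_set := ?_
    loud_set := ?_
    set_mem := ?_
    lab_mem := ?_
    B1 := ?_
    B2L := ?_
    B2R := ?_
    J := fun w => JJ (n ^ Dg) (ers w)
    m0 := 4 * n ^ Dg + 6
    r := n ^ Dg - P1 - 4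
    J_inv := ?_
    J_spec := ?_ }, card_CC n, rfl⟩
  · show PP + 12 * Dg + Dg ≤ n
    have := P1_eq; have := P1_lt_P2; unfold Big at hn; omega
  · intro r l; simp [put]
  · intro r l l'
    apply List.ext_getElem
    · simp [put]
    · intro i h1 h2; simp [put]
  · intro a l; simp
  · intro a l l'; simp
  · intro a; simp
  · intro a l; simp
  · intro a l; simp
  · intro a l ha hl
    refine Lv_S.2 fun f => ?_
    by_cases hf : f = .lab
    · subst hf; simpa using hl
    · rw [Function.update_of_ne hf]; exact Lv_S.1 ha f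
  · intro a ha
    exact Finset.mem_range.2 (Lv_S.1 ha .lab)
  · rintro g a ⟨c, hc, rfl, hd⟩ - -
    have h2 : c.two = false := by
      cases h : c.two
      · rfl
      · simp [Cfg.dec, h] at hd
    simp only [Cfg.dec, h2, Bool.false_eq_true, if_false, List.cons.injEq, and_true] at hd
    subst hd
    obtain ⟨h3, h4⟩ := blind_main hn hc (s := false) (by simp) (by simp [h2])
    rw [← o0]
    refine ⟨h3, mem_CC hn hc.sv (by simp), fun l hl => ?_⟩
    obtain ⟨h5, h6, -⟩ := h4 l (Finset.mem_range.1 hl)
    refine ⟨_, h5, render_relab (off_spec hn (by simp)).1 l, ?_⟩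
    have h7 : (relab n c (off n false) l).two = false := h2
    simp only [Cfg.dec, h7, Bool.false_eq_true, if_false, h6]
  · rintro g a b ⟨c, hc, rfl, hd⟩ hw ha hb
    have h2 : c.two = true := by
      cases h : c.two
      · simp [Cfg.dec, h] at hd
      · rfl
    simp only [Cfg.dec, h2, if_true, List.cons.injEq, and_true] at hd
    obtain ⟨rfl, rfl⟩ := hd
    obtain ⟨h3, h4⟩ := blind_main hn hc (s := false) (by simp) (fun _ h => by
      rcases h with h | h | h
      exacts [ha h, hb h, h hw])
    rw [← o0]
    refine ⟨h3, mem_CC hn hc.sv (by simp), fun l hl => ?_⟩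
    obtain ⟨h5, h6, h8⟩ := h4 l (Finset.mem_range.1 hl)
    refine ⟨_, h5, render_relab (off_spec hn (by simp)).1 l, ?_⟩
    have h7 : (relab n c (off n false) l).two = true := h2
    simp only [Bool.not_false] at h8
    simp only [Cfg.dec, h7, if_true, h6, h8]
  · rintro g a b ⟨c, hc, rfl, hd⟩ hw ha hb
    have h2 : c.two = true := by
      cases h : c.two
      · simp [Cfg.dec, h] at hd
      · rfl
    simp only [Cfg.dec, h2, if_true, List.cons.injEq, and_true] at hd
    obtain ⟨rfl, rfl⟩ := hd
    obtain ⟨h3, h4⟩ := blind_main hn hc (s := true) (fun _ => h2) (fun _ h => by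
      rcases h with h | h | h
      exacts [ha h, hb h, h hw])
    have e : (simLv hn).n + (PP + 12 * Dg) = off n true := o1.symm
    rw [e]
    refine ⟨h3, mem_CC hn hc.sv (fun _ => h2), fun l hl => ?_⟩
    obtain ⟨h5, h6, h8⟩ := h4 l (Finset.mem_range.1 hl)
    refine ⟨_, h5, render_relab (off_spec hn (fun _ => h2)).1 l, ?_⟩
    have h7 : (relab n c (off n true) l).two = true := h2
    simp only [Bool.not_true] at h8
    simp only [Cfg.dec, h7, if_true, h6, h8]
  · intro w j l
    simp only [ers_set]
  · intro w hw hl hz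
    exact J_spec hn.pow (fun a ha => Lv_S.1 (hw a ha)) hl hz

end Vale.Agent.P192
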