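import Vale.Agent.P192.UnipX

namespace Vale.Agent.P192

theorem St.exists_blk (I M R : Type) [Fintype M] [DecidableEq M] [Ring R] :
    ∃ b : St I (Matrix M M R) →* St (I × M) R, St.IsBlk b := by
  classical
  have h := St.isSt (I := I × M) (R := R)
  have ne1 : ∀ {i j : I} (a c : M), i ≠ j → (i, a) ≠ (j, c) :=
    fun a c hij e => hij (congrArg Prod.fst e)
  have ex : ∀ i j : I, ∃ B : Matrix M M R → St (I × M) R, (∀ v w, B (v + w) = B v * B w) ∧
      B 0 = 1 ∧ (i = j → ∀ v, B v = 1) ∧
      (i ≠ j → ∀ a c r, B (Matrix.single a c r) = St.x (i, a) (j, c) r) := by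
    intro i j
    by_cases hij : i = j
    · exact ⟨fun _ => 1, by simp, rfl, fun _ _ => rfl, fun h => absurd hij h⟩
    obtain ⟨C, hC, h0, hs⟩ := exists_col (fun (p : M × M) r => (St.x (i, p.1) (j, p.2) r :
      St (I × M) R)) (fun i r s => h.add _ _ _ _)
      fun p q r s _ => h.commute _ _ (ne1 _ _ (Ne.symm hij)) (ne1 _ _ hij)
    refine ⟨fun A => C fun p => A p.1 p.2, fun v w => hC _ _, h0, fun e => absurd e hij,
      fun _ a c r => ?_⟩
    refine (congrArg C ?_).trans (hs (a, c) r)
    ext p
    simp [Matrix.single_apply, Pi.single_apply, Prod.ext_iff, eq_comm]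
  choose B hB h0 hd hs using ex
  have hcomm : ∀ i j k l A A', j ≠ k → i ≠ l → Commute (B i j A) (B k l A') := by
    intro i j k l A A' h1 h2
    by_cases hij : i = j
    · rw [hd i j hij]; exact Commute.one_left _
    by_cases hkl : k = l
    · rw [hd k l hkl]; exact Commute.one_right _
    induction A using Matrix.induction_on' with
    | h_zero => rw [h0]; exact Commute.one_left _
    | h_add p q hp hq => rw [hB]; exact hp.mul_left hq
    | h_std_basis a c r =>
      induction A' using Matrix.induction_on' with
      | h_zero => rw [h0]; exact Commute.one_right _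
      | h_add p q hp hq => rw [hB]; exact hp.mul_right hq
      | h_std_basis a' c' r' =>
        rw [hs i j hij, hs k l hkl]
        exact h.commute _ _ (ne1 _ _ h1) (ne1 _ _ h2)
  have hst : IsSt B :=
    { diag := fun i r => hd i i rfl r
      add := fun i j r s => (hB i j r s).symm
      comm := fun i j k l r s h1 h2 => hcomm i j k l r s h1 h2
      mul := fun i j k A A' h1 h2 h3 => by
        rw [mul_inv_eq_iff_eq_mul]
        induction A' using Matrix.induction_on' with
        | h_zero => simp [h0]
        | h_add p q hp hq =>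
          rw [hB, conj_mul', hp, hq, mul_add, hB, mul_assoc, mul_assoc, ← mul_assoc (B j k p),
            (hcomm j k i k p (A * q) h3.symm h2).eq, mul_assoc]
        | h_std_basis c d s =>
          induction A using Matrix.induction_on' with
          | h_zero => simp [h0]
          | h_add p q hp hq =>
            rw [hB, mul_conj', hq, conj_mul', hp, (hcomm i j i k p _ h1.symm h3).eq,
              mul_inv_cancel_right, add_mul, add_comm, hB, mul_assoc]
          | h_std_basis a e r =>
            rw [hs i j h1, hs j k h2]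
            by_cases he : e = c
            · subst he
              rw [Matrix.single_mul_single_same, hs i k h3,
                h.conjL _ _ (ne1 _ _ h1) (ne1 _ _ h2) (ne1 _ _ h3)]
            · rw [Matrix.single_mul_single_of_ne _ _ _ _ he, h0, one_mul,
                h.conjC _ _ (fun e' => he (congrArg Prod.snd e')) (ne1 _ _ h3)] }
  exact ⟨St.lift hst, fun i j a c r hij => by rw [St.lift_x, hs i j hij]⟩

theorem St.x_add {I R : Type} [Ring R] (i j : I) (r s : R) :
    (St.x i j (r + s) : St I R) = St.x i j r * St.x i j s := (St.isSt.add _ _ _ _).symm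

theorem St.IsBlk.toGL_val {I M R : Type} [Fintype I] [DecidableEq I] [Fintype M]
    [DecidableEq M] [Ring R] {b : St I (Matrix M M R) →* St (I × M) R}
    (hb : St.IsBlk b) (g : St I (Matrix M M R)) :
    (St.toGL (b g) : Matrix (I × M) (I × M) R)
      = Matrix.compRingEquiv I M R (St.toGL g : Matrix I I (Matrix M M R)) := by
  induction g using St.induction with
  | one => simp [Matrix.comp_one]
  | step i j A g hij ih =>
    rw [map_mul, map_mul, map_mul, Units.val_mul, Units.val_mul, map_mul, ih]
    congr 1
    induction A using Matrix.induction_on' with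
    | h_zero => simp [St.isSt.zero, Matrix.comp_one]
    | h_add p q hp hq =>
      rw [St.x_add, map_mul, map_mul, map_mul, Units.val_mul, Units.val_mul, map_mul, hp, hq]
    | h_std_basis a c r =>
      rw [hb i j a c r hij, St.toGL_x, St.toGL_x, St.elem_val hij,
        St.elem_val fun e => hij (congrArg Prod.fst e), map_add, map_one]
      congr 1
      exact (Matrix.comp_single_single _ _ _ _ _).symm

theorem St.IsBlk.toGL_eq_one {I M R S : Type} [Fintype I] [DecidableEq I] [Fintype M]
    [DecidableEq M] [Ring R] [Ring S] {b : St I (Matrix M M R) →* St (I × M) R}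
    (hb : St.IsBlk b) (ψ : S →+* Matrix M M R) {c : St I S} (hc : St.toGL c = 1) :
    St.toGL (b (St.rmap ψ c)) = 1 := by
  ext1
  rw [hb.toGL_val, St.toGL_rmap_eq_one ψ hc, Units.val_one, Units.val_one, map_one]

theorem St.IsBlk.conj_one {I M R : Type} [DecidableEq I] [Fintype M]
    [DecidableEq M] [Ring R] {b : St I (Matrix M M R) →* St (I × M) R}
    (hb : St.IsBlk b) {a c : M} (hac : a ≠ c) (u : R) (l : I) {i j : I} (hij : i ≠ j)
    (A : Matrix M M R) :
    St.x (l, a) (l, c) u * b (St.x i j A) * (St.x (l, a) (l, c) u)⁻¹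
      = b (St.x i j ((if i = l then 1 + Matrix.single a c u else 1) * A *
        (if j = l then 1 + Matrix.single a c (-u) else 1))) := by
  have h := St.isSt (I := I × M) (R := R)
  have ne1 : ∀ {i j : I} (a c : M), i ≠ j → (i, a) ≠ (j, c) :=
    fun a c hij e => hij (congrArg Prod.fst e)
  have ne2 : ∀ (i j : I) {a c : M}, a ≠ c → (i, a) ≠ (j, c) :=
    fun i j a c hij e => hij (congrArg Prod.snd e)
  induction A using Matrix.induction_on' with
  | h_zero => simp [St.isSt.zero]
  | h_add p q hp hq =>
    rw [St.x_add, map_mul, conj_mul', hp, hq, mul_add, add_mul, St.x_add, map_mul]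
  | h_std_basis p q r =>
    rw [hb i j p q r hij]
    by_cases hi : i = l
    · subst hi
      rw [if_pos rfl, if_neg hij.symm, mul_one, add_mul, one_mul, add_comm, St.x_add, map_mul,
        hb i j p q r hij]
      by_cases hp : c = p
      · subst hp
        rw [Matrix.single_mul_single_same, hb i j _ _ _ hij,
          h.conjL _ _ (ne2 _ _ hac) (ne1 _ _ hij) (ne1 _ _ hij)]
      · rw [Matrix.single_mul_single_of_ne _ _ _ _ hp, St.isSt.zero, map_one, one_mul,
          h.conjC _ _ (ne2 _ _ hp) (ne1 _ _ hij)]
    rw [if_neg hi, one_mul]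
    by_cases hj : j = l
    · subst hj
      rw [if_pos rfl, mul_add, mul_one, add_comm, St.x_add, map_mul, hb i j p q r hij]
      by_cases hq : q = a
      · subst hq
        rw [Matrix.single_mul_single_same, hb i j _ _ _ hij,
          h.conjR _ _ (ne1 _ _ hij) (ne2 _ _ hac) (ne1 _ _ hij), mul_neg]
      · rw [Matrix.single_mul_single_of_ne _ _ _ _ hq, St.isSt.zero, map_one, one_mul,
          h.conjC _ _ (ne1 _ _ hij.symm) (ne2 _ _ (Ne.symm hq))]
    · rw [if_neg hj, mul_one, hb i j p q r hij,
        h.conjC _ _ (ne1 _ _ (Ne.symm hi)) (ne1 _ _ (Ne.symm hj))]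

theorem St.IsBlk.conj_transv {I M R : Type} [Fintype I] [DecidableEq I] [Fintype M]
    [DecidableEq M] [Ring R] {b : St I (Matrix M M R) →* St (I × M) R}
    (hb : St.IsBlk b) {a c : M} (hac : a ≠ c) (u : R) :
    ∃ β : St (I × M) R, ∀ i j (A : Matrix M M R), β * b (St.x i j A) * β⁻¹
      = b (St.x i j ((1 + Matrix.single a c u) * A * (1 + Matrix.single a c (-u)))) := by
  have key : ∀ s : Finset I, ∃ β : St (I × M) R, ∀ i j (A : Matrix M M R), i ≠ j →
      β * b (St.x i j A) * β⁻¹ = b (St.x i j ((if i ∈ s then 1 + Matrix.single a c u else 1) * A *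
        (if j ∈ s then 1 + Matrix.single a c (-u) else 1))) := by
    intro s
    induction s using Finset.induction_on with
    | empty => exact ⟨1, by simp⟩
    | insert l s hl ih =>
      obtain ⟨β, hβ⟩ := ih
      refine ⟨St.x (l, a) (l, c) u * β, fun i j A hij => ?_⟩
      rw [mul_conj', hβ i j A hij, hb.conj_one hac u l hij]
      congr 2
      by_cases hi : i = l
      · subst hi
        simp [hl, hij.symm, mul_assoc]
      · by_cases hj : j = l
        · subst hj
          simp [hl, hi]
        · simp [hi, hj]
  obtain ⟨β, hβ⟩ := key Finset.univ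
  refine ⟨β, fun i j A => ?_⟩
  by_cases hij : i = j
  · subst hij; simp [St.isSt.diag]
  · simpa using hβ i j A hij

theorem St.IsBlk.exists_conj {I M R : Type} [Fintype I] [DecidableEq I] [Fintype M]
    [DecidableEq M] [Ring R] {b : St I (Matrix M M R) →* St (I × M) R}
    (hb : St.IsBlk b) (ι : ZMod 2 →+* R) (B B' : Matrix M M (ZMod 2)) (hB : B * B' = 1) :
    ∃ β : St (I × M) R, ∀ i j (A : Matrix M M R),
      β * b (St.x i j A) * β⁻¹ = b (St.x i j (B.map ι * A * B'.map ι)) := by
  have hdet : B.det ≠ 0 := fun h => by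
    have := congrArg Matrix.det hB
    rw [Matrix.det_mul, h, zero_mul, Matrix.det_one] at this
    exact zero_ne_one this
  rw [← Matrix.inv_eq_right_inv hB]
  refine Matrix.diagonal_transvection_induction_of_det_ne_zero
    (fun B : Matrix M M (ZMod 2) => ∃ β : St (I × M) R, ∀ i j (A : Matrix M M R),
      β * b (St.x i j A) * β⁻¹ = b (St.x i j (B.map ι * A * (B⁻¹).map ι))) B hdet ?_ ?_ ?_
  · intro D hD
    have : Matrix.diagonal D = 1 := by
      rw [Matrix.det_diagonal, Finset.prod_ne_zero_iff] at hD
      rw [← Matrix.diagonal_one]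
      congr 1
      funext a
      have := hD a (Finset.mem_univ a)
      revert this
      generalize D a = t
      revert t
      decide
    exact ⟨1, by simp [this]⟩
  · rintro ⟨a, c, hac, t⟩
    obtain ⟨β, hβ⟩ := hb.conj_transv hac (ι t)
    refine ⟨β, fun i j A => ?_⟩
    have e1 : (Matrix.transvection a c t)⁻¹ = Matrix.transvection a c (-t) :=
      Matrix.inv_eq_right_inv (by
        rw [Matrix.transvection_mul_transvection_same _ _ hac, add_neg_cancel,
          Matrix.transvection_zero])
    have e2 : ∀ t, (Matrix.transvection a c t).map ι = 1 + Matrix.single a c (ι t) := fun t => by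
      rw [Matrix.transvection, Matrix.map_add _ (map_add ι), Matrix.map_single,
        Matrix.map_one _ ι.map_zero ι.map_one]
    rw [hβ, Matrix.TransvectionStruct.toMatrix_mk, e1, e2, e2, map_neg]
  · rintro P Q - - ⟨β, hβ⟩ ⟨γ, hγ⟩
    refine ⟨β * γ, fun i j A => ?_⟩
    rw [mul_conj', hγ, hβ, Matrix.mul_inv_rev, Matrix.map_mul, Matrix.map_mul]
    simp only [mul_assoc]

end Vale.Agent.P192
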