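import Vale.Agent.P192.CompileA

/-! Specification of the compiled programs. -/

namespace Vale.Agent.P192

theorem mem_progs {π : Prog} :
    π ∈ progs ↔ (∃ ρ ∈ erules, π ∈ ρ.progs) ∨ (∃ ρ ∈ zrules, π ∈ ρ.progs) := by
  rw [progs_eq, List.mem_append, List.mem_flatMap, List.mem_flatMap]

theorem ERule.mem_progs {ρ : ERule} {π : Prog} :
    π ∈ ρ.progs ↔ ∃ gc ∈ (ρ.guard.bind (atomC (am ρ.chA ρ.chB))).dnf true,
      ∃ bc ∈ (ρ.body.bind (atomC (am ρ.chA ρ.chB))).dnf true,
        π = ⟨clauseCode false (gc ++ bc) ++ (swapSide false ρ.chA ++ swapSide true ρ.chB),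
          clauseCode true ((bc ++ gc).map (swLit ρ.chA ρ.chB)), .fin⟩ := by
  simp only [ERule.progs, List.mem_flatMap, List.mem_map, eq_comm]

theorem ZRule.mem_progs {ρ : ZRule} {π : Prog} :
    π ∈ ρ.progs ↔ ∃ gc ∈ (ρ.guard.bind (atomC (am [] []))).dnf true,
      ∃ bc ∈ (ρ.body.bind (atomC (am [] []))).dnf true,
        ∃ e ∈ ρ.term.ends, π = ⟨clauseCode false (gc ++ bc) ++ e.1, [], e.2⟩ := by
  simp only [ZRule.progs, List.mem_flatMap, List.mem_map, eq_comm]

/-- The second family of endings of a table test. -/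
def tabF (x y : Var) : Fm Test :=
  Fm.or (.and (.not (highz (am [] [] x))) (.not (tst false (am [] [] y 0) K0)))
    (.not (highz (am [] [] y)))

theorem Term.mem_ends {t : Term} {e : List Ins × Last} :
    e ∈ t.ends ↔ (t = .none ∧ e = ([], .zero)) ∨ ∃ w x y, t = .tab w x y ∧
      ((∃ hc ∈ (highz (am [] [] x)).dnf true,
        e = (clauseCode false hc ++ [.x1 (am [] [] x 0), .x2 (am [] [] y 0)], .tab w)) ∨
      (∃ ec ∈ (tabF x y).dnf true, e = (clauseCode false ec, .zero))) := by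
  cases t with
  | none => simp [Term.ends]
  | tab w x y =>
    simp only [Term.ends, List.mem_append, List.mem_map, reduceCtorEq, false_and, false_or,
      Term.tab.injEq, tabF]
    constructor
    · rintro (⟨hc, h, rfl⟩ | ⟨ec, h, rfl⟩)
      · exact ⟨w, x, y, ⟨rfl, rfl, rfl⟩, Or.inl ⟨hc, h, rfl⟩⟩
      · exact ⟨w, x, y, ⟨rfl, rfl, rfl⟩, Or.inr ⟨ec, h, rfl⟩⟩
    · rintro ⟨w', x', y', ⟨rfl, rfl, rfl⟩, ⟨hc, h, rfl⟩ | ⟨ec, h, rfl⟩⟩
      · exact Or.inl ⟨hc, h, rfl⟩
      · exact Or.inr ⟨ec, h, rfl⟩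

theorem highz_clause_good {Q : Adr → Prop} (hK : ∀ c, Q (false, .K c)) {x : Var}
    (hx : ∀ i, Q (am [] [] x i)) {hc : Clause} (h : hc ∈ (highz (am [] [] x)).dnf true) :
    ∀ l ∈ hc, l.2.Good Q :=
  (highz_good hK fun i => ⟨am_dyn _ _ _ _, hx i⟩).dnf true hc h

theorem tabF_clause_good {Q : Adr → Prop} (hK : ∀ c, Q (false, .K c)) {x y : Var}
    (hx : ∀ i, Q (am [] [] x i)) (hy : ∀ i, Q (am [] [] y i)) {ec : Clause}
    (h : ec ∈ (tabF x y).dnf true) : ∀ l ∈ ec, l.2.Good Q := by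
  have : (tabF x y).AllAt (Test.Good Q) :=
    ⟨⟨highz_good hK fun i => ⟨am_dyn _ _ _ _, hx i⟩, tst_good _ (am_dyn _ _ _ _) (hy 0) (hK _)⟩,
      highz_good hK fun i => ⟨am_dyn _ _ _ _, hy i⟩⟩
  exact this.dnf true ec h

theorem ends_last {t : Term} {e : List Ins × Last} (h : e ∈ t.ends) : e.2 ≠ .fin := by
  rcases Term.mem_ends.1 h with ⟨-, rfl⟩ | ⟨w, x, y, -, ⟨hc, -, rfl⟩ | ⟨ec, -, rfl⟩⟩ <;> simp

/-- All variables of the final test satisfy `p`. -/
def Term.vars (p : Var → Bool) : Term → Bool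
  | .none => true
  | .tab _ x y => p x && p y

theorem ends_mem {Q : Adr → Prop} (hK : ∀ c, Q (false, .K c)) {p : Var → Bool}
    (ha : ∀ v, p v = true → ∀ i, Q (am [] [] v i)) {t : Term} (ht : t.vars p = true)
    {e : List Ins × Last} (h : e ∈ t.ends) : ∀ i ∈ e.1, i.Dyn ∧ i.Mode false ∧ Q i.adr := by
  rcases Term.mem_ends.1 h with ⟨-, rfl⟩ | ⟨w, x, y, rfl, ⟨hc, hh, rfl⟩ | ⟨ec, hh, rfl⟩⟩
  · simp
  · simp only [Term.vars, Bool.and_eq_true] at ht
    intro i hi
    rcases List.mem_append.1 hi with hi | hi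
    · exact clauseCode_mem (highz_clause_good hK (ha x ht.1) hh) i hi
    · simp only [List.mem_cons, List.not_mem_nil, or_false] at hi
      rcases hi with rfl | rfl
      · exact ⟨am_dyn _ _ _ _, trivial, ha x ht.1 0⟩
      · exact ⟨am_dyn _ _ _ _, trivial, ha y ht.2 0⟩
  · simp only [Term.vars, Bool.and_eq_true] at ht
    exact clauseCode_mem (tabF_clause_good hK (ha x ht.1) (ha y ht.2) hh)

theorem good_append {Q : Adr → Prop} {c c' : Clause} (h : ∀ l ∈ c, l.2.Good Q)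
    (h' : ∀ l ∈ c', l.2.Good Q) : ∀ l ∈ c ++ c', l.2.Good Q := fun l hl =>
  (List.mem_append.1 hl).elim (h l) (h' l)

theorem good_map (chA chB : List Fld) {Q : Adr → Prop} (hQ : ∀ α, Q α → Q (swA chA chB α))
    {c : Clause} (h : ∀ l ∈ c, l.2.Good Q) : ∀ l ∈ c.map (swLit chA chB), l.2.Good Q := by
  intro l hl
  obtain ⟨l', hl', rfl⟩ := List.mem_map.1 hl
  exact swLit_good chA chB hQ (h l' hl')

theorem fin_cases {π : Prog} (h : π ∈ progs) (hl : π.last = .fin) :
    ∃ ρ ∈ erules, π ∈ ρ.progs := by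
  rcases mem_progs.1 h with h | ⟨ρ, -, h⟩
  · exact h
  · obtain ⟨gc, -, bc, -, e, he, rfl⟩ := ZRule.mem_progs.1 h
    exact absurd hl (ends_last he)

theorem prog_shape {π : Prog} (h : π ∈ progs) :
    (∀ i ∈ π.pre, i.Dyn ∧ i.Mode false) ∧ (∀ i ∈ π.post, i.Dyn ∧ i.Mode true) ∧
      (π.last ≠ .fin → π.post = []) := by
  rcases mem_progs.1 h with ⟨ρ, -, h⟩ | ⟨ρ, -, h⟩
  · obtain ⟨gc, hg, bc, hb, rfl⟩ := ERule.mem_progs.1 h
    refine ⟨fun i hi => ?_, fun i hi => ?_, fun h => absurd rfl h⟩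
    · rcases List.mem_append.1 hi with hi | hi
      · have := clauseCode_mem (good_append (comp_good' hg) (comp_good' hb)) i hi
        exact ⟨this.1, this.2.1⟩
      · rcases List.mem_append.1 hi with hi | hi <;>
        · obtain ⟨f, -, j, rfl | rfl⟩ := swapSide_mem hi <;>
          exact ⟨fun c => by simp, trivial⟩
    · have := clauseCode_mem (good_map _ _ (fun _ _ => trivial)
        (good_append (comp_good' hb) (comp_good' hg))) i hi
      exact ⟨this.1, this.2.1⟩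
  · obtain ⟨gc, hg, bc, hb, e, he, rfl⟩ := ZRule.mem_progs.1 h
    refine ⟨fun i hi => ?_, by simp, fun _ => rfl⟩
    rcases List.mem_append.1 hi with hi | hi
    · have := clauseCode_mem (good_append (comp_good' hg) (comp_good' hb)) i hi
      exact ⟨this.1, this.2.1⟩
    · have := ends_mem (Q := fun _ => True) (p := fun _ => true) (fun _ => trivial)
        (fun _ _ _ => trivial) (by cases ρ.term <;> rfl) he i hi
      exact ⟨this.1, this.2.1⟩

theorem prog_fin_regs {π : Prog} (h : π ∈ progs) (hl : π.last = .fin) (σ : PS) :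
    fwd π.post σ = σ ∧ (fwd π.pre σ).r1 = σ.r1 ∧ (fwd π.pre σ).r2 = σ.r2 := by
  obtain ⟨ρ, -, h⟩ := fin_cases h hl
  obtain ⟨gc, hg, bc, hb, rfl⟩ := ERule.mem_progs.1 h
  refine ⟨fwd_clauseCode _ _ _, ?_, ?_⟩ <;>
  · simp only
    rw [fwd_append, fwd_clauseCode, fwd_swaps]

theorem ne_of_good {Q : Adr → Prop} {c : Clause} (h : ∀ l ∈ c, l.2.Good Q) :
    ∀ l ∈ c, l.2.α ≠ l.2.β := fun l hl => (h l hl).1

theorem okAll_pre_fin {n : ℕ} {chA chB : List Fld} {c : Clause}
    (h : ∀ l ∈ c, l.2.Good fun _ => True) (σ : PS) :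
    okAll n (clauseCode false c ++ (swapSide false chA ++ swapSide true chB)) σ ↔
      ∀ l ∈ c, (l.2.holds n σ.mem ↔ l.1 = true) := by
  rw [okAll_append, okAll_clauseCode n false c (ne_of_good h)]
  simp [okAll_swaps]

theorem prog_fin_iff {n : ℕ} {π : Prog} (h : π ∈ progs) (hl : π.last = .fin) (σ : PS) :
    okAll n π.pre σ ↔ okAll n π.post (fwd π.pre σ) := by
  obtain ⟨ρ, -, h⟩ := fin_cases h hl
  obtain ⟨gc, hg, bc, hb, rfl⟩ := ERule.mem_progs.1 h
  simp only
  rw [okAll_pre_fin (good_append (comp_good' hg) (comp_good' hb)),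
    okAll_clauseCode n true _ (ne_of_good (good_map _ _ (fun _ _ => trivial)
      (good_append (comp_good' hb) (comp_good' hg)))), fwd_append, fwd_clauseCode, fwd_swaps]
  simp only [List.forall_mem_map, swLit_holds, swA_swA, List.mem_append]
  constructor
  · intro h l hl; exact h l hl.symm
  · intro h l hl; exact h l hl.symm

theorem letter_swA_of_not_mem (n : ℕ) (chA chB : List Fld) (μ : Adr → ℕ) (s : Bool) (f : Fld)
    (hf : f ∉ (if s then chB else chA)) :
    letter n (fun α => μ (swA chA chB α)) s f = letter n μ s f := by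
  simp only [letter, swA, hf, if_false]

theorem prog_fin_sound {n : ℕ} (hn : Big n) {π : Prog} (h : π ∈ progs) (hl : π.last = .fin)
    {σ : PS} (hσ : MV n σ) (hok : okAll n π.pre σ) :
    (Lv (n ^ Dg)).E (letter n σ.mem false) (letter n σ.mem true)
      (letter n (fwd π.pre σ).mem false) (letter n (fwd π.pre σ).mem true) := by
  obtain ⟨ρ, hρ, h⟩ := fin_cases h hl
  obtain ⟨gc, hg, bc, hb, rfl⟩ := ERule.mem_progs.1 h
  simp only at hok ⊢
  rw [okAll_pre_fin (good_append (comp_good' hg) (comp_good' hb))] at hok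
  rw [fwd_append, fwd_clauseCode, fwd_swaps]
  refine ⟨⟨letter_bd fun _ _ => hσ.1 _, letter_bd fun _ _ => hσ.1 _, letter_bd fun _ _ => hσ.1 _,
    letter_bd fun _ _ => hσ.1 _⟩, ρ, hρ, ?_, ?_, fun f hf => ?_, fun f hf => ?_⟩
  · rw [← env_am, ← comp_eval hn.ge27 hσ.1 hσ.2.1]
    exact ⟨gc, hg, fun l hl => hok l (by simp [hl])⟩
  · rw [← env_am, ← comp_eval hn.ge27 hσ.1 hσ.2.1]
    exact ⟨bc, hb, fun l hl => hok l (by simp [hl])⟩
  · exact letter_swA_of_not_mem n _ _ _ false f (by simpa using hf)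
  · exact letter_swA_of_not_mem n _ _ _ true f (by simpa using hf)

/-- The memory holding the digits of four letters. -/
noncomputable def mem4 (n : ℕ) (a b c d : Cell) : Adr → ℕ
  | (_, .K k) => k.val
  | (false, .D f i) => dig n (a f) i.val
  | (true, .D f i) => dig n (b f) i.val
  | (false, .S f i) => dig n (c f) i.val
  | (true, .S f i) => dig n (d f) i.val

theorem mem4_lt {n : ℕ} (hn : 27 ≤ n) (a b c d : Cell) (α : Adr) : mem4 n a b c d α < n := by
  obtain ⟨s, l⟩ := α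
  cases l with
  | K k => have := k.2; cases s <;> simp only [mem4] <;> omega
  | D f i => cases s <;> exact dig_lt (by omega) _ _
  | S f i => cases s <;> exact dig_lt (by omega) _ _

theorem mem4_K (n : ℕ) (a b c d : Cell) (s : Bool) (k : Fin 27) :
    mem4 n a b c d (s, .K k) = k.val := by cases s <;> rfl

theorem prog_fin_complete {n : ℕ} (hn : Big n) {a b c d : Cell}
    (h : (Lv (n ^ Dg)).E a b c d) :
    ∃ π ∈ progs, π.last = .fin ∧ ∀ σ : PS, MV n σ →
      (∀ f i, σ.mem (false, .D f i) = dig n (a f) i.val) →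
      (∀ f i, σ.mem (true, .D f i) = dig n (b f) i.val) →
      (∀ f i, σ.mem (false, .S f i) = dig n (c f) i.val) →
      (∀ f i, σ.mem (true, .S f i) = dig n (d f) i.val) →
      okAll n π.pre σ ∧ letter n (fwd π.pre σ).mem false = c ∧
        letter n (fwd π.pre σ).mem true = d := by
  obtain ⟨⟨ha, hb, hc, hd⟩, ρ, hρ, h1, h2, h3, h4⟩ := h
  have ea : letter n (mem4 n a b c d) false = a := letter_eq ha fun _ _ => rfl
  have eb : letter n (mem4 n a b c d) true = b := letter_eq hb fun _ _ => rfl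
  have ec : letter n (fun α => mem4 n a b c d (swA ρ.chA ρ.chB α)) false = c := by
    refine letter_eq hc fun f i => ?_
    by_cases hf : f ∈ ρ.chA
    · simp [swA, hf, mem4]
    · simp [swA, hf, mem4, h3 f hf]
  have ed : letter n (fun α => mem4 n a b c d (swA ρ.chA ρ.chB α)) true = d := by
    refine letter_eq hd fun f i => ?_
    by_cases hf : f ∈ ρ.chB
    · simp [swA, hf, mem4]
    · simp [swA, hf, mem4, h4 f hf]
  have e := env_am n ρ.chA ρ.chB (mem4 n a b c d)
  rw [ea, eb, ec, ed] at e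
  rw [← e, ← comp_eval hn.ge27 (mem4_lt hn.ge27 a b c d) (mem4_K n a b c d)] at h1 h2
  obtain ⟨gc, hg, h1⟩ := h1
  obtain ⟨bc, hb', h2⟩ := h2
  refine ⟨_, mem_progs.2 (Or.inl ⟨ρ, hρ, ERule.mem_progs.2 ⟨gc, hg, bc, hb', rfl⟩⟩), rfl, ?_⟩
  intro σ hσ k1 k2 k3 k4
  have hm : σ.mem = mem4 n a b c d := by
    funext ⟨s, l⟩
    cases l with
    | K k => rw [hσ.2.1, mem4_K]
    | D f i => cases s; exacts [k1 f i, k2 f i]
    | S f i => cases s; exacts [k3 f i, k4 f i]
  simp only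
  rw [okAll_pre_fin (good_append (comp_good' hg) (comp_good' hb')), fwd_append, fwd_clauseCode,
    fwd_swaps, hm]
  exact ⟨fun l hl => (List.mem_append.1 hl).elim (h1 l) (h2 l), ec, ed⟩

theorem zrules_tab {ρ : ZRule} (h : ρ ∈ zrules) {w : Bool} {x y : Var} (ht : ρ.term = .tab w x y) :
    am [] [] y 0 ≠ am [] [] x 0 := by
  simp only [zrules, List.mem_cons, List.not_mem_nil, or_false] at h
  rcases h with rfl | rfl | rfl | rfl | rfl | rfl | rfl | rfl | rfl | rfl | rfl | rfl | rfl | rfl <;>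
    simp only [reduceCtorEq, Term.tab.injEq] at ht <;>
    (obtain ⟨-, rfl, rfl⟩ := ht; simp [am])

theorem tabF_eval {n : ℕ} (hn : 2 ≤ n) {μ : Adr → ℕ} (hμ : ∀ α, μ α < n)
    (hK : ∀ s c, μ (s, .K c) = c.val) (x y : Var) :
    (tabF x y).eval (Test.holds n μ) ↔
      ((¬ ∀ j, j ≠ 0 → μ (am [] [] x j) = 0) ∧ μ (am [] [] y 0) ≠ 0) ∨
        ¬ ∀ j, j ≠ 0 → μ (am [] [] y j) = 0 := by
  simp only [tabF, Fm.eval, highz_eval hn hμ hK, tst_eval hn hμ, K0, hK]
  simp [eq_comm]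

theorem prog_zero_sound {n : ℕ} (hn : Big n) {π : Prog} (h : π ∈ progs)
    {σ : PS} (hσ : MV n σ) (hok : okAll n π.pre σ) (hc : π.last.cond (fwd π.pre σ)) :
    (Lv (n ^ Dg)).Z (letter n σ.mem false) (letter n σ.mem true) := by
  have h27 := hn.ge27
  rcases mem_progs.1 h with ⟨ρ, -, h⟩ | ⟨ρ, hρ, h⟩
  · obtain ⟨gc, hg, bc, hb, rfl⟩ := ERule.mem_progs.1 h
    exact hc.elim
  obtain ⟨gc, hg, bc, hb, e, he, rfl⟩ := ZRule.mem_progs.1 h
  simp only at hok hc
  rw [okAll_append, okAll_clauseCode n false _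
    (ne_of_good (good_append (comp_good' hg) (comp_good' hb))), fwd_clauseCode] at hok
  rw [fwd_append, fwd_clauseCode] at hc
  obtain ⟨hok, hok2⟩ := hok
  refine ⟨⟨letter_bd fun _ _ => hσ.1 _, letter_bd fun _ _ => hσ.1 _⟩, ρ, hρ, ?_, ?_, ?_⟩
  · rw [← env_am_nil, ← comp_eval hn.ge27 hσ.1 hσ.2.1]
    exact ⟨gc, hg, fun l hl => hok l (by simp [hl])⟩
  · rw [← env_am_nil, ← comp_eval hn.ge27 hσ.1 hσ.2.1]
    exact ⟨bc, hb, fun l hl => hok l (by simp [hl])⟩
  rw [← env_am_nil]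
  rcases Term.mem_ends.1 he with ⟨ht, rfl⟩ | ⟨w, x, y, ht, ⟨hc', hh, rfl⟩ | ⟨ec, hh, rfl⟩⟩
  · rw [ht]; trivial
  · have hne := zrules_tab hρ ht
    rw [ht]
    simp only at hok2 hc
    rw [okAll_append, okAll_clauseCode n false _ (ne_of_good
      (highz_clause_good (Q := fun _ => True) (fun _ => trivial) (fun _ => trivial) hh))] at hok2
    have hz := (Fm.dnf_true (Test.holds n σ.mem) _).1 ⟨hc', hh, hok2.1⟩
    rw [highz_eval (by omega) hσ.1 hσ.2.1] at hz
    rw [fwd_append, fwd_clauseCode] at hc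
    simp only [fwd, Ins.exec, Last.cond, Function.update_of_ne hne] at hc
    simp only [Term.holds]
    rw [num_high hz]
    intro e
    apply hc
    have h1 := num_mod (g := fun i => σ.mem (am [] [] y i)) fun i => hσ.1 _
    rw [e, Nat.mod_eq_of_lt] at h1
    · exact h1.symm
    · have := tb_lt w (σ.mem (am [] [] x 0)); unfold Big at hn; omega
  · rw [ht]
    simp only at hok2
    rw [okAll_clauseCode n false _ (ne_of_good (tabF_clause_good (Q := fun _ => True)
      (fun _ => trivial) (fun _ => trivial) (fun _ => trivial) hh))] at hok2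
    have hz := (Fm.dnf_true (Test.holds n σ.mem) _).1 ⟨ec, hh, hok2⟩
    rw [tabF_eval (by omega) hσ.1 hσ.2.1] at hz
    simp only [Term.holds]
    have := P1_lt_P2
    unfold Big at hn
    rcases hz with ⟨h1, h2⟩ | h1
    · have h3 := num_not_high (n := n) (by omega) h1
      rw [tb_big w (by omega)]
      intro e
      have h4 := num_mod (g := fun i => σ.mem (am [] [] y i)) fun i => hσ.1 _
      rw [e] at h4
      exact h2 (by simpa using h4.symm)
    · have h3 := num_not_high (n := n) (by omega) h1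
      have := tb_lt w (∑ i : Fin Dg, σ.mem (am [] [] x i) * n ^ i.val)
      omega

/-- The address is not a scratch cell. -/
def NotS (α : Adr) : Prop := ∀ f i, α.2 ≠ .S f i

theorem notS_K (c : Fin 27) : NotS (false, .K c) := by intro f i; simp

theorem notS_am (v : Var) (i : Fin Dg) : NotS (am [] [] v i) := by
  obtain ⟨p, f⟩ := v
  intro g j
  cases p <;> simp [am]

theorem holds_congr {n : ℕ} {μ μ' : Adr → ℕ} (h : ∀ α, NotS α → μ α = μ' α) {t : Test}
    (ht : t.Good NotS) : t.holds n μ ↔ t.holds n μ' := by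
  simp only [Test.holds, h _ ht.2.2.1, h _ ht.2.2.2]

theorem prog_zero_complete {n : ℕ} (hn : Big n) {a b : Cell} (h : (Lv (n ^ Dg)).Z a b) :
    ∃ π ∈ progs, π.last ≠ .fin ∧ ∀ σ : PS, MV n σ →
      (∀ f i, σ.mem (false, .D f i) = dig n (a f) i.val) →
      (∀ f i, σ.mem (true, .D f i) = dig n (b f) i.val) →
      okAll n π.pre σ ∧ π.last.cond (fwd π.pre σ) := by
  have h27 := hn.ge27
  obtain ⟨⟨ha, hb⟩, ρ, hρ, h1, h2, h3⟩ := h
  have ea : letter n (mem4 n a b a b) false = a := letter_eq ha fun _ _ => rfl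
  have eb : letter n (mem4 n a b a b) true = b := letter_eq hb fun _ _ => rfl
  have e := env_am_nil n (mem4 n a b a b)
  rw [ea, eb] at e
  have hμ := mem4_lt hn.ge27 a b a b
  have hK := mem4_K n a b a b
  rw [← e] at h3
  rw [← e, ← comp_eval hn.ge27 hμ hK] at h1 h2
  obtain ⟨gc, hg, h1⟩ := h1
  obtain ⟨bc, hb', h2⟩ := h2
  have hm : ∀ σ : PS, MV n σ → (∀ f i, σ.mem (false, .D f i) = dig n (a f) i.val) →
      (∀ f i, σ.mem (true, .D f i) = dig n (b f) i.val) →
      ∀ α, NotS α → σ.mem α = mem4 n a b a b α := by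
    rintro σ hσ k1 k2 ⟨s, l⟩ hα
    cases l with
    | K k => rw [hσ.2.1, mem4_K]
    | D f i => cases s; exacts [k1 f i, k2 f i]
    | S f i => exact absurd rfl (hα f i)
  have hgood : ∀ l ∈ gc ++ bc, l.2.Good NotS :=
    good_append
      (comp_good (p := fun _ => true) notS_K (fun v _ i => notS_am v i) (allB_vars_true _) hg)
      (comp_good (p := fun _ => true) notS_K (fun v _ i => notS_am v i) (allB_vars_true _) hb')
  suffices H : ∃ e ∈ ρ.term.ends, ∀ σ : PS, (∀ α, NotS α → σ.mem α = mem4 n a b a b α) →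
      okAll n e.1 σ ∧ e.2.cond (fwd e.1 σ) by
    obtain ⟨e, he, H⟩ := H
    refine ⟨_, mem_progs.2 (Or.inr ⟨ρ, hρ, ZRule.mem_progs.2 ⟨gc, hg, bc, hb', e, he, rfl⟩⟩),
      ends_last he, fun σ hσ k1 k2 => ?_⟩
    have hm' := hm σ hσ k1 k2
    simp only
    rw [okAll_append, okAll_clauseCode n false _ (ne_of_good hgood), fwd_append, fwd_clauseCode]
    refine ⟨⟨fun l hl => ?_, (H σ hm').1⟩, (H σ hm').2⟩
    rw [holds_congr hm' (hgood l hl)]
    exact (List.mem_append.1 hl).elim (h1 l) (h2 l)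
  rcases ht : ρ.term with _ | ⟨w, x, y⟩
  · exact ⟨([], .zero), by simp [Term.ends], fun σ _ => ⟨trivial, trivial⟩⟩
  have hne := zrules_tab hρ ht
  rw [ht] at h3
  simp only [Term.holds] at h3
  by_cases hxy : (∀ j, j ≠ 0 → mem4 n a b a b (am [] [] x j) = 0) ∧
      ∀ j, j ≠ 0 → mem4 n a b a b (am [] [] y j) = 0
  · obtain ⟨hx, hy⟩ := hxy
    rw [num_high hx, num_high hy] at h3
    obtain ⟨hc, hhc, h4⟩ := (Fm.dnf_true (Test.holds n (mem4 n a b a b)) _).2
      ((highz_eval (by omega) hμ hK (am [] [] x)).2 hx)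
    have hg2 := highz_clause_good notS_K (notS_am x) hhc
    refine ⟨_, Term.mem_ends.2 (Or.inr ⟨w, x, y, rfl, Or.inl ⟨hc, hhc, rfl⟩⟩), fun σ hσ => ?_⟩
    simp only
    rw [okAll_append, okAll_clauseCode n false _ (ne_of_good hg2), fwd_append, fwd_clauseCode]
    refine ⟨⟨fun l hl => ?_, by simp [okAll, Ins.ok]⟩, ?_⟩
    · rw [holds_congr hσ (hg2 l hl)]; exact h4 l hl
    · simp only [fwd, Ins.exec, Last.cond, Function.update_of_ne hne]
      rw [hσ _ (notS_am _ _), hσ _ (notS_am _ _)]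
      exact h3
  · have h5 : (tabF x y).eval (Test.holds n (mem4 n a b a b)) := by
      rw [tabF_eval (by omega) hμ hK]
      by_cases hy : ∀ j, j ≠ 0 → mem4 n a b a b (am [] [] y j) = 0
      · have hx : ¬ ∀ j, j ≠ 0 → mem4 n a b a b (am [] [] x j) = 0 := fun hx => hxy ⟨hx, hy⟩
        refine Or.inl ⟨hx, ?_⟩
        have h6 := num_not_high (n := n) (by omega) hx
        have := P1_lt_P2
        unfold Big at hn
        rw [num_high hy, tb_big w (by omega)] at h3
        exact h3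
      · exact Or.inr hy
    obtain ⟨ec, hec, h4⟩ := (Fm.dnf_true (Test.holds n (mem4 n a b a b)) _).2 h5
    have hg2 := tabF_clause_good notS_K (notS_am x) (notS_am y) hec
    refine ⟨_, Term.mem_ends.2 (Or.inr ⟨w, x, y, rfl, Or.inr ⟨ec, hec, rfl⟩⟩), fun σ hσ => ?_⟩
    simp only
    rw [okAll_clauseCode n false _ (ne_of_good hg2)]
    refine ⟨fun l hl => ?_, trivial⟩
    rw [holds_congr hσ (hg2 l hl)]; exact h4 l hl

end Vale.Agent.P192
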