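import Vale.Agent.P192.Table

/-! Generic lemmas on formulas, clauses, swaps and digits used for the compiled programs. -/

namespace Vale.Agent.P192

namespace Fm

variable {α β : Type}

theorem dnf_spec (I : α → Prop) (φ : Fm α) : ∀ pol : Bool,
    (∃ c ∈ φ.dnf pol, ∀ l ∈ c, (I l.2 ↔ l.1 = true)) ↔ (φ.eval I ↔ pol = true) := by
  induction φ with
  | tt => intro pol; cases pol <;> simp [dnf, eval]
  | ff => intro pol; cases pol <;> simp [dnf, eval]
  | atom a => intro pol; cases pol <;> simp [dnf, eval]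
  | not φ ih =>
    intro pol
    rw [dnf, ih]
    cases pol <;> simp [eval]
  | and φ ψ ih1 ih2 =>
    intro pol
    cases pol
    · have h1 := ih1 false
      have h2 := ih2 false
      simp only [Bool.false_eq_true, iff_false] at h1 h2
      simp only [dnf, eval, List.mem_append, Bool.false_eq_true, iff_false, or_and_right,
        exists_or, h1, h2]
      tauto
    · have h1 := ih1 true
      have h2 := ih2 true
      simp only [iff_true] at h1 h2
      simp only [dnf, eval, iff_true, ← h1, ← h2, List.mem_flatMap, List.mem_map]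
      constructor
      · rintro ⟨c, ⟨c1, hc1, c2, hc2, rfl⟩, h⟩
        exact ⟨⟨c1, hc1, fun l hl => h l (by simp [hl])⟩, ⟨c2, hc2, fun l hl => h l (by simp [hl])⟩⟩
      · rintro ⟨⟨c1, hc1, k1⟩, ⟨c2, hc2, k2⟩⟩
        refine ⟨c1 ++ c2, ⟨c1, hc1, c2, hc2, rfl⟩, fun l hl => ?_⟩
        rcases List.mem_append.1 hl with hl | hl
        exacts [k1 l hl, k2 l hl]
  | or φ ψ ih1 ih2 =>
    intro pol
    cases pol
    · have h1 := ih1 false
      have h2 := ih2 false
      simp only [Bool.false_eq_true, iff_false] at h1 h2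
      simp only [dnf, eval, Bool.false_eq_true, iff_false, not_or, ← h1, ← h2, List.mem_flatMap,
        List.mem_map]
      constructor
      · rintro ⟨c, ⟨c1, hc1, c2, hc2, rfl⟩, h⟩
        exact ⟨⟨c1, hc1, fun l hl => h l (by simp [hl])⟩, ⟨c2, hc2, fun l hl => h l (by simp [hl])⟩⟩
      · rintro ⟨⟨c1, hc1, k1⟩, ⟨c2, hc2, k2⟩⟩
        refine ⟨c1 ++ c2, ⟨c1, hc1, c2, hc2, rfl⟩, fun l hl => ?_⟩
        rcases List.mem_append.1 hl with hl | hl
        exacts [k1 l hl, k2 l hl]
    · have h1 := ih1 true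
      have h2 := ih2 true
      simp only [iff_true] at h1 h2
      simp only [dnf, eval, List.mem_append, iff_true, or_and_right, exists_or, h1, h2]

theorem dnf_true (I : α → Prop) (φ : Fm α) :
    (∃ c ∈ φ.dnf true, ∀ l ∈ c, (I l.2 ↔ l.1 = true)) ↔ φ.eval I := by
  rw [dnf_spec]; simp

theorem eval_bind (I : β → Prop) (f : α → Fm β) (φ : Fm α) :
    (φ.bind f).eval I ↔ φ.eval fun a => (f a).eval I := by
  induction φ with
  | tt => simp [bind, eval]
  | ff => simp [bind, eval]
  | atom a => simp [bind, eval]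
  | not φ ih => simp [bind, eval, ih]
  | and φ ψ ih1 ih2 => simp [bind, eval, ih1, ih2]
  | or φ ψ ih1 ih2 => simp [bind, eval, ih1, ih2]

/-- All atoms of the formula satisfy `P`. -/
def AllAt (P : α → Prop) : Fm α → Prop
  | tt => True
  | ff => True
  | atom a => P a
  | not φ => AllAt P φ
  | and φ ψ => AllAt P φ ∧ AllAt P ψ
  | or φ ψ => AllAt P φ ∧ AllAt P ψ

/-- Boolean version of `AllAt`. -/
def allB (p : α → Bool) : Fm α → Bool
  | tt => true
  | ff => true
  | atom a => p a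
  | not φ => allB p φ
  | and φ ψ => allB p φ && allB p ψ
  | or φ ψ => allB p φ && allB p ψ

theorem allAt_of_allB {p : α → Bool} {φ : Fm α} (h : φ.allB p = true) :
    φ.AllAt fun a => p a = true := by
  induction φ with
  | tt => trivial
  | ff => trivial
  | atom a => exact h
  | not φ ih => exact ih h
  | and φ ψ ih1 ih2 =>
    simp only [allB, Bool.and_eq_true] at h; exact ⟨ih1 h.1, ih2 h.2⟩
  | or φ ψ ih1 ih2 =>
    simp only [allB, Bool.and_eq_true] at h; exact ⟨ih1 h.1, ih2 h.2⟩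

theorem allAt_true (φ : Fm α) : φ.AllAt fun _ => True := by
  induction φ with
  | tt => trivial
  | ff => trivial
  | atom a => trivial
  | not φ ih => exact ih
  | and φ ψ ih1 ih2 => exact ⟨ih1, ih2⟩
  | or φ ψ ih1 ih2 => exact ⟨ih1, ih2⟩

theorem AllAt.bind {P : α → Prop} {Q : β → Prop} {f : α → Fm β} {φ : Fm α} (h : φ.AllAt P)
    (hf : ∀ a, P a → (f a).AllAt Q) : (φ.bind f).AllAt Q := by
  induction φ with
  | tt => trivial
  | ff => trivial
  | atom a => exact hf a h
  | not φ ih => exact ih h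
  | and φ ψ ih1 ih2 => exact ⟨ih1 h.1, ih2 h.2⟩
  | or φ ψ ih1 ih2 => exact ⟨ih1 h.1, ih2 h.2⟩

theorem allAt_all {P : α → Prop} {l : List (Fm α)} (h : ∀ φ ∈ l, φ.AllAt P) :
    (all l).AllAt P := by
  induction l with
  | nil => trivial
  | cons φ l ih => exact ⟨h φ (by simp), ih fun ψ hψ => h ψ (by simp [hψ])⟩

theorem AllAt.dnf {P : α → Prop} {φ : Fm α} (h : φ.AllAt P) :
    ∀ pol, ∀ c ∈ φ.dnf pol, ∀ l ∈ c, P l.2 := by
  induction φ with
  | tt => intro pol; cases pol <;> simp [Fm.dnf]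
  | ff => intro pol; cases pol <;> simp [Fm.dnf]
  | atom a => intro pol; have h' : P a := h; simp [Fm.dnf, h']
  | not φ ih => intro pol; rw [Fm.dnf]; exact ih h _
  | and φ ψ ih1 ih2 =>
    intro pol c hc l hl
    cases pol
    · simp only [Fm.dnf, List.mem_append] at hc
      rcases hc with hc | hc
      exacts [ih1 h.1 _ c hc l hl, ih2 h.2 _ c hc l hl]
    · simp only [Fm.dnf, List.mem_flatMap, List.mem_map] at hc
      obtain ⟨c1, hc1, c2, hc2, rfl⟩ := hc
      rcases List.mem_append.1 hl with hl | hl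
      exacts [ih1 h.1 _ c1 hc1 l hl, ih2 h.2 _ c2 hc2 l hl]
  | or φ ψ ih1 ih2 =>
    intro pol c hc l hl
    cases pol
    · simp only [Fm.dnf, List.mem_flatMap, List.mem_map] at hc
      obtain ⟨c1, hc1, c2, hc2, rfl⟩ := hc
      rcases List.mem_append.1 hl with hl | hl
      exacts [ih1 h.1 _ c1 hc1 l hl, ih2 h.2 _ c2 hc2 l hl]
    · simp only [Fm.dnf, List.mem_append] at hc
      rcases hc with hc | hc
      exacts [ih1 h.1 _ c hc l hl, ih2 h.2 _ c hc l hl]

end Fm

/-! ### Tests and clauses -/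

/-- The address is not a constant cell. -/
def DynA (α : Adr) : Prop := ∀ c, α.2 ≠ .K c

/-- A test with distinct addresses, the first one dynamic, both satisfying `Q`. -/
def Test.Good (Q : Adr → Prop) (t : Test) : Prop := t.α ≠ t.β ∧ DynA t.α ∧ Q t.α ∧ Q t.β

theorem tst_good {Q : Adr → Prop} (k : Bool) {α β : Adr} (hα : DynA α) (h1 : Q α) (h2 : Q β) :
    (tst k α β).AllAt (Test.Good Q) := by
  unfold tst
  split_ifs with h hk
  · trivial
  · trivial
  · exact ⟨h, hα, h1, h2⟩

theorem lowz_good {Q : Adr → Prop} (hK : ∀ c, Q (false, .K c)) {g : Fin Dg → Adr}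
    (hg : ∀ i, DynA (g i) ∧ Q (g i)) (i : Fin Dg) : (lowz g i).AllAt (Test.Good Q) := by
  refine Fm.allAt_all fun φ hφ => ?_
  obtain ⟨j, -, rfl⟩ := List.mem_map.1 hφ
  exact tst_good _ (hg j).1 (hg j).2 (hK _)

theorem highz_good {Q : Adr → Prop} (hK : ∀ c, Q (false, .K c)) {g : Fin Dg → Adr}
    (hg : ∀ i, DynA (g i) ∧ Q (g i)) : (highz g).AllAt (Test.Good Q) := by
  refine Fm.allAt_all fun φ hφ => ?_
  obtain ⟨j, -, rfl⟩ := List.mem_map.1 hφ
  exact tst_good _ (hg j).1 (hg j).2 (hK _)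

/-- All variables of the atom satisfy `p`. -/
def Atom.vars (p : Var → Bool) : Atom → Bool
  | .eq x y => p x && p y
  | .sc x y => p x && p y
  | .cst x _ => p x

theorem atomC_good {Q : Adr → Prop} (hK : ∀ c, Q (false, .K c)) {a : Var → Fin Dg → Adr}
    {p : Var → Bool} (ha : ∀ v, p v = true → ∀ i, DynA (a v i) ∧ Q (a v i)) (t : Atom)
    (ht : t.vars p = true) : (atomC a t).AllAt (Test.Good Q) := by
  cases t with
  | eq x y =>
    simp only [Atom.vars, Bool.and_eq_true] at ht
    refine Fm.allAt_all fun φ hφ => ?_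
    obtain ⟨j, -, rfl⟩ := List.mem_map.1 hφ
    exact tst_good _ (ha x ht.1 j).1 (ha x ht.1 j).2 (ha y ht.2 j).2
  | sc x y =>
    simp only [Atom.vars, Bool.and_eq_true] at ht
    refine Fm.allAt_all fun φ hφ => ?_
    obtain ⟨j, -, rfl⟩ := List.mem_map.1 hφ
    exact ⟨⟨lowz_good hK (ha y ht.2) j, tst_good _ (ha x ht.1 j).1 (ha x ht.1 j).2 (ha y ht.2 j).2⟩,
      ⟨lowz_good hK (ha y ht.2) j, tst_good _ (ha x ht.1 j).1 (ha x ht.1 j).2 (ha y ht.2 j).2⟩⟩
  | cst x c =>
    refine Fm.allAt_all fun φ hφ => ?_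
    obtain ⟨j, -, rfl⟩ := List.mem_map.1 hφ
    exact tst_good _ (ha x ht j).1 (ha x ht j).2 (hK _)

theorem am_dyn (chA chB : List Fld) (v : Var) (i : Fin Dg) : DynA (am chA chB v i) := by
  obtain ⟨p, f⟩ := v
  intro c
  cases p <;> simp only [am] <;> (try split_ifs) <;> simp

theorem comp_good {Q : Adr → Prop} (hK : ∀ c, Q (false, .K c)) {chA chB : List Fld}
    {p : Var → Bool} (ha : ∀ v, p v = true → ∀ i, Q (am chA chB v i)) {φ : Fm Atom}
    (hφ : φ.allB (Atom.vars p) = true) {c : Clause}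
    (hc : c ∈ (φ.bind (atomC (am chA chB))).dnf true) : ∀ l ∈ c, l.2.Good Q :=
  ((Fm.allAt_of_allB hφ).bind fun t ht =>
    atomC_good hK (fun v hv i => ⟨am_dyn _ _ _ _, ha v hv i⟩) t ht).dnf true c hc

theorem allB_vars_true (φ : Fm Atom) : φ.allB (Atom.vars fun _ => true) = true := by
  induction φ with
  | tt => rfl
  | ff => rfl
  | atom a => cases a <;> rfl
  | not φ ih => exact ih
  | and φ ψ ih1 ih2 => simp [Fm.allB, ih1, ih2]
  | or φ ψ ih1 ih2 => simp [Fm.allB, ih1, ih2]

theorem comp_good' {chA chB : List Fld} {φ : Fm Atom} {c : Clause}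
    (hc : c ∈ (φ.bind (atomC (am chA chB))).dnf true) : ∀ l ∈ c, l.2.Good fun _ => True :=
  comp_good (p := fun _ => true) (fun _ => trivial) (fun _ _ _ => trivial) (allB_vars_true φ) hc

theorem fwd_litCode (md : Bool) (l : Bool × Test) (σ : PS) : fwd (litCode md l) σ = σ := by
  simp [litCode, fwd, Ins.exec]

theorem fwd_clauseCode (md : Bool) (c : Clause) (σ : PS) : fwd (clauseCode md c) σ = σ := by
  induction c with
  | nil => rfl
  | cons l c ih =>
    have : clauseCode md (l :: c) = litCode md l ++ clauseCode md c := by simp [clauseCode]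
    rw [this, fwd_append, fwd_litCode, ih]

theorem okAll_litCode (n : ℕ) (md : Bool) (l : Bool × Test) (h : l.2.α ≠ l.2.β) (σ : PS) :
    okAll n (litCode md l) σ ↔ (l.2.holds n σ.mem ↔ l.1 = true) := by
  simp [litCode, okAll, Ins.ok, Ins.exec, Function.update_of_ne h.symm, gateOK, Test.holds]

theorem okAll_clauseCode (n : ℕ) (md : Bool) (c : Clause) (h : ∀ l ∈ c, l.2.α ≠ l.2.β) (σ : PS) :
    okAll n (clauseCode md c) σ ↔ ∀ l ∈ c, (l.2.holds n σ.mem ↔ l.1 = true) := by
  induction c with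
  | nil => simp [clauseCode, okAll]
  | cons l c ih =>
    have : clauseCode md (l :: c) = litCode md l ++ clauseCode md c := by simp [clauseCode]
    rw [this, okAll_append, fwd_litCode, okAll_litCode n md l (h l (by simp)),
      ih fun l' hl' => h l' (by simp [hl'])]
    simp

theorem clauseCode_append (md : Bool) (c c' : Clause) :
    clauseCode md (c ++ c') = clauseCode md c ++ clauseCode md c' := by
  simp [clauseCode]

theorem clauseCode_mem {md : Bool} {c : Clause} {Q : Adr → Prop} (h : ∀ l ∈ c, l.2.Good Q) :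
    ∀ i ∈ clauseCode md c, i.Dyn ∧ i.Mode md ∧ Q i.adr := by
  intro i hi
  obtain ⟨l, hl, hi⟩ := List.mem_flatMap.1 hi
  obtain ⟨-, h2, h3, h4⟩ := h l hl
  simp only [litCode, List.mem_cons, List.not_mem_nil, or_false] at hi
  rcases hi with rfl | rfl | rfl
  · exact ⟨h2, trivial, h3⟩
  · exact ⟨trivial, rfl, h4⟩
  · exact ⟨h2, trivial, h3⟩

/-! ### Swaps -/

/-- The swap of data and scratch digits listed in `L` on side `s`. -/
def swL (s : Bool) (L : List (Fld × Fin Dg)) : Adr → Adr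
  | (s', .K c) => (s', .K c)
  | (s', .D f i) => (s', if s' = s ∧ (f, i) ∈ L then .S f i else .D f i)
  | (s', .S f i) => (s', if s' = s ∧ (f, i) ∈ L then .D f i else .S f i)

def swCode (s : Bool) (p : Fld × Fin Dg) : List Ins :=
  [.x1 (s, .D p.1 p.2), .x1 (s, .S p.1 p.2), .x1 (s, .D p.1 p.2)]

theorem fwd_swCode (s : Bool) (p : Fld × Fin Dg) (σ : PS) :
    fwd (swCode s p) σ = ⟨fun α => σ.mem (swL s [p] α), σ.r1, σ.r2⟩ := by
  obtain ⟨f, i⟩ := p
  simp only [swCode, fwd, Ins.exec, PS.mk.injEq, and_true]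
  refine ⟨?_, by simp⟩
  funext ⟨s', l⟩
  cases l with
  | K c => simp [swL]
  | D g j =>
    by_cases h : s' = s ∧ g = f ∧ j = i
    · obtain ⟨rfl, rfl, rfl⟩ := h; simp [swL]
    · simp [swL, h]
  | S g j =>
    by_cases h : s' = s ∧ g = f ∧ j = i
    · obtain ⟨rfl, rfl, rfl⟩ := h; simp [swL]
    · simp [swL, h]

theorem swL_cons (s : Bool) (p : Fld × Fin Dg) (L : List (Fld × Fin Dg)) (h : p ∉ L) (α : Adr) :
    swL s [p] (swL s L α) = swL s (p :: L) α := by
  obtain ⟨s', l⟩ := α
  obtain ⟨f, i⟩ := p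
  cases l with
  | K c => rfl
  | D g j =>
    by_cases h1 : s' = s <;> by_cases h2 : (g, j) ∈ L <;> by_cases h3 : g = f ∧ j = i <;>
      simp_all [swL]
  | S g j =>
    by_cases h1 : s' = s <;> by_cases h2 : (g, j) ∈ L <;> by_cases h3 : g = f ∧ j = i <;>
      simp_all [swL]

theorem fwd_swCodes (s : Bool) (L : List (Fld × Fin Dg)) (hL : L.Nodup) (σ : PS) :
    fwd (L.flatMap (swCode s)) σ = ⟨fun α => σ.mem (swL s L α), σ.r1, σ.r2⟩ := by
  induction L generalizing σ with
  | nil =>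
    have : ∀ α, swL s [] α = α := by
      rintro ⟨s', l⟩; cases l <;> simp [swL]
    simp [fwd, this]
  | cons p L ih =>
    rw [List.nodup_cons] at hL
    rw [List.flatMap_cons, fwd_append, fwd_swCode, ih hL.2]
    simp only [swL_cons s p L hL.1]

theorem allFld_nodup : allFld.Nodup := by decide

theorem swapSide_eq (s : Bool) (ch : List Fld) :
    swapSide s ch = ((allFld.filter (· ∈ ch)) ×ˢ List.finRange Dg).flatMap (swCode s) := by
  change _ = (List.product _ _).flatMap _
  simp only [swapSide, List.product, List.flatMap_assoc, List.flatMap_map]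
  rfl

theorem fwd_swaps (chA chB : List Fld) (σ : PS) :
    fwd (swapSide false chA ++ swapSide true chB) σ =
      ⟨fun α => σ.mem (swA chA chB α), σ.r1, σ.r2⟩ := by
  have hn : ∀ ch : List Fld, ((allFld.filter (· ∈ ch)) ×ˢ List.finRange Dg).Nodup := fun ch =>
    (allFld_nodup.filter _).product (List.nodup_finRange _)
  rw [fwd_append, swapSide_eq, swapSide_eq, fwd_swCodes _ _ (hn _), fwd_swCodes _ _ (hn _)]
  simp only [PS.mk.injEq, and_true]
  funext ⟨s, l⟩
  congr 1
  cases l with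
  | K c => rfl
  | D f i =>
    cases s <;> by_cases h1 : f ∈ chA <;> by_cases h2 : f ∈ chB <;>
      simp [swL, swA, h1, h2, mem_allFld]
  | S f i =>
    cases s <;> by_cases h1 : f ∈ chA <;> by_cases h2 : f ∈ chB <;>
      simp [swL, swA, h1, h2, mem_allFld]

theorem swapSide_mem {s : Bool} {ch : List Fld} {i : Ins} (h : i ∈ swapSide s ch) :
    ∃ f ∈ ch, ∃ j, i = .x1 (s, .D f j) ∨ i = .x1 (s, .S f j) := by
  simp only [swapSide, List.mem_flatMap, List.mem_filter, decide_eq_true_eq, List.mem_cons,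
    List.not_mem_nil, or_false] at h
  obtain ⟨f, ⟨-, hf⟩, j, -, h⟩ := h
  exact ⟨f, hf, j, by tauto⟩

theorem okAll_of_x (n : ℕ) {l : List Ins} (h : ∀ i ∈ l, ∃ α, i = .x1 α ∨ i = .x2 α) (σ : PS) :
    okAll n l σ := by
  induction l generalizing σ with
  | nil => trivial
  | cons i l ih =>
    refine ⟨?_, ih (fun j hj => h j (by simp [hj])) _⟩
    obtain ⟨α, rfl | rfl⟩ := h i (by simp) <;> trivial

theorem okAll_swaps (n : ℕ) (chA chB : List Fld) (σ : PS) :
    okAll n (swapSide false chA ++ swapSide true chB) σ := by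
  refine okAll_of_x n (fun i hi => ?_) σ
  rcases List.mem_append.1 hi with hi | hi <;>
  · obtain ⟨f, -, j, h | h⟩ := swapSide_mem hi <;> exact ⟨_, Or.inl h⟩

theorem swA_swA (chA chB : List Fld) (α : Adr) : swA chA chB (swA chA chB α) = α := by
  obtain ⟨s, l⟩ := α
  cases l with
  | K c => rfl
  | D f i => by_cases h : f ∈ (if s then chB else chA) <;> simp only [swA, h, if_true, if_false]
  | S f i => by_cases h : f ∈ (if s then chB else chA) <;> simp only [swA, h, if_true, if_false]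

theorem swA_dyn (chA chB : List Fld) {α : Adr} (h : DynA α) : DynA (swA chA chB α) := by
  obtain ⟨s, l⟩ := α
  cases l with
  | K c => exact absurd rfl (h c)
  | D f i => intro c; simp only [swA]; split_ifs <;> simp
  | S f i => intro c; simp only [swA]; split_ifs <;> simp

theorem swLit_good (chA chB : List Fld) {Q : Adr → Prop} (hQ : ∀ α, Q α → Q (swA chA chB α))
    {l : Bool × Test} (h : l.2.Good Q) : (swLit chA chB l).2.Good Q := by
  obtain ⟨h1, h2, h3, h4⟩ := h
  refine ⟨fun e => h1 ?_, swA_dyn _ _ h2, hQ _ h3, hQ _ h4⟩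
  have := congrArg (swA chA chB) e
  simpa only [swLit, swA_swA] using this

theorem swLit_holds (n : ℕ) (chA chB : List Fld) (μ : Adr → ℕ) (l : Bool × Test) :
    (swLit chA chB l).2.holds n μ ↔ l.2.holds n fun α => μ (swA chA chB α) := Iff.rfl

/-! ### Digits -/

theorem num_inj {n D : ℕ} {g g' : Fin D → ℕ} (hg : ∀ i, g i < n) (hg' : ∀ i, g' i < n) :
    ∑ i : Fin D, g i * n ^ i.val = ∑ i : Fin D, g' i * n ^ i.val ↔ ∀ i, g i = g' i := by
  constructor
  · intro h i
    rw [← dig_num g hg i, h, dig_num g' hg' i]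
  · intro h; simp only [h]

theorem num_succ {n D : ℕ} (g : Fin (D + 1) → ℕ) :
    ∑ i : Fin (D + 1), g i * n ^ i.val = g 0 + n * ∑ i : Fin D, g i.succ * n ^ i.val := by
  rw [Fin.sum_univ_succ, Finset.mul_sum]
  simp only [Fin.val_zero, pow_zero, mul_one, Fin.val_succ, pow_succ]
  congr 1
  exact Finset.sum_congr rfl fun i _ => by ring

theorem add_mul_inj {n a b X Y : ℕ} (ha : a < n) (hb : b < n) :
    a + n * X = b + n * Y ↔ a = b ∧ X = Y := by
  constructor
  · intro h
    have h1 : a = b := by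
      have := congrArg (· % n) h
      simpa [Nat.mod_eq_of_lt ha, Nat.mod_eq_of_lt hb] using this
    subst h1
    have h2 : n * X = n * Y := by omega
    exact ⟨rfl, Nat.eq_of_mul_eq_mul_left (by omega) h2⟩
  · rintro ⟨rfl, rfl⟩; rfl

theorem num_sc {n : ℕ} : ∀ {D : ℕ} (x y : Fin D → ℕ), (∀ i, x i < n) → (∀ i, y i < n) →
    (∑ i : Fin D, y i * n ^ i.val = (∑ i : Fin D, x i * n ^ i.val + 1) % n ^ D ↔
      ∀ i, ((∀ j, j < i → y j = 0) ∧ y i = (x i + 1) % n) ∨
        (¬ (∀ j, j < i → y j = 0) ∧ y i = x i)) := by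
  intro D
  induction D with
  | zero => intro x y _ _; simp
  | succ D ih =>
    intro x y hx hy
    have hX := num_lt (fun i : Fin D => x i.succ) fun i => hx _
    have e0 : ∀ i : Fin D, (∀ j, j < i.succ → y j = 0) ↔
        (y 0 = 0 ∧ ∀ j : Fin D, j < i → y j.succ = 0) := by
      intro i
      rw [Fin.forall_fin_succ]
      simp
    rw [num_succ, num_succ, Fin.forall_fin_succ]
    simp only [e0]
    by_cases h : x 0 + 1 < n
    · have e1 : (x 0 + n * ∑ i : Fin D, x i.succ * n ^ i.val + 1) % n ^ (D + 1) =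
          (x 0 + 1) + n * ∑ i : Fin D, x i.succ * n ^ i.val := by
        rw [Nat.mod_eq_of_lt]
        · ring
        · rw [pow_succ]; nlinarith
      rw [e1, add_mul_inj (hy 0) h, num_inj (fun i => hy _) (fun i => hx _), Nat.mod_eq_of_lt h]
      constructor
      · rintro ⟨h1, h2⟩
        refine ⟨Or.inl ⟨by simp, h1⟩, fun i => Or.inr ⟨by omega, h2 i⟩⟩
      · rintro ⟨h1, h2⟩
        have h3 : y 0 = x 0 + 1 := by simpa using h1
        refine ⟨h3, fun i => ?_⟩
        rcases h2 i with h4 | h4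
        · omega
        · exact h4.2
    · have h0 : x 0 + 1 = n := by have := hx 0; omega
      have e1 : (x 0 + n * ∑ i : Fin D, x i.succ * n ^ i.val + 1) % n ^ (D + 1) =
          0 + n * ((∑ i : Fin D, x i.succ * n ^ i.val + 1) % n ^ D) := by
        rw [zero_add, ← Nat.mul_mod_mul_left, pow_succ']
        congr 1
        rw [mul_add, mul_one]; omega
      rw [e1, add_mul_inj (hy 0) (by omega), ih _ _ (fun i => hx _) (fun i => hy _), h0,
        Nat.mod_self]
      constructor
      · rintro ⟨h1, h2⟩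
        refine ⟨Or.inl ⟨by simp, h1⟩, fun i => ?_⟩
        simpa only [h1, true_and] using h2 i
      · rintro ⟨h1, h2⟩
        have h3 : y 0 = 0 := by simpa using h1
        refine ⟨h3, fun i => ?_⟩
        simpa only [h3, true_and] using h2 i

theorem num_single (n c : ℕ) :
    ∑ i : Fin Dg, (if i = 0 then c else 0) * n ^ i.val = c := by
  rw [Finset.sum_eq_single 0] <;> simp +contextual

theorem num_high {n : ℕ} {g : Fin Dg → ℕ} (h : ∀ j, j ≠ 0 → g j = 0) :
    ∑ i : Fin Dg, g i * n ^ i.val = g 0 := by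
  rw [Finset.sum_eq_single 0]
  · simp
  · intro j _ hj; simp [h j hj]
  · simp

theorem num_not_high {n : ℕ} (hn : 0 < n) {g : Fin Dg → ℕ} (h : ¬ ∀ j, j ≠ 0 → g j = 0) :
    n ≤ ∑ i : Fin Dg, g i * n ^ i.val := by
  push Not at h
  obtain ⟨j, hj, hg⟩ := h
  have h1 : g j * n ^ j.val ≤ ∑ i : Fin Dg, g i * n ^ i.val :=
    Finset.single_le_sum (f := fun i : Fin Dg => g i * n ^ i.val) (fun _ _ => Nat.zero_le _)
      (Finset.mem_univ j)
  have h2 : n ≤ n ^ j.val := Nat.le_self_pow (fun e => hj (Fin.ext (by simpa using e))) n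
  have h3 : 1 ≤ g j := Nat.one_le_iff_ne_zero.2 hg
  have := hn
  nlinarith

theorem num_mod {n : ℕ} {g : Fin Dg → ℕ} (hg : ∀ i, g i < n) :
    (∑ i : Fin Dg, g i * n ^ i.val) % n = g 0 := by
  have := dig_num g hg 0
  simpa [dig] using this

/-! ### Compiled atoms -/

theorem tst_eval {n : ℕ} (hn : 2 ≤ n) {μ : Adr → ℕ} (hμ : ∀ α, μ α < n) (k : Bool) (α β : Adr) :
    (tst k α β).eval (Test.holds n μ) ↔ if k then μ β = (μ α + 1) % n else μ β = μ α := by
  unfold tst
  split_ifs with h hk hk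
  · subst h
    simp only [Fm.eval, false_iff]
    have := hμ α
    by_cases h1 : μ α + 1 < n
    · rw [Nat.mod_eq_of_lt h1]; omega
    · have h2 : μ α + 1 = n := by omega
      rw [h2, Nat.mod_self]; omega
  · subst h; simp [Fm.eval]
  · simp [Fm.eval, Test.holds, hk]
  · simp [Fm.eval, Test.holds, hk]

theorem lowz_eval {n : ℕ} (hn : 2 ≤ n) {μ : Adr → ℕ} (hμ : ∀ α, μ α < n)
    (hK : ∀ s c, μ (s, .K c) = c.val) (g : Fin Dg → Adr) (i : Fin Dg) :
    (lowz g i).eval (Test.holds n μ) ↔ ∀ j, j < i → μ (g j) = 0 := by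
  simp only [lowz, Fm.eval_all, List.mem_map, List.mem_filter, List.mem_finRange, true_and,
    decide_eq_true_eq, forall_exists_index, and_imp, forall_apply_eq_imp_iff₂, tst_eval hn hμ,
    K0, hK]
  simp [eq_comm]

theorem highz_eval {n : ℕ} (hn : 2 ≤ n) {μ : Adr → ℕ} (hμ : ∀ α, μ α < n)
    (hK : ∀ s c, μ (s, .K c) = c.val) (g : Fin Dg → Adr) :
    (highz g).eval (Test.holds n μ) ↔ ∀ j, j ≠ 0 → μ (g j) = 0 := by
  simp only [highz, Fm.eval_all, List.mem_map, List.mem_filter, List.mem_finRange, true_and,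
    decide_eq_true_eq, forall_exists_index, and_imp, forall_apply_eq_imp_iff₂, tst_eval hn hμ,
    K0, hK]
  simp [eq_comm]

theorem atomC_eval {n : ℕ} (hn : 27 ≤ n) {μ : Adr → ℕ} (hμ : ∀ α, μ α < n)
    (hK : ∀ s c, μ (s, .K c) = c.val) (a : Var → Fin Dg → Adr) (t : Atom) :
    (atomC a t).eval (Test.holds n μ) ↔
      t.eval (n ^ Dg) fun v => ∑ i : Fin Dg, μ (a v i) * n ^ i.val := by
  have hn2 : 2 ≤ n := by omega
  cases t with
  | eq x y =>
    simp only [atomC, Fm.eval_all, List.mem_map, List.mem_finRange, true_and, forall_exists_index,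
      forall_apply_eq_imp_iff, tst_eval hn2 hμ, Atom.eval]
    rw [num_inj (fun i => hμ _) (fun i => hμ _)]
    simp
  | sc x y =>
    simp only [atomC, Fm.eval_all, List.mem_map, List.mem_finRange, true_and, forall_exists_index,
      forall_apply_eq_imp_iff, Fm.eval, tst_eval hn2 hμ, lowz_eval hn2 hμ hK, Atom.eval]
    rw [num_sc _ _ (fun i => hμ _) (fun i => hμ _)]
    simp
  | cst x c =>
    simp only [atomC, Fm.eval_all, List.mem_map, List.mem_finRange, true_and, forall_exists_index,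
      forall_apply_eq_imp_iff, tst_eval hn2 hμ, Atom.eval, hK]
    have hc := c.2
    conv_rhs => rw [← num_single n c.val]
    rw [num_inj (fun i => hμ _) (fun i => by split_ifs <;> omega)]
    refine forall_congr' fun i => ?_
    by_cases h : i = 0 <;> simp [h, eq_comm]

theorem comp_eval {n : ℕ} (hn : 27 ≤ n) {μ : Adr → ℕ} (hμ : ∀ α, μ α < n)
    (hK : ∀ s c, μ (s, .K c) = c.val) (a : Var → Fin Dg → Adr) (φ : Fm Atom) :
    (∃ c ∈ (φ.bind (atomC a)).dnf true, ∀ l ∈ c, (l.2.holds n μ ↔ l.1 = true)) ↔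
      φ.eval (Atom.eval (n ^ Dg) fun v => ∑ i : Fin Dg, μ (a v i) * n ^ i.val) := by
  rw [Fm.dnf_true (Test.holds n μ), Fm.eval_bind]
  have : (fun t => (atomC a t).eval (Test.holds n μ)) =
      Atom.eval (n ^ Dg) fun v => ∑ i : Fin Dg, μ (a v i) * n ^ i.val := by
    funext t; exact propext (atomC_eval hn hμ hK a t)
  rw [this]

theorem env_am (n : ℕ) (chA chB : List Fld) (μ : Adr → ℕ) :
    (fun v => ∑ i : Fin Dg, μ (am chA chB v i) * n ^ i.val) =
      env (letter n μ false) (letter n μ true) (letter n (fun α => μ (swA chA chB α)) false)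
        (letter n (fun α => μ (swA chA chB α)) true) := by
  funext ⟨p, f⟩
  cases p <;> rfl

theorem swA_nil (α : Adr) : swA [] [] α = α := by
  obtain ⟨s, l⟩ := α
  cases l <;> cases s <;> simp [swA]

theorem env_am_nil (n : ℕ) (μ : Adr → ℕ) :
    (fun v => ∑ i : Fin Dg, μ (am [] [] v i) * n ^ i.val) =
      env (letter n μ false) (letter n μ true) (letter n μ false) (letter n μ true) := by
  rw [env_am]; simp only [swA_nil]

theorem Big.ge27 {n : ℕ} (hn : Big n) : 27 ≤ n := by
  have := PP_ge; have := PP_le_P1; have := P1_lt_P2; unfold Big at hn; omega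

end Vale.Agent.P192
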