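import Vale.Agent.P192.Pres

namespace Vale.Agent.P192

open QP

section Infinite

variable {A : Type} (Q : QP A)

/-- Functions on words compatible with the presentation. -/
def RF.V : Submodule (ZMod 2) (List A → ZMod 2) where
  carrier := {f | (∀ u v, Q.Eqv u v → f u = f v) ∧ (∀ u, Q.Null u → f u = 0) ∧
    ∀ u, ¬ (∀ a ∈ u, a ∈ Q.S) → f u = 0}
  zero_mem' := ⟨fun _ _ _ => rfl, fun _ _ => rfl, fun _ _ => rfl⟩
  add_mem' := by
    rintro f g ⟨f1, f2, f3⟩ ⟨g1, g2, g3⟩
    exact ⟨fun u v h => by simp [f1 u v h, g1 u v h], fun u h => by simp [f2 u h, g2 u h],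
      fun u h => by simp [f3 u h, g3 u h]⟩
  smul_mem' := by
    rintro c f ⟨f1, f2, f3⟩
    exact ⟨fun u v h => by simp [f1 u v h], fun u h => by simp [f2 u h],
      fun u h => by simp [f3 u h]⟩

/-- The shift operators. -/
def RF.z (a : A) : Module.End (ZMod 2) (RF.V Q) where
  toFun f := ⟨fun w => f.1 (w ++ [a]), fun u v h => f.2.1 _ _ (h.append (Eqv.refl _)),
    fun u h => f.2.2.1 _ (by simpa using h.ctx [] [a]),
    fun u h => f.2.2.2 _ fun h' => h fun b hb => h' b (by simp [hb])⟩
  map_add' _ _ := rfl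
  map_smul' _ _ := rfl

theorem RF.wd_z (u : List A) (f : RF.V Q) (w : List A) :
    (wd (RF.z Q) u f).1 w = f.1 (w ++ u) := by
  induction u generalizing w with
  | nil => simp
  | cons a u ih =>
    rw [wd_cons, Module.End.mul_apply]
    change (wd (RF.z Q) u f).1 (w ++ [a]) = _
    rw [ih]; simp

end Infinite

theorem RF.map_wd {A R T : Type} [Semiring R] [Semiring T] (f : R →+* T) (y : A → R)
    (w : List A) : f (wd y w) = wd (fun a => f (y a)) w := by
  induction w with
  | nil => simp
  | cons a w ih => simp [ih]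

theorem QP.Presents.infinite {A : Type} {Q : QP A} {R : Type} [Ring R] {y : A → R}
    (h : Q.Presents R y)
    (hn : ∀ l : ℕ, ∃ w : List A, (∀ a ∈ w, a ∈ Q.S) ∧ l ≤ w.length ∧ ¬ Q.Null w) :
    Infinite R := by
  classical
  obtain ⟨F, hF⟩ := h.lift (Module.End (ZMod 2) (RF.V Q))
    (fun t => by rw [← two_smul (ZMod 2) t, show (2 : ZMod 2) = 0 from rfl, zero_smul])
    (RF.z Q)
    ⟨fun a b c d hE => by
      ext f w
      change f.1 (w ++ [a] ++ [b]) = f.1 (w ++ [c] ++ [d])
      exact f.2.1 _ _ (by simpa using Eqv.of_E hE w []),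
    fun a b hZ => by
      ext f w
      change f.1 (w ++ [a] ++ [b]) = 0
      exact f.2.2.1 _ (by simpa using Null.of_Z hZ w [])⟩
    (fun a ha => by
      ext f w
      change f.1 (w ++ [a]) = 0
      exact f.2.2.2 _ fun h' => ha (h' a (by simp)))
  have hFw : ∀ w, F (wd y w) = wd (RF.z Q) w := fun w => by
    rw [RF.map_wd]; congr 1; exact funext hF
  let L : Set ℕ := {n | ∃ w : List A, (∀ a ∈ w, a ∈ Q.S) ∧ w.length = n ∧ ¬ Q.Null w}
  have hL : L.Infinite := Set.infinite_of_forall_exists_gt fun n => by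
    obtain ⟨w, h1, h2, h3⟩ := hn (n + 1)
    exact ⟨w.length, ⟨w, h1, rfl, h3⟩, h2⟩
  have := hL.to_subtype
  choose w hw1 hw2 hw3 using fun n : L => n.2
  refine Infinite.of_injective (fun n : L => wd y (w n)) fun n m hnm => ?_
  let f : RF.V Q := ⟨fun u => if Q.Eqv u (w n) then 1 else 0,
    fun u v huv => by
      have : Q.Eqv u (w n) ↔ Q.Eqv v (w n) := ⟨fun h => huv.symm.trans h, fun h => huv.trans h⟩
      simp only [this],
    fun u hu => if_neg fun h => hw3 n (Null.of_eqv h.symm hu),
    fun u hu => if_neg fun h => hu (h.mem_iff.mpr (hw1 n))⟩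
  have e : (wd (RF.z Q) (w n) f).1 [] = (wd (RF.z Q) (w m) f).1 [] := by
    rw [← hFw, ← hFw, show wd y (w n) = wd y (w m) from hnm]
  rw [RF.wd_z, RF.wd_z] at e
  simp only [f, List.nil_append, Eqv.refl, if_true] at e
  have : Q.Eqv (w m) (w n) := by
    by_contra hc
    rw [if_neg hc] at e
    exact one_ne_zero e
  apply Subtype.ext
  rw [← hw2 n, ← hw2 m, this.length]

theorem QP.Presents.exists_aug {A : Type} {Q : QP A} {R : Type} [Ring R] {y : A → R}
    (h : Q.Presents R y) : ∃ ε : R →+* ZMod 2, ∀ a, ε (y a) = 0 :=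
  h.lift (ZMod 2) (by decide) (fun _ => 0) ⟨fun _ _ _ _ _ => rfl, fun _ _ _ => by simp⟩
    (fun _ _ => rfl)

section Higman

variable {A : Type} {Q : QP A}

/-- Sums of terms of degree between `1` and `E`. -/
def RF.D (Q : QP A) {T B : Type} [Ring T] [Ring B] (β : B → T) (y : A → T) (E : ℕ) :
    AddSubmonoid T :=
  AddSubmonoid.closure {t | ∃ (b : B) (w : List A), 1 ≤ w.length ∧ w.length ≤ E ∧
    (∀ a ∈ w, a ∈ Q.S) ∧ t = β b * wd y w}

theorem RF.D_mono {T B : Type} [Ring T] [Ring B] (β : B → T) (y : A → T) {E E' : ℕ}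
    (h : E ≤ E') : RF.D Q β y E ≤ RF.D Q β y E' :=
  AddSubmonoid.closure_mono fun _ ⟨b, w, h1, h2, h3, h4⟩ => ⟨b, w, h1, h2.trans h, h3, h4⟩

theorem RF.nzsd (T : Type) [Ring T] [Algebra K2 T] [NoZeroSMulDivisors K2 T] (n : Type)
    [Fintype n] [DecidableEq n] : NoZeroSMulDivisors K2 (Matrix n n T) :=
  ⟨fun {c x} h => by
    by_cases hc : c = 0
    · exact Or.inl hc
    · refine Or.inr ?_
      ext i j
      exact (eq_zero_or_eq_zero_of_smul_eq_zero (congrFun (congrFun h i) j)).resolve_left hc⟩

theorem RF.sat_map {T T' : Type} [Ring T] [Ring T'] (f : T →+* T') {y : A → T} (hy : Q.Sat y) :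
    Q.Sat fun a => f (y a) :=
  ⟨fun a b c d h => by rw [← map_mul, ← map_mul, hy.1 a b c d h],
    fun a b h => by rw [← map_mul, hy.2 a b h, map_zero]⟩

theorem RF.commute_map {T B : Type} [Ring T] [Ring B] [Algebra K2 T] [Algebra K2 B]
    (β : B →ₐ[K2] T) {t : T} (hc : ∀ b, Commute (β b) t) (n : Type) [Fintype n] [DecidableEq n]
    (b : Matrix n n B) : Commute (β.mapMatrix b) (Matrix.scalar n t) := by
  change _ = _
  ext i j
  simp [Matrix.scalar_apply, Matrix.mul_diagonal, Matrix.diagonal_mul, (hc _).eq]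

theorem RF.single_mem {T B : Type} [Ring T] [Ring B] [Algebra K2 T] [Algebra K2 B]
    (β : B →ₐ[K2] T) (y : A → T) (n : Type) [Fintype n] [DecidableEq n] (E : ℕ) (i j : n)
    {t : T} (ht : t ∈ RF.D Q β y E) :
    Matrix.single i j t ∈ RF.D Q (β.mapMatrix (m := n)) (fun a => Matrix.scalar n (y a)) E := by
  induction ht using AddSubmonoid.closure_induction with
  | mem t ht =>
    obtain ⟨b, w, h1, h2, h3, rfl⟩ := ht
    refine AddSubmonoid.subset_closure ⟨Matrix.single i j b, w, h1, h2, h3, ?_⟩
    have e : wd (fun a => Matrix.scalar n (y a)) w = Matrix.scalar n (wd y w) :=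
      (RF.map_wd (T := Matrix n n T) (Matrix.scalar n) y w).symm
    rw [e]
    ext k l
    simp only [Matrix.scalar_apply, Matrix.mul_diagonal, AlgHom.mapMatrix_apply, Matrix.map_apply,
      Matrix.single_apply]
    split_ifs <;> simp
  | zero => rw [Matrix.single_zero]; exact zero_mem _
  | add s t _ _ hs ht => rw [Matrix.single_add]; exact add_mem hs ht

theorem RF.unit (hl : ∀ d, Q.LinNil d) (E : ℕ) :
    ∀ (T : Type) [Ring T] [Algebra K2 T] [NoZeroSMulDivisors K2 T]
      (B : Type) [Ring B] [Algebra K2 B] [Module.Free K2 B] [Module.Finite K2 B]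
      (β : B →ₐ[K2] T) (y : A → T), Q.Sat y → (∀ b a, Commute (β b) (y a)) →
      ∀ Y ∈ RF.D Q β y (E + 1), IsUnit (1 - Y) := by
  classical
  induction E with
  | zero =>
    intro T _ _ _ B _ _ _ _ β y hy hc Y hY
    have : ∃ ρ : A → B, Y = ∑ a ∈ Q.S, β (ρ a) * y a := by
      induction hY using AddSubmonoid.closure_induction with
      | mem t ht =>
        obtain ⟨b, w, h1, h2, h3, rfl⟩ := ht
        obtain ⟨a, rfl⟩ := List.length_eq_one_iff.mp (le_antisymm h2 h1)
        refine ⟨Pi.single a b, ?_⟩
        rw [Finset.sum_eq_single a]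
        · simp
        · intro c _ hc; simp [hc]
        · intro h; exact absurd (h3 a (by simp)) h
      | zero => exact ⟨0, by simp⟩
      | add s t _ _ hs ht =>
        obtain ⟨ρ, rfl⟩ := hs
        obtain ⟨ρ', rfl⟩ := ht
        exact ⟨ρ + ρ', by simp [add_mul, Finset.sum_add_distrib]⟩
    obtain ⟨ρ, rfl⟩ := this
    exact (hl _ T B le_rfl β y hy hc ρ).isUnit_one_sub
  | succ E ih =>
    intro T _ _ _ B _ _ _ _ β y hy hc Y hY
    have : ∃ (Y1 : T) (Y' : Q.S → T), Y1 ∈ RF.D Q β y (E + 1) ∧
        (∀ a, Y' a ∈ RF.D Q β y (E + 1)) ∧ Y = Y1 + ∑ a : Q.S, y a * Y' a := by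
      induction hY using AddSubmonoid.closure_induction with
      | mem t ht =>
        obtain ⟨b, w, h1, h2, h3, rfl⟩ := ht
        by_cases hw : w.length ≤ E + 1
        · exact ⟨_, 0, AddSubmonoid.subset_closure ⟨b, w, h1, hw, h3, rfl⟩,
            fun _ => zero_mem _, by simp⟩
        · obtain ⟨a, w', rfl⟩ := List.exists_cons_of_length_pos h1
          simp only [List.length_cons] at h2 hw
          refine ⟨0, Pi.single ⟨a, h3 a (by simp)⟩ (β b * wd y w'), zero_mem _, fun c => ?_, ?_⟩
          · rw [Pi.single_apply]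
            split_ifs
            · exact AddSubmonoid.subset_closure ⟨b, w', by omega, by omega,
                fun c hc => h3 c (by simp [hc]), rfl⟩
            · exact zero_mem _
          · rw [Finset.sum_eq_single ⟨a, h3 a (by simp)⟩]
            · simp [← mul_assoc, (hc b a).eq]
            · intro c _ hc; simp [hc]
            · simp
      | zero => exact ⟨0, 0, zero_mem _, fun _ => zero_mem _, by simp⟩
      | add s t _ _ hs ht =>
        obtain ⟨Y1, Y', h1, h2, rfl⟩ := hs
        obtain ⟨Z1, Z', g1, g2, rfl⟩ := ht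
        refine ⟨Y1 + Z1, Y' + Z', add_mem h1 g1, fun a => add_mem (h2 a) (g2 a), ?_⟩
        simp only [Pi.add_apply, mul_add, Finset.sum_add_distrib]; abel
    obtain ⟨Y1, Y', h1, h2, rfl⟩ := this
    let N : Matrix (Option Q.S) (Option Q.S) T := Matrix.of fun i j =>
      match i, j with
      | none, none => Y1
      | none, some a => y a
      | some a, none => Y' a
      | some _, some _ => 0
    have hN : ∀ i j, N i j ∈ RF.D Q β y (E + 1) := by
      rintro (_ | a) (_ | b)
      · exact h1
      · exact AddSubmonoid.subset_closure ⟨1, [b.1], by simp, by simp, by simp, by simp [N]⟩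
      · exact h2 a
      · exact zero_mem _
    have := RF.nzsd T (Option Q.S)
    have hu := ih (Matrix (Option Q.S) (Option Q.S) T) (Matrix (Option Q.S) (Option Q.S) B)
      β.mapMatrix (fun a => Matrix.scalar _ (y a)) (RF.sat_map _ hy)
      (fun b a => RF.commute_map β (fun b => hc b a) _ b) N (by
        rw [Matrix.matrix_eq_sum_single N]
        exact sum_mem fun i _ => sum_mem fun j _ => RF.single_mem β y _ _ i j (hN i j))
    obtain ⟨G, hG1, hG2⟩ := isUnit_iff_exists.mp hu
    rw [sub_mul, one_mul, sub_eq_iff_eq_add] at hG1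
    rw [mul_sub, mul_one, sub_eq_iff_eq_add] at hG2
    have e1 : ∀ a, G (some a) none = Y' a * G none none := fun a => by
      have := congrFun (congrFun hG1 (some a)) none
      simpa [Matrix.mul_apply, N] using this
    have e2 : ∀ a, G none (some a) = G none none * y a := fun a => by
      have := congrFun (congrFun hG2 none) (some a)
      simpa [Matrix.mul_apply, N] using this
    refine isUnit_iff_exists.mpr ⟨G none none, ?_, ?_⟩
    · have := congrFun (congrFun hG1 none) none
      rw [sub_mul, one_mul, sub_eq_iff_eq_add]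
      simpa [add_mul, Finset.sum_mul, Matrix.mul_apply, N, e1, mul_assoc] using this
    · have := congrFun (congrFun hG2 none) none
      rw [mul_sub, mul_one, sub_eq_iff_eq_add]
      simpa [mul_add, Finset.mul_sum, Matrix.mul_apply, N, e2, mul_assoc] using this

theorem RF.nilpotent_of_unit {R : Type} [Ring R] {M : Type} [Fintype M] [DecidableEq M]
    (a : Matrix M M R)
    (h : IsUnit (1 - Matrix.of fun i j => Polynomial.X * Polynomial.C (a i j))) :
    IsNilpotent a := by
  obtain ⟨G, hG, -⟩ := isUnit_iff_exists.mp h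
  have hc : ∀ k i j, (G i j).coeff k = (a ^ k) i j := by
    intro k
    induction k with
    | zero =>
      intro i j
      have := congrArg (fun p => Polynomial.coeff p 0) (congrFun (congrFun hG i) j)
      simpa [sub_mul, Matrix.mul_apply, mul_assoc, Matrix.one_apply, Polynomial.coeff_one,
        apply_ite (fun p : Polynomial R => Polynomial.coeff p 0)] using this
    | succ k ih =>
      intro i j
      have := congrArg (fun p => Polynomial.coeff p (k + 1)) (congrFun (congrFun hG i) j)
      rw [pow_succ', Matrix.mul_apply]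
      simpa [sub_mul, Matrix.mul_apply, mul_assoc, Matrix.one_apply, Polynomial.coeff_one,
        apply_ite (fun p : Polynomial R => Polynomial.coeff p (k + 1)), Polynomial.coeff_X_mul,
        ih, sub_eq_zero] using this
  refine ⟨(Finset.univ.sup fun p : M × M => (G p.1 p.2).natDegree) + 1, ?_⟩
  ext i j
  rw [← hc]
  exact Polynomial.coeff_eq_zero_of_natDegree_lt (Nat.lt_succ_of_le
    (Finset.le_sup (f := fun p : M × M => (G p.1 p.2).natDegree) (Finset.mem_univ (i, j))))

end Higman

attribute [local instance] Polynomial.algebra in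
theorem QP.Presents.nil {A : Type} {Q : QP A} {R : Type} [Ring R] {y : A → R}
    (h : Q.Presents R y) (hl : ∀ d, Q.LinNil d) (ε : R →+* ZMod 2) (hε : ∀ a, ε (y a) = 0)
    (M : Type) [Fintype M] [DecidableEq M] (a : Matrix M M R) (ha : ∀ i j, ε (a i j) = 0) :
    IsNilpotent a := by
  classical
  let _ : Algebra (ZMod 2) R := ZMod.algebra' R (ringChar R)
    (ringChar.dvd (by rw [Nat.cast_two, ← one_add_one_eq_two]; exact h.two 1))
  have : NoZeroSMulDivisors K2 (Polynomial R) := ⟨fun {c x} hcx => by
    by_cases hc : c = 0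
    · exact Or.inl hc
    · have hm : c.Monic := by
        have := Polynomial.leadingCoeff_ne_zero.mpr hc
        rw [Polynomial.Monic]
        revert this
        generalize c.leadingCoeff = z
        revert z
        decide
      rw [Algebra.smul_def] at hcx
      exact Or.inr ((hm.map (algebraMap (ZMod 2) R)).mul_right_eq_zero_iff.mp hcx)⟩
  let β := Algebra.ofId K2 (Polynomial R)
  let y' : A → Polynomial R := fun a => Polynomial.C (y a)
  let N : AddSubmonoid R :=
    { carrier := {r | ε r = 0 ∧ ∃ E, Polynomial.X * Polynomial.C r ∈ RF.D Q β y' E}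
      zero_mem' := ⟨map_zero _, 0, by simp⟩
      add_mem' := by
        rintro r s ⟨r0, E, hE⟩ ⟨s0, E', hE'⟩
        refine ⟨by simp [r0, s0], max E E', ?_⟩
        rw [map_add, mul_add]
        exact add_mem (RF.D_mono _ _ (le_max_left _ _) hE) (RF.D_mono _ _ (le_max_right _ _) hE') }
  have hN : ∀ r, r ∈ N ∨ r + 1 ∈ N := by
    intro r
    induction h.span r using AddSubmonoid.closure_induction with
    | mem r hr =>
      obtain ⟨w, rfl⟩ := hr
      rcases w with _ | ⟨b, w⟩
      · right; rw [wd_nil, h.two]; exact zero_mem _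
      · left
        refine ⟨by simp [hε], (b :: w).length, ?_⟩
        by_cases hS : ∀ c ∈ b :: w, c ∈ Q.S
        · refine AddSubmonoid.subset_closure ⟨Polynomial.X, b :: w, by simp, le_rfl, hS, ?_⟩
          rw [RF.map_wd]
          simp [β, y', Algebra.ofId_apply]
        · push Not at hS
          obtain ⟨c, hc, hcS⟩ := hS
          obtain ⟨u, v, e⟩ := List.append_of_mem hc
          rw [e, wd_append, wd_cons, h.out c hcS]
          simp
    | zero => exact Or.inl (zero_mem _)
    | add r s _ _ hr hs =>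
      rcases hr with hr | hr <;> rcases hs with hs | hs
      · exact Or.inl (add_mem hr hs)
      · right; rw [add_assoc]; exact add_mem hr hs
      · right; rw [add_right_comm]; exact add_mem hr hs
      · left
        have := add_mem hr hs
        rwa [add_add_add_comm, h.two 1, add_zero] at this
  have hN' : ∀ i j, ∃ E, Polynomial.X * Polynomial.C (a i j) ∈ RF.D Q β y' E := by
    intro i j
    rcases hN (a i j) with h1 | h1
    · exact h1.2
    · have := h1.1
      rw [map_add, ha, map_one, zero_add] at this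
      exact absurd this one_ne_zero
  choose E hE using hN'
  apply RF.nilpotent_of_unit
  have := RF.nzsd (Polynomial R) M
  refine RF.unit hl (Finset.univ.sup fun p : M × M => E p.1 p.2) (Matrix M M (Polynomial R))
    (Matrix M M K2) β.mapMatrix (fun a => Matrix.scalar _ (y' a))
    (RF.sat_map _ (RF.sat_map _ h.sat))
    (fun b c => RF.commute_map β (fun b => Algebra.commutes b _) _ b) _ ?_
  rw [Matrix.matrix_eq_sum_single (Matrix.of _)]
  refine sum_mem fun i _ => sum_mem fun j _ => RF.single_mem β y' _ _ i j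
    (RF.D_mono _ _ ?_ (hE i j))
  exact (Finset.le_sup (f := fun p : M × M => E p.1 p.2) (Finset.mem_univ (i, j))).trans
    (Nat.le_succ _)

end Vale.Agent.P192
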