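import Vale.Agent.P192.Transfer
import Vale.Agent.P192.FP
import Vale.Agent.P192.RingFacts

namespace Vale.Agent.P192

theorem GM.toGL_rmap {I R S : Type} [Fintype I] [DecidableEq I] [Ring R] [Ring S]
    (f : S →+* R) (g : St I S) :
    (St.toGL (St.rmap f g) : Matrix I I R) = (St.toGL g : Matrix I I S).map f := by
  have : (Units.coeHom (Matrix I I R)).comp ((St.toGL (I := I) (R := R)).comp (St.rmap f)) =
      (f.mapMatrix (m := I) : Matrix I I S →* Matrix I I R).comp
        ((Units.coeHom (Matrix I I S)).comp (St.toGL (I := I) (R := S))) := by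
    refine MonoidHom.ext fun g => ?_
    induction g using St.induction with
    | one => simp
    | step i j r g hij ih =>
      rw [map_mul, map_mul, ih]
      congr 1
      simp only [MonoidHom.comp_apply, St.rmap_x, St.toGL_x, Units.coeHom_apply,
        St.elem_val hij, MonoidHom.coe_coe, map_add, map_one, RingHom.mapMatrix_apply,
        Matrix.map_single]
  exact DFunLike.congr_fun this g

theorem GM.one_add_pow {T : Type} [Ring T] (two : ∀ t : T, t + t = 0) (a : T) (k : ℕ) :
    (1 + a) ^ (2 ^ k) = 1 + a ^ (2 ^ k) := by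
  induction k with
  | zero => simp
  | succ k ih =>
    rw [pow_succ, pow_mul, pow_mul, ih]
    have := two (a ^ 2 ^ k)
    calc (1 + a ^ 2 ^ k) ^ 2 = 1 + (a ^ 2 ^ k + a ^ 2 ^ k) + (a ^ 2 ^ k) ^ 2 := by noncomm_ring
      _ = _ := by rw [this, add_zero]

theorem GM.fg (I : Type) [Fintype I] : Group.FG (St I (ZMod 2)) := by
  rw [Group.fg_iff]
  refine ⟨Set.range fun t : I × I × ZMod 2 => St.x t.1 t.2.1 t.2.2, ?_, Set.finite_range _⟩
  rw [eq_top_iff]
  intro g _
  exact St.mem_of_x_mem _ (fun i j r => Subgroup.subset_closure (Set.mem_range_self (i, j, r))) g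

theorem QP.exists_group {A : Type} (Q : QP A) (hl : ∀ d, Q.LinNil d)
    (hn : ∀ l : ℕ, ∃ w : List A, (∀ a ∈ w, a ∈ Q.S) ∧ l ≤ w.length ∧ ¬ Q.Null w) :
    ∃ (G : Type) (_ : Group G), Group.IsFinitelyPresented G ∧ Infinite G ∧
      ∀ g : G, IsOfFinOrder g := by
  classical
  obtain ⟨R, _, y, h⟩ := Q.exists_presents
  have hinf : Infinite R := h.infinite hn
  obtain ⟨ε, hε⟩ := h.exists_aug
  have hu : ∀ r, ε r = 1 → IsUnit r := by
    intro r hr
    have h1 := h.nil hl ε hε Unit (Matrix.scalar Unit (r - 1)) (by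
      intro i j
      simp [hr])
    have h2 : IsNilpotent (r - 1) := by
      obtain ⟨n, hn⟩ := h1
      refine ⟨n, ?_⟩
      rw [← map_pow] at hn
      have := congrFun (congrFun hn ()) ()
      simpa using this
    have h3 := h2.isUnit_add_one
    simpa using h3
  let ι : ZMod 2 →+* R := ZMod.castHom (m := ringChar R)
    (ringChar.dvd (by rw [Nat.cast_two, ← one_add_one_eq_two]; exact h.two 1)) R
  have hI : 5 ≤ Fintype.card (Fin 5) := by simp
  let K0 : Subgroup (St (Fin 5) (ZMod 2)) := (St.toGL (I := Fin 5) (R := ZMod 2)).ker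
  have hfg : Group.FG (St (Fin 5) (ZMod 2)) := GM.fg _
  have hK0 : K0.FG := (Group.fg_iff_subgroup_fg K0).1 inferInstance
  obtain ⟨S, hS, hSf⟩ := (Subgroup.fg_iff K0).1 hK0
  let N : Subgroup (St (Fin 5) R) := Subgroup.normalClosure (St.rmap ι '' S)
  have hNfg : N.IsFinitelyNormallyGenerated := ⟨_, hSf.image _, rfl⟩
  have hfp : Group.IsFinitelyPresented (St (Fin 5) R) := St.fp_of_presents Q h (Fin 5) hI
  have hker : ∀ c ∈ K0, St.toGL (St.rmap ι c) = 1 := by
    intro c hc
    have hc' : St.toGL c = 1 := hc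
    ext1
    rw [GM.toGL_rmap, hc']
    simp
  have hNle : N ≤ (St.toGL (I := Fin 5) (R := R)).ker := by
    refine Subgroup.normalClosure_le_normal ?_
    rintro _ ⟨c, hc, rfl⟩
    exact hker c (hS ▸ Subgroup.subset_closure hc)
  have hKN : ∀ c ∈ K0, St.rmap ι c ∈ N := by
    intro c hc
    rw [← hS] at hc
    have : Subgroup.closure S ≤ N.comap (St.rmap ι) := by
      rw [Subgroup.closure_le]
      intro s hs
      exact Subgroup.subset_normalClosure ⟨s, hs, rfl⟩
    exact this hc
  refine ⟨St (Fin 5) R ⧸ N, inferInstance, Group.IsFinitelyPresented.quotient N hNfg, ?_, ?_⟩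
  · refine Infinite.of_injective (fun r : R => (QuotientGroup.mk (St.x 0 1 r) : St (Fin 5) R ⧸ N))
      ?_
    intro r s hrs
    have h1 := hNle (QuotientGroup.eq.1 hrs)
    rw [MonoidHom.mem_ker, map_mul, map_inv, inv_mul_eq_one, St.toGL_x, St.toGL_x] at h1
    have h2 := congrArg (fun u : (Matrix (Fin 5) (Fin 5) R)ˣ => (u : Matrix (Fin 5) (Fin 5) R) 0 1) h1
    simpa [St.elem_val (show (0 : Fin 5) ≠ 1 by decide)] using h2
  · intro g
    obtain ⟨g, rfl⟩ := QuotientGroup.mk_surjective g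
    obtain ⟨n, hn0, hn1⟩ :=
      (isOfFinOrder_of_finite (St.toGL (St.rmap ε g))).exists_pow_eq_one
    have h1 : ((St.toGL (g ^ n) : Matrix (Fin 5) (Fin 5) R)).map ε = 1 := by
      rw [← GM.toGL_rmap, map_pow, map_pow, hn1]
      rfl
    obtain ⟨k, hk⟩ := h.nil hl ε hε (Fin 5) ((St.toGL (g ^ n) : Matrix (Fin 5) (Fin 5) R) - 1) (by
      intro i j
      have := congrFun (congrFun h1 i) j
      rw [Matrix.map_apply] at this
      rw [Matrix.sub_apply, map_sub, this]
      by_cases hij : i = j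
      · subst hij; simp
      · simp [Matrix.one_apply_ne hij])
    have h2 : St.toGL ((g ^ n) ^ (2 ^ k)) = 1 := by
      ext1
      rw [map_pow, Units.val_pow_eq_pow_val]
      have h3 := GM.one_add_pow (T := Matrix (Fin 5) (Fin 5) R)
        (fun t => by ext i j; exact h.two _)
        ((St.toGL (g ^ n) : Matrix (Fin 5) (Fin 5) R) - 1) k
      rw [add_sub_cancel, pow_eq_zero_of_le (Nat.lt_two_pow_self).le hk, add_zero] at h3
      exact h3
    obtain ⟨m, hm0, c0, hc0, hc⟩ := St.transfer h ε hu ι (Fin 5) hI _ h2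
    refine isOfFinOrder_iff_pow_eq_one.2 ⟨n * 2 ^ k * m, by positivity, ?_⟩
    rw [← QuotientGroup.mk_pow, QuotientGroup.eq_one_iff, pow_mul, pow_mul, hc]
    exact hKN c0 hc0

end Vale.Agent.P192
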