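import Vale.Agent.P192.Sim

/-!
The self-simulating rewriting system: letters, rules, their compilation into a table of
micro-instructions, and configurations of the machine.
-/

namespace Vale.Agent.P192

/-- The fields of a letter. -/
inductive Fld | addr | m | ad | val | ar | q | pc | hm | ha | r1 | r2 | sh | lab
  deriving DecidableEq

def allFld : List Fld :=
  [.addr, .m, .ad, .val, .ar, .q, .pc, .hm, .ha, .r1, .r2, .sh, .lab]

theorem mem_allFld (f : Fld) : f ∈ allFld := by cases f <;> simp [allFld]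

instance : Fintype Fld := ⟨allFld.toFinset, fun f => List.mem_toFinset.2 (mem_allFld f)⟩

def Fld.idx : Fld → ℕ
  | .addr => 0 | .m => 1 | .ad => 2 | .val => 3 | .ar => 4 | .q => 5 | .pc => 6 | .hm => 7
  | .ha => 8 | .r1 => 9 | .r2 => 10 | .sh => 11 | .lab => 12

def Fld.ofIdx : ℕ → Fld
  | 0 => .addr | 1 => .m | 2 => .ad | 3 => .val | 4 => .ar | 5 => .q | 6 => .pc | 7 => .hm
  | 8 => .ha | 9 => .r1 | 10 => .r2 | 11 => .sh | _ => .lab

/-- A letter assigns a natural number to every field. -/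
abbrev Cell : Type := Fld → ℕ

/-- All fields are below `n`. -/
def Bd (n : ℕ) (a : Cell) : Prop := ∀ f, a f < n

/-! ### Formulas -/

inductive Fm (α : Type)
  | tt | ff | atom (a : α) | not (φ : Fm α) | and (φ ψ : Fm α) | or (φ ψ : Fm α)

namespace Fm

variable {α β : Type}

def eval (I : α → Prop) : Fm α → Prop
  | tt => True
  | ff => False
  | atom a => I a
  | not φ => ¬ eval I φ
  | and φ ψ => eval I φ ∧ eval I ψ
  | or φ ψ => eval I φ ∨ eval I ψ

def all : List (Fm α) → Fm α
  | [] => tt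
  | φ :: l => and φ (all l)

def any : List (Fm α) → Fm α
  | [] => ff
  | φ :: l => or φ (any l)

def bind (f : α → Fm β) : Fm α → Fm β
  | tt => tt
  | ff => ff
  | atom a => f a
  | not φ => not (bind f φ)
  | and φ ψ => and (bind f φ) (bind f ψ)
  | or φ ψ => or (bind f φ) (bind f ψ)

/-- Disjunctive normal form of the formula (`true`) or of its negation (`false`). -/
def dnf : Bool → Fm α → List (List (Bool × α))
  | pol, tt => if pol then [[]] else []
  | pol, ff => if pol then [] else [[]]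
  | pol, atom a => [[(pol, a)]]
  | pol, not φ => dnf (!pol) φ
  | true, and φ ψ => (dnf true φ).flatMap fun c => (dnf true ψ).map fun c' => c ++ c'
  | false, and φ ψ => dnf false φ ++ dnf false ψ
  | true, or φ ψ => dnf true φ ++ dnf true ψ
  | false, or φ ψ => (dnf false φ).flatMap fun c => (dnf false ψ).map fun c' => c ++ c'

theorem eval_all (I : α → Prop) (l : List (Fm α)) : (all l).eval I ↔ ∀ φ ∈ l, φ.eval I := by
  induction l with
  | nil => simp [all, eval]
  | cons φ l ih => simp [all, eval, ih]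

theorem eval_any (I : α → Prop) (l : List (Fm α)) : (any l).eval I ↔ ∃ φ ∈ l, φ.eval I := by
  induction l with
  | nil => simp [any, eval]
  | cons φ l ih => simp [any, eval, ih]

end Fm

inductive Ps | A | B | C | D
  deriving DecidableEq

abbrev Var : Type := Ps × Fld

inductive Atom
  | eq (x y : Var) | sc (x y : Var) | cst (x : Var) (c : Fin 27)

def Atom.eval (n : ℕ) (e : Var → ℕ) : Atom → Prop
  | .eq x y => e y = e x
  | .sc x y => e y = (e x + 1) % n
  | .cst x c => e x = c.val

def env (a b c d : Cell) : Var → ℕ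
  | (.A, f) => a f
  | (.B, f) => b f
  | (.C, f) => c f
  | (.D, f) => d f

/-- A rule `a b = c d`. -/
structure ERule where
  guard : Fm Atom
  body : Fm Atom
  chA : List Fld
  chB : List Fld

/-- Final test of a zero rule: none, or a comparison with one of the two tables. -/
inductive Term
  | none | tab (w : Bool) (x y : Var)

/-- A rule `a b = 0`. -/
structure ZRule where
  guard : Fm Atom
  body : Fm Atom
  term : Term

/-! ### The rules -/

def fc (p : Ps) (f : Fld) (c : Fin 27) : Fm Atom := .atom (.cst (p, f) c)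
def fe (p : Ps) (f : Fld) (p' : Ps) (f' : Fld) : Fm Atom := .atom (.eq (p', f') (p, f))
def fr0 (p : Ps) : Fm Atom :=
  .all [fc p .q 0, fc p .pc 0, fc p .hm 0, fc p .ha 0, fc p .r1 0, fc p .r2 0]
def far (i j k l : Fin 27) : Fm Atom := .all [fc .A .ar i, fc .B .ar j, fc .C .ar k, fc .D .ar l]
def far2 (i j : Fin 27) : Fm Atom := .and (fc .A .ar i) (fc .B .ar j)
def fsh2 (i j : Fin 27) : Fm Atom := .and (fc .A .sh i) (fc .B .sh j)

def gcode (md pol k s : Bool) : ℕ := 11 + 8 * md.toNat + 4 * pol.toNat + 2 * k.toNat + s.toNat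
def gcodeF (md pol k s : Bool) : Fin 27 :=
  ⟨gcode md pol k s, by cases md <;> cases pol <;> cases k <;> cases s <;> decide⟩
def sideF (s : Bool) : Fin 27 := if s then 6 else 5

/-- The condition tested by a gate. -/
def gateOK (n : ℕ) (pol k : Bool) (v r : ℕ) : Prop :=
  (if k then v = (r + 1) % n else v = r) ↔ pol = true

def fgate (pol k : Bool) : Fm Atom :=
  let t : Fm Atom := if k then .atom (.sc (.A, .r1) (.A, .val)) else .atom (.eq (.A, .r1) (.A, .val))
  if pol then t else .not t

def allB4 : List (Bool × Bool × Bool × Bool) :=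
  [false, true].flatMap fun a => [false, true].flatMap fun b => [false, true].flatMap fun c =>
    [false, true].map fun d => (a, b, c, d)

def regF : List Fld := [.ar, .q, .pc, .hm, .ha, .r1, .r2]
def ctlF : List Fld := [.q, .pc, .hm, .ha]

def erules : List ERule :=
  [ ⟨.any (List.replicate 14 .tt), .tt, [], []⟩,
    ⟨.tt, .all [.any [.and (.not (fc .B .addr 0)) (.any [far 4 3 0 4, far 5 2 0 5, far 6 3 1 6]),
        .and (fc .B .addr 0) (far 5 3 0 6)], fr0 .B, fr0 .C, fe .D .q .A .q, fe .D .pc .A .pc,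
        fe .D .hm .A .hm, fe .D .ha .A .ha, fe .D .r1 .A .r1, fe .D .r2 .A .r2], regF, regF⟩,
    ⟨.tt, .all [fc .B .addr 0, far 4 4 5 3, fc .A .q 0], [.ar], [.ar]⟩,
    ⟨.tt, .all [.any [fc .A .ar 4, fc .A .ar 5, fc .A .ar 6], fc .A .q 0, fc .B .m 0], [], [.val]⟩,
    ⟨.tt, .all [fc .A .ar 5, fc .A .m 2, fr0 .A, fc .C .q 2, fe .C .pc .A .addr, fe .C .hm .A .m,
        fe .C .ha .A .ad], ctlF, []⟩,
    ⟨.tt, .all [fc .A .ar 5, fc .A .m 3, fr0 .C, fc .A .q 1, fe .A .pc .A .addr, fe .A .hm .A .m,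
        fe .A .ha .A .ad], ctlF, []⟩,
    ⟨.tt, .all [fc .A .ar 5, fc .A .q 2, fe .A .pc .A .addr, fe .A .hm .A .m, fe .A .ha .A .ad,
        fc .C .q 1, fe .C .pc .B .addr, fe .C .hm .B .m, fe .C .ha .B .ad], ctlF, []⟩,
    ⟨.tt, .all [.any [.and (fc .A .ar 5) (fc .A .hm 7), .and (fc .A .ar 6) (fc .A .hm 8)],
        fe .A .ha .A .addr, fc .A .q 1, fc .C .q 2, fe .C .val .A .r1, fe .C .r1 .A .val],
        [.q, .val, .r1], []⟩,
    ⟨.tt, .all [.any [.and (fc .A .ar 5) (fc .A .hm 9), .and (fc .A .ar 6) (fc .A .hm 10)],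
        fe .A .ha .A .addr, fc .A .q 1, fc .C .q 2, fe .C .val .A .r2, fe .C .r2 .A .val],
        [.q, .val, .r2], []⟩,
    ⟨.tt, .all [.any (allB4.map fun t => .all [fc .A .ar (sideF t.2.2.2),
          fc .A .hm (gcodeF t.1 t.2.1 t.2.2.1 t.2.2.2), fgate t.2.1 t.2.2.1]),
        fe .A .ha .A .addr, fc .A .q 1, fc .C .q 2], [.q], []⟩,
    ⟨.and (fc .A .sh 2) (fc .D .sh 2), .all [fc .B .sh 3, fc .C .sh 1], [.sh], [.sh]⟩,
    ⟨.and (fc .A .sh 2) (fc .D .sh 2), .all [fc .B .sh 3, fc .C .sh 1, fe .C .lab .B .lab,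
        fe .D .lab .A .lab], [.sh, .lab], [.sh, .lab]⟩ ]

def farOK : Fm Atom :=
  .or (.and (.not (fc .B .addr 0)) (.any [far2 0 0, far2 0 4, far2 0 5, far2 4 3, far2 5 2,
      far2 2 2, far2 3 3, far2 1 1, far2 1 6, far2 6 3]))
    (.and (fc .B .addr 0) (.any [
      .and (.any [fc .A .ar 4, fc .A .ar 3, fc .A .ar 6])
        (.any [fc .B .ar 0, fc .B .ar 4, fc .B .ar 5]),
      far2 0 1, far2 0 6, far2 5 3, far2 2 3]))

def fshOK : Fm Atom :=
  .any [.all [.not (fc .A .m 0), fc .A .sh 0,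
      .or (.not (fc .B .m 0)) (.or (fc .B .sh 1) (fc .B .sh 2))],
    .all [fc .A .m 0, .not (fc .B .addr 0), .any [fsh2 1 1, fsh2 1 2, fsh2 2 3, fsh2 3 3]],
    .all [fc .A .m 0, fc .B .addr 0, .or (fc .A .sh 2) (fc .A .sh 3)]]

def zrules : List ZRule :=
  [ ⟨.tt, .not (.atom (.sc (.A, .addr) (.B, .addr))), .none⟩,
    ⟨.tt, .tt, .tab false (.A, .addr) (.A, .m)⟩,
    ⟨.tt, .tt, .tab true (.A, .addr) (.A, .ad)⟩,
    ⟨.tt, .all [.not (fc .A .m 0), .not (fc .A .m 1), .not (fe .A .val .A .addr)], .none⟩,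
    ⟨.tt, .not farOK, .none⟩,
    ⟨.tt, .not (.or (fr0 .A) (.and (.or (fc .A .ar 5) (fc .A .ar 6))
        (.or (fc .A .q 1) (fc .A .q 2)))), .none⟩,
    ⟨.tt, .all [fc .A .ar 5, .not (fc .A .q 0), fe .A .pc .A .addr,
        .or (.not (fe .A .hm .A .m)) (.not (fe .A .ha .A .ad))], .none⟩,
    ⟨.tt, .all [fe .A .ha .A .addr, .any (allB4.map fun t => .all [fc .A .ar (sideF t.2.2.2),
        fc .A .hm (gcodeF t.1 t.2.1 t.2.2.1 t.2.2.2), fc .A .q (if t.1 then 1 else 2),
        .not (fgate t.2.1 t.2.2.1)])], .none⟩,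
    ⟨.tt, .and (.not (fc .A .q 0)) (.any [fc .A .hm 0, fc .A .hm 1,
        .and (fc .A .hm 2) (.any [fc .A .q 1, .not (fc .A .r1 0), .not (fc .A .r2 0)]),
        .and (fc .A .hm 3) (.any [fc .A .q 2, .not (fc .A .r1 0), .not (fc .A .r2 0)]),
        fc .A .hm 4, .and (.or (fc .A .hm 5) (fc .A .hm 6)) (fc .A .q 2)]), .none⟩,
    ⟨.tt, .all [fc .B .q 1, fc .B .ar 6, fe .B .addr .B .r1,
        .or (.and (fc .B .hm 5) (.not (fe .B .m .B .r2)))
          (.and (fc .B .hm 6) (.not (fe .B .ad .B .r2)))], .none⟩,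
    ⟨.tt, .not fshOK, .none⟩,
    ⟨.not (fc .A .m 0), .not (fc .A .lab 0), .none⟩,
    ⟨fc .A .sh 2, .tt, .tab false (.A, .lab) (.A, .m)⟩,
    ⟨fc .A .sh 2, .and (fc .B .sh 3) (fe .A .lab .B .lab), .none⟩ ]

/-! ### Compilation -/

/-- Number of digits used to store a field of the next level. -/
def Dg : ℕ := 80

theorem Dg_eq : Dg = 80 := rfl

instance : NeZero Dg := ⟨by decide⟩

attribute [irreducible] Dg

inductive Loc
  | K (c : Fin 27) | D (f : Fld) (i : Fin Dg) | S (f : Fld) (i : Fin Dg)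
  deriving DecidableEq

abbrev Adr : Type := Bool × Loc

/-- Comparison of two memory cells: equality (`false`) or cyclic successor (`true`). -/
structure Test where
  kind : Bool
  α : Adr
  β : Adr

def Test.holds (n : ℕ) (μ : Adr → ℕ) (t : Test) : Prop :=
  if t.kind then μ t.β = (μ t.α + 1) % n else μ t.β = μ t.α

inductive Ins
  | x1 (α : Adr) | x2 (α : Adr) | gate (md pol k : Bool) (β : Adr)

def Ins.adr : Ins → Adr
  | .x1 α => α
  | .x2 α => α
  | .gate _ _ _ β => β

def Ins.code : Ins → ℕ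
  | .x1 α => 7 + α.1.toNat
  | .x2 α => 9 + α.1.toNat
  | .gate md pol k β => gcode md pol k β.1

inductive Last | fin | zero | tab (w : Bool)
  deriving DecidableEq

def Last.code : Last → ℕ
  | .fin => 3
  | .zero => 4
  | .tab w => 5 + w.toNat

structure Prog where
  pre : List Ins
  post : List Ins
  last : Last

def tst (k : Bool) (α β : Adr) : Fm Test :=
  if α = β then (if k then .ff else .tt) else .atom ⟨k, α, β⟩

def K0 : Adr := (false, .K 0)

/-- Address of digit `i` of a variable. -/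
def am (chA chB : List Fld) : Var → Fin Dg → Adr
  | (.A, f), i => (false, .D f i)
  | (.B, f), i => (true, .D f i)
  | (.C, f), i => (false, if f ∈ chA then .S f i else .D f i)
  | (.D, f), i => (true, if f ∈ chB then .S f i else .D f i)

def lowz (g : Fin Dg → Adr) (i : Fin Dg) : Fm Test :=
  .all (((List.finRange Dg).filter (· < i)).map fun j => tst false (g j) K0)

def highz (g : Fin Dg → Adr) : Fm Test :=
  .all (((List.finRange Dg).filter (· ≠ 0)).map fun j => tst false (g j) K0)

def atomC (a : Var → Fin Dg → Adr) : Atom → Fm Test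
  | .eq x y => .all ((List.finRange Dg).map fun i => tst false (a x i) (a y i))
  | .cst x c => .all ((List.finRange Dg).map fun i =>
      tst false (a x i) (false, .K (if i = 0 then c else 0)))
  | .sc x y => .all ((List.finRange Dg).map fun i =>
      .or (.and (lowz (a y) i) (tst true (a x i) (a y i)))
        (.and (.not (lowz (a y) i)) (tst false (a x i) (a y i))))

abbrev Clause : Type := List (Bool × Test)

def litCode (md : Bool) (l : Bool × Test) : List Ins :=
  [.x1 l.2.α, .gate md l.1 l.2.kind l.2.β, .x1 l.2.α]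

def clauseCode (md : Bool) (c : Clause) : List Ins := c.flatMap (litCode md)

/-- The involution exchanging data and scratch digits of the changed fields. -/
def swA (chA chB : List Fld) : Adr → Adr
  | (s, .K c) => (s, .K c)
  | (s, .D f i) => (s, if f ∈ (if s then chB else chA) then .S f i else .D f i)
  | (s, .S f i) => (s, if f ∈ (if s then chB else chA) then .D f i else .S f i)

def swLit (chA chB : List Fld) (l : Bool × Test) : Bool × Test :=
  (l.1, ⟨l.2.kind, swA chA chB l.2.α, swA chA chB l.2.β⟩)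

def swapSide (s : Bool) (ch : List Fld) : List Ins :=
  (allFld.filter (· ∈ ch)).flatMap fun f => (List.finRange Dg).flatMap fun i =>
    [.x1 (s, .D f i), .x1 (s, .S f i), .x1 (s, .D f i)]

def ERule.progs (ρ : ERule) : List Prog :=
  ((ρ.guard.bind (atomC (am ρ.chA ρ.chB))).dnf true).flatMap fun gc =>
    ((ρ.body.bind (atomC (am ρ.chA ρ.chB))).dnf true).map fun bc =>
      ⟨clauseCode false (gc ++ bc) ++ (swapSide false ρ.chA ++ swapSide true ρ.chB),
        clauseCode true ((bc ++ gc).map (swLit ρ.chA ρ.chB)), .fin⟩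

def Term.ends : Term → List (List Ins × Last)
  | .none => [([], .zero)]
  | .tab w x y =>
      (((highz (am [] [] x)).dnf true).map fun hc =>
        (clauseCode false hc ++ [.x1 (am [] [] x 0), .x2 (am [] [] y 0)], .tab w)) ++
      (((Fm.or (.and (.not (highz (am [] [] x))) (.not (tst false (am [] [] y 0) K0)))
          (.not (highz (am [] [] y)))).dnf true).map fun ec => (clauseCode false ec, .zero))

def ZRule.progs (ρ : ZRule) : List Prog :=
  ((ρ.guard.bind (atomC (am [] []))).dnf true).flatMap fun gc =>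
    ((ρ.body.bind (atomC (am [] []))).dnf true).flatMap fun bc =>
      ρ.term.ends.map fun e => ⟨clauseCode false (gc ++ bc) ++ e.1, [], e.2⟩

theorem exists_progs :
    ∃ l : List Prog, l = erules.flatMap ERule.progs ++ zrules.flatMap ZRule.progs := ⟨_, rfl⟩

noncomputable section

/-- All programs of the table (kept opaque so that it is never evaluated). -/
def progs : List Prog := Classical.choose exists_progs

theorem progs_eq : progs = erules.flatMap ERule.progs ++ zrules.flatMap ZRule.progs :=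
  Classical.choose_spec exists_progs

attribute [irreducible] progs

def Prog.body (π : Prog) : List Ins := π.pre ++ π.post
def Prog.len (π : Prog) : ℕ := π.body.length + 2

/-- Length of the program region. -/
def PP : ℕ := (progs.map Prog.len).sum
/-- End of the data region. -/
def P1 : ℕ := PP + 13 * Dg
/-- End of the part of the scratch region used by the programs. -/
def P2 : ℕ := PP + 26 * Dg

def Loc.adr : Loc → ℕ
  | .K c => c.val
  | .D f i => PP + f.idx * Dg + i.val
  | .S f i => P1 + f.idx * Dg + i.val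

def Prog.entry (π : Prog) (j : ℕ) : ℕ × ℕ :=
  if j = 0 then (2, 0) else
    match π.body[j - 1]? with
    | some i => (i.code, i.adr.2.adr)
    | none => (π.last.code, 0)

def locate : List Prog → ℕ → Option (Prog × ℕ)
  | [], _ => none
  | π :: l, p => if p < π.len then some (π, p) else locate l (p - π.len)

/-- The two static tables: `tb false` for the field `m`, `tb true` for the field `ad`. -/
def tb (w : Bool) (p : ℕ) : ℕ :=
  match locate progs p with
  | some (π, j) => if w then (π.entry j).2 else (π.entry j).1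
  | none => if w then 0 else if p < P1 then 1 else 0

/-! ### The presentation of level `n` -/

def ERule.holds (n : ℕ) (ρ : ERule) (a b c d : Cell) : Prop :=
  ρ.guard.eval (Atom.eval n (env a b c d)) ∧ ρ.body.eval (Atom.eval n (env a b c d)) ∧
    (∀ f, f ∉ ρ.chA → c f = a f) ∧ (∀ f, f ∉ ρ.chB → d f = b f)

def Term.holds (e : Var → ℕ) : Term → Prop
  | .none => True
  | .tab w x y => e y ≠ tb w (e x)

def ZRule.holds (n : ℕ) (ρ : ZRule) (a b : Cell) : Prop :=
  ρ.guard.eval (Atom.eval n (env a b a b)) ∧ ρ.body.eval (Atom.eval n (env a b a b)) ∧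
    ρ.term.holds (env a b a b)

def alph (n : ℕ) : Finset Cell := Fintype.piFinset fun _ => Finset.range n

theorem mem_alph {n : ℕ} {a : Cell} : a ∈ alph n ↔ Bd n a := by
  simp [alph, Bd]

/-- The presentation of level `n`. -/
def Lv (n : ℕ) : QP Cell where
  S := alph n
  E a b c d := (Bd n a ∧ Bd n b ∧ Bd n c ∧ Bd n d) ∧ ∃ ρ ∈ erules, ρ.holds n a b c d
  Z a b := (Bd n a ∧ Bd n b) ∧ ∃ ρ ∈ zrules, ρ.holds n a b
  E_mem a b c d h := by simpa [mem_alph] using h.1
  Z_mem a b h := by simpa [mem_alph] using h.1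

/-! ### Program semantics -/

structure PS where
  mem : Adr → ℕ
  r1 : ℕ
  r2 : ℕ

def Ins.exec : Ins → PS → PS
  | .x1 α, σ => ⟨Function.update σ.mem α σ.r1, σ.mem α, σ.r2⟩
  | .x2 α, σ => ⟨Function.update σ.mem α σ.r2, σ.r1, σ.mem α⟩
  | .gate _ _ _ _, σ => σ

def Ins.ok (n : ℕ) : Ins → PS → Prop
  | .gate _ pol k β, σ => gateOK n pol k (σ.mem β) σ.r1
  | _, _ => True

def fwd : List Ins → PS → PS
  | [], σ => σ
  | i :: l, σ => fwd l (i.exec σ)

def bwd (l : List Ins) (σ : PS) : PS := fwd l.reverse σ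

def okAll (n : ℕ) : List Ins → PS → Prop
  | [], _ => True
  | i :: l, σ => i.ok n σ ∧ okAll n l (i.exec σ)

/-- Validity of a memory state. -/
def MV (n : ℕ) (σ : PS) : Prop :=
  (∀ α, σ.mem α < n) ∧ (∀ s c, σ.mem (s, .K c) = c.val) ∧ σ.r1 < n ∧ σ.r2 < n

def dig (n X i : ℕ) : ℕ := X / n ^ i % n

/-- The letter of the next level stored on side `s`. -/
def letter (n : ℕ) (μ : Adr → ℕ) (s : Bool) : Cell :=
  fun f => ∑ i : Fin Dg, μ (s, .D f i) * n ^ i.val

def Last.cond : Last → PS → Prop
  | .fin, _ => False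
  | .zero, _ => True
  | .tab w, σ => σ.r2 ≠ tb w σ.r1

def Prog.Ok (n : ℕ) (π : Prog) (e : ℕ) (σ : PS) : Prop :=
  if e ≤ π.pre.length then
    (bwd (π.pre.take e) σ).r1 = 0 ∧ (bwd (π.pre.take e) σ).r2 = 0 ∧
      okAll n (π.pre.take e) (bwd (π.pre.take e) σ)
  else
    okAll n (π.post.drop (e - π.pre.length)) σ ∧
      (fwd (π.post.drop (e - π.pre.length)) σ).r1 = 0 ∧
      (fwd (π.post.drop (e - π.pre.length)) σ).r2 = 0

def Prog.dmem (π : Prog) (e : ℕ) (σ : PS) : Adr → ℕ :=
  if e ≤ π.pre.length then (bwd (π.pre.take e) σ).mem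
  else (fwd (π.post.drop (e - π.pre.length)) σ).mem

/-! ### Configurations -/

/-- A configuration of one block (`two = false`) or of two joined blocks. -/
structure Cfg where
  two : Bool
  h : ℕ
  q : ℕ
  pc : ℕ
  hm : ℕ
  ha : ℕ
  r1 : ℕ
  r2 : ℕ
  mem : ℕ → ℕ
  s0 : ℕ
  s1 : ℕ
  lab : ℕ → ℕ

/-- Address of position `x` inside its block. -/
def adx (n x : ℕ) : ℕ := if x < n then x else x - n

/-- Position of a symbolic address. -/
def pos (n : ℕ) (α : Adr) : ℕ := if α.1 then n + α.2.adr else α.2.adr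

namespace Cfg

def len (n : ℕ) (c : Cfg) : ℕ := if c.two then 2 * n else n

def cell (n : ℕ) (c : Cfg) (x : ℕ) : Cell
  | .addr => adx n x
  | .m => tb false (adx n x)
  | .ad => tb true (adx n x)
  | .val => c.mem x
  | .ar => if x < c.h then (if x < n then 0 else 1)
      else if x = c.h then (if c.two then (if x < n then 5 else 6) else 4)
      else (if c.two ∧ x < n then 2 else 3)
  | .q => if x = c.h then c.q else 0
  | .pc => if x = c.h then c.pc else 0
  | .hm => if x = c.h then c.hm else 0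
  | .ha => if x = c.h then c.ha else 0
  | .r1 => if x = c.h then c.r1 else 0
  | .r2 => if x = c.h then c.r2 else 0
  | .sh => if adx n x < P1 then 0
      else if x < (if x < n then c.s0 else c.s1) then 1
      else if x = (if x < n then c.s0 else c.s1) then 2 else 3
  | .lab => if adx n x < P1 then 0 else c.lab x

def render (n : ℕ) (c : Cfg) : List Cell := (List.range (c.len n)).map (c.cell n)

/-- All registers vanish. -/
def Free (c : Cfg) : Prop := c.q = 0 ∧ c.pc = 0 ∧ c.hm = 0 ∧ c.ha = 0 ∧ c.r1 = 0 ∧ c.r2 = 0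

/-- Structural validity. -/
structure SV (n : ℕ) (c : Cfg) : Prop where
  h_lt : c.h < c.len n
  regs : c.pc < n ∧ c.hm < n ∧ c.ha < n ∧ c.r1 < n ∧ c.r2 < n
  ctl : c.Free ∨ (c.two = true ∧ (c.q = 1 ∨ c.q = 2))
  mem_lt : ∀ x, x < c.len n → c.mem x < n
  mem_prog : ∀ x, x < c.len n → adx n x < PP → c.mem x = adx n x
  s0_mem : P1 ≤ c.s0 ∧ c.s0 < n
  s1_mem : c.two = true → n + P1 ≤ c.s1 ∧ c.s1 < 2 * n
  lab_lt : ∀ x, x < c.len n → c.lab x < n

/-- The labels of each window are a permutation of the window addresses. -/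
structure TokOK (n : ℕ) (c : Cfg) : Prop where
  lab_ge : ∀ x, x < c.len n → P1 ≤ adx n x → P1 ≤ c.lab x
  lab_inj : ∀ x y, x < c.len n → y < c.len n → P1 ≤ adx n x → P1 ≤ adx n y → (x < n ↔ y < n) →
    c.lab x = c.lab y → x = y

def ps (n : ℕ) (c : Cfg) : PS := ⟨fun α => c.mem (pos n α), c.r1, c.r2⟩

/-- Number of executed instructions of the body. -/
def ex (c : Cfg) (j : ℕ) : ℕ := if c.q = 1 then j - 1 else j

def Legit (n : ℕ) (c : Cfg) : Prop :=
  c.q = 0 ∨ ∃ π j, locate progs c.pc = some (π, j) ∧ c.hm = (π.entry j).1 ∧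
    c.ha = (π.entry j).2 ∧ (c.q = 1 → 1 ≤ j) ∧ (c.q = 2 → j ≤ π.body.length) ∧
    π.Ok n (c.ex j) (c.ps n)

def dmem (n : ℕ) (c : Cfg) : Adr → ℕ :=
  if c.q = 0 then (c.ps n).mem else
    match locate progs c.pc with
    | some (π, j) => π.dmem (c.ex j) (c.ps n)
    | none => (c.ps n).mem

/-- The word of the next level encoded by the configuration. -/
def dec (n : ℕ) (c : Cfg) : List Cell :=
  if c.two then [letter n (c.dmem n) false, letter n (c.dmem n) true]
  else [letter n (c.dmem n) false]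

structure Valid (n : ℕ) (c : Cfg) : Prop where
  sv : c.SV n
  tok : c.TokOK n
  legit : c.Legit n

end Cfg

/-- The idle configuration storing the letter `a`. -/
def idle (n : ℕ) (a : Cell) : Cfg where
  two := false
  h := 0
  q := 0
  pc := 0
  hm := 0
  ha := 0
  r1 := 0
  r2 := 0
  mem x := if x < PP then x else if x < P1 then
    dig n (a (Fld.ofIdx ((x - PP) / Dg))) ((x - PP) % Dg) else 0
  s0 := P1
  s1 := 0
  lab x := x

def phi (n : ℕ) (a : Cell) : List Cell := (idle n a).render n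

def startC (a : Cell) : Prop := a .addr = 0 ∧ (a .ar = 0 ∨ a .ar = 4 ∨ a .ar = 5)

/-- The level is large enough to hold the table. -/
def Big (n : ℕ) : Prop := P2 + 2 ≤ n

end

end Vale.Agent.P192
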