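import Vale.Agent.P192.Red1

namespace Vale.Agent.P192

namespace Red2

open Finset

section ModAt

variable {A : Type} {p D : ℕ}

theorem length_regAt {g : List A} (h : p + D ≤ g.length) : (regAt p D g).length = D := by
  simp only [regAt, List.length_take, List.length_drop]; omega

theorem split_regAt (g : List A) : g.take p ++ regAt p D g ++ g.drop (p + D) = g := by
  rw [regAt, List.append_assoc, ← List.drop_drop, List.take_append_drop, List.take_append_drop]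

theorem modAt_eq_self {f : List A → List A} {g : List A} (h : f (regAt p D g) = regAt p D g) :
    modAt p D f g = g := by
  rw [modAt, h, split_regAt]

theorem modAt_of_split (f : List A → List A) {u r v : List A} (hu : u.length = p)
    (hr : r.length = D) : modAt p D f (u ++ r ++ v) = u ++ f r ++ v := by
  subst hu hr
  have h1 : (u ++ r ++ v).take u.length = u := by simp [List.append_assoc]
  have h2 : regAt u.length r.length (u ++ r ++ v) = r := by simp [regAt, List.append_assoc]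
  have h3 : (u ++ r ++ v).drop (u.length + r.length) = v := by
    rw [← List.length_append]; simp
  rw [modAt, h1, h2, h3]

theorem modAt_modAt {f f' : List A → List A} {g : List A} (h : p + D ≤ g.length)
    (hf : ∀ r, (f' r).length = r.length) :
    modAt p D f (modAt p D f' g) = modAt p D (fun r => f (f' r)) g := by
  rw [modAt.eq_1 p D f' g, modAt_of_split f (by simp; omega) (by rw [hf, length_regAt h])]
  rfl

end ModAt

variable {A A' : Type} {Q : QP A} {Q' : QP A'} {σ : Sim Q Q'} (τ : Tok σ)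
  {B : Type} [Ring B] [Algebra QP.K2 B]

open Classical in
theorem sum_relabel (ρ : A → B) {Λ : Finset ℕ} (hΛ : Λ ⊆ τ.Lab) (p : ℕ → QP.K2)
    (hp : ∀ c ∈ τ.C, ∑ l ∈ Λ, p l • wd ρ (τ.put c l) = 0) {o n : ℕ} (hon : o + τ.D ≤ n)
    (P : List A → ℕ → Prop)
    (h1 : ∀ g l, P g l → g.length = n ∧ ∀ x ∈ g, x ∈ Q.S)
    (h2 : ∀ g l, P g l → τ.put (regAt o τ.D g) l = regAt o τ.D g ∧
      τ.put (regAt o τ.D g) τ.l0 ∈ τ.C ∧
      ∀ l' ∈ τ.Lab, P (modAt o τ.D (fun r => τ.put r l') g) l') :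
    ∑ l ∈ Λ, p l • ∑ g ∈ words Q.S n, (if P g l then wd ρ g else 0) = 0 := by
  rcases Λ.eq_empty_or_nonempty with rfl | ⟨l1, hl1⟩
  · simp
  have key : ∀ {g l l'}, P g l →
      modAt o τ.D (fun r => τ.put r l) (modAt o τ.D (fun r => τ.put r l') g) = g := by
    intro g l l' hg
    rw [modAt_modAt (by rw [(h1 g l hg).1]; exact hon) (fun r => τ.put_len r l')]
    exact modAt_eq_self (by rw [τ.put_put]; exact (h2 g l hg).1)
  have h3 : ∀ l ∈ Λ, ∑ g ∈ words Q.S n, (if P g l then wd ρ g else 0)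
      = ∑ g ∈ (words Q.S n).filter (fun g => P g l1),
        wd ρ (modAt o τ.D (fun r => τ.put r l) g) := by
    intro l hl
    rw [← sum_filter]
    symm
    refine sum_nbij' (fun g => modAt o τ.D (fun r => τ.put r l) g)
      (fun g => modAt o τ.D (fun r => τ.put r l1) g) (fun g hg => ?_) (fun g hg => ?_)
      (fun g hg => key (mem_filter.1 hg).2) (fun g hg => key (mem_filter.1 hg).2) (fun _ _ => rfl)
    · have := (h2 g l1 (mem_filter.1 hg).2).2.2 l (hΛ hl)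
      exact mem_filter.2 ⟨mem_words.2 (h1 _ _ this), this⟩
    · have := (h2 g l (mem_filter.1 hg).2).2.2 l1 (hΛ hl1)
      exact mem_filter.2 ⟨mem_words.2 (h1 _ _ this), this⟩
  rw [sum_congr rfl fun l hl => by rw [h3 l hl, smul_sum], sum_comm]
  refine sum_eq_zero fun g hg => ?_
  have h4 := hp _ (h2 g l1 (mem_filter.1 hg).2).2.1
  simp only [τ.put_put] at h4
  simp only [modAt, wd_append]
  have : ∀ l, p l • (wd ρ (g.take o) * wd ρ (τ.put (regAt o τ.D g) l) * wd ρ (g.drop (o + τ.D)))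
      = wd ρ (g.take o) * (p l • wd ρ (τ.put (regAt o τ.D g) l)) * wd ρ (g.drop (o + τ.D)) := by
    intro l; rw [mul_smul_comm, smul_mul_assoc]
  simp only [this]
  rw [← sum_mul, ← mul_sum, h4, mul_zero, zero_mul]

section SL

variable (ρ : A → B) {Λ : Finset ℕ} (hΛ : Λ ⊆ τ.Lab) (p : ℕ → QP.K2)
    (hp : ∀ c ∈ τ.C, ∑ l ∈ Λ, p l • wd ρ (τ.put c l) = 0)
include hΛ hp

theorem sl1 {a : A'} (hw : τ.win a) (hl : ¬ τ.loud a) :
    ∑ l ∈ Λ, p l • σ.N1 ρ (τ.setLab a l) = 0 := by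
  refine sum_relabel τ ρ hΛ p hp τ.oD (fun g l => σ.D1 g (τ.setLab a l))
    (fun g l h => ⟨(σ.D1_spec _ _ h).2.1, (σ.D1_spec _ _ h).2.2.1⟩) (fun g l h => ?_)
  have := τ.B1 g _ h ((τ.win_set _ _).2 hw) (by rwa [τ.loud_set])
  simpa only [τ.lab_set, τ.set_set] using this

theorem sl2L {a b : A'} (hw : τ.win a) (hl : ¬ τ.loud a) (hl' : ¬ τ.loud b) :
    ∑ l ∈ Λ, p l • σ.N2 ρ (τ.setLab a l) b = 0 := by
  have := τ.oD
  refine sum_relabel τ ρ hΛ p hp (o := τ.o) (by omega) (fun g l => σ.D2 g (τ.setLab a l) b)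
    (fun g l h => ⟨(σ.D2_spec _ _ _ h).2.2.1, (σ.D2_spec _ _ _ h).2.2.2.1⟩) (fun g l h => ?_)
  have := τ.B2L g _ _ h ((τ.win_set _ _).2 hw) (by rwa [τ.loud_set]) hl'
  simpa only [τ.lab_set, τ.set_set] using this

theorem sl2R {a b : A'} (hw : τ.win b) (hl : ¬ τ.loud a) (hl' : ¬ τ.loud b) :
    ∑ l ∈ Λ, p l • σ.N2 ρ a (τ.setLab b l) = 0 := by
  have := τ.oD
  refine sum_relabel τ ρ hΛ p hp (o := σ.n + τ.o) (by omega)
    (fun g l => σ.D2 g a (τ.setLab b l))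
    (fun g l h => ⟨(σ.D2_spec _ _ _ h).2.2.1, (σ.D2_spec _ _ _ h).2.2.2.1⟩) (fun g l h => ?_)
  have := τ.B2R g _ _ h ((τ.win_set _ _).2 hw) hl (by rwa [τ.loud_set])
  simpa only [τ.lab_set, τ.set_set] using this

end SL

/-- Relabel the letter at position `j`. -/
def upd (w : List A') (j l : ℕ) : List A' := w.set j (τ.setLab (w.getD j τ.dflt) l)

/-- Position `j` can be relabelled. -/
def Quiet (w : List A') (j : ℕ) : Prop :=
  j < w.length ∧ τ.win (w.getD j τ.dflt) ∧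
    ∀ i, i < w.length → j ≤ i + 1 → i ≤ j + 1 → ¬ τ.loud (w.getD i τ.dflt)

theorem Quiet.tail {a : A'} {w : List A'} {j : ℕ} (h : Quiet τ (a :: w) (j + 1)) : Quiet τ w j :=
  ⟨by simpa using h.1, h.2.1, fun i h1 h2 h3 =>
    h.2.2 (i + 1) (by simpa using h1) (by omega) (by omega)⟩

theorem sl (ρ : A → B) {Λ : Finset ℕ} (hΛ : Λ ⊆ τ.Lab) (p : ℕ → QP.K2)
    (hp : ∀ c ∈ τ.C, ∑ l ∈ Λ, p l • wd ρ (τ.put c l) = 0) :
    ∀ (w : List A') (j : ℕ), Quiet τ w j → ∑ l ∈ Λ, p l • σ.N ρ (upd τ w j l) = 0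
  | [], j, h => absurd h.1 (by simp)
  | [a], j, h => by
    obtain rfl : j = 0 := by simpa using h.1
    exact sl1 τ ρ hΛ p hp h.2.1 (h.2.2 0 (by simp) (by omega) (by omega))
  | a :: b :: w, 0, h => by
    have ha : ¬ τ.loud a := h.2.2 0 (by simp) (by omega) (by omega)
    have hb : ¬ τ.loud b := h.2.2 1 (by simp) (by omega) (by omega)
    have : ∀ l, p l • σ.N ρ (upd τ (a :: b :: w) 0 l)
        = (p l • σ.N1 ρ (τ.setLab a l)) * σ.N ρ (b :: w)
          + (p l • σ.N2 ρ (τ.setLab a l) b) * σ.N ρ w := by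
      intro l
      rw [smul_mul_assoc, smul_mul_assoc, ← smul_add]; rfl
    simp only [this]
    rw [sum_add_distrib, ← sum_mul, ← sum_mul, sl1 τ ρ hΛ p hp (a := a) h.2.1 ha,
      sl2L τ ρ hΛ p hp (a := a) h.2.1 ha hb]
    simp
  | a :: b :: w, 1, h => by
    have ha : ¬ τ.loud a := h.2.2 0 (by simp) (by omega) (by omega)
    have hb : ¬ τ.loud b := h.2.2 1 (by simp) (by omega) (by omega)
    have : ∀ l, p l • σ.N ρ (upd τ (a :: b :: w) 1 l)
        = σ.N1 ρ a * (p l • σ.N ρ (upd τ (b :: w) 0 l))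
          + (p l • σ.N2 ρ a (τ.setLab b l)) * σ.N ρ w := by
      intro l
      rw [smul_mul_assoc, mul_smul_comm, ← smul_add]; rfl
    simp only [this]
    rw [sum_add_distrib, ← sum_mul, ← mul_sum, sl ρ hΛ p hp (b :: w) 0 h.tail,
      sl2R τ ρ hΛ p hp (b := b) h.2.1 ha hb]
    simp
  | a :: b :: w, j + 2, h => by
    have : ∀ l, p l • σ.N ρ (upd τ (a :: b :: w) (j + 2) l)
        = σ.N1 ρ a * (p l • σ.N ρ (upd τ (b :: w) (j + 1) l))
          + σ.N2 ρ a b * (p l • σ.N ρ (upd τ w j l)) := by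
      intro l
      rw [mul_smul_comm, mul_smul_comm, ← smul_add]; rfl
    simp only [this]
    rw [sum_add_distrib, ← mul_sum, ← mul_sum, sl ρ hΛ p hp (b :: w) (j + 1) h.tail,
      sl ρ hΛ p hp w j h.tail.tail]
    simp

theorem getD_upd_self {w : List A'} {j : ℕ} (h : j < w.length) (l : ℕ) :
    (upd τ w j l).getD j τ.dflt = τ.setLab (w.getD j τ.dflt) l := by
  simp [upd, h]

theorem getD_upd_ne {w : List A'} {j i : ℕ} (h : j ≠ i) (l : ℕ) :
    (upd τ w j l).getD i τ.dflt = w.getD i τ.dflt := by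
  simp [upd, List.getElem?_set_ne h]

theorem upd_upd {w : List A'} {j : ℕ} (h : j < w.length) (l l' : ℕ) :
    upd τ (upd τ w j l) j l' = upd τ w j l' := by
  rw [upd, getD_upd_self τ h, τ.set_set, upd, List.set_set]; rfl

theorem upd_self {w : List A'} {j l : ℕ} (h : j < w.length) (hl : τ.lab (w.getD j τ.dflt) = l) :
    upd τ w j l = w := by
  subst hl
  rw [upd, τ.set_lab, List.getD_eq_getElem _ _ h, List.set_getElem_self]

theorem length_upd (w : List A') (j l : ℕ) : (upd τ w j l).length = w.length := by simp [upd]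

theorem J_upd (w : List A') (j l : ℕ) : τ.J (upd τ w j l) = τ.J w := τ.J_inv w j l

/-- The labels carried by the relabellable positions. -/
def Lam (w : List A') : Finset ℕ := (τ.J w).image (fun j => τ.lab (w.getD j τ.dflt))

/-- The position that carries a given label. -/
noncomputable def pos (w : List A') (l : ℕ) : ℕ :=
  Classical.epsilon (fun j => j ∈ τ.J w ∧ τ.lab (w.getD j τ.dflt) = l)

theorem pos_spec {w : List A'} {l : ℕ} (h : l ∈ Lam τ w) :
    pos τ w l ∈ τ.J w ∧ τ.lab (w.getD (pos τ w l) τ.dflt) = l :=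
  Classical.epsilon_spec (mem_image.1 h)

/-- Long words that are not zero. -/
def Gd (m : ℕ) (w : List A') : Prop := w ∈ words Q'.S m ∧ τ.m0 ≤ m ∧ ¬ Q'.Null w

theorem Gd.spec {m : ℕ} {w : List A'} (h : Gd τ m w) :
    τ.r ≤ (τ.J w).card ∧ (∀ j ∈ τ.J w, Quiet τ w j) ∧
    (∀ j ∈ τ.J w, ∀ j' ∈ τ.J w, τ.lab (w.getD j τ.dflt) = τ.lab (w.getD j' τ.dflt) → j = j') ∧
    (∀ j ∈ τ.J w, ∀ j' ∈ τ.J w, Q'.Eqv w
      ((w.set j (τ.setLab (w.getD j τ.dflt) (τ.lab (w.getD j' τ.dflt)))).set j'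
        (τ.setLab (w.getD j' τ.dflt) (τ.lab (w.getD j τ.dflt))))) :=
  τ.J_spec w (mem_words.1 h.1).2 (by rw [(mem_words.1 h.1).1]; exact h.2.1) h.2.2

theorem Gd.of_eqv {m : ℕ} {w w' : List A'} (h : Gd τ m w) (e : Q'.Eqv w w') : Gd τ m w' :=
  ⟨mem_words.2 ⟨e.length ▸ (mem_words.1 h.1).1, e.mem_iff.1 (mem_words.1 h.1).2⟩, h.2.1,
    fun h' => h.2.2 (h'.of_eqv e)⟩

theorem Gd.pos_eq {m : ℕ} {w : List A'} (h : Gd τ m w) {j l : ℕ} (hj : j ∈ τ.J w)
    (hl : τ.lab (w.getD j τ.dflt) = l) : pos τ w l = j := by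
  have := pos_spec τ (w := w) (l := l) (mem_image.2 ⟨j, hj, hl⟩)
  exact (h.spec τ).2.2.1 _ this.1 _ hj (this.2.trans hl.symm)

/-- Exchange two labels. -/
noncomputable def swp (l0 l : ℕ) (w : List A') : List A' :=
  upd τ (upd τ w (pos τ w l0) l) (pos τ w l) l0

theorem swp_spec {m : ℕ} {w : List A'} (h : Gd τ m w) {l0 l : ℕ} (h0 : l0 ∈ Lam τ w)
    (hl : l ∈ Lam τ w) (hne : l ≠ l0) :
    Q'.Eqv w (swp τ l0 l w) ∧ Lam τ (swp τ l0 l w) = Lam τ w ∧ swp τ l0 l w ≠ w ∧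
      upd τ (swp τ l0 l w) (pos τ (swp τ l0 l w) l0) l = upd τ w (pos τ w l0) l ∧
      swp τ l0 l (swp τ l0 l w) = w := by
  obtain ⟨a1, a2⟩ := pos_spec τ h0
  obtain ⟨b1, b2⟩ := pos_spec τ hl
  obtain ⟨-, s2, s3, s4⟩ := h.spec τ
  have hsw : swp τ l0 l w = upd τ (upd τ w (pos τ w l0) l) (pos τ w l) l0 := rfl
  generalize pos τ w l0 = j0 at *
  generalize pos τ w l = jl at *
  generalize swp τ l0 l w = w' at *
  have hj : j0 ≠ jl := fun e => hne (by rw [← a2, ← b2, e])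
  have lt0 : j0 < w.length := (s2 _ a1).1
  have ltl : jl < (upd τ w j0 l).length := by rw [length_upd]; exact (s2 _ b1).1
  have e : Q'.Eqv w w' := by
    have := s4 _ a1 _ b1
    rw [a2, b2] at this
    rw [hsw, upd, getD_upd_ne τ hj]; exact this
  have hJ : τ.J w' = τ.J w := by rw [hsw, J_upd, J_upd]
  have g0 : τ.lab (w'.getD j0 τ.dflt) = l := by
    rw [hsw, getD_upd_ne τ hj.symm, getD_upd_self τ lt0, τ.lab_set]
  have gl : τ.lab (w'.getD jl τ.dflt) = l0 := by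
    rw [hsw, getD_upd_self τ ltl, τ.lab_set]
  have go : ∀ j, j ≠ j0 → j ≠ jl → w'.getD j τ.dflt = w.getD j τ.dflt := fun j h1 h2 => by
    rw [hsw, getD_upd_ne τ h2.symm, getD_upd_ne τ h1.symm]
  have h' := h.of_eqv τ e
  have p0 : pos τ w' l0 = jl := h'.pos_eq τ (hJ ▸ b1) gl
  have pl : pos τ w' l = j0 := h'.pos_eq τ (hJ ▸ a1) g0
  have u1 : upd τ w' jl l = upd τ w j0 l := by
    rw [hsw, upd_upd τ ltl, upd_self τ ltl (by rw [getD_upd_ne τ hj, b2])]
  refine ⟨e, ?_, fun e' => hne (by rw [← g0, e', a2]), by rw [p0, u1], ?_⟩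
  · ext x
    simp only [Lam, mem_image, hJ]
    constructor
    · rintro ⟨j, hj1, rfl⟩
      by_cases c0 : j = j0
      · exact ⟨jl, b1, by rw [c0, g0, b2]⟩
      by_cases cl : j = jl
      · exact ⟨j0, a1, by rw [cl, gl, a2]⟩
      · exact ⟨j, hj1, by rw [go j c0 cl]⟩
    · rintro ⟨j, hj1, rfl⟩
      by_cases c0 : j = j0
      · exact ⟨jl, b1, by rw [c0, gl, a2]⟩
      by_cases cl : j = jl
      · exact ⟨j0, a1, by rw [cl, g0, b2]⟩
      · exact ⟨j, hj1, by rw [go j c0 cl]⟩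
  · rw [swp, p0, pl, u1, upd_upd τ lt0, upd_self τ lt0 a2]

theorem exists_dep [Module.Free QP.K2 B] [Module.Finite QP.K2 B] {d : ℕ}
    (hd : Module.finrank QP.K2 B ≤ d) (ρ : A → B) {Λ : Finset ℕ} (hΛ : τ.C.card * d < Λ.card) :
    ∃ p : ℕ → QP.K2, (∃ l ∈ Λ, p l ≠ 0) ∧ ∀ c ∈ τ.C, ∑ l ∈ Λ, p l • wd ρ (τ.put c l) = 0 := by
  classical
  have h1 : ¬ LinearIndependent QP.K2 (fun (l : Λ) (c : τ.C) => wd ρ (τ.put c l)) := by
    intro h
    have h2 := h.fintype_card_le_finrank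
    rw [Module.finrank_pi_fintype, Fintype.card_coe] at h2
    simp only [sum_const, card_univ, Fintype.card_coe, smul_eq_mul] at h2
    have := Nat.mul_le_mul_left τ.C.card hd
    omega
  obtain ⟨g, hg, l, hl⟩ := Fintype.not_linearIndependent_iff.1 h1
  refine ⟨fun l => if h : l ∈ Λ then g ⟨l, h⟩ else 0, ⟨l, l.2, by simpa using hl⟩, fun c hc => ?_⟩
  have := congrFun hg ⟨c, hc⟩
  rw [Finset.sum_apply] at this
  rw [← sum_coe_sort]
  simpa using this

end Red2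

open Red2 Finset in
theorem Tok.linNil {A A' : Type} {Q : QP A} {Q' : QP A'} {σ : Sim Q Q'} (τ : Tok σ) (d : ℕ)
    (h : τ.C.card * d < τ.r) : Q.LinNil d := by
  classical
  intro T _ _ _ B _ _ _ _ hd β y hy _hc ρ
  refine σ.nil_of_Tm β.toRingHom y hy _hc ρ τ.m0 fun m hm => ?_
  set y' : A' → T := fun a => wd y (σ.φ a) with hy'
  have hs : Q'.Sat y' := ⟨fun a b c d h => by
      have := hy.eqv (σ.simE a b c d h)
      rwa [wd_append, wd_append] at this, fun a b h => by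
      have := hy.null (σ.simZ a b h)
      rwa [wd_append] at this⟩
  have two : ∀ t : T, t + t = 0 := fun t => by
    rw [← two_smul QP.K2 t, show (2 : QP.K2) = 0 from CharTwo.two_eq_zero, zero_smul]
  show ∑ w ∈ words Q'.S m, β (σ.N ρ w) * wd y' w = 0
  rw [← sum_filter_add_sum_filter_not _ (fun w => Q'.Null w),
    sum_eq_zero fun w hw => by rw [hs.null (mem_filter.1 hw).2, mul_zero], zero_add]
  set W := (words Q'.S m).filter (fun w => ¬ Q'.Null w) with hW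
  have hG : ∀ w, w ∈ W ↔ Gd τ m w := fun w => by simp [hW, Gd, hm]
  rw [← sum_fiberwise_of_maps_to (t := W.image (Lam τ)) (g := Lam τ)
    (fun w hw => mem_image_of_mem _ hw)]
  refine sum_eq_zero fun Λ hΛ => ?_
  obtain ⟨w₀, hw₀, hw₀'⟩ := mem_image.1 hΛ
  have s0 := ((hG _).1 hw₀).spec τ
  have hcard : τ.C.card * d < Λ.card := by
    rw [← hw₀', Lam, card_image_of_injOn fun j hj j' hj' e => s0.2.2.1 j hj j' hj' e]
    exact h.trans_le s0.1
  have hLab : Λ ⊆ τ.Lab := by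
    intro l hl
    rw [← hw₀'] at hl
    obtain ⟨j, hj, rfl⟩ := mem_image.1 hl
    refine τ.lab_mem _ ((mem_words.1 ((hG _).1 hw₀).1).2 _ ?_)
    rw [List.getD_eq_getElem _ _ (s0.2.1 j hj).1]
    exact List.getElem_mem _
  obtain ⟨p, ⟨l0, hl0, hp0⟩, hp⟩ := exists_dep τ hd ρ hcard
  refine (NoZeroSMulDivisors.eq_zero_or_eq_zero_of_smul_eq_zero (c := p l0) ?_).resolve_left hp0
  have h1 : ∀ w ∈ W.filter (fun w => Lam τ w = Λ), p l0 • (β (σ.N ρ w) * wd y' w)
      = ∑ l ∈ Λ.erase l0, p l • (β (σ.N ρ (upd τ w (pos τ w l0) l)) * wd y' w) := by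
    intro w hw
    obtain ⟨hw1, hw2⟩ := mem_filter.1 hw
    obtain ⟨a1, a2⟩ := pos_spec τ (w := w) (l := l0) (hw2 ▸ hl0)
    have q := (((hG _).1 hw1).spec τ).2.1 _ a1
    have h2 := congrArg (fun b => β b * wd y' w) (sl τ ρ hLab p hp w _ q)
    simp only [map_zero, zero_mul, map_sum, map_smul, sum_mul, smul_mul_assoc] at h2
    rw [← add_sum_erase _ _ hl0, upd_self τ q.1 a2] at h2
    rw [← add_zero (p l0 • _), ← two (∑ l ∈ Λ.erase l0, _), ← add_assoc, h2, zero_add]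
  rw [smul_sum, sum_congr rfl h1, sum_comm]
  refine sum_eq_zero fun l hl => ?_
  obtain ⟨hne, hl⟩ := mem_erase.1 hl
  have h2 : ∀ w ∈ W.filter (fun w => Lam τ w = Λ), _ := fun w hw =>
    swp_spec τ ((hG _).1 (mem_filter.1 hw).1) ((mem_filter.1 hw).2 ▸ hl0)
      ((mem_filter.1 hw).2 ▸ hl) hne
  refine sum_involution (fun w _ => swp τ l0 l w) (fun w hw => ?_) (fun w hw _ => (h2 w hw).2.2.1)
    (fun w hw => ?_) (fun w hw => (h2 w hw).2.2.2.2)
  · rw [(h2 w hw).2.2.2.1, ← hs.eqv (h2 w hw).1]; exact two _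
  · exact mem_filter.2 ⟨(hG _).2 (((hG _).1 (mem_filter.1 hw).1).of_eqv τ (h2 w hw).1),
      (h2 w hw).2.1.trans (mem_filter.1 hw).2⟩

end Vale.Agent.P192
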