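import Vale.Agent.P192.Compile

/-! The invariant `Prog.Ok` along the execution of a program. -/

namespace Vale.Agent.P192

/-- The two memories encode equivalent words of the next level. -/
def Rel2 (n : ℕ) (μ μ' : Adr → ℕ) : Prop :=
  (Lv (n ^ Dg)).Eqv [letter n μ false, letter n μ true] [letter n μ' false, letter n μ' true]

theorem body_dyn {π : Prog} (h : π ∈ progs) : ∀ i ∈ π.body, i.Dyn := by
  intro i hi
  rcases List.mem_append.1 hi with hi | hi
  · exact ((prog_shape h).1 i hi).1
  · exact ((prog_shape h).2.1 i hi).1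

theorem body_pre {π : Prog} {e : ℕ} {i : Ins} (hi : π.body[e]? = some i)
    (he : e < π.pre.length) : π.pre.take (e + 1) = π.pre.take e ++ [i] ∧ i ∈ π.pre := by
  rw [Prog.body, List.getElem?_append_left he] at hi
  rw [List.take_add_one, hi]
  exact ⟨rfl, List.mem_of_getElem? hi⟩

theorem body_post {π : Prog} {e : ℕ} {i : Ins} (hi : π.body[e]? = some i)
    (he : π.pre.length ≤ e) :
    π.post.drop (e - π.pre.length) = i :: π.post.drop (e + 1 - π.pre.length) ∧ i ∈ π.post := by
  rw [Prog.body, List.getElem?_append_right he] at hi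
  obtain ⟨hl, rfl⟩ := List.getElem?_eq_some_iff.1 hi
  have : e + 1 - π.pre.length = e - π.pre.length + 1 := by omega
  rw [this]
  exact ⟨List.drop_eq_getElem_cons hl, List.getElem_mem hl⟩

theorem ok_mid {n : ℕ} {π : Prog} (h : π ∈ progs) (hl : π.last = .fin) (σ : PS) :
    π.Ok n π.pre.length σ ↔ okAll n π.post σ ∧ σ.r1 = 0 ∧ σ.r2 = 0 := by
  have h1 := prog_fin_regs h hl (bwd π.pre σ)
  have h2 := prog_fin_iff (n := n) h hl (bwd π.pre σ)
  rw [fwd_bwd] at h1 h2
  simp only [Prog.Ok, le_refl, if_true, List.take_length]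
  rw [← h1.2.1, ← h1.2.2, h2]
  tauto

theorem rel_mid {n : ℕ} (hn : Big n) {π : Prog} (h : π ∈ progs) (hl : π.last = .fin) {σ : PS}
    (hσ : MV n σ) (hok : π.Ok n π.pre.length σ) : Rel2 n (π.dmem π.pre.length σ) σ.mem := by
  simp only [Prog.Ok, le_refl, if_true, List.take_length] at hok
  have hm : MV n (bwd π.pre σ) := hσ.bwd fun i hi => ((prog_shape h).1 i hi).1
  have := prog_fin_sound hn h hl hm hok.2.2
  rw [fwd_bwd] at this
  simp only [Rel2, Prog.dmem, le_refl, if_true, List.take_length]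
  exact QP.Eqv.of_E this [] []

theorem fin_of_post {π : Prog} (h : π ∈ progs) {i : Ins} (hi : i ∈ π.post) : π.last = .fin := by
  by_contra hl
  rw [(prog_shape h).2.2 hl] at hi
  simp at hi

theorem ok_step {n : ℕ} (hn : Big n) {π : Prog} (h : π ∈ progs) {e : ℕ} {i : Ins}
    (hi : π.body[e]? = some i) {σ : PS} (hσ : MV n σ) (hok : i.ok n σ) :
    (π.Ok n e σ ↔ π.Ok n (e + 1) (i.exec σ)) ∧
      (π.Ok n e σ → Rel2 n (π.dmem e σ) (π.dmem (e + 1) (i.exec σ))) := by
  rcases lt_trichotomy e π.pre.length with he | he | he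
  · obtain ⟨ht, -⟩ := body_pre hi he
    have h1 : e ≤ π.pre.length := he.le
    have h2 : e + 1 ≤ π.pre.length := he
    have hb : bwd (π.pre.take (e + 1)) (i.exec σ) = bwd (π.pre.take e) σ := by
      rw [ht, bwd_snoc, Ins.exec_exec]
    refine ⟨?_, fun _ => ?_⟩
    · simp only [Prog.Ok, h1, h2, if_true, hb]
      rw [ht, okAll_append, fwd_bwd]
      simp [okAll, hok]
    · simp only [Rel2, Prog.dmem, h1, h2, if_true, hb]
      exact QP.Eqv.refl _
  · subst he
    obtain ⟨ht, hmem⟩ := body_post hi le_rfl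
    have hl := fin_of_post h hmem
    rw [Nat.sub_self, List.drop_zero] at ht
    have h2 : ¬ π.pre.length + 1 ≤ π.pre.length := by omega
    have hf : fwd (π.post.drop (π.pre.length + 1 - π.pre.length)) (i.exec σ) = σ := by
      have := (prog_fin_regs h hl σ).1
      rw [ht] at this
      exact this
    refine ⟨?_, fun hO => ?_⟩
    · rw [ok_mid h hl]
      simp only [Prog.Ok, h2, if_false, hf]
      conv_lhs => rw [ht]
      simp [okAll, hok]
    · have := rel_mid hn h hl hσ hO
      simp only [Prog.dmem, h2, if_false, hf] at this ⊢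
      exact this
  · obtain ⟨ht, -⟩ := body_post hi he.le
    have h1 : ¬ e ≤ π.pre.length := by omega
    have h2 : ¬ e + 1 ≤ π.pre.length := by omega
    refine ⟨?_, fun _ => ?_⟩
    · simp only [Prog.Ok, h1, h2, if_false]
      rw [ht]
      simp [okAll, fwd, hok]
    · simp only [Rel2, Prog.dmem, h1, h2, if_false]
      rw [ht]
      exact QP.Eqv.refl _

theorem ok_gate_post {n : ℕ} {π : Prog} (h : π ∈ progs) {e : ℕ} {pol k : Bool} {β : Adr}
    (hi : π.body[e]? = some (.gate true pol k β)) {σ : PS} (hok : π.Ok n e σ) :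
    gateOK n pol k (σ.mem β) σ.r1 := by
  rcases lt_trichotomy e π.pre.length with he | he | he
  · have := ((prog_shape h).1 _ (body_pre hi he).2).2
    simp [Ins.Mode] at this
  · subst he
    obtain ⟨ht, hmem⟩ := body_post hi le_rfl
    rw [Nat.sub_self, List.drop_zero] at ht
    rw [ok_mid h (fin_of_post h hmem), ht] at hok
    exact hok.1.1
  · obtain ⟨ht, -⟩ := body_post hi he.le
    have h1 : ¬ e ≤ π.pre.length := by omega
    simp only [Prog.Ok, h1, if_false] at hok
    rw [ht] at hok
    exact hok.1.1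

theorem ok_gate_pre {n : ℕ} {π : Prog} (h : π ∈ progs) {e : ℕ} {pol k : Bool} {β : Adr}
    (hi : π.body[e]? = some (.gate false pol k β)) {σ : PS} (hok : π.Ok n (e + 1) σ) :
    gateOK n pol k (σ.mem β) σ.r1 := by
  by_cases he : e < π.pre.length
  · obtain ⟨ht, -⟩ := body_pre hi he
    have h2 : e + 1 ≤ π.pre.length := he
    simp only [Prog.Ok, h2, if_true] at hok
    rw [ht, okAll_append, bwd_snoc, fwd_bwd] at hok
    exact hok.2.2.2.1
  · have := ((prog_shape h).2.1 _ (body_post hi (by omega)).2).2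
    simp [Ins.Mode] at this

theorem ok_start (n : ℕ) (π : Prog) (σ : PS) :
    (π.Ok n 0 σ ↔ σ.r1 = 0 ∧ σ.r2 = 0) ∧ π.dmem 0 σ = σ.mem := by
  simp [Prog.Ok, Prog.dmem, bwd, fwd, okAll]

theorem ok_fin {n : ℕ} (hn : Big n) {π : Prog} (h : π ∈ progs) (hl : π.last = .fin)
    {σ : PS} (hσ : MV n σ) :
    (π.Ok n π.body.length σ ↔ σ.r1 = 0 ∧ σ.r2 = 0) ∧
      (π.Ok n π.body.length σ → Rel2 n (π.dmem π.body.length σ) σ.mem) := by
  by_cases hp : π.post = []
  · have e : π.body.length = π.pre.length := by simp [Prog.body, hp]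
    rw [e]
    refine ⟨?_, rel_mid hn h hl hσ⟩
    rw [ok_mid h hl, hp]; simp [okAll]
  · have hpos : 0 < π.post.length := List.length_pos_iff.2 hp
    have h1 : ¬ π.body.length ≤ π.pre.length := by simp [Prog.body]; omega
    have h2 : π.post.drop (π.body.length - π.pre.length) = [] := by simp [Prog.body]
    refine ⟨?_, fun _ => ?_⟩
    · simp [Prog.Ok, h1, h2, okAll, fwd]
    · simp only [Rel2, Prog.dmem, h1, h2, if_false, fwd]
      exact QP.Eqv.refl _

theorem ok_zero {n : ℕ} (hn : Big n) {π : Prog} (h : π ∈ progs) {σ : PS} (hσ : MV n σ)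
    (hok : π.Ok n π.body.length σ) (hc : π.last.cond σ) :
    (Lv (n ^ Dg)).Z (letter n (π.dmem π.body.length σ) false)
      (letter n (π.dmem π.body.length σ) true) := by
  have hl : π.last ≠ .fin := by
    intro e; rw [e] at hc; exact hc
  have e : π.body.length = π.pre.length := by simp [Prog.body, (prog_shape h).2.2 hl]
  rw [e] at hok ⊢
  simp only [Prog.Ok, le_refl, if_true, List.take_length] at hok
  have hm : MV n (bwd π.pre σ) := hσ.bwd fun i hi => ((prog_shape h).1 i hi).1
  have := prog_zero_sound hn h hm hok.2.2 (by rw [fwd_bwd]; exact hc)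
  simpa only [Prog.dmem, le_refl, if_true, List.take_length] using this

end Vale.Agent.P192
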