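import Vale.Agent.P192.Struct
import Vale.Agent.P192.Sem

/-! A zero rule fires on a valid configuration only if the decoded word is zero. -/

namespace Vale.Agent.P192

theorem sz_len_cases (n : ℕ) (c : Cfg) :
    (c.two = true ∧ c.len n = 2 * n) ∨ (c.two = false ∧ c.len n = n) := by
  cases h : c.two <;> simp [Cfg.len, h]

theorem sz_adx_cases (n x : ℕ) : (x < n ∧ adx n x = x) ∨ (n ≤ x ∧ adx n x = x - n) := by
  unfold adx; split_ifs with h
  · exact Or.inl ⟨h, rfl⟩
  · exact Or.inr ⟨by omega, rfl⟩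

theorem sz_head_of_q {n : ℕ} {c : Cfg} {x : ℕ} (h : c.cell n x .q ≠ 0) : x = c.h ∧ c.q ≠ 0 := by
  by_cases hx : x = c.h
  · exact ⟨hx, by simpa [Cfg.cell, hx] using h⟩
  · simp [Cfg.cell, hx] at h

theorem sz_ar_side {n : ℕ} {c : Cfg} {s : Bool} (h : c.cell n c.h .ar = 5 + s.toNat) :
    c.two = true ∧ (c.h < n ↔ s = false) := by
  simp only [Cfg.cell, lt_irrefl, if_false, if_true] at h
  cases s <;> split_ifs at h <;> simp_all

/-- The data of a running program. -/
theorem sz_run {n : ℕ} {c : Cfg} (hc : c.Valid n) (hq : c.q ≠ 0) :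
    c.two = true ∧ (c.q = 1 ∨ c.q = 2) ∧ ∃ π j, locate progs c.pc = some (π, j) ∧
      c.hm = (π.entry j).1 ∧ c.ha = (π.entry j).2 ∧ (c.q = 1 → 1 ≤ j) ∧
      (c.q = 2 → j ≤ π.body.length) ∧ π.Ok n (c.ex j) (c.ps n) := by
  have h1 := hc.sv.ctl.resolve_left fun h => hq h.1
  exact ⟨h1.1, h1.2, hc.legit.resolve_left hq⟩

theorem sz_null_last {n : ℕ} (hn : Big n) {c : Cfg} (hc : c.Valid n) (h2 : c.two = true)
    (hq : c.q = 1) {π : Prog} (hl : locate progs c.pc = some (π, π.body.length + 1))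
    (hok : π.Ok n (c.ex (π.body.length + 1)) (c.ps n)) (hcond : π.last.cond (c.ps n)) :
    (Lv (n ^ Dg)).Null (c.dec n) := by
  have he : c.ex (π.body.length + 1) = π.body.length := by simp [Cfg.ex, hq]
  rw [he] at hok
  have hz := ok_zero hn (locate_spec hl).1 (hc.sv.mv hn h2) hok hcond
  have hd : c.dmem n = π.dmem π.body.length (c.ps n) := by
    have : ¬ c.q = 0 := by omega
    simp only [Cfg.dmem, this, if_false, hl, he]
  simp only [Cfg.dec, h2, if_true, hd]
  exact QP.Null.of_Z hz [] []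

theorem sz_val {n : ℕ} {c : Cfg} (hc : c.Valid n) {x : ℕ} (hx : x < c.len n)
    (h0 : c.cell n x .m ≠ 0) (h1 : c.cell n x .m ≠ 1) : c.cell n x .val = c.cell n x .addr := by
  simp only [Cfg.cell] at h0 h1 ⊢
  rw [Ne, tb_eq_zero] at h0
  rw [Ne, tb_eq_one] at h1
  exact hc.sv.mem_prog x hx (by omega)

theorem sz_regs {n : ℕ} {c : Cfg} (hc : c.Valid n) (x : ℕ) :
    R0 (c.cell n x) ∨ ((c.cell n x .ar = 5 ∨ c.cell n x .ar = 6) ∧
      (c.cell n x .q = 1 ∨ c.cell n x .q = 2)) := by
  by_cases hx : x = c.h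
  · subst hx
    rcases hc.sv.ctl with h | ⟨h2, hq⟩
    · left
      simpa [R0, Cfg.cell, Cfg.Free] using h
    · right
      refine ⟨?_, by simpa [Cfg.cell] using hq⟩
      simp only [Cfg.cell, lt_irrefl, if_false, if_true, h2]
      split_ifs <;> simp
  · left
    simp [R0, Cfg.cell, hx]

theorem sz_fetch {n : ℕ} {c : Cfg} (hc : c.Valid n) {x : ℕ} (hq : c.cell n x .q ≠ 0)
    (hpc : c.cell n x .pc = c.cell n x .addr) :
    c.cell n x .hm = c.cell n x .m ∧ c.cell n x .ha = c.cell n x .ad := by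
  obtain ⟨rfl, hq1⟩ := sz_head_of_q hq
  obtain ⟨-, -, π, j, hl, hm, ha, -⟩ := sz_run hc hq1
  simp only [Cfg.cell, if_true] at hpc ⊢
  rw [← hpc, hm, ha]
  exact ⟨(tb_of_locate hl).1.symm, (tb_of_locate hl).2.symm⟩

theorem sz_gate {n : ℕ} {c : Cfg} (hc : c.Valid n) {x : ℕ} (md pol k s : Bool)
    (hha : c.cell n x .ha = c.cell n x .addr) (ha : c.cell n x .ar = 5 + s.toNat)
    (hhm : c.cell n x .hm = gcode md pol k s) (hq : c.cell n x .q = if md then 1 else 2) :
    gateOK n pol k (c.cell n x .val) (c.cell n x .r1) := by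
  have hq0 : c.cell n x .q ≠ 0 := by rw [hq]; split_ifs <;> omega
  obtain ⟨rfl, hq1⟩ := sz_head_of_q hq0
  obtain ⟨-, hs⟩ := sz_ar_side ha
  obtain ⟨-, -, π, j, hl, hm, ha', -, -, hok⟩ := sz_run hc hq1
  simp only [Cfg.cell, if_true] at hha hhm hq ⊢
  have hb := gcode_bd md pol k s
  rcases π.entry_cases (locate_spec hl).2.1 with ⟨-, h⟩ | ⟨e, i, rfl, hi, h⟩ | ⟨-, h⟩
  · rw [h] at hm; simp only at hm; omega
  · rw [h] at hm ha'
    simp only at hm ha'
    have hi' := Ins.code_gate (i := i) (md := md) (pol := pol) (k := k) (s := s) (by omega)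
    have hpos : pos n (s, i.adr.2) = c.h := by
      rcases sz_adx_cases n c.h with ⟨h1, h2⟩ | ⟨h1, h2⟩
      · have : s = false := hs.1 h1
        subst this
        rw [pos_false]; omega
      · have : s = true := by
          cases s
          · have := hs.2 rfl; omega
          · rfl
        subst this
        rw [pos_true]; omega
    rw [hi'] at hi
    have hmem : (c.ps n).mem (s, i.adr.2) = c.mem c.h := by simp only [Cfg.ps, hpos]
    cases md
    · have he : c.ex (e + 1) = e + 1 := by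
        simp only [Bool.false_eq_true, if_false] at hq
        simp [Cfg.ex, hq]
      rw [he] at hok
      have := ok_gate_pre (locate_spec hl).1 hi hok
      rwa [hmem] at this
    · have he : c.ex (e + 1) = e := by
        simp only [if_true] at hq
        simp [Cfg.ex, hq]
      rw [he] at hok
      have := ok_gate_post (locate_spec hl).1 hi hok
      rwa [hmem] at this
  · have := π.last.code_bd
    rw [h] at hm; simp only at hm; omega

theorem sz_ctl {n : ℕ} (hn : Big n) {c : Cfg} (hc : c.Valid n) {x : ℕ} (hq : c.cell n x .q ≠ 0)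
    (h : c.cell n x .hm = 0 ∨ c.cell n x .hm = 1 ∨
      (c.cell n x .hm = 2 ∧ (c.cell n x .q = 1 ∨ c.cell n x .r1 ≠ 0 ∨ c.cell n x .r2 ≠ 0)) ∨
      (c.cell n x .hm = 3 ∧ (c.cell n x .q = 2 ∨ c.cell n x .r1 ≠ 0 ∨ c.cell n x .r2 ≠ 0)) ∨
      c.cell n x .hm = 4 ∨
      ((c.cell n x .hm = 5 ∨ c.cell n x .hm = 6) ∧ c.cell n x .q = 2)) :
    (Lv (n ^ Dg)).Null (c.dec n) := by
  obtain ⟨rfl, hq'⟩ := sz_head_of_q hq
  obtain ⟨h2, hq12, π, j, hl, hm, -, hj1, hj2, hok⟩ := sz_run hc hq'
  simp only [Cfg.cell, if_true] at h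
  rcases π.entry_cases (locate_spec hl).2.1 with ⟨rfl, he⟩ | ⟨e, i, rfl, hi, he⟩ | ⟨rfl, he⟩
  · exfalso
    rw [he] at hm; simp only at hm
    have hq2 : c.q = 2 := by omega
    have hx : c.ex 0 = 0 := by simp [Cfg.ex]
    rw [hx, (ok_start n π _).1] at hok
    simp only [Cfg.ps] at hok
    omega
  · exfalso
    have := i.code_bd
    rw [he] at hm; simp only at hm
    omega
  · have hb := π.last.code_bd
    rw [he] at hm; simp only at hm
    have hq1 : c.q = 1 := by omega
    by_cases h4 : c.hm = 4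
    · have hz : π.last = .zero := Last.code_zero (by omega)
      exact sz_null_last hn hc h2 hq1 hl hok (by rw [hz]; trivial)
    · exfalso
      have h3 : c.hm = 3 := by omega
      have hf : π.last = .fin := Last.code_fin (by omega)
      have hx : c.ex (π.body.length + 1) = π.body.length := by simp [Cfg.ex, hq1]
      rw [hx, (ok_fin hn (locate_spec hl).1 hf (hc.sv.mv hn h2)).1] at hok
      simp only [Cfg.ps] at hok
      omega

theorem sz_tab {n : ℕ} (hn : Big n) {c : Cfg} (hc : c.Valid n) {x : ℕ} (hq : c.cell n x .q = 1)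
    (had : c.cell n x .addr = c.cell n x .r1)
    (h : (c.cell n x .hm = 5 ∧ c.cell n x .m ≠ c.cell n x .r2) ∨
      (c.cell n x .hm = 6 ∧ c.cell n x .ad ≠ c.cell n x .r2)) :
    (Lv (n ^ Dg)).Null (c.dec n) := by
  obtain ⟨rfl, hq0⟩ := sz_head_of_q (c := c) (n := n) (x := x) (by omega)
  obtain ⟨h2, -, π, j, hl, hm, -, -, -, hok⟩ := sz_run hc hq0
  simp only [Cfg.cell, if_true] at h hq had
  rcases π.entry_cases (locate_spec hl).2.1 with ⟨rfl, he⟩ | ⟨e, i, rfl, hi, he⟩ | ⟨rfl, he⟩
  · exfalso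
    rw [he] at hm; simp only at hm
    omega
  · exfalso
    have := i.code_bd
    rw [he] at hm; simp only at hm
    omega
  · rw [he] at hm; simp only at hm
    refine sz_null_last hn hc h2 hq hl hok ?_
    rcases h with ⟨h5, h⟩ | ⟨h6, h⟩
    · have hz : π.last = .tab false := Last.code_tab (by simp; omega)
      rw [hz]
      simp only [Last.cond, Cfg.ps, ← had]
      exact fun e => h e.symm
    · have hz : π.last = .tab true := Last.code_tab (by simp; omega)
      rw [hz]
      simp only [Last.cond, Cfg.ps, ← had]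
      exact fun e => h e.symm

theorem sz_lab0 {n : ℕ} {c : Cfg} {x : ℕ} (hm : c.cell n x .m ≠ 0) : c.cell n x .lab = 0 := by
  simp only [Cfg.cell] at hm ⊢
  rw [Ne, tb_eq_zero] at hm
  rw [if_pos (by omega)]

theorem sz_sh_ge {n : ℕ} {c : Cfg} {x : ℕ} (hs : c.cell n x .sh ≠ 0) : P1 ≤ adx n x := by
  by_contra h
  apply hs
  simp only [Cfg.cell]
  rw [if_pos (by omega)]

theorem sz_labw {n : ℕ} {c : Cfg} (hc : c.Valid n) {x : ℕ} (hx : x < c.len n)
    (hs : c.cell n x .sh = 2) : c.cell n x .m = tb false (c.cell n x .lab) := by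
  have h1 : P1 ≤ adx n x := sz_sh_ge (c := c) (by omega)
  have h2 := hc.tok.lab_ge x hx h1
  simp only [Cfg.cell]
  rw [if_neg (by omega), tb_eq_zero.2 h1, tb_eq_zero.2 h2]

theorem sz_arok_in {n : ℕ} (hn : Big n) {c : Cfg} (hc : c.Valid n) {x : ℕ}
    (hx : x + 1 < c.len n) : ArOK (c.cell n x) (c.cell n (x + 1)) := by
  have hh := hc.sv.h_lt
  have hn0 : 2 ≤ n := by unfold Big at hn; omega
  rcases sz_len_cases n c with ⟨h2, hl⟩ | ⟨h2, hl⟩ <;> rw [hl] at hx hh <;>
    simp only [ArOK, Cfg.cell, adx, h2, true_and, Bool.false_eq_true, false_and, if_true,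
      if_false] <;>
    split_ifs <;> omega

theorem sz_shok_in {n : ℕ} (hn : Big n) {c : Cfg} (hc : c.Valid n) {x : ℕ}
    (hx : x + 1 < c.len n) : ShOK (c.cell n x) (c.cell n (x + 1)) := by
  have h0 := hc.sv.s0_mem
  have h1 := hc.sv.s1_mem
  have := PP_ge; have := PP_le_P1; have := P1_lt_P2
  unfold Big at hn
  simp only [ShOK, Cfg.cell, Ne, tb_eq_zero]
  rcases sz_len_cases n c with ⟨h2, hl⟩ | ⟨h2, hl⟩
  · have h1 := h1 h2
    rw [hl] at hx
    simp only [adx]
    split_ifs <;> first | omega | (simp; omega)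
  · rw [hl] at hx
    simp only [adx]
    split_ifs <;> first | omega | (simp; omega)

theorem zero_in {n : ℕ} (hn : Big n) {c : Cfg} (hc : c.Valid n) {x : ℕ} (hx : x + 1 < c.len n)
    (h : (Lv n).Z (c.cell n x) (c.cell n (x + 1))) : (Lv (n ^ Dg)).Null (c.dec n) := by
  have hx' : x < c.len n := by omega
  have hP := PP_ge; have := PP_le_P1; have := P1_lt_P2
  have hn' : P2 + 2 ≤ n := hn
  cases (Lv_Z.1 h).2 with
  | addr h =>
    exfalso
    apply h
    simp only [Cfg.cell]
    have hl : c.len n ≤ 2 * n := by rcases sz_len_cases n c with h | h <;> omega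
    rcases sz_adx_cases n x with ⟨h1, h2⟩ | ⟨h1, h2⟩ <;>
      rcases sz_adx_cases n (x + 1) with ⟨h3, h4⟩ | ⟨h3, h4⟩
    · rw [h2, h4, Nat.mod_eq_of_lt h3]
    · have e : x + 1 = n := by omega
      rw [h2, h4, e, Nat.mod_self, Nat.sub_self]
    · omega
    · rw [h2, h4, Nat.mod_eq_of_lt (by omega)]; omega
  | tabm h => exact absurd rfl h
  | taba h => exact absurd rfl h
  | val h0 h1 h => exact absurd (sz_val hc hx' h0 h1) h
  | ar h => exact absurd (sz_arok_in hn hc hx) h
  | regs h => exact absurd (sz_regs hc x) h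
  | fetch ha hq hpc h =>
    have := sz_fetch hc hq hpc
    tauto
  | gate md pol k s hha ha hhm hq hg => exact absurd (sz_gate hc md pol k s hha ha hhm hq) hg
  | ctl hq h => exact sz_ctl hn hc hq h
  | tab hq ha had h => exact sz_tab hn hc hq had h
  | sh h => exact absurd (sz_shok_in hn hc hx) h
  | lab0 hm h => exact absurd (sz_lab0 hm) h
  | labw hs h => exact absurd (sz_labw hc hx' hs) h
  | dup hs hb h =>
    exfalso
    have h1 : P1 ≤ adx n x := sz_sh_ge (c := c) (by omega)
    have h2 : P1 ≤ adx n (x + 1) := sz_sh_ge (c := c) (by omega)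
    simp only [Cfg.cell] at h
    rw [if_neg (by omega), if_neg (by omega)] at h
    have h3 : x < n ↔ x + 1 < n := by
      rcases sz_adx_cases n (x + 1) with ⟨h3, h4⟩ | ⟨h3, h4⟩ <;> omega
    have := hc.tok.lab_inj x (x + 1) hx' hx h1 h2 h3 h
    omega

theorem zero_across {n : ℕ} (hn : Big n) {c c' : Cfg} (hc : c.Valid n) (hc' : c'.Valid n)
    (h : (Lv n).Z (c.cell n (c.len n - 1)) (c'.cell n 0)) : (Lv (n ^ Dg)).Null (c.dec n) := by
  have hP := PP_ge; have := PP_le_P1; have := P1_lt_P2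
  have hn' : P2 + 2 ≤ n := hn
  have hx' : c.len n - 1 < c.len n := by rcases sz_len_cases n c with h | h <;> omega
  have ha0 : adx n 0 = 0 := by simp [adx]
  have ha1 : adx n (c.len n - 1) = n - 1 := by
    rcases sz_len_cases n c with h | h <;> rcases sz_adx_cases n (c.len n - 1) with h' | h' <;>
      omega
  have hb : c'.cell n 0 .ar = 0 ∨ c'.cell n 0 .ar = 4 ∨ c'.cell n 0 .ar = 5 := by
    have hn0 : 0 < n := by omega
    simp only [Cfg.cell, hn0, if_true]
    split_ifs <;> omega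
  cases (Lv_Z.1 h).2 with
  | addr h =>
    exfalso
    apply h
    simp only [Cfg.cell]
    rw [ha0, ha1, Nat.sub_add_cancel (by omega), Nat.mod_self]
  | tabm h => exact absurd rfl h
  | taba h => exact absurd rfl h
  | val h0 h1 h => exact absurd (sz_val hc hx' h0 h1) h
  | ar h =>
    exfalso
    apply h
    refine Or.inr ⟨ha0, Or.inl ⟨?_, hb⟩⟩
    have hh := hc.sv.h_lt
    rcases sz_len_cases n c with ⟨h2, hl⟩ | ⟨h2, hl⟩ <;> rw [hl] at hh ⊢ <;>
      simp only [Cfg.cell, h2, true_and, Bool.false_eq_true, false_and, if_true, if_false] <;>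
      split_ifs <;> omega
  | regs h => exact absurd (sz_regs hc _) h
  | fetch ha hq hpc h =>
    have := sz_fetch hc hq hpc
    tauto
  | gate md pol k s hha ha hhm hq hg => exact absurd (sz_gate hc md pol k s hha ha hhm hq) hg
  | ctl hq h => exact sz_ctl hn hc hq h
  | tab hq ha had h => omega
  | sh h =>
    exfalso
    apply h
    refine Or.inr (Or.inr ⟨?_, ha0, ?_⟩)
    · simp only [Cfg.cell]
      rw [tb_eq_zero, ha1]; omega
    · have h0 := hc.sv.s0_mem
      have h1 := hc.sv.s1_mem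
      simp only [Cfg.cell, ha1]
      rcases sz_len_cases n c with ⟨h2, hl⟩ | ⟨h2, hl⟩
      · have h1 := h1 h2
        rw [hl]
        split_ifs <;> omega
      · rw [hl]
        split_ifs <;> omega
  | lab0 hm h => exact absurd (sz_lab0 hm) h
  | labw hs h => exact absurd (sz_labw hc hx' hs) h
  | dup hs hb' h =>
    exfalso
    have h2 : P1 ≤ adx n 0 := sz_sh_ge (c := c') (by omega)
    omega

end Vale.Agent.P192
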