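import Vale.Agent.P192.SoundE
import Vale.Agent.P192.SoundZ

/-! Soundness of the simulation: no new zero words appear. -/

namespace Vale.Agent.P192

theorem Cfg.len_pos {n : ℕ} (hn : Big n) (c : Cfg) : 0 < c.len n := by
  unfold Big at hn; unfold Cfg.len; split_ifs <;> omega

theorem render_getElem? {n : ℕ} (c : Cfg) {x : ℕ} (hx : x < c.len n) :
    (c.render n)[x]? = some (c.cell n x) := by
  simp [Cfg.render, hx]

/-- Locating two adjacent letters in a concatenation of renderings. -/
theorem locate_pair {n : ℕ} (hn : Big n) (cs : List Cfg) (u v : List Cell) (a b : Cell)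
    (h : cs.flatMap (Cfg.render n) = u ++ a :: b :: v) :
    (∃ l c r x, cs = l ++ c :: r ∧ x + 1 < c.len n ∧ a = c.cell n x ∧ b = c.cell n (x + 1) ∧
      ∀ a' b', u ++ a' :: b' :: v = l.flatMap (Cfg.render n) ++
        ((c.render n).set x a').set (x + 1) b' ++ r.flatMap (Cfg.render n)) ∨
    (∃ l c c' r, cs = l ++ c :: c' :: r ∧ a = c.cell n (c.len n - 1) ∧ b = c'.cell n 0 ∧
      ∀ a' b', u ++ a' :: b' :: v = l.flatMap (Cfg.render n) ++
        ((c.render n).set (c.len n - 1) a' ++ (c'.render n).set 0 b') ++
          r.flatMap (Cfg.render n)) := by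
  induction cs generalizing u with
  | nil => simp at h
  | cons c cs ih =>
    rw [List.flatMap_cons] at h
    have hlen := c.render_length n
    rcases List.append_eq_append_iff.1 h with ⟨u', hu, h'⟩ | ⟨t, ht, h'⟩
    · rcases ih u' h' with ⟨l, c1, r, x, rfl, h1, h2, h3, h4⟩ | ⟨l, c1, c2, r, rfl, h2, h3, h4⟩
      · refine Or.inl ⟨c :: l, c1, r, x, rfl, h1, h2, h3, fun a' b' => ?_⟩
        rw [hu, List.append_assoc, h4]; simp
      · refine Or.inr ⟨c :: l, c1, c2, r, rfl, h2, h3, fun a' b' => ?_⟩
        rw [hu, List.append_assoc, h4]; simp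
    · rcases t with _ | ⟨a1, _ | ⟨b1, t⟩⟩
      · have h'' : cs.flatMap (Cfg.render n) = [] ++ a :: b :: v := by simpa using h'.symm
        rcases ih [] h'' with ⟨l, c1, r, x, rfl, h1, h2, h3, h4⟩ | ⟨l, c1, c2, r, rfl, h2, h3, h4⟩
        · refine Or.inl ⟨c :: l, c1, r, x, rfl, h1, h2, h3, fun a' b' => ?_⟩
          have := h4 a' b'
          simp only [List.nil_append, List.append_nil] at this ht
          rw [this, ← ht]; simp
        · refine Or.inr ⟨c :: l, c1, c2, r, rfl, h2, h3, fun a' b' => ?_⟩
          have := h4 a' b'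
          simp only [List.nil_append, List.append_nil] at this ht
          rw [this, ← ht]; simp
      · simp only [List.cons_append, List.nil_append, List.cons.injEq] at h'
        obtain ⟨rfl, h'⟩ := h'
        rcases cs with _ | ⟨c', r⟩
        · simp at h'
        have hu : u.length = c.len n - 1 := by rw [← hlen, ht]; simp
        have hp := c.len_pos hn
        have hp' := c'.len_pos hn
        have ha : a = c.cell n (c.len n - 1) := by
          have := render_getElem? (n := n) c (x := c.len n - 1) (by omega)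
          rw [ht, ← hu] at this
          simpa [hu] using this
        obtain ⟨t', ht'⟩ : ∃ t', c'.render n = c'.cell n 0 :: t' := by
          have := render_getElem? (n := n) c' hp'
          rcases hr : c'.render n with _ | ⟨z, t'⟩
          · simp [hr] at this
          · rw [hr] at this
            exact ⟨t', by simpa using this⟩
        rw [List.flatMap_cons, ht'] at h'
        simp only [List.cons_append, List.cons.injEq] at h'
        refine Or.inr ⟨[], c, c', r, rfl, ha, h'.1, fun a' b' => ?_⟩
        rw [ht, ht', ← hu, h'.2]; simp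
      · simp only [List.cons_append, List.cons.injEq] at h'
        obtain ⟨rfl, rfl, h'⟩ := h'
        have hx : u.length + 1 < c.len n := by rw [← hlen, ht]; simp
        refine Or.inl ⟨[], c, cs, u.length, rfl, hx, ?_, ?_, fun a' b' => ?_⟩
        · have := render_getElem? (n := n) c (x := u.length) (by omega)
          rw [ht] at this
          simpa using this
        · have := render_getElem? (n := n) c hx
          rw [ht] at this
          simpa [List.getElem?_append_right] using this
        · rw [ht, h']; simp [List.set_append_right]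

/-- The word is a concatenation of valid configurations that decode to `W`. -/
def Good (n : ℕ) (W w : List Cell) : Prop :=
  ∃ cs : List Cfg, (∀ c ∈ cs, c.Valid n) ∧ w = cs.flatMap (Cfg.render n) ∧
    (Lv (n ^ Dg)).Eqv W (cs.flatMap (Cfg.dec n))

theorem good_step {n : ℕ} (hn : Big n) {W u v : List Cell} {a b a' b' : Cell}
    (h : (Lv n).E a b a' b' ∨ (Lv n).E a' b' a b) (hg : Good n W (u ++ a :: b :: v)) :
    Good n W (u ++ a' :: b' :: v) := by
  obtain ⟨cs, h1, h2, h3⟩ := hg
  rcases locate_pair hn cs u v a b h2.symm with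
    ⟨l, c, r, x, rfl, hx, rfl, rfl, h4⟩ | ⟨l, c, c', r, rfl, rfl, rfl, h4⟩
  · obtain ⟨ds, g1, g2, g3⟩ := step_in hn (h1 c (by simp)) hx h
    refine ⟨l ++ ds ++ r, ?_, ?_, h3.trans ?_⟩
    · intro d hd
      simp only [List.mem_append] at hd
      rcases hd with (hd | hd) | hd
      · exact h1 d (by simp [hd])
      · exact g1 d hd
      · exact h1 d (by simp [hd])
    · rw [h4, ← g2]; simp
    · simpa using g3.ctx (l.flatMap (Cfg.dec n)) (r.flatMap (Cfg.dec n))
  · obtain ⟨ds, g1, g2, g3⟩ := step_across hn (h1 c (by simp)) (h1 c' (by simp)) h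
    refine ⟨l ++ ds ++ r, ?_, ?_, h3.trans ?_⟩
    · intro d hd
      simp only [List.mem_append] at hd
      rcases hd with (hd | hd) | hd
      · exact h1 d (by simp [hd])
      · exact g1 d hd
      · exact h1 d (by simp [hd])
    · rw [h4, ← g2]; simp
    · simpa using g3.ctx (l.flatMap (Cfg.dec n)) (r.flatMap (Cfg.dec n))

theorem good_eqv {n : ℕ} (hn : Big n) {W w w' : List Cell} (h : (Lv n).Eqv w w') :
    Good n W w ↔ Good n W w' := by
  induction h with
  | rel _ _ h =>
    obtain ⟨u, v, a, b, c, d, h⟩ := h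
    exact ⟨good_step hn (Or.inl h), good_step hn (Or.inr h)⟩
  | refl => rfl
  | symm _ _ _ ih => exact ih.symm
  | trans _ _ _ _ _ ih1 ih2 => exact ih1.trans ih2

theorem sound {n : ℕ} (hn : Big n) (w : List Cell) (hw : ∀ a ∈ w, Bd (n ^ Dg) a)
    (h : (Lv n).Null (w.flatMap (phi n))) : (Lv (n ^ Dg)).Null w := by
  obtain ⟨w', h1, u, v, a, b, hz, rfl⟩ := h
  have h0 : Good n w (w.flatMap (phi n)) := by
    refine ⟨w.map (idle n), ?_, ?_, ?_⟩
    · intro c hc
      obtain ⟨a, -, rfl⟩ := List.mem_map.1 hc
      exact idle_valid hn a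
    · rw [List.flatMap_map]; rfl
    · have : (w.map (idle n)).flatMap (Cfg.dec n) = w := by
        clear h1
        induction w with
        | nil => rfl
        | cons a w ih =>
          rw [List.map_cons, List.flatMap_cons, idle_dec (hw a (by simp)),
            ih fun b hb => hw b (by simp [hb])]
          rfl
      rw [this]; exact QP.Eqv.refl _
  obtain ⟨cs, g1, g2, g3⟩ := (good_eqv hn h1).1 h0
  refine QP.Null.of_eqv g3 ?_
  rcases locate_pair hn cs u v a b g2.symm with
    ⟨l, c, r, x, rfl, hx, rfl, rfl, -⟩ | ⟨l, c, c', r, rfl, rfl, rfl, -⟩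
  · simpa using (zero_in hn (g1 c (by simp)) hx hz).ctx (l.flatMap (Cfg.dec n))
      (r.flatMap (Cfg.dec n))
  · simpa using (zero_across hn (g1 c (by simp)) (g1 c' (by simp)) hz).ctx
      (l.flatMap (Cfg.dec n)) ((c' :: r).flatMap (Cfg.dec n))

end Vale.Agent.P192
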