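import Vale.Agent.P192.Blind
import Vale.Agent.P192.Sound
import Vale.Agent.P192.Red2
import Vale.Agent.P192.GroupMain

namespace Vale.Agent.P192

theorem card_Lv (n : ℕ) : (Lv n).S.card = n ^ 13 := by
  have : Fintype.card Fld = 13 := rfl
  simp [Lv, alph, Fintype.card_piFinset, this]

theorem Big.two_le {n : ℕ} (hn : Big n) : 2 ≤ n := by unfold Big at hn; omega

theorem linNil_small {n : ℕ} (hn : Big n) {d : ℕ} (hd : d ≤ n ^ 57) : (Lv n).LinNil d := by
  obtain ⟨τ, h1, h2⟩ := exists_tok hn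
  refine τ.linNil d ?_
  have hn2 := hn.two_le
  have hP : P1 + 3 ≤ n := by have := P1_lt_P2; unfold Big at hn; omega
  have h3 : τ.C.card * d ≤ 8 * n ^ 64 := by
    calc τ.C.card * d ≤ (8 * n ^ 7) * n ^ 57 := Nat.mul_le_mul h1 hd
      _ = 8 * n ^ 64 := by ring
  have h4 : 16 * n ^ 64 ≤ n ^ Dg := by
    rw [Dg_eq]
    calc 16 * n ^ 64 = 2 ^ 4 * n ^ 64 := by norm_num
      _ ≤ n ^ 4 * n ^ 64 := Nat.mul_le_mul_right _ (Nat.pow_le_pow_left hn2 4)
      _ = n ^ 68 := by ring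
      _ ≤ n ^ 80 := Nat.pow_le_pow_right (by omega) (by norm_num)
  have h5 : n ≤ n ^ 64 := Nat.le_self_pow (by norm_num) n
  omega

theorem linNil_aux (k : ℕ) : ∀ {n : ℕ}, Big n → ∀ d : ℕ, d ≤ 2 ^ k * n ^ 57 →
    (Lv n).LinNil d := by
  induction k with
  | zero => intro n hn d hd; exact linNil_small hn (by simpa using hd)
  | succ k ih =>
    intro n hn d hd
    refine (simLv hn).linNil d (ih hn.pow _ ?_)
    rw [card_Lv]
    have hn2 := hn.two_le
    have hN2 := hn.pow.two_le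
    generalize hN : n ^ Dg = N at hN2 ⊢
    have h1 : (N ^ 13 + 1) ^ 2 ≤ N ^ 28 := by
      have : N ^ 13 + 1 ≤ N ^ 14 := by
        have : 1 ≤ N ^ 13 := Nat.one_le_pow _ _ (by omega)
        calc N ^ 13 + 1 ≤ 2 * N ^ 13 := by omega
          _ ≤ N * N ^ 13 := Nat.mul_le_mul_right _ hN2
          _ = N ^ 14 := by ring
      calc (N ^ 13 + 1) ^ 2 ≤ (N ^ 14) ^ 2 := Nat.pow_le_pow_left this 2
        _ = N ^ 28 := by ring
    have h2 : 2 * n ^ 57 ≤ N := by
      rw [← hN, Dg_eq]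
      calc 2 * n ^ 57 ≤ n * n ^ 57 := Nat.mul_le_mul_right _ hn2
        _ = n ^ 58 := by ring
        _ ≤ n ^ 80 := Nat.pow_le_pow_right (by omega) (by norm_num)
    calc d * (N ^ 13 + 1) ^ 2 ≤ (2 ^ (k + 1) * n ^ 57) * N ^ 28 := Nat.mul_le_mul hd h1
      _ = 2 ^ k * ((2 * n ^ 57) * N ^ 28) := by ring
      _ ≤ 2 ^ k * (N * N ^ 28) := Nat.mul_le_mul_left _ (Nat.mul_le_mul_right _ h2)
      _ = 2 ^ k * N ^ 29 := by ring
      _ ≤ 2 ^ k * N ^ 57 :=
        Nat.mul_le_mul_left _ (Nat.pow_le_pow_right (by omega) (by norm_num))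

theorem linNil_all {n : ℕ} (hn : Big n) (d : ℕ) : (Lv n).LinNil d := by
  refine linNil_aux d hn d ?_
  have h1 : d ≤ 2 ^ d := Nat.lt_two_pow_self.le
  have h2 : 1 ≤ n ^ 57 := Nat.one_le_pow _ _ (by have := hn.two_le; omega)
  nlinarith

theorem exists_long_aux (l : ℕ) : ∀ {n : ℕ}, Big n →
    ∃ w : List Cell, (∀ a ∈ w, Bd n a) ∧ l + 1 ≤ w.length ∧ ¬ (Lv n).Null w := by
  induction l with
  | zero =>
    intro n hn
    refine ⟨[fun _ => 0], ?_, le_rfl, QP.not_null_single _⟩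
    intro a ha f
    rw [List.mem_singleton.1 ha]
    have := hn.two_le; show 0 < n; omega
  | succ l ih =>
    intro n hn
    obtain ⟨w, h1, h2, h3⟩ := ih hn.pow
    refine ⟨w.flatMap (phi n), ?_, ?_, fun h => h3 (sound hn w h1 h)⟩
    · intro a ha
      obtain ⟨b, -, hb⟩ := List.mem_flatMap.1 ha
      exact render_bd hn (idle_valid hn b).sv a hb
    · have : ∀ w : List Cell, (w.flatMap (phi n)).length = w.length * n := by
        intro w
        induction w with
        | nil => simp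
        | cons a w ih =>
          have : (phi n a).length = n := by simp [phi, Cfg.render_length, Cfg.len, idle]
          simp only [List.flatMap_cons, List.length_append, this, ih, List.length_cons]; ring
      rw [this]
      have := hn.two_le
      nlinarith

theorem exists_long {n : ℕ} (hn : Big n) (l : ℕ) :
    ∃ w : List Cell, (∀ a ∈ w, a ∈ (Lv n).S) ∧ l ≤ w.length ∧ ¬ (Lv n).Null w := by
  obtain ⟨w, h1, h2, h3⟩ := exists_long_aux l hn
  exact ⟨w, fun a ha => Lv_S.2 (h1 a ha), by omega, h3⟩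

theorem main : ∃ (G : Type) (_ : Group G), Group.IsFinitelyPresented G ∧ Infinite G ∧
    ∀ g : G, IsOfFinOrder g :=
  (Lv (P2 + 2)).exists_group (linNil_all le_rfl) (exists_long le_rfl)

end Vale.Agent.P192
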