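import Vale.Agent.P192.Struct

/-! Moves of the head, of the scratch values and of the labels. -/

namespace Vale.Agent.P192

namespace MovesAux

open StructAux

theorem range_split {A : Type} (F : ℕ → A) {L x : ℕ} (hx : x + 1 < L) :
    (List.range L).map F =
      (List.range x).map F ++ F x :: F (x + 1) :: (List.range' (x + 2) (L - (x + 2))).map F := by
  obtain ⟨k, rfl⟩ : ∃ k, L = x + (k + 2) := ⟨L - (x + 2), by omega⟩
  rw [List.range_eq_range', ← List.range'_append_1, List.map_append, ← List.range_eq_range',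
    show x + (k + 2) - (x + 2) = k by omega]
  simp [List.range'_succ]

/-- One rewriting step between two words given by functions. -/
theorem eqv_fun {A : Type} {Q : QP A} (F G : ℕ → A) {L x : ℕ} (hx : x + 1 < L)
    (hFG : ∀ y, y < L → y ≠ x → y ≠ x + 1 → F y = G y)
    (hE : Q.E (F x) (F (x + 1)) (G x) (G (x + 1))) :
    Q.Eqv ((List.range L).map F) ((List.range L).map G) := by
  rw [range_split F hx, range_split G hx]
  have e1 : (List.range x).map F = (List.range x).map G :=
    List.map_congr_left fun y hy => by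
      have := List.mem_range.1 hy
      exact hFG y (by omega) (by omega) (by omega)
  have e2 : (List.range' (x + 2) (L - (x + 2))).map F = (List.range' (x + 2) (L - (x + 2))).map G :=
    List.map_congr_left fun y hy => by
      have := List.mem_range'_1.1 hy
      exact hFG y (by omega) (by omega) (by omega)
  rw [e1, e2]
  exact QP.Eqv.of_E hE _ _

theorem eqv_cell {n : ℕ} (hn : Big n) {c c' : Cfg} (h : c.SV n) (h' : c'.SV n)
    (h2 : c'.two = c.two) {x : ℕ} (hx : x + 1 < c.len n)
    (hc : ∀ y, y < c.len n → y ≠ x → y ≠ x + 1 → c.cell n y = c'.cell n y)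
    (hE : ER n (c.cell n x) (c.cell n (x + 1)) (c'.cell n x) (c'.cell n (x + 1))) :
    (Lv n).Eqv (c.render n) (c'.render n) := by
  have hl : c'.len n = c.len n := by simp only [Cfg.len, h2]
  unfold Cfg.render
  rw [hl]
  exact eqv_fun _ _ hx hc (Lv_E.2 ⟨⟨cell_bd hn h (by omega), cell_bd hn h hx,
    cell_bd hn h' (by omega), cell_bd hn h' (by omega)⟩, hE⟩)

theorem null_cell {n : ℕ} (hn : Big n) {c : Cfg} (h : c.SV n) {x : ℕ} (hx : x + 1 < c.len n)
    (hZ : ZR n (c.cell n x) (c.cell n (x + 1))) : (Lv n).Null (c.render n) := by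
  unfold Cfg.render
  rw [range_split _ hx]
  exact QP.Null.of_Z (Lv_Z.2 ⟨⟨cell_bd hn h (by omega), cell_bd hn h hx⟩, hZ⟩) _ _

theorem render_congr {n : ℕ} {c c' : Cfg} (h2 : c'.two = c.two)
    (hc : ∀ y, y < c.len n → c.cell n y = c'.cell n y) : c.render n = c'.render n := by
  have hl : c'.len n = c.len n := by simp only [Cfg.len, h2]
  unfold Cfg.render
  rw [hl]
  exact List.map_congr_left fun y hy => hc y (List.mem_range.1 hy)

theorem sv_head {n : ℕ} {c : Cfg} (h : c.SV n) {k : ℕ} (hk : k < c.len n) :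
    Cfg.SV n { c with h := k } :=
  ⟨hk, h.regs, h.ctl, h.mem_lt, h.mem_prog, h.s0_mem, h.s1_mem, h.lab_lt⟩

theorem head_step {n : ℕ} (hn : Big n) {c : Cfg} (h : c.SV n) {k : ℕ} (hk : k + 1 < c.len n) :
    (Lv n).Eqv (Cfg.render n { c with h := k }) (Cfg.render n { c with h := k + 1 }) := by
  obtain ⟨b1, b2, b3, b4⟩ := big_facts hn
  refine eqv_cell hn (sv_head h (by omega)) (sv_head h hk) rfl (x := k) hk ?_ ?_
  · intro y _ h1 h2
    funext f
    cases f <;> simp only [Cfg.cell] <;> split_ifs <;> first | rfl | omega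
  · refine .move ?_ ?_ ?_ ?_ ?_ ?_ ?_ ?_ ?_ ?_ ?_
    · unfold Cfg.len at hk
      cases h2 : c.two
      · simp only [h2, Bool.false_eq_true, if_false] at hk
        simp only [Cfg.cell, adx, h2]
        simp [hk, show k < n by omega]
      · simp only [h2, if_true] at hk
        simp only [Cfg.cell, adx, h2]
        rcases Nat.lt_trichotomy (k + 1) n with h3 | h3 | h3
        · simp [h3, show k < n by omega]
        · simp [h3, show k < n by omega, show ¬ n < k by omega, show n ≠ k by omega]
        · simp [show ¬ k < n by omega, show ¬ k + 1 < n by omega]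
          omega
    · simp [R0, Cfg.cell]
    · simp [R0, Cfg.cell]
    · simp [Cfg.cell]
    · simp [Cfg.cell]
    · simp [Cfg.cell]
    · simp [Cfg.cell]
    · simp [Cfg.cell]
    · simp [Cfg.cell]
    · intro f hf; cases f <;> first | rfl | simp [regF] at hf
    · intro f hf; cases f <;> first | rfl | simp [regF] at hf

theorem head_up {n : ℕ} (hn : Big n) {c : Cfg} (h : c.SV n) {k l : ℕ} (hkl : k ≤ l)
    (hl : l < c.len n) :
    (Lv n).Eqv (Cfg.render n { c with h := k }) (Cfg.render n { c with h := l }) := by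
  induction l, hkl using Nat.le_induction with
  | base => exact QP.Eqv.refl _
  | succ l _ ih => exact (ih (by omega)).trans (head_step hn h hl)

theorem head_any {n : ℕ} (hn : Big n) {c : Cfg} (h : c.SV n) {k : ℕ} (hk : k < c.len n) :
    (Lv n).Eqv (c.render n) (Cfg.render n { c with h := k }) := by
  rcases le_total c.h k with h1 | h1
  · exact head_up hn h h1 hk
  · exact (head_up hn h h1 h.h_lt).symm

theorem sv_mem {n : ℕ} {c : Cfg} (h : c.SV n) (μ : ℕ → ℕ)
    (h1 : ∀ x, x < c.len n → μ x < n) (h2 : ∀ x, x < c.len n → adx n x < P1 → μ x = c.mem x) :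
    Cfg.SV n { c with mem := μ } :=
  ⟨h.h_lt, h.regs, h.ctl, h1, fun x hx hp => by
    have := PP_le_P1
    exact (h2 x hx (by omega)).trans (h.mem_prog x hx hp), h.s0_mem, h.s1_mem, h.lab_lt⟩

theorem scratch_one {n : ℕ} (hn : Big n) {c : Cfg} (h : c.SV n) (hq : c.q = 0) (μ : ℕ → ℕ)
    {x : ℕ} (hx : x < c.len n) (hw : P1 ≤ adx n x) (h1 : μ x < n)
    (h2 : ∀ y, y ≠ x → μ y = c.mem y) :
    (Lv n).Eqv (c.render n) (Cfg.render n { c with mem := μ }) := by
  obtain ⟨b1, b2, b3, b4⟩ := big_facts hn
  obtain ⟨k, rfl⟩ : ∃ k, x = k + 1 := ⟨x - 1, by unfold adx at hw; split_ifs at hw <;> omega⟩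
  have hs : Cfg.SV n { c with mem := μ } := sv_mem h μ
    (fun y hy => by
      by_cases e : y = k + 1
      · rw [e]; exact h1
      · rw [h2 y e]; exact h.mem_lt y hy)
    (fun y _ hp => h2 y (by rintro rfl; omega))
  refine (head_any hn h (k := k) (by omega)).trans
    (QP.Eqv.trans ?_ (head_any hn hs (k := k) (show k < c.len n by omega)).symm)
  refine eqv_cell hn (sv_head h (by omega)) (sv_head hs (show k < c.len n by omega)) rfl (x := k)
    hx ?_ ?_
  · intro y _ _ h4
    funext f
    cases f <;> first | rfl | exact (h2 y h4).symm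
  · refine .scratch ?_ ?_ ?_ ?_ ?_
    · simp only [Cfg.cell]; split_ifs <;> first | omega | simp
    · simp [Cfg.cell, hq]
    · exact tb_eq_zero.2 hw
    · intro f _; cases f <;> first | rfl | exact h2 k (by omega)
    · intro f hf; cases f <;> first | rfl | simp at hf

/-- Put the shuffler of the block containing `s` at position `s`. -/
def setS (n : ℕ) (c : Cfg) (s : ℕ) : Cfg :=
  { c with s0 := if s < n then s else c.s0, s1 := if s < n then c.s1 else s }

theorem sv_setS {n : ℕ} {c : Cfg} (h : c.SV n) {s : ℕ} (hs : s < c.len n) (hw : P1 ≤ adx n s) :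
    (setS n c s).SV n := by
  have hl := len_le n c
  refine ⟨h.h_lt, h.regs, h.ctl, h.mem_lt, h.mem_prog, ?_, fun h2 => ?_, h.lab_lt⟩
  · have := h.s0_mem
    simp only [setS, adx] at hw ⊢; split_ifs at hw ⊢ <;> omega
  · have := h.s1_mem h2
    simp only [setS, adx] at hw ⊢; split_ifs at hw ⊢ <;> omega

theorem setS_sh (n : ℕ) (c : Cfg) (s y : ℕ) (hy : y < n ↔ s < n) :
    (setS n c s).cell n y .sh =
      if adx n y < P1 then 0 else if y < s then 1 else if y = s then 2 else 3 := by
  by_cases h1 : s < n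
  · have h2 : y < n := hy.2 h1
    simp only [Cfg.cell, setS, h1, h2, if_true]
  · have h2 : ¬ y < n := fun h => h1 (hy.1 h)
    simp only [Cfg.cell, setS, h1, h2, if_false]

theorem setS_sh' (n : ℕ) (c : Cfg) (s y : ℕ) (hy : ¬ (y < n ↔ s < n)) :
    (setS n c s).cell n y .sh = c.cell n y .sh := by
  by_cases h1 : s < n
  · have h2 : ¬ y < n := fun h => hy ⟨fun _ => h1, fun _ => h⟩
    simp only [Cfg.cell, setS, h1, h2, if_true, if_false]
  · have h2 : y < n := by by_contra h; exact hy ⟨fun h' => (h h').elim, fun h' => (h1 h').elim⟩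
    simp only [Cfg.cell, setS, h1, h2, if_true, if_false]

theorem setS_sh_eq (n : ℕ) (c c' : Cfg) (hc : ∀ y, c.cell n y .sh = c'.cell n y .sh) (s y : ℕ)
    (hs : s + 1 ≠ n) (h1 : y ≠ s) (h2 : y ≠ s + 1) :
    (setS n c s).cell n y .sh = (setS n c' (s + 1)).cell n y .sh := by
  by_cases hy : y < n ↔ s < n
  · rw [setS_sh n c s y hy, setS_sh n c' (s + 1) y (by omega)]
    split_ifs <;> first | rfl | omega
  · rw [setS_sh' n c s y hy, setS_sh' n c' (s + 1) y (by omega), hc]

theorem sh_step {n : ℕ} (hn : Big n) {c : Cfg} (h : c.SV n) {s : ℕ} (hs : s + 1 < c.len n)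
    (hw : P1 ≤ adx n s) (hsn : s + 1 ≠ n) :
    (Lv n).Eqv ((setS n c s).render n) ((setS n c (s + 1)).render n) := by
  have hw' : P1 ≤ adx n (s + 1) := by unfold adx at hw ⊢; split_ifs at hw ⊢ <;> omega
  refine eqv_cell hn (sv_setS h (by omega) hw) (sv_setS h hs hw') rfl (x := s) hs ?_ ?_
  · intro y _ h1 h2
    funext f
    cases f <;> first | rfl | exact setS_sh_eq n c c (fun _ => rfl) s y hsn h1 h2
  · refine .plain ?_ ?_ ?_ ?_ ?_ ?_
    · rw [setS_sh n c s s Iff.rfl]; split_ifs <;> omega
    · rw [setS_sh n c (s + 1) (s + 1) Iff.rfl]; split_ifs <;> omega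
    · rw [setS_sh n c s (s + 1) (by omega)]; split_ifs <;> omega
    · rw [setS_sh n c (s + 1) s (by omega)]; split_ifs <;> omega
    · intro f hf; cases f <;> first | rfl | simp at hf
    · intro f hf; cases f <;> first | rfl | simp at hf

theorem sh_up {n : ℕ} (hn : Big n) {c : Cfg} (h : c.SV n) {s t : ℕ} (hst : s ≤ t)
    (ht : t < c.len n) (hw : P1 ≤ adx n s) (hsn : s < n ↔ t < n) :
    (Lv n).Eqv ((setS n c s).render n) ((setS n c t).render n) := by
  induction t, hst using Nat.le_induction with
  | base => exact QP.Eqv.refl _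
  | succ t hst ih =>
    refine (ih (by omega) (by omega)).trans (sh_step hn h ht ?_ (by omega))
    unfold adx at hw ⊢; split_ifs at hw ⊢ <;> omega

theorem sh_any {n : ℕ} (hn : Big n) {c : Cfg} (h : c.SV n) {s : ℕ} (hs : s < c.len n)
    (hw : P1 ≤ adx n s) : (Lv n).Eqv (c.render n) ((setS n c s).render n) := by
  obtain ⟨b1, b2, b3, b4⟩ := big_facts hn
  have : ∃ t, t < c.len n ∧ P1 ≤ adx n t ∧ (t < n ↔ s < n) ∧ setS n c t = c := by
    by_cases h1 : s < n
    · have := h.s0_mem
      refine ⟨c.s0, ?_, ?_, by omega, ?_⟩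
      · unfold Cfg.len; split_ifs <;> omega
      · unfold adx; split_ifs <;> omega
      · simp [setS, this.2]
    · have h2 : c.two = true := by
        by_contra h3
        simp only [Cfg.len, h3] at hs
        simp at hs; omega
      have := h.s1_mem h2
      refine ⟨c.s1, ?_, ?_, by omega, ?_⟩
      · unfold Cfg.len; split_ifs; omega
      · unfold adx; split_ifs <;> omega
      · simp [setS, show ¬ c.s1 < n by omega]
  obtain ⟨t, h1, h2, h3, h4⟩ := this
  conv_lhs => rw [← h4]
  rcases le_total t s with h5 | h5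
  · exact sh_up hn h h5 hs h2 h3
  · exact (sh_up hn h h5 h1 hw h3.symm).symm

theorem swap_lt {x y z L : ℕ} (hx : x < L) (hy : y < L) (hz : z < L) : Equiv.swap x y z < L := by
  rw [Equiv.swap_apply_def]; split_ifs <;> omega

theorem sv_swap {n : ℕ} {c : Cfg} (h : c.SV n) {x y : ℕ} (hx : x < c.len n) (hy : y < c.len n) :
    Cfg.SV n { c with lab := c.lab ∘ Equiv.swap x y } :=
  ⟨h.h_lt, h.regs, h.ctl, h.mem_lt, h.mem_prog, h.s0_mem, h.s1_mem,
    fun z hz => h.lab_lt _ (swap_lt hx hy hz)⟩

theorem swap_adj {n : ℕ} (hn : Big n) {c : Cfg} (h : c.SV n) {s : ℕ} (hs : s + 1 < c.len n)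
    (hw : P1 ≤ adx n s) (hsn : s + 1 ≠ n) :
    (Lv n).Eqv (c.render n) (Cfg.render n { c with lab := c.lab ∘ Equiv.swap s (s + 1) }) := by
  have hw' : P1 ≤ adx n (s + 1) := by unfold adx at hw ⊢; split_ifs at hw ⊢ <;> omega
  have h' := sv_swap h (x := s) (y := s + 1) (by omega) hs
  refine (sh_any hn h (by omega) hw).trans (QP.Eqv.trans ?_ (sh_any hn h' hs hw').symm)
  refine eqv_cell hn (sv_setS h (by omega) hw) (sv_setS h' hs hw') rfl (x := s) hs ?_ ?_
  · intro y _ h1 h2
    funext f
    cases f <;> first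
      | rfl
      | exact setS_sh_eq n c _ (fun _ => rfl) s y hsn h1 h2
      | simp only [Cfg.cell, setS, Function.comp, Equiv.swap_apply_of_ne_of_ne h1 h2]
  · refine .carry ?_ ?_ ?_ ?_ ?_ ?_ ?_ ?_
    · rw [setS_sh n c s s Iff.rfl]; split_ifs <;> omega
    · rw [setS_sh n _ (s + 1) (s + 1) Iff.rfl]; split_ifs <;> omega
    · rw [setS_sh n c s (s + 1) (by omega)]; split_ifs <;> omega
    · rw [setS_sh n _ (s + 1) s (by omega)]; split_ifs <;> omega
    · simp [Cfg.cell, setS, show ¬ adx n s < P1 by omega, show ¬ adx n (s + 1) < P1 by omega]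
    · simp [Cfg.cell, setS, show ¬ adx n s < P1 by omega, show ¬ adx n (s + 1) < P1 by omega]
    · intro f hf; cases f <;> first | rfl | simp at hf
    · intro f hf; cases f <;> first | rfl | simp at hf

theorem swap_up {n : ℕ} (hn : Big n) {x y : ℕ} (hxy : x + 1 ≤ y) :
    ∀ {c : Cfg}, c.SV n → y < c.len n → P1 ≤ adx n x → (x < n ↔ y < n) →
    (Lv n).Eqv (c.render n) (Cfg.render n { c with lab := c.lab ∘ Equiv.swap x y }) := by
  induction y, hxy using Nat.le_induction with
  | base => intro c h hy hw hs; exact swap_adj hn h hy hw (by omega)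
  | succ y hxy ih =>
    intro c h hy hw hs
    have hw' : P1 ≤ adx n y := by unfold adx at hw ⊢; split_ifs at hw ⊢ <;> omega
    have h1 := sv_swap h (x := y) (y := y + 1) (by omega) hy
    have h2 := sv_swap h1 (x := x) (y := y) (show x < c.len n by omega) (show y < c.len n by omega)
    have e1 := swap_adj hn h hy hw' (by omega)
    have e2 := ih h1 (show y < c.len n by omega) hw (by omega)
    have e3 := swap_adj hn h2 hy hw' (by omega)
    have e : ((c.lab ∘ Equiv.swap y (y + 1)) ∘ Equiv.swap x y) ∘ Equiv.swap y (y + 1) =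
        c.lab ∘ Equiv.swap x (y + 1) := by
      funext z
      simp only [Function.comp]
      congr 1
      simp only [Equiv.swap_apply_def]
      split_ifs <;> omega
    have := (e1.trans e2).trans e3
    simp only [e] at this
    exact this

theorem swap_any {n : ℕ} (hn : Big n) {c : Cfg} (h : c.SV n) {x y : ℕ}
    (hx : x < c.len n) (hy : y < c.len n) (wx : P1 ≤ adx n x) (wy : P1 ≤ adx n y)
    (hxy : x < n ↔ y < n) :
    (Lv n).Eqv (c.render n) (Cfg.render n { c with lab := c.lab ∘ Equiv.swap x y }) := by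
  rcases Nat.lt_trichotomy x y with h1 | h1 | h1
  · exact swap_up hn h1 h hy wx hxy
  · subst h1
    rw [Equiv.swap_self]
    exact QP.Eqv.refl _
  · rw [Equiv.swap_comm]
    exact swap_up hn h1 h hx wy hxy.symm

theorem exists_D {x : ℕ} (h1 : PP ≤ x) (h2 : x < P1) : ∃ f i, x = (Loc.D f i).adr := by
  have h3 : (x - PP) / Dg < 13 := by
    rw [Nat.div_lt_iff_lt_mul Dg_pos]; rw [P1_eq] at h2; omega
  refine ⟨Fld.ofIdx ((x - PP) / Dg), ⟨(x - PP) % Dg, Nat.mod_lt _ Dg_pos⟩, ?_⟩
  have h4 : (Fld.ofIdx ((x - PP) / Dg)).idx = (x - PP) / Dg := by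
    generalize (x - PP) / Dg = k at h3
    interval_cases k <;> rfl
  simp only [Loc.adr, h4]
  have := Nat.div_add_mod' (x - PP) Dg
  omega

theorem tok_swap {n : ℕ} {c : Cfg} (ht : c.TokOK n) {x y : ℕ}
    (hx : x < c.len n) (hy : y < c.len n) (wx : P1 ≤ adx n x) (wy : P1 ≤ adx n y)
    (hxy : x < n ↔ y < n) : Cfg.TokOK n { c with lab := c.lab ∘ Equiv.swap x y } := by
  have k1 : ∀ z, P1 ≤ adx n z → P1 ≤ adx n (Equiv.swap x y z) := fun z hz => by
    rw [Equiv.swap_apply_def]; split_ifs <;> assumption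
  have k2 : ∀ z, Equiv.swap x y z < n ↔ z < n := fun z => by
    rw [Equiv.swap_apply_def]; split_ifs <;> omega
  refine ⟨fun z hz wz => ht.lab_ge _ (swap_lt hx hy hz) (k1 z wz), fun z z' hz hz' wz wz' e e' => ?_⟩
  exact (Equiv.swap x y).injective (ht.lab_inj _ _ (swap_lt hx hy hz) (swap_lt hx hy hz')
    (k1 z wz) (k1 z' wz') (by rw [k2, k2]; exact e) e')

theorem sort_lab {n : ℕ} (hn : Big n) {c : Cfg} (h : c.SV n) (ht : c.TokOK n)
    (h2 : c.two = false) (k : ℕ) (hk1 : P1 ≤ k) (hk : k ≤ n) :
    ∃ l : ℕ → ℕ, Cfg.SV n { c with lab := l } ∧ Cfg.TokOK n { c with lab := l } ∧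
      (Lv n).Eqv (c.render n) (Cfg.render n { c with lab := l }) ∧
      ∀ x, P1 ≤ x → x < k → l x = x := by
  have hl : c.len n = n := by simp [Cfg.len, h2]
  induction k, hk1 using Nat.le_induction with
  | base => exact ⟨c.lab, h, ht, QP.Eqv.refl _, fun x h1 h2 => by omega⟩
  | succ k hk1 ih =>
    obtain ⟨l, s1, s2, s3, s4⟩ := ih (by omega)
    have hlen : ∀ x, x < n → x < Cfg.len n { c with lab := l } := fun x hx => by
      show x < c.len n
      omega
    have had : ∀ x, P1 ≤ x → x < n → P1 ≤ adx n x := fun x h1 h2 => by simp [adx, h2, h1]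
    have hm : Set.MapsTo l (Set.Ico P1 n) (Set.Ico P1 n) := fun x hx =>
      ⟨s2.lab_ge x (hlen x hx.2) (had x hx.1 hx.2), s1.lab_lt x (hlen x hx.2)⟩
    have hi : Set.InjOn l (Set.Ico P1 n) := fun x hx y hy e =>
      s2.lab_inj x y (hlen x hx.2) (hlen y hy.2) (had x hx.1 hx.2) (had y hy.1 hy.2)
        ⟨fun _ => hy.2, fun _ => hx.2⟩ e
    obtain ⟨y, hy, e⟩ := (((Set.finite_Ico P1 n).injOn_iff_bijOn_of_mapsTo hm).1 hi).surjOn
      (show k ∈ Set.Ico P1 n from ⟨hk1, by omega⟩)
    have hky : k ≤ y := by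
      by_contra h3
      have := s4 y hy.1 (by omega)
      omega
    refine ⟨l ∘ Equiv.swap k y, sv_swap s1 (hlen k (by omega)) (hlen y hy.2),
      tok_swap s2 (hlen k (by omega)) (hlen y hy.2) (had k hk1 (by omega)) (had y hy.1 hy.2)
        ⟨fun _ => hy.2, fun _ => by omega⟩,
      s3.trans (swap_any hn s1 (hlen k (by omega)) (hlen y hy.2) (had k hk1 (by omega))
        (had y hy.1 hy.2) ⟨fun _ => hy.2, fun _ => by omega⟩), fun x h3 h4 => ?_⟩
    by_cases h5 : x = k
    · subst h5; simp [e]
    · simp only [Function.comp]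
      rw [Equiv.swap_apply_of_ne_of_ne h5 (by omega)]
      exact s4 x h3 (by omega)

theorem scratch_all {n : ℕ} (hn : Big n) {c : Cfg} (h : c.SV n) (hq : c.q = 0) (μ : ℕ → ℕ)
    (h1 : ∀ x, x < c.len n → μ x < n) (h2 : ∀ x, x < c.len n → adx n x < P1 → μ x = c.mem x) :
    (Lv n).Eqv (c.render n) (Cfg.render n { c with mem := μ }) := by
  have hs : ∀ k, Cfg.SV n { c with mem := fun y => if y < k then μ y else c.mem y } := fun k =>
    sv_mem h _ (fun x hx => by split_ifs; exacts [h1 x hx, h.mem_lt x hx])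
      (fun x hx hp => by split_ifs; exacts [h2 x hx hp, rfl])
  have key : ∀ k, k ≤ c.len n → (Lv n).Eqv (c.render n)
      (Cfg.render n { c with mem := fun y => if y < k then μ y else c.mem y }) := by
    intro k
    induction k with
    | zero => intro _; exact QP.Eqv.refl _
    | succ k ih =>
      intro hk
      refine (ih (by omega)).trans ?_
      by_cases hp : adx n k < P1
      · have : (fun y => if y < k + 1 then μ y else c.mem y) =
            fun y => if y < k then μ y else c.mem y := by
          funext y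
          by_cases e : y = k
          · subst e; simp [h2 y (by omega) hp]
          · split_ifs <;> first | rfl | omega
        rw [this]
        exact QP.Eqv.refl _
      · exact scratch_one hn (hs k) hq _ (x := k) (show k < c.len n by omega) (by omega)
          (by simp [h1 k (by omega)])
          (fun y e => by simp only; split_ifs <;> first | rfl | omega)
  have e : Cfg.render n { c with mem := fun y => if y < c.len n then μ y else c.mem y } =
      Cfg.render n { c with mem := μ } := by
    refine render_congr rfl fun y hy => ?_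
    have hy' : y < c.len n := hy
    funext f
    cases f <;> first | rfl | simp only [Cfg.cell, hy', if_true]
  rw [← e]
  exact key _ le_rfl

theorem free_solo {n : ℕ} (hn : Big n) {c : Cfg} (h : c.SV n) (ht : c.TokOK n)
    (h2 : c.two = false) :
    (Lv n).Eqv (c.render n) (phi n (letter n (c.ps n).mem false)) := by
  obtain ⟨b1, b2, b3, b4⟩ := big_facts hn
  have hl : c.len n = n := by simp [Cfg.len, h2]
  have hf : c.Free := by
    rcases h.ctl with h3 | ⟨h3, -⟩
    · exact h3
    · simp [h2] at h3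
  set a := letter n (c.ps n).mem false with ha
  obtain ⟨l, s1, -, s3, s4⟩ := sort_lab hn h ht h2 n (by omega) le_rfl
  have hv := (idle_valid hn a).sv
  have hil : (idle n a).len n = n := by simp [Cfg.len, idle]
  have m1 : ∀ x, x < c.len n → (idle n a).mem x < n := fun x hx => hv.mem_lt x (by omega)
  have m2 : ∀ x, x < c.len n → adx n x < P1 → (idle n a).mem x = c.mem x := fun x hx hp => by
    have e : adx n x = x := by simp [adx, show x < n by omega]
    by_cases h3 : x < PP
    · rw [hv.mem_prog x (by omega) (by omega), h.mem_prog x hx (by omega)]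
    · obtain ⟨f, i, rfl⟩ := exists_D (x := x) (by omega) (by omega)
      rw [idle_mem, ha, dig_letter]
      · rfl
      · intro g j
        have := Loc.adr_D g j
        exact h.mem_lt _ (by rw [pos_false]; omega)
  have t1 := sv_mem s1 _ m1 m2
  have e1 := scratch_all hn s1 hf.1 _ m1 m2
  have t2 := sv_head t1 (k := 0) (show 0 < c.len n by omega)
  have e2 := head_any hn t1 (k := 0) (show 0 < c.len n by omega)
  have e3 := sh_any hn t2 (s := P1) (show P1 < c.len n by omega)
    (by simp [adx, show P1 < n by omega])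
  have e4 := ((s3.trans e1).trans e2).trans e3
  refine (show _ = phi n a from render_congr ?_ ?_) ▸ e4
  · exact h2.symm
  · intro y hy
    have hy' : y < n := by
      have : y < c.len n := hy
      omega
    obtain ⟨f1, f2, f3, f4, f5, f6⟩ := hf
    funext f
    cases f
    · rfl
    · rfl
    · rfl
    · rfl
    · simp [Cfg.cell, setS, idle, h2]
    · simp only [Cfg.cell, setS, f1, ite_self]; exact (ite_self _).symm
    · simp only [Cfg.cell, setS, f2, ite_self]; exact (ite_self _).symm
    · simp only [Cfg.cell, setS, f3, ite_self]; exact (ite_self _).symm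
    · simp only [Cfg.cell, setS, f4, ite_self]; exact (ite_self _).symm
    · simp only [Cfg.cell, setS, f5, ite_self]; exact (ite_self _).symm
    · simp only [Cfg.cell, setS, f6, ite_self]; exact (ite_self _).symm
    · simp only [Cfg.cell, setS, idle, hy', show P1 < n by omega, if_true]
    · simp only [Cfg.cell, setS, idle, adx, hy', if_true]
      split_ifs
      · rfl
      · exact s4 y (by omega) hy'

/-- The left half of a free pair. -/
def lhalf (n : ℕ) (c : Cfg) : Cfg := { c with two := false, h := n - 1 }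

/-- The right half of a free pair. -/
def rhalf (n : ℕ) (c : Cfg) : Cfg :=
  { c with two := false, h := 0, mem := fun x => c.mem (n + x), s0 := c.s1 - n,
           lab := fun x => c.lab (n + x) }

theorem sv_lhalf {n : ℕ} (hn : Big n) {c : Cfg} (h : c.SV n) (h2 : c.two = true) (hf : c.Free) :
    (lhalf n c).SV n := by
  obtain ⟨b1, b2, b3, b4⟩ := big_facts hn
  have hl : c.len n = 2 * n := by simp [Cfg.len, h2]
  have hl' : (lhalf n c).len n = n := by simp [Cfg.len, lhalf]
  refine ⟨?_, h.regs, Or.inl hf, fun x hx => h.mem_lt x (by omega),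
    fun x hx => h.mem_prog x (by omega), h.s0_mem, fun h3 => ?_, fun x hx => h.lab_lt x (by omega)⟩
  · rw [hl']; simp only [lhalf]; omega
  · simp [lhalf] at h3

theorem adx_add {n x : ℕ} (hx : x < n) : adx n (n + x) = adx n x := by
  unfold adx; split_ifs <;> omega

theorem sv_rhalf {n : ℕ} (hn : Big n) {c : Cfg} (h : c.SV n) (h2 : c.two = true) (hf : c.Free) :
    (rhalf n c).SV n := by
  obtain ⟨b1, b2, b3, b4⟩ := big_facts hn
  have hl : c.len n = 2 * n := by simp [Cfg.len, h2]
  have hl' : (rhalf n c).len n = n := by simp [Cfg.len, rhalf]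
  refine ⟨?_, h.regs, Or.inl hf, fun x hx => h.mem_lt (n + x) (by omega),
    fun x hx hp => ?_, ?_, fun h3 => ?_, fun x hx => h.lab_lt (n + x) (by omega)⟩
  · rw [hl']; simp only [rhalf]; omega
  · rw [← adx_add (show x < n by omega)] at hp ⊢
    exact h.mem_prog (n + x) (by omega) hp
  · have := h.s1_mem h2
    simp only [rhalf]; omega
  · simp [rhalf] at h3

theorem tok_lhalf {n : ℕ} {c : Cfg} (ht : c.TokOK n) (h2 : c.two = true) :
    (lhalf n c).TokOK n := by
  have hl : c.len n = 2 * n := by simp [Cfg.len, h2]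
  have hl' : (lhalf n c).len n = n := by simp [Cfg.len, lhalf]
  exact ⟨fun x hx => ht.lab_ge x (by omega),
    fun x y hx hy => ht.lab_inj x y (by omega) (by omega)⟩

theorem tok_rhalf {n : ℕ} {c : Cfg} (ht : c.TokOK n) (h2 : c.two = true) :
    (rhalf n c).TokOK n := by
  have hl : c.len n = 2 * n := by simp [Cfg.len, h2]
  have hl' : (rhalf n c).len n = n := by simp [Cfg.len, rhalf]
  refine ⟨fun x hx wx => ht.lab_ge (n + x) (by omega) (by rw [adx_add (by omega)]; exact wx),
    fun x y hx hy wx wy _ e => ?_⟩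
  have := ht.lab_inj (n + x) (n + y) (by omega) (by omega) (by rw [adx_add (by omega)]; exact wx)
    (by rw [adx_add (by omega)]; exact wy) (by omega) e
  omega

theorem split_pair {n : ℕ} (hn : Big n) {c : Cfg} (h : c.SV n) (h2 : c.two = true) (hf : c.Free) :
    (Lv n).Eqv (c.render n) ((lhalf n c).render n ++ (rhalf n c).render n) := by
  obtain ⟨b1, b2, b3, b4⟩ := big_facts hn
  have hl : c.len n = 2 * n := by simp [Cfg.len, h2]
  have hl1 : (lhalf n c).len n = n := by simp [Cfg.len, lhalf]
  have hl2 : (rhalf n c).len n = n := by simp [Cfg.len, rhalf]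
  have s1 := sv_lhalf hn h h2 hf
  have s2 := sv_rhalf hn h h2 hf
  have s3 := sv_head h (k := n - 1) (by omega)
  have hs1 := h.s1_mem h2
  refine (head_any hn h (k := n - 1) (by omega)).trans (QP.Eqv.symm ?_)
  let F : ℕ → Cell := fun x => if x < n then (lhalf n c).cell n x else (rhalf n c).cell n (x - n)
  have e1 : (lhalf n c).render n ++ (rhalf n c).render n = (List.range (2 * n)).map F := by
    rw [two_mul, List.range_add, List.map_append, List.map_map, Cfg.render, Cfg.render, hl1, hl2]
    congr 1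
    · exact List.map_congr_left fun y hy => by simp [F, List.mem_range.1 hy]
    · exact List.map_congr_left fun y _ => by simp [F]
  have e2 : Cfg.render n { c with h := n - 1 } =
      (List.range (2 * n)).map (Cfg.cell n { c with h := n - 1 }) := by
    rw [← hl]; rfl
  rw [e1, e2]
  obtain ⟨f1, f2, f3, f4, f5, f6⟩ := hf
  have hF : ∀ y, y < 2 * n → ∀ f, f ≠ Fld.ar → F y f = Cfg.cell n { c with h := n - 1 } y f := by
    intro y hy f hf
    by_cases hy' : y < n
    · simp only [F, hy', if_true]
      cases f <;> first | rfl | exact (hf rfl).elim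
    · obtain ⟨z, rfl⟩ : ∃ z, y = n + z := ⟨y - n, by omega⟩
      have hz : z < n := by omega
      simp only [F, hy', if_false, Nat.add_sub_cancel_left]
      cases f
      · simp only [Cfg.cell, adx_add hz]
      · simp only [Cfg.cell, adx_add hz]
      · simp only [Cfg.cell, adx_add hz]
      · rfl
      · exact (hf rfl).elim
      · simp [Cfg.cell, rhalf, f1]
      · simp [Cfg.cell, rhalf, f2]
      · simp [Cfg.cell, rhalf, f3]
      · simp [Cfg.cell, rhalf, f4]
      · simp [Cfg.cell, rhalf, f5]
      · simp [Cfg.cell, rhalf, f6]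
      · simp only [Cfg.cell, rhalf, adx_add hz, hz, hy', if_true, if_false]
        split_ifs <;> first | rfl | omega
      · simp only [Cfg.cell, rhalf, adx_add hz]
  have hn1 : n - 1 + 1 = n := by omega
  have hFa : F (n - 1) = (lhalf n c).cell n (n - 1) := by simp [F, show n - 1 < n by omega]
  have hFb : F n = (rhalf n c).cell n 0 := by simp [F]
  refine eqv_fun F _ (x := n - 1) (by omega) (fun y hy h3 h4 => ?_) ?_
  · funext f
    by_cases hf : f = .ar
    · subst hf
      by_cases hy' : y < n
      · simp only [F, hy', if_true, Cfg.cell, lhalf, show y < n - 1 by omega]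
      · simp only [F, hy', if_false, Cfg.cell, rhalf]
        split_ifs <;> first | rfl | omega | simp_all
    · exact hF y hy f hf
  · rw [hn1]
    refine Lv_E.2 ⟨⟨?_, ?_, cell_bd hn s3 (show n - 1 < c.len n by omega),
      cell_bd hn s3 (show n < c.len n by omega)⟩, .capture ?_ ?_ ?_ ?_ ?_ ?_ ?_ ?_⟩
    · rw [hFa]; exact cell_bd hn s1 (by omega)
    · rw [hFb]; exact cell_bd hn s2 (by omega)
    · rw [hFb]; simp [Cfg.cell, adx]
    · rw [hFa]; simp [Cfg.cell, lhalf]
    · rw [hFb]; simp [Cfg.cell, rhalf]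
    · simp [Cfg.cell, h2, show n - 1 < n by omega]
    · simp only [Cfg.cell]; split_ifs <;> first | rfl | omega
    · rw [hFa]; simp [Cfg.cell, lhalf, f1]
    · intro f hf; exact (hF _ (by omega) f (by simpa using hf)).symm
    · intro f hf; exact (hF _ (by omega) f (by simpa using hf)).symm

end MovesAux

open MovesAux StructAux

theorem eqv_head {n : ℕ} (hn : Big n) {c : Cfg} (h : c.SV n) {h' : ℕ} (hh : h' < c.len n) :
    (Lv n).Eqv (c.render n) (Cfg.render n { c with h := h' }) := head_any hn h hh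

theorem eqv_scratch {n : ℕ} (hn : Big n) {c : Cfg} (h : c.SV n) (hq : c.q = 0) (μ : ℕ → ℕ)
    (h1 : ∀ x, x < c.len n → μ x < n) (h2 : ∀ x, x < c.len n → adx n x < P1 → μ x = c.mem x) :
    (Lv n).Eqv (c.render n) (Cfg.render n { c with mem := μ }) := scratch_all hn h hq μ h1 h2

theorem eqv_lab_swap {n : ℕ} (hn : Big n) {c : Cfg} (h : c.SV n) {x y : ℕ}
    (hx : x < c.len n) (hy : y < c.len n) (wx : P1 ≤ adx n x) (wy : P1 ≤ adx n y)
    (hxy : x < n ↔ y < n) :
    (Lv n).Eqv (c.render n) (Cfg.render n { c with lab := c.lab ∘ Equiv.swap x y }) :=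
  swap_any hn h hx hy wx wy hxy

theorem null_tok {n : ℕ} (hn : Big n) {c : Cfg} (h : c.SV n) (ht : ¬ c.TokOK n) :
    (Lv n).Null (c.render n) := by
  obtain ⟨b1, b2, b3, b4⟩ := big_facts hn
  have hl := len_le n c
  have hb : ∀ x, x < c.len n → ∃ b, b + 1 < c.len n ∧ adx n b = P1 ∧ adx n (b + 1) = P1 + 1 ∧
      (x < n ↔ b < n) ∧ (x < n ↔ b + 1 < n) := by
    intro x hx
    by_cases h1 : x < n
    · refine ⟨P1, ?_, ?_, ?_, by omega, by omega⟩
      · unfold Cfg.len; split_ifs <;> omega
      · unfold adx; split_ifs <;> omega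
      · unfold adx; split_ifs <;> omega
    · refine ⟨n + P1, ?_, ?_, ?_, by omega, by omega⟩
      · unfold Cfg.len at hx ⊢; split_ifs at hx ⊢ <;> omega
      · unfold adx; split_ifs <;> omega
      · unfold adx; split_ifs <;> omega
  by_cases h1 : ∀ x, x < c.len n → P1 ≤ adx n x → P1 ≤ c.lab x
  · have h2 : ¬ ∀ x y, x < c.len n → y < c.len n → P1 ≤ adx n x → P1 ≤ adx n y →
        (x < n ↔ y < n) → c.lab x = c.lab y → x = y := fun h2 => ht ⟨h1, h2⟩
    push Not at h2
    obtain ⟨x, y, hx, hy, wx, wy, hxy, e, hne⟩ := h2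
    obtain ⟨b, k1, k2, k3, k4, k5⟩ := hb x hx
    have s1 := sv_swap h (x := x) (y := b) hx (by omega)
    have e1 := swap_any hn h (x := x) (y := b) hx (by omega) wx (by omega) k4
    have y1 : Equiv.swap x b y < c.len n := swap_lt hx (by omega) hy
    have y2 : P1 ≤ adx n (Equiv.swap x b y) := by
      rw [Equiv.swap_apply_def]; split_ifs <;> omega
    have y3 : Equiv.swap x b y < n ↔ b + 1 < n := by
      rw [Equiv.swap_apply_def]; split_ifs <;> omega
    have y4 : b ≠ Equiv.swap x b y := by
      rw [Equiv.swap_apply_def]; split_ifs <;> omega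
    have s2 := sv_swap s1 (x := Equiv.swap x b y) (y := b + 1) y1 k1
    have e2 := swap_any hn s1 (x := Equiv.swap x b y) (y := b + 1) y1 k1 y2 (by omega) y3
    have s3 := sv_setS s2 (s := b) (show b < c.len n by omega) (by omega)
    have e3 := sh_any hn s2 (s := b) (show b < c.len n by omega) (by omega)
    refine QP.Null.of_eqv ((e1.trans e2).trans e3) (null_cell hn s3 (x := b) k1 (.dup ?_ ?_ ?_))
    · rw [setS_sh n _ b b Iff.rfl]; split_ifs <;> omega
    · rw [setS_sh n _ b (b + 1) (by omega)]; split_ifs <;> omega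
    · simp only [Cfg.cell, setS, k2, k3, lt_irrefl, if_false, show ¬ P1 + 1 < P1 by omega,
        Function.comp, Equiv.swap_apply_right, Equiv.swap_apply_self]
      rw [Equiv.swap_apply_of_ne_of_ne y4 (by omega), Equiv.swap_apply_right, e]
  · push Not at h1
    obtain ⟨x, hx, wx, e⟩ := h1
    obtain ⟨b, k1, k2, k3, k4, k5⟩ := hb x hx
    have s1 := sv_swap h (x := x) (y := b) hx (by omega)
    have e1 := swap_any hn h (x := x) (y := b) hx (by omega) wx (by omega) k4
    have s3 := sv_setS s1 (s := b) (show b < c.len n by omega) (by omega)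
    have e3 := sh_any hn s1 (s := b) (show b < c.len n by omega) (by omega)
    refine QP.Null.of_eqv (e1.trans e3) (null_cell hn s3 (x := b) k1 (.labw ?_ ?_))
    · rw [setS_sh n _ b b Iff.rfl]; split_ifs <;> omega
    · simp only [Cfg.cell, setS, k2, lt_irrefl, if_false, Function.comp, Equiv.swap_apply_right]
      rw [tb_eq_zero.2 le_rfl]
      intro h3
      have := tb_eq_zero.1 h3.symm
      omega

theorem eqv_free {n : ℕ} (hn : Big n) {c : Cfg} (h : c.SV n) (ht : c.TokOK n) (hq : c.q = 0) :
    (Lv n).Eqv (c.render n) ((c.dec n).flatMap (phi n)) := by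
  cases h2 : c.two
  · have := free_solo hn h ht h2
    simpa [Cfg.dec, h2, Cfg.dmem, hq] using this
  · have hf : c.Free := by
      rcases h.ctl with h3 | ⟨-, h3⟩
      · exact h3
      · omega
    have e1 := free_solo hn (sv_lhalf hn h h2 hf) (tok_lhalf ht h2) rfl
    have e2 := free_solo hn (sv_rhalf hn h h2 hf) (tok_rhalf ht h2) rfl
    have e3 : letter n ((rhalf n c).ps n).mem false = letter n (c.ps n).mem true :=
      letter_congr fun f i => rfl
    have e4 : letter n ((lhalf n c).ps n).mem false = letter n (c.ps n).mem false :=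
      letter_congr fun f i => rfl
    rw [e3] at e2
    rw [e4] at e1
    have := (split_pair hn h h2 hf).trans (e1.append e2)
    simpa [Cfg.dec, h2, Cfg.dmem, hq] using this

end Vale.Agent.P192
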