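import Mathlib

/-!
Quadratic binomial presentations: rewriting of words, the presented algebra over the field with
two elements, and the linear nilpotency property.
-/

namespace Vale.Agent.P192

/-- A quadratic presentation on the letters in `S`: relations `a b = c d` and `a b = 0`. -/
structure QP (A : Type) where
  S : Finset A
  E : A → A → A → A → Prop
  Z : A → A → Prop
  E_mem : ∀ a b c d, E a b c d → a ∈ S ∧ b ∈ S ∧ c ∈ S ∧ d ∈ S
  Z_mem : ∀ a b, Z a b → a ∈ S ∧ b ∈ S

/-- Product of the values of `y` along a word. -/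
def wd {A M : Type} [Monoid M] (y : A → M) (w : List A) : M := (w.map y).prod

@[simp] theorem wd_nil {A M : Type} [Monoid M] (y : A → M) : wd y [] = 1 := by simp [wd]
@[simp] theorem wd_cons {A M : Type} [Monoid M] (y : A → M) (a : A) (w : List A) :
    wd y (a :: w) = y a * wd y w := by simp [wd]
@[simp] theorem wd_append {A M : Type} [Monoid M] (y : A → M) (u v : List A) :
    wd y (u ++ v) = wd y u * wd y v := by simp [wd]

/-- The finite set of words of length `l` on the letters of `S`. -/
noncomputable def words {A : Type} (S : Finset A) : ℕ → Finset (List A)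
  | 0 => {[]}
  | l + 1 => by
      classical exact (S ×ˢ words S l).image fun p => p.1 :: p.2

theorem mem_words {A : Type} {S : Finset A} {l : ℕ} {w : List A} :
    w ∈ words S l ↔ w.length = l ∧ ∀ a ∈ w, a ∈ S := by
  induction l generalizing w with
  | zero => cases w <;> simp [words]
  | succ l ih =>
    cases w with
    | nil => simp [words]
    | cons a w =>
      simp only [words, Finset.mem_image, Finset.mem_product, List.cons.injEq, Prod.exists, ih,
        List.length_cons, Nat.add_right_cancel_iff, List.mem_cons, forall_eq_or_imp]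
      constructor
      · rintro ⟨b, v, ⟨hb, hv, hS⟩, rfl, rfl⟩; exact ⟨hv, hb, hS⟩
      · rintro ⟨h1, h2, h3⟩; exact ⟨a, w, ⟨h2, h1, h3⟩, rfl, rfl⟩

theorem sum_words_succ {A M : Type} [AddCommMonoid M] (S : Finset A) (l : ℕ) (f : List A → M) :
    ∑ w ∈ words S (l + 1), f w = ∑ a ∈ S, ∑ w ∈ words S l, f (a :: w) := by
  classical
  have : words S (l + 1) = (S ×ˢ words S l).image fun p => p.1 :: p.2 := by
    rw [words]
  rw [this, Finset.sum_image, Finset.sum_product]
  rintro ⟨a, u⟩ _ ⟨b, v⟩ _ h
  simpa using h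

namespace QP

variable {A : Type} (Q : QP A)

/-- One application of a relation `a b = c d`. -/
inductive Step : List A → List A → Prop
  | mk (u v : List A) (a b c d : A) (h : Q.E a b c d) : Step (u ++ a :: b :: v) (u ++ c :: d :: v)

/-- Equality of words in the presented monoid (without using zero). -/
def Eqv : List A → List A → Prop := Relation.EqvGen Q.Step

/-- The word contains a factor declared to be zero. -/
def HasZ (w : List A) : Prop := ∃ u v a b, Q.Z a b ∧ w = u ++ a :: b :: v

/-- The word is zero in the presented monoid with zero. -/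
def Null (w : List A) : Prop := ∃ w', Q.Eqv w w' ∧ Q.HasZ w'

/-- The family `y` satisfies the relations. -/
def Sat {R : Type} [Ring R] (y : A → R) : Prop :=
  (∀ a b c d, Q.E a b c d → y a * y b = y c * y d) ∧ (∀ a b, Q.Z a b → y a * y b = 0)

variable {Q}

theorem Eqv.refl (w : List A) : Q.Eqv w w := Relation.EqvGen.refl _
theorem Eqv.symm {u v : List A} (h : Q.Eqv u v) : Q.Eqv v u := Relation.EqvGen.symm _ _ h
theorem Eqv.trans {u v w : List A} (h : Q.Eqv u v) (h' : Q.Eqv v w) : Q.Eqv u w :=
  Relation.EqvGen.trans _ _ _ h h'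
theorem Eqv.of_step {u v : List A} (h : Q.Step u v) : Q.Eqv u v := Relation.EqvGen.rel _ _ h
theorem Eqv.of_E {a b c d : A} (h : Q.E a b c d) (u v : List A) :
    Q.Eqv (u ++ a :: b :: v) (u ++ c :: d :: v) := Eqv.of_step (Step.mk u v a b c d h)

theorem Step.ctx {u v : List A} (h : Q.Step u v) (l r : List A) :
    Q.Step (l ++ u ++ r) (l ++ v ++ r) := by
  obtain ⟨u, v, a, b, c, d, h⟩ := h
  have := Step.mk (Q := Q) (l ++ u) (v ++ r) a b c d h
  simpa using this

theorem Eqv.ctx {u v : List A} (h : Q.Eqv u v) (l r : List A) :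
    Q.Eqv (l ++ u ++ r) (l ++ v ++ r) := by
  induction h with
  | rel _ _ h => exact Eqv.of_step (h.ctx l r)
  | refl => exact Eqv.refl _
  | symm _ _ _ ih => exact ih.symm
  | trans _ _ _ _ _ ih1 ih2 => exact ih1.trans ih2

theorem Eqv.append {u v u' v' : List A} (h : Q.Eqv u u') (h' : Q.Eqv v v') :
    Q.Eqv (u ++ v) (u' ++ v') := by
  have h1 := h.ctx [] v
  have h2 := h'.ctx u' []
  simp only [List.nil_append, List.append_nil] at h1 h2
  exact h1.trans h2

theorem Eqv.length {u v : List A} (h : Q.Eqv u v) : u.length = v.length := by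
  induction h with
  | rel _ _ h => obtain ⟨u, v, a, b, c, d, h⟩ := h; simp
  | refl => rfl
  | symm _ _ _ ih => exact ih.symm
  | trans _ _ _ _ _ ih1 ih2 => exact ih1.trans ih2

theorem Eqv.mem_iff {u v : List A} (h : Q.Eqv u v) :
    (∀ a ∈ u, a ∈ Q.S) ↔ (∀ a ∈ v, a ∈ Q.S) := by
  induction h with
  | rel _ _ h =>
    obtain ⟨u, v, a, b, c, d, h⟩ := h
    obtain ⟨h1, h2, h3, h4⟩ := Q.E_mem _ _ _ _ h
    simp [or_imp, forall_and, h1, h2, h3, h4]
  | refl => rfl
  | symm _ _ _ ih => exact ih.symm
  | trans _ _ _ _ _ ih1 ih2 => exact ih1.trans ih2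

theorem Null.of_eqv {u v : List A} (h : Q.Eqv u v) (hv : Q.Null v) : Q.Null u := by
  obtain ⟨w, h1, h2⟩ := hv
  exact ⟨w, h.trans h1, h2⟩

theorem Null.of_Z {a b : A} (h : Q.Z a b) (u v : List A) : Q.Null (u ++ a :: b :: v) :=
  ⟨_, Eqv.refl _, u, v, a, b, h, rfl⟩

theorem Null.ctx {w : List A} (h : Q.Null w) (l r : List A) : Q.Null (l ++ w ++ r) := by
  obtain ⟨w', h1, u, v, a, b, h2, rfl⟩ := h
  exact ⟨_, h1.ctx l r, l ++ u, v ++ r, a, b, h2, by simp⟩

theorem not_null_single (a : A) : ¬ Q.Null [a] := by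
  rintro ⟨w, h1, u, v, b, c, -, rfl⟩
  have := h1.length
  simp at this
  omega

theorem Sat.eqv {R : Type} [Ring R] {y : A → R} (hy : Q.Sat y) {u v : List A} (h : Q.Eqv u v) :
    wd y u = wd y v := by
  induction h with
  | rel _ _ h =>
    obtain ⟨u, v, a, b, c, d, h⟩ := h
    simp only [wd_append, wd_cons, ← mul_assoc]
    rw [mul_assoc (wd y u), hy.1 _ _ _ _ h, ← mul_assoc]
  | refl => rfl
  | symm _ _ _ ih => exact ih.symm
  | trans _ _ _ _ _ ih1 ih2 => exact ih1.trans ih2

theorem Sat.null {R : Type} [Ring R] {y : A → R} (hy : Q.Sat y) {u : List A} (h : Q.Null u) :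
    wd y u = 0 := by
  obtain ⟨w, h1, l, r, a, b, h2, rfl⟩ := h
  rw [hy.eqv h1]
  simp only [wd_append, wd_cons, ← mul_assoc]
  rw [mul_assoc (wd y l), hy.2 _ _ h2]; simp

variable (Q)

/-- Coefficient ring: polynomials over the field with two elements. -/
abbrev K2 : Type := Polynomial (ZMod 2)

/-- Every linear form in the letters, with coefficients from a free algebra of rank at most `d`
over `K2` commuting with the letters, is nilpotent. -/
def LinNil (d : ℕ) : Prop :=
  ∀ (T : Type) [Ring T] [Algebra K2 T] [NoZeroSMulDivisors K2 T]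
    (B : Type) [Ring B] [Algebra K2 B] [Module.Free K2 B] [Module.Finite K2 B],
    Module.finrank K2 B ≤ d →
    ∀ (β : B →ₐ[K2] T) (y : A → T), Q.Sat y → (∀ b a, Commute (β b) (y a)) →
    ∀ ρ : A → B, IsNilpotent (∑ a ∈ Q.S, β (ρ a) * y a)

/-- `(R, y)` is the algebra over the field with two elements presented by `Q`. -/
structure Presents (R : Type) [Ring R] (y : A → R) : Prop where
  two : ∀ r : R, r + r = 0
  sat : Q.Sat y
  out : ∀ a, a ∉ Q.S → y a = 0
  span : ∀ r : R, r ∈ AddSubmonoid.closure (Set.range (wd y))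
  lift : ∀ (T : Type) [Ring T], (∀ t : T, t + t = 0) → ∀ z : A → T, Q.Sat z →
    (∀ a, a ∉ Q.S → z a = 0) → ∃ f : R →+* T, ∀ a, f (y a) = z a

end QP

end Vale.Agent.P192
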