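import Vale.Agent.P192.Sim

namespace Vale.Agent.P192

namespace Red1

theorem commute_wd {A T : Type} [Monoid T] {y : A → T} {t : T} (hc : ∀ a, Commute t (y a))
    (w : List A) : Commute t (wd y w) := by
  induction w with
  | nil => simp
  | cons a w ih => rw [wd_cons]; exact (hc a).mul_right ih

theorem wd_mul {A B T : Type} [Ring B] [Ring T] (β : B →+* T) (y : A → T)
    (hc : ∀ b a, Commute (β b) (y a)) (ρ : A → B) (w : List A) :
    wd (fun a => β (ρ a) * y a) w = β (wd ρ w) * wd y w := by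
  induction w with
  | nil => simp
  | cons a w ih =>
    rw [wd_cons, ih, wd_cons, wd_cons, map_mul]
    have := (hc (wd ρ w) a).eq
    simp only [mul_assoc]
    rw [← mul_assoc (y a), ← this, mul_assoc]

theorem sum_pow {A T : Type} [Ring T] (S : Finset A) (x : A → T) (l : ℕ) :
    (∑ a ∈ S, x a) ^ l = ∑ w ∈ words S l, wd x w := by
  induction l with
  | zero => simp [words]
  | succ l ih =>
    rw [pow_succ', ih, sum_words_succ, Finset.sum_mul]
    simp only [wd_cons, Finset.mul_sum]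

open Classical in
theorem sum_pow_ite {A T : Type} [Ring T] (S : Finset A) (p : A → Prop) [DecidablePred p]
    (x : A → T) (l : ℕ) :
    (∑ a ∈ S, if p a then x a else 0) ^ l =
      ∑ w ∈ words S l, if (∀ b ∈ w, p b) then wd x w else 0 := by
  rw [sum_pow]
  refine Finset.sum_congr rfl fun w hw => ?_
  clear hw
  induction w with
  | nil => simp
  | cons a w ih =>
    rw [wd_cons, ih, wd_cons]
    by_cases h1 : p a <;> by_cases h2 : ∀ b ∈ w, p b <;> simp [h1, h2]

theorem pow_split {T : Type} [Ring T] (a b : T) (l : ℕ) :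
    (a + b) ^ l = b ^ l + ∑ j ∈ Finset.range l, b ^ j * a * (a + b) ^ (l - 1 - j) := by
  induction l with
  | zero => simp
  | succ l ih =>
    rw [Finset.sum_range_succ', pow_succ', add_mul]
    conv_lhs => arg 2; rw [ih]
    rw [mul_add, Finset.mul_sum, ← pow_succ']
    have : ∀ j ∈ Finset.range l, b * (b ^ j * a * (a + b) ^ (l - 1 - j)) =
        b ^ (j + 1) * a * (a + b) ^ (l + 1 - 1 - (j + 1)) := by
      intro j _
      have e : l + 1 - 1 - (j + 1) = l - 1 - j := by omega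
      rw [e, pow_succ']
      simp only [mul_assoc]
    rw [Finset.sum_congr rfl this]
    simp only [pow_zero, one_mul, Nat.add_sub_cancel, Nat.sub_zero]
    abel

section

variable {A A' : Type} {Q : QP A} {Q' : QP A'} (σ : Sim Q Q')
  {B T : Type} [Ring B] [Ring T] (β : B →+* T) (y : A → T) (ρ : A → B)

/-- Weight of one decoded letter. -/
noncomputable def G1 : T := ∑ a ∈ Q'.S, β (σ.N1 ρ a) * wd y (σ.φ a)

/-- Weight of two decoded letters. -/
noncomputable def G2 : T :=
  ∑ a ∈ Q'.S, ∑ b ∈ Q'.S, β (σ.N2 ρ a b) * (wd y (σ.φ a) * wd y (σ.φ b))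

open Classical in
theorem G1_eq (hy : Q.Sat y) : G1 σ β y ρ =
    ∑ g ∈ words Q.S σ.n, if (∃ a, σ.D1 g a) then β (wd ρ g) * wd y g else 0 := by
  unfold G1 Sim.N1
  simp only [map_sum, Finset.sum_mul]
  rw [Finset.sum_comm]
  refine Finset.sum_congr rfl fun g _ => ?_
  by_cases h : ∃ a, σ.D1 g a
  · obtain ⟨a, ha⟩ := h
    obtain ⟨h1, -, -, -, h5⟩ := σ.D1_spec g a ha
    rw [if_pos ⟨a, ha⟩, Finset.sum_eq_single a]
    · rw [if_pos ha, hy.eqv h5]
    · intro b _ hb
      rw [if_neg fun hb' => hb (σ.D1_fun g b a hb' ha)]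
      simp
    · intro h; exact absurd h1 h
  · rw [if_neg h]
    refine Finset.sum_eq_zero fun a _ => ?_
    rw [if_neg fun ha => h ⟨a, ha⟩]
    simp

open Classical in
theorem G2_eq (hy : Q.Sat y) : G2 σ β y ρ =
    ∑ g ∈ words Q.S (2 * σ.n), if (∃ a b, σ.D2 g a b) then β (wd ρ g) * wd y g else 0 := by
  unfold G2 Sim.N2
  simp only [map_sum, Finset.sum_mul]
  rw [← Finset.sum_product', Finset.sum_comm]
  refine Finset.sum_congr rfl fun g _ => ?_
  by_cases h : ∃ a b, σ.D2 g a b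
  · obtain ⟨a, b, ha⟩ := h
    obtain ⟨h1, h1', -, -, -, h5⟩ := σ.D2_spec g a b ha
    rw [if_pos ⟨a, b, ha⟩, Finset.sum_eq_single (a, b)]
    · rw [if_pos ha, hy.eqv h5, wd_append]
    · rintro ⟨a', b'⟩ _ hb
      rw [if_neg]
      · simp
      · intro hb'
        obtain ⟨e1, e2⟩ := σ.D2_fun g a' b' a b hb' ha
        exact hb (by rw [e1, e2])
    · intro h; exact absurd (Finset.mem_product.2 ⟨h1, h1'⟩) h
  · rw [if_neg h]
    refine Finset.sum_eq_zero fun a _ => ?_
    rw [if_neg fun ha => h ⟨a.1, a.2, ha⟩]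
    simp

theorem Tm_zero : σ.Tm β y ρ 0 = 1 := by simp [Sim.Tm, words, Sim.N]

theorem Tm_one : σ.Tm β y ρ 1 = G1 σ β y ρ := by
  unfold Sim.Tm G1
  rw [sum_words_succ]
  simp [words, Sim.N]

theorem Tm_succ (hc : ∀ b a, Commute (β b) (y a)) (m : ℕ) :
    σ.Tm β y ρ (m + 2) = G1 σ β y ρ * σ.Tm β y ρ (m + 1) + G2 σ β y ρ * σ.Tm β y ρ m := by
  unfold Sim.Tm G1 G2
  rw [sum_words_succ, Finset.sum_mul, Finset.sum_mul, ← Finset.sum_add_distrib]
  refine Finset.sum_congr rfl fun a _ => ?_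
  rw [sum_words_succ, sum_words_succ, Finset.sum_mul, Finset.mul_sum, ← Finset.sum_add_distrib]
  refine Finset.sum_congr rfl fun b _ => ?_
  rw [Finset.mul_sum, Finset.mul_sum, ← Finset.sum_add_distrib]
  refine Finset.sum_congr rfl fun w _ => ?_
  have c1 := (commute_wd (hc (σ.N ρ (b :: w))) (σ.φ a)).eq
  have c2 := (commute_wd (hc (σ.N ρ w)) (σ.φ a)).eq
  have c3 := (commute_wd (hc (σ.N ρ w)) (σ.φ b)).eq
  simp only [Sim.N, map_add, map_mul, wd_cons, add_mul, mul_assoc]
  congr 2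
  · rw [← mul_assoc, c1, mul_assoc]
  · rw [← mul_assoc, c2, mul_assoc, ← mul_assoc (β _), c3, mul_assoc]

open Classical in
/-- Sum over the start letters. -/
noncomputable def Xs : T := ∑ a ∈ Q.S, if σ.start a then β (ρ a) * y a else 0

open Classical in
/-- Sum over the other letters. -/
noncomputable def Xn : T := ∑ a ∈ Q.S, if ¬ σ.start a then β (ρ a) * y a else 0

theorem X_eq : ∑ a ∈ Q.S, β (ρ a) * y a = Xs σ β y ρ + Xn σ β y ρ := by
  unfold Xs Xn
  rw [← Finset.sum_add_distrib]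
  refine Finset.sum_congr rfl fun a _ => ?_
  by_cases h : σ.start a <;> simp [h]

theorem Xn_pow (hy : Q.Sat y) (hc : ∀ b a, Commute (β b) (y a)) {l : ℕ} (hl : σ.L ≤ l) :
    Xn σ β y ρ ^ l = 0 := by
  classical
  unfold Xn
  rw [sum_pow_ite Q.S (fun a => ¬ σ.start a)]
  refine Finset.sum_eq_zero fun w hw => ?_
  obtain ⟨h1, h2⟩ := mem_words.1 hw
  split_ifs with h
  · rw [wd_mul β y hc, hy.null (σ.long w h2 h (by omega)), mul_zero]
  · rfl

open Classical in
theorem seg_sum (hc : ∀ b a, Commute (β b) (y a)) (j : ℕ) :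
    Xs σ β y ρ * Xn σ β y ρ ^ j =
      ∑ g ∈ words Q.S (j + 1), if Seg σ.start g then β (wd ρ g) * wd y g else 0 := by
  unfold Xn Xs
  rw [sum_pow_ite Q.S (fun a => ¬ σ.start a), sum_words_succ, Finset.sum_mul]
  refine Finset.sum_congr rfl fun a _ => ?_
  rw [Finset.mul_sum]
  refine Finset.sum_congr rfl fun w _ => ?_
  have hs : Seg σ.start (a :: w) ↔ σ.start a ∧ ∀ b ∈ w, ¬ σ.start b := by
    constructor
    · rintro ⟨a', t, e, h1, h2⟩
      obtain ⟨rfl, rfl⟩ := List.cons.inj e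
      exact ⟨h1, h2⟩
    · rintro ⟨h1, h2⟩; exact ⟨a, w, rfl, h1, h2⟩
  rw [← wd_mul β y hc, wd_cons]
  by_cases h1 : σ.start a
  · by_cases h2 : ∀ b ∈ w, ¬ σ.start b
    · rw [if_pos h1, if_pos h2, if_pos (hs.2 ⟨h1, h2⟩)]
    · rw [if_neg h2, if_neg fun h => h2 (hs.1 h).2, mul_zero]
  · rw [if_neg h1, if_neg fun h => h1 (hs.1 h).1, zero_mul]

open Classical in
theorem seg_start (hy : Q.Sat y) (hc : ∀ b a, Commute (β b) (y a)) (j : ℕ) :
    Xs σ β y ρ * Xn σ β y ρ ^ j * Xs σ β y ρ =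
      ((if j = σ.n - 1 then G1 σ β y ρ else 0) + if j = 2 * σ.n - 1 then G2 σ β y ρ else 0) *
        Xs σ β y ρ := by
  have hn := σ.npos
  have e1 : (if j = σ.n - 1 then G1 σ β y ρ else 0) =
      ∑ g ∈ words Q.S (j + 1), if (∃ a, σ.D1 g a) then β (wd ρ g) * wd y g else 0 := by
    split_ifs with h
    · rw [G1_eq σ β y ρ hy, show j + 1 = σ.n by omega]
    · symm
      refine Finset.sum_eq_zero fun g hg => if_neg ?_
      rintro ⟨a, ha⟩
      have h1 := (σ.D1_spec g a ha).2.1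
      have h2 := (mem_words.1 hg).1
      omega
  have e2 : (if j = 2 * σ.n - 1 then G2 σ β y ρ else 0) =
      ∑ g ∈ words Q.S (j + 1), if (∃ a b, σ.D2 g a b) then β (wd ρ g) * wd y g else 0 := by
    split_ifs with h
    · rw [G2_eq σ β y ρ hy, show j + 1 = 2 * σ.n by omega]
    · symm
      refine Finset.sum_eq_zero fun g hg => if_neg ?_
      rintro ⟨a, b, ha⟩
      have h1 := (σ.D2_spec g a b ha).2.2.1
      have h2 := (mem_words.1 hg).1
      omega
  rw [seg_sum σ β y ρ hc, e1, e2, ← Finset.sum_add_distrib, Finset.sum_mul, Finset.sum_mul]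
  refine Finset.sum_congr rfl fun g hg => ?_
  obtain ⟨-, hgS⟩ := mem_words.1 hg
  by_cases h1 : ∃ a, σ.D1 g a
  · have h2 : ¬ ∃ a b, σ.D2 g a b := by
      rintro ⟨a, b, hab⟩
      obtain ⟨c, hc⟩ := h1
      have h1 := (σ.D1_spec g c hc).2.1
      have h2 := (σ.D2_spec g a b hab).2.2.1
      omega
    obtain ⟨c, hc'⟩ := h1
    rw [if_pos (σ.D1_spec g c hc').2.2.2.1, if_pos ⟨c, hc'⟩, if_neg h2, add_zero]
  · by_cases h2 : ∃ a b, σ.D2 g a b
    · obtain ⟨a, b, hab⟩ := h2
      rw [if_pos (σ.D2_spec g a b hab).2.2.2.2.1, if_neg h1, if_pos ⟨a, b, hab⟩, zero_add]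
    · rw [if_neg h1, if_neg h2, add_zero, zero_mul]
      split_ifs with hs
      · unfold Xs
        rw [Finset.mul_sum]
        refine Finset.sum_eq_zero fun x hx => ?_
        split_ifs with hx'
        · rcases σ.complete g x hgS hs hx hx' with h | h | h
          · exact absurd h h1
          · exact absurd h h2
          · have h3 := hy.null h
            have h4 := wd_mul β y hc ρ (g ++ [x])
            rw [h3, mul_zero, wd_append, wd_mul β y hc] at h4
            simpa using h4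
        · exact mul_zero _
      · exact zero_mul _

theorem s_rec (hy : Q.Sat y) (hc : ∀ b a, Commute (β b) (y a)) {k : ℕ} (hk : σ.L ≤ k) :
    Xs σ β y ρ * (Xs σ β y ρ + Xn σ β y ρ) ^ (k + 2 * σ.n) =
      G1 σ β y ρ * (Xs σ β y ρ * (Xs σ β y ρ + Xn σ β y ρ) ^ (k + σ.n)) +
      G2 σ β y ρ * (Xs σ β y ρ * (Xs σ β y ρ + Xn σ β y ρ) ^ k) := by
  have hn := σ.npos
  conv_lhs => rw [pow_split]
  rw [Xn_pow σ β y ρ hy hc (by omega), zero_add, Finset.mul_sum]
  simp only [← mul_assoc, seg_start σ β y ρ hy hc]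
  simp only [add_mul, ite_mul, zero_mul, Finset.sum_add_distrib, Finset.sum_ite_eq',
    Finset.mem_range]
  rw [if_pos (by omega), if_pos (by omega), show k + 2 * σ.n - 1 - (σ.n - 1) = k + σ.n by omega,
    show k + 2 * σ.n - 1 - (2 * σ.n - 1) = k by omega]

theorem rec_solve {T : Type} [Ring T] (s t : ℕ → T) (g1 g2 : T)
    (hs : ∀ m, s (m + 2) = g1 * s (m + 1) + g2 * s m) (t0 : t 0 = 1) (t1 : t 1 = g1)
    (ht : ∀ m, t (m + 2) = g1 * t (m + 1) + g2 * t m) (m : ℕ) :
    s (m + 2) = t (m + 1) * s 1 + t m * g2 * s 0 := by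
  induction m using Nat.twoStepInduction with
  | zero => rw [hs, t0, t1, one_mul]
  | one => rw [hs, hs, ht, t0, t1]; noncomm_ring
  | more m ih1 ih2 => rw [hs (m + 2), ih2, ih1, ht (m + 1), ht m]; noncomm_ring

end

end Red1

open Red1 in
theorem Sim.nil_of_Tm {A A' : Type} {Q : QP A} {Q' : QP A'} (σ : Sim Q Q')
    {B T : Type} [Ring B] [Ring T] (β : B →+* T) (y : A → T) (hy : Q.Sat y)
    (hc : ∀ b a, Commute (β b) (y a)) (ρ : A → B) (m0 : ℕ)
    (h : ∀ m, m0 ≤ m → σ.Tm β y ρ m = 0) :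
    IsNilpotent (∑ a ∈ Q.S, β (ρ a) * y a) := by
  rw [X_eq σ]
  have key := rec_solve
    (fun m => Xs σ β y ρ * (Xs σ β y ρ + Xn σ β y ρ) ^ (σ.L + m * σ.n)) (σ.Tm β y ρ)
    (G1 σ β y ρ) (G2 σ β y ρ)
    (fun m => by
      have := s_rec σ β y ρ hy hc (k := σ.L + m * σ.n) (by omega)
      rw [show σ.L + (m + 2) * σ.n = σ.L + m * σ.n + 2 * σ.n by ring,
        show σ.L + (m + 1) * σ.n = σ.L + m * σ.n + σ.n by ring]
      exact this)
    (Tm_zero σ β y ρ) (Tm_one σ β y ρ) (Tm_succ σ β y ρ hc) m0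
  rw [h m0 le_rfl, h (m0 + 1) (by omega), zero_mul, zero_mul, zero_mul, add_zero] at key
  generalize σ.L + (m0 + 2) * σ.n = K at key
  have h2 : ∀ j, (Xs σ β y ρ + Xn σ β y ρ) ^ (j + K) =
      Xn σ β y ρ ^ j * (Xs σ β y ρ + Xn σ β y ρ) ^ K := by
    intro j
    induction j with
    | zero => simp
    | succ j ih =>
      have e : Xs σ β y ρ * (Xs σ β y ρ + Xn σ β y ρ) ^ (j + K) = 0 := by
        rw [add_comm j K, pow_add, ← mul_assoc, key, zero_mul]
      rw [show j + 1 + K = (j + K) + 1 by ring, pow_succ', add_mul, e, zero_add, ih, pow_succ',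
        mul_assoc]
  exact ⟨σ.L + K, by rw [h2, Xn_pow σ β y ρ hy hc le_rfl, zero_mul]⟩

namespace Red1

variable {A A' : Type} {Q : QP A} {Q' : QP A'} (σ : Sim Q Q') {B : Type} [Ring B] (ρ : A → B)

open Classical in
/-- The transfer matrices. -/
noncomputable def rho' (a : A') : Matrix (Option Q'.S) (Option Q'.S) B := fun i j =>
  match i, j with
  | none, none => σ.N1 ρ a
  | none, some c => if c.1 = a then 1 else 0
  | some c, none => σ.N2 ρ c.1 a
  | some _, some _ => 0

/-- The weight of the words that start with a pending letter. -/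
noncomputable def N' (a : A') : List A' → B
  | [] => 0
  | b :: w => σ.N2 ρ a b * σ.N ρ w

theorem N_cons (a : A') (w : List A') : σ.N ρ (a :: w) = σ.N1 ρ a * σ.N ρ w + N' σ ρ a w := by
  cases w <;> simp [Sim.N, N']

open Classical in
theorem wd_rho' (w : List A') (hw : ∀ a ∈ w, a ∈ Q'.S) :
    wd (rho' σ ρ) w none none = σ.N ρ w ∧ ∀ c, wd (rho' σ ρ) w (some c) none = N' σ ρ c.1 w := by
  induction w with
  | nil => simp [Sim.N, N']
  | cons a w ih =>
    obtain ⟨h1, h2⟩ := ih fun b hb => hw b (List.mem_cons_of_mem _ hb)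
    have ha : a ∈ Q'.S := hw a List.mem_cons_self
    constructor
    · rw [wd_cons, Matrix.mul_apply, Fintype.sum_option, h1, N_cons,
        Finset.sum_eq_single (⟨a, ha⟩ : Q'.S)]
      · simp [rho', h2]
      · intro c _ hc
        have : ¬ c.1 = a := fun e => hc (Subtype.ext e)
        simp [rho', this]
      · simp
    · intro c
      rw [wd_cons, Matrix.mul_apply, Fintype.sum_option, h1]
      simp [rho', N']

end Red1

open Red1 in
theorem Sim.linNil {A A' : Type} {Q : QP A} {Q' : QP A'} (σ : Sim Q Q') (d : ℕ)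
    (h : Q'.LinNil (d * (Q'.S.card + 1) ^ 2)) : Q.LinNil d := by
  classical
  intro T _ _ _ B _ _ _ _ hd β y hy hc ρ
  have : NoZeroSMulDivisors QP.K2 (Matrix (Option Q'.S) (Option Q'.S) T) :=
    inferInstanceAs (NoZeroSMulDivisors QP.K2 (Option Q'.S → Option Q'.S → T))
  let sc : T →+* Matrix (Option Q'.S) (Option Q'.S) T := Matrix.scalar _
  let y' : A' → T := fun a => wd y (σ.φ a)
  have hcomm : ∀ (b : Matrix (Option Q'.S) (Option Q'.S) B) (a : A'),
      Commute (β.mapMatrix b) (sc (y' a)) := by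
    intro b a
    show _ * _ = _ * _
    ext i j
    simp only [sc, Matrix.scalar_apply, Matrix.mul_diagonal, Matrix.diagonal_mul,
      AlgHom.mapMatrix_apply, Matrix.map_apply]
    exact (commute_wd (hc _) _).eq
  obtain ⟨m0, hm0⟩ := h (Matrix (Option Q'.S) (Option Q'.S) T)
    (Matrix (Option Q'.S) (Option Q'.S) B)
    (by
      rw [Module.finrank_matrix]
      simp only [Fintype.card_option, Fintype.card_coe]
      nlinarith [Nat.mul_le_mul_left ((Q'.S.card + 1) * (Q'.S.card + 1)) hd])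
    β.mapMatrix (fun a => sc (y' a))
    ⟨fun a b c d' hE => by
      have := hy.eqv (σ.simE a b c d' hE)
      rw [wd_append, wd_append] at this
      rw [← map_mul, ← map_mul]
      exact congrArg sc this,
    fun a b hZ => by
      have := hy.null (σ.simZ a b hZ)
      rw [wd_append] at this
      rw [← map_mul]
      exact (congrArg sc this).trans (map_zero sc)⟩
    hcomm (rho' σ ρ)
  refine σ.nil_of_Tm (β : B →+* T) y hy hc ρ m0 fun m hm => ?_
  have h1 := pow_eq_zero_of_le hm hm0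
  rw [sum_pow] at h1
  have h2 := congrFun (congrFun h1 none) none
  rw [Matrix.sum_apply, Matrix.zero_apply] at h2
  rw [← h2]
  refine Finset.sum_congr rfl fun w hw => ?_
  have h3 := wd_mul ((β.mapMatrix (m := Option Q'.S)).toRingHom)
    (fun a => sc (y' a)) hcomm (rho' σ ρ) w
  have h4 : ∀ w : List A', wd (fun a => sc (y' a)) w = sc (wd y' w) := by
    intro w
    induction w with
    | nil => simp
    | cons a w ih => rw [wd_cons, ih, wd_cons, map_mul]
  rw [h4] at h3
  refine Eq.trans ?_ (congrFun (congrFun h3 none) none).symm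
  simp only [sc, Matrix.scalar_apply, Matrix.mul_diagonal, RingHom.coe_coe]
  rw [← (wd_rho' σ ρ w (mem_words.1 hw).2).1]
  rfl

end Vale.Agent.P192
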