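import Vale.Agent.P192.Mach

/-! Readable form of the rules. -/

namespace Vale.Agent.P192

def R0 (a : Cell) : Prop :=
  a .q = 0 ∧ a .pc = 0 ∧ a .hm = 0 ∧ a .ha = 0 ∧ a .r1 = 0 ∧ a .r2 = 0

/-- `c` agrees with `a` outside the fields in `l`. -/
def Same (l : List Fld) (a c : Cell) : Prop := ∀ f, f ∉ l → c f = a f

inductive ER (n : ℕ) (a b c d : Cell) : Prop
  | triv (h1 : Same [] a c) (h2 : Same [] b d)
  | move (har : (b .addr ≠ 0 ∧ ((a .ar = 4 ∧ b .ar = 3 ∧ c .ar = 0 ∧ d .ar = 4) ∨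
        (a .ar = 5 ∧ b .ar = 2 ∧ c .ar = 0 ∧ d .ar = 5) ∨
        (a .ar = 6 ∧ b .ar = 3 ∧ c .ar = 1 ∧ d .ar = 6))) ∨
        (b .addr = 0 ∧ a .ar = 5 ∧ b .ar = 3 ∧ c .ar = 0 ∧ d .ar = 6))
      (hb : R0 b) (hc : R0 c) (hq : d .q = a .q) (hpc : d .pc = a .pc) (hhm : d .hm = a .hm)
      (hha : d .ha = a .ha) (hr1 : d .r1 = a .r1) (hr2 : d .r2 = a .r2)
      (h1 : Same regF a c) (h2 : Same regF b d)
  | capture (h0 : b .addr = 0) (ha : a .ar = 4) (hb : b .ar = 4) (hc : c .ar = 5) (hd : d .ar = 3)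
      (hq : a .q = 0) (h1 : Same [.ar] a c) (h2 : Same [.ar] b d)
  | scratch (ha : a .ar = 4 ∨ a .ar = 5 ∨ a .ar = 6) (hq : a .q = 0) (hm : b .m = 0)
      (h1 : Same [] a c) (h2 : Same [.val] b d)
  | start (ha : a .ar = 5) (hm : a .m = 2) (h0 : R0 a) (hq : c .q = 2) (hpc : c .pc = a .addr)
      (hhm : c .hm = a .m) (hha : c .ha = a .ad) (h1 : Same ctlF a c) (h2 : Same [] b d)
  | fin (ha : a .ar = 5) (hm : a .m = 3) (h0 : R0 c) (hq : a .q = 1) (hpc : a .pc = a .addr)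
      (hhm : a .hm = a .m) (hha : a .ha = a .ad) (h1 : Same ctlF a c) (h2 : Same [] b d)
  | adv (ha : a .ar = 5) (hq : a .q = 2) (hpc : a .pc = a .addr) (hhm : a .hm = a .m)
      (hha : a .ha = a .ad) (hq' : c .q = 1) (hpc' : c .pc = b .addr) (hhm' : c .hm = b .m)
      (hha' : c .ha = b .ad) (h1 : Same ctlF a c) (h2 : Same [] b d)
  | x1 (s : Bool) (ha : a .ar = 5 + s.toNat) (hhm : a .hm = 7 + s.toNat) (hha : a .ha = a .addr)
      (hq : a .q = 1) (hq' : c .q = 2) (hv : c .val = a .r1) (hr : c .r1 = a .val)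
      (h1 : Same [.q, .val, .r1] a c) (h2 : Same [] b d)
  | x2 (s : Bool) (ha : a .ar = 5 + s.toNat) (hhm : a .hm = 9 + s.toNat) (hha : a .ha = a .addr)
      (hq : a .q = 1) (hq' : c .q = 2) (hv : c .val = a .r2) (hr : c .r2 = a .val)
      (h1 : Same [.q, .val, .r2] a c) (h2 : Same [] b d)
  | gate (md pol k s : Bool) (ha : a .ar = 5 + s.toNat) (hhm : a .hm = gcode md pol k s)
      (hg : gateOK n pol k (a .val) (a .r1)) (hha : a .ha = a .addr) (hq : a .q = 1)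
      (hq' : c .q = 2) (h1 : Same [.q] a c) (h2 : Same [] b d)
  | plain (ha : a .sh = 2) (hd : d .sh = 2) (hb : b .sh = 3) (hc : c .sh = 1)
      (h1 : Same [.sh] a c) (h2 : Same [.sh] b d)
  | carry (ha : a .sh = 2) (hd : d .sh = 2) (hb : b .sh = 3) (hc : c .sh = 1)
      (hl1 : c .lab = b .lab) (hl2 : d .lab = a .lab)
      (h1 : Same [.sh, .lab] a c) (h2 : Same [.sh, .lab] b d)

def ArOK (a b : Cell) : Prop :=
  (b .addr ≠ 0 ∧ ((a .ar = 0 ∧ b .ar = 0) ∨ (a .ar = 0 ∧ b .ar = 4) ∨ (a .ar = 0 ∧ b .ar = 5) ∨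
    (a .ar = 4 ∧ b .ar = 3) ∨ (a .ar = 5 ∧ b .ar = 2) ∨ (a .ar = 2 ∧ b .ar = 2) ∨
    (a .ar = 3 ∧ b .ar = 3) ∨ (a .ar = 1 ∧ b .ar = 1) ∨ (a .ar = 1 ∧ b .ar = 6) ∨
    (a .ar = 6 ∧ b .ar = 3))) ∨
  (b .addr = 0 ∧ (((a .ar = 4 ∨ a .ar = 3 ∨ a .ar = 6) ∧ (b .ar = 0 ∨ b .ar = 4 ∨ b .ar = 5)) ∨
    (a .ar = 0 ∧ b .ar = 1) ∨ (a .ar = 0 ∧ b .ar = 6) ∨ (a .ar = 5 ∧ b .ar = 3) ∨
    (a .ar = 2 ∧ b .ar = 3)))

def ShOK (a b : Cell) : Prop :=
  (a .m ≠ 0 ∧ a .sh = 0 ∧ (b .m ≠ 0 ∨ b .sh = 1 ∨ b .sh = 2)) ∨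
  (a .m = 0 ∧ b .addr ≠ 0 ∧ ((a .sh = 1 ∧ b .sh = 1) ∨ (a .sh = 1 ∧ b .sh = 2) ∨
    (a .sh = 2 ∧ b .sh = 3) ∨ (a .sh = 3 ∧ b .sh = 3))) ∨
  (a .m = 0 ∧ b .addr = 0 ∧ (a .sh = 2 ∨ a .sh = 3))

inductive ZR (n : ℕ) (a b : Cell) : Prop
  | addr (h : b .addr ≠ (a .addr + 1) % n)
  | tabm (h : a .m ≠ tb false (a .addr))
  | taba (h : a .ad ≠ tb true (a .addr))
  | val (h0 : a .m ≠ 0) (h1 : a .m ≠ 1) (h : a .val ≠ a .addr)
  | ar (h : ¬ ArOK a b)
  | regs (h : ¬ (R0 a ∨ ((a .ar = 5 ∨ a .ar = 6) ∧ (a .q = 1 ∨ a .q = 2))))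
  | fetch (ha : a .ar = 5) (hq : a .q ≠ 0) (hpc : a .pc = a .addr)
      (h : a .hm ≠ a .m ∨ a .ha ≠ a .ad)
  | gate (md pol k s : Bool) (hha : a .ha = a .addr) (ha : a .ar = 5 + s.toNat)
      (hhm : a .hm = gcode md pol k s) (hq : a .q = if md then 1 else 2)
      (hg : ¬ gateOK n pol k (a .val) (a .r1))
  | ctl (hq : a .q ≠ 0) (h : a .hm = 0 ∨ a .hm = 1 ∨
      (a .hm = 2 ∧ (a .q = 1 ∨ a .r1 ≠ 0 ∨ a .r2 ≠ 0)) ∨
      (a .hm = 3 ∧ (a .q = 2 ∨ a .r1 ≠ 0 ∨ a .r2 ≠ 0)) ∨ a .hm = 4 ∨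
      ((a .hm = 5 ∨ a .hm = 6) ∧ a .q = 2))
  | tab (hq : b .q = 1) (ha : b .ar = 6) (had : b .addr = b .r1)
      (h : (b .hm = 5 ∧ b .m ≠ b .r2) ∨ (b .hm = 6 ∧ b .ad ≠ b .r2))
  | sh (h : ¬ ShOK a b)
  | lab0 (hm : a .m ≠ 0) (h : a .lab ≠ 0)
  | labw (hs : a .sh = 2) (h : a .m ≠ tb false (a .lab))
  | dup (hs : a .sh = 2) (hb : b .sh = 3) (h : a .lab = b .lab)

theorem eval_fgate (n : ℕ) (a b c d : Cell) (pol k : Bool) :
    (fgate pol k).eval (Atom.eval n (env a b c d)) ↔ gateOK n pol k (a .val) (a .r1) := by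
  cases pol <;> cases k <;> simp [fgate, gateOK, Fm.eval, Atom.eval, env]

theorem mem_allB4 (t : Bool × Bool × Bool × Bool) : t ∈ allB4 := by
  obtain ⟨a, b, c, d⟩ := t
  cases a <;> cases b <;> cases c <;> cases d <;> simp [allB4]

theorem sideF_val (s : Bool) : (sideF s).val = 5 + s.toNat := by cases s <;> rfl

theorem eval_fc (n : ℕ) (e : Var → ℕ) (p : Ps) (f : Fld) (c : Fin 27) :
    (fc p f c).eval (Atom.eval n e) ↔ e (p, f) = c.val := Iff.rfl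

theorem eval_fe (n : ℕ) (e : Var → ℕ) (p : Ps) (f : Fld) (p' : Ps) (f' : Fld) :
    (fe p f p' f').eval (Atom.eval n e) ↔ e (p, f) = e (p', f') := Iff.rfl

theorem erules_iff (n : ℕ) (a b c d : Cell) :
    (∃ ρ ∈ erules, ρ.holds n a b c d) ↔ ER n a b c d := by
  constructor
  · rintro ⟨ρ, hρ, h⟩
    simp only [erules, List.mem_cons, List.not_mem_nil, or_false] at hρ
    rcases hρ with rfl | rfl | rfl | rfl | rfl | rfl | rfl | rfl | rfl | rfl | rfl | rfl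
    · exact .triv h.2.2.1 h.2.2.2
    · obtain ⟨-, h, h1, h2⟩ := h
      simp [Fm.all, Fm.any, Fm.eval, fr0, far, eval_fc, eval_fe, env] at h
      obtain ⟨g1, g2, g3, g4, g5, g6, g7, g8, g9⟩ := h
      exact .move (by tauto) g2 g3 g4 g5 g6 g7 g8 g9 h1 h2
    · obtain ⟨-, h, h1, h2⟩ := h
      simp [Fm.all, Fm.eval, far, eval_fc, env] at h
      exact .capture h.1 h.2.1.1 h.2.1.2.1 h.2.1.2.2.1 h.2.1.2.2.2 h.2.2 h1 h2
    · obtain ⟨-, h, h1, h2⟩ := h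
      simp [Fm.all, Fm.any, Fm.eval, eval_fc, env] at h
      exact .scratch h.1 h.2.1 h.2.2 h1 h2
    · obtain ⟨-, h, h1, h2⟩ := h
      simp [Fm.all, Fm.eval, fr0, eval_fc, eval_fe, env] at h
      obtain ⟨g1, g2, g3, g4, g5, g6, g7⟩ := h
      exact .start g1 g2 g3 g4 g5 g6 g7 h1 h2
    · obtain ⟨-, h, h1, h2⟩ := h
      simp [Fm.all, Fm.eval, fr0, eval_fc, eval_fe, env] at h
      obtain ⟨g1, g2, g3, g4, g5, g6, g7⟩ := h
      exact .fin g1 g2 g3 g4 g5 g6 g7 h1 h2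
    · obtain ⟨-, h, h1, h2⟩ := h
      simp [Fm.all, Fm.eval, eval_fc, eval_fe, env] at h
      obtain ⟨g1, g2, g3, g4, g5, g6, g7, g8, g9⟩ := h
      exact .adv g1 g2 g3 g4 g5 g6 g7 g8 g9 h1 h2
    · obtain ⟨-, h, h1, h2⟩ := h
      simp [Fm.all, Fm.any, Fm.eval, eval_fc, eval_fe, env] at h
      obtain ⟨g1, g2, g3, g4, g5, g6⟩ := h
      rcases g1 with g1 | g1
      · exact .x1 false g1.1 g1.2 g2 g3 g4 g5 g6 h1 h2
      · exact .x1 true g1.1 g1.2 g2 g3 g4 g5 g6 h1 h2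
    · obtain ⟨-, h, h1, h2⟩ := h
      simp [Fm.all, Fm.any, Fm.eval, eval_fc, eval_fe, env] at h
      obtain ⟨g1, g2, g3, g4, g5, g6⟩ := h
      rcases g1 with g1 | g1
      · exact .x2 false g1.1 g1.2 g2 g3 g4 g5 g6 h1 h2
      · exact .x2 true g1.1 g1.2 g2 g3 g4 g5 g6 h1 h2
    · obtain ⟨-, h, h1, h2⟩ := h
      simp only [Fm.all, Fm.eval, Fm.eval_any, List.mem_map, eval_fc, eval_fe, env] at h
      obtain ⟨⟨φ, ⟨t, -, rfl⟩, hφ⟩, g2, g3, g4, -⟩ := h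
      simp only [Fm.eval, eval_fc, eval_fgate, env, sideF_val, gcodeF] at hφ
      exact .gate t.1 t.2.1 t.2.2.1 t.2.2.2 hφ.1 hφ.2.1 hφ.2.2.1 g2 g3 g4 h1 h2
    · obtain ⟨g, h, h1, h2⟩ := h
      simp [Fm.all, Fm.eval, eval_fc, env] at h g
      exact .plain g.1 g.2 h.1 h.2 h1 h2
    · obtain ⟨g, h, h1, h2⟩ := h
      simp [Fm.all, Fm.eval, eval_fc, eval_fe, env] at h g
      exact .carry g.1 g.2 h.1 h.2.1 h.2.2.1 h.2.2.2 h1 h2
  · intro h
    have key : ∀ i (hi : i < erules.length), (erules[i]).holds n a b c d →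
        ∃ ρ ∈ erules, ρ.holds n a b c d := fun i hi h => ⟨_, List.getElem_mem hi, h⟩
    cases h with
    | triv h1 h2 =>
      exact key 0 (by decide) ⟨by simp [erules, Fm.any, Fm.eval, List.replicate], trivial, h1, h2⟩
    | move har hb hc hq hpc hhm hha hr1 hr2 h1 h2 =>
      refine key 1 (by decide) ⟨trivial, ?_, h1, h2⟩
      simp only [R0] at hb hc
      simp [erules, Fm.all, Fm.any, Fm.eval, fr0, far, eval_fc, eval_fe, env]
      tauto
    | capture h0 ha hb hc hd hq h1 h2 =>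
      refine key 2 (by decide) ⟨trivial, ?_, h1, h2⟩
      simp [erules, Fm.all, Fm.eval, far, eval_fc, env, *]
    | scratch ha hq hm h1 h2 =>
      refine key 3 (by decide) ⟨trivial, ?_, h1, h2⟩
      simp [erules, Fm.all, Fm.any, Fm.eval, eval_fc, env]
      tauto
    | start ha hm h0 hq hpc hhm hha h1 h2 =>
      refine key 4 (by decide) ⟨trivial, ?_, h1, h2⟩
      simp only [R0] at h0
      simp [erules, Fm.all, Fm.eval, fr0, eval_fc, eval_fe, env]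
      tauto
    | fin ha hm h0 hq hpc hhm hha h1 h2 =>
      refine key 5 (by decide) ⟨trivial, ?_, h1, h2⟩
      simp only [R0] at h0
      simp [erules, Fm.all, Fm.eval, fr0, eval_fc, eval_fe, env]
      tauto
    | adv ha hq hpc hhm hha hq' hpc' hhm' hha' h1 h2 =>
      refine key 6 (by decide) ⟨trivial, ?_, h1, h2⟩
      simp [erules, Fm.all, Fm.eval, eval_fc, eval_fe, env]
      tauto
    | x1 s ha hhm hha hq hq' hv hr h1 h2 =>
      refine key 7 (by decide) ⟨trivial, ?_, h1, h2⟩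
      simp [erules, Fm.all, Fm.any, Fm.eval, eval_fc, eval_fe, env]
      cases s <;> simp at ha hhm <;> tauto
    | x2 s ha hhm hha hq hq' hv hr h1 h2 =>
      refine key 8 (by decide) ⟨trivial, ?_, h1, h2⟩
      simp [erules, Fm.all, Fm.any, Fm.eval, eval_fc, eval_fe, env]
      cases s <;> simp at ha hhm <;> tauto
    | gate md pol k s ha hhm hg hha hq hq' h1 h2 =>
      refine key 9 (by decide) ⟨trivial, ?_, h1, h2⟩
      simp only [erules, List.getElem_cons_succ, List.getElem_cons_zero, Fm.all, Fm.eval,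
        Fm.eval_any, List.mem_map, eval_fc, eval_fe, env]
      refine ⟨⟨_, ⟨(md, pol, k, s), mem_allB4 _, rfl⟩, ?_⟩, hha, hq, hq', trivial⟩
      simp only [Fm.eval, eval_fc, eval_fgate, env, sideF_val, gcodeF]
      exact ⟨ha, hhm, hg, trivial⟩
    | plain ha hd hb hc h1 h2 =>
      refine key 10 (by decide) ⟨?_, ?_, h1, h2⟩ <;>
        simp [erules, Fm.all, Fm.eval, eval_fc, env, *]
    | carry ha hd hb hc hl1 hl2 h1 h2 =>
      refine key 11 (by decide) ⟨?_, ?_, h1, h2⟩ <;>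
        simp [erules, Fm.all, Fm.eval, eval_fc, eval_fe, env, *]

theorem eval_farOK (n : ℕ) (a b : Cell) :
    farOK.eval (Atom.eval n (env a b a b)) ↔ ArOK a b := by
  simp [farOK, ArOK, Fm.any, Fm.eval, far2, eval_fc, env]

theorem eval_fshOK (n : ℕ) (a b : Cell) :
    fshOK.eval (Atom.eval n (env a b a b)) ↔ ShOK a b := by
  simp [fshOK, ShOK, Fm.all, Fm.any, Fm.eval, fsh2, eval_fc, env]

theorem eval_fr0A (n : ℕ) (a b : Cell) :
    (fr0 .A).eval (Atom.eval n (env a b a b)) ↔ R0 a := by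
  simp [fr0, R0, Fm.all, Fm.eval, eval_fc, env]

theorem zrules_iff (n : ℕ) (a b : Cell) : (∃ ρ ∈ zrules, ρ.holds n a b) ↔ ZR n a b := by
  constructor
  · rintro ⟨ρ, hρ, g, h, t⟩
    simp only [zrules, List.mem_cons, List.not_mem_nil, or_false] at hρ
    rcases hρ with rfl | rfl | rfl | rfl | rfl | rfl | rfl | rfl | rfl | rfl | rfl | rfl | rfl | rfl
    · exact .addr h
    · exact .tabm t
    · exact .taba t
    · simp [Fm.all, Fm.eval, eval_fc, eval_fe, env] at h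
      exact .val h.1 h.2.1 h.2.2
    · exact .ar fun h' => h ((eval_farOK n a b).2 h')
    · refine .regs fun h' => h ?_
      simpa [Fm.eval, eval_fr0A, eval_fc, env] using h'
    · simp only [Fm.all, Fm.eval, eval_fc, eval_fe, env] at h
      exact .fetch h.1 h.2.1 h.2.2.1 h.2.2.2.1
    · simp only [Fm.all, Fm.eval, Fm.eval_any, List.mem_map, eval_fe, env] at h
      obtain ⟨g1, ⟨φ, ⟨u, -, rfl⟩, hφ⟩, -⟩ := h
      simp only [Fm.eval, eval_fc, eval_fgate, env, sideF_val, gcodeF] at hφ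
      refine .gate u.1 u.2.1 u.2.2.1 u.2.2.2 g1 hφ.1 hφ.2.1 ?_ hφ.2.2.2.1
      rw [hφ.2.2.1]; cases u.1 <;> rfl
    · simp [Fm.any, Fm.eval, eval_fc, env] at h
      exact .ctl h.1 h.2
    · simp only [Fm.all, Fm.eval, eval_fc, eval_fe, env] at h
      exact .tab h.1 h.2.1 h.2.2.1 h.2.2.2.1
    · exact .sh fun h' => h ((eval_fshOK n a b).2 h')
    · exact .lab0 g h
    · exact .labw g t
    · exact .dup g h.1 h.2
  · intro h
    have key : ∀ i (hi : i < zrules.length), (zrules[i]).holds n a b →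
        ∃ ρ ∈ zrules, ρ.holds n a b := fun i hi h => ⟨_, List.getElem_mem hi, h⟩
    cases h with
    | addr h => exact key 0 (by decide) ⟨trivial, h, trivial⟩
    | tabm h => exact key 1 (by decide) ⟨trivial, trivial, h⟩
    | taba h => exact key 2 (by decide) ⟨trivial, trivial, h⟩
    | val h0 h1 h => exact key 3 (by decide) ⟨trivial, ⟨h0, h1, h, trivial⟩, trivial⟩
    | ar h => exact key 4 (by decide) ⟨trivial, fun h' => h ((eval_farOK n a b).1 h'), trivial⟩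
    | regs h =>
      refine key 5 (by decide) ⟨trivial, fun h' => h ?_, trivial⟩
      simpa [Fm.eval, eval_fr0A, eval_fc, env] using h'
    | fetch ha hq hpc h => exact key 6 (by decide) ⟨trivial, ⟨ha, hq, hpc, h, trivial⟩, trivial⟩
    | gate md pol k s hha ha hhm hq hg =>
      refine key 7 (by decide) ⟨trivial, ?_, trivial⟩
      simp only [zrules, List.getElem_cons_succ, List.getElem_cons_zero, Fm.all, Fm.eval,
        Fm.eval_any, List.mem_map, eval_fe, env]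
      refine ⟨hha, ⟨_, ⟨(md, pol, k, s), mem_allB4 _, rfl⟩, ?_⟩, trivial⟩
      simp only [Fm.eval, eval_fc, eval_fgate, env, sideF_val, gcodeF]
      refine ⟨ha, hhm, ?_, hg, trivial⟩
      rw [hq]; cases md <;> rfl
    | ctl hq h =>
      refine key 8 (by decide) ⟨trivial, ?_, trivial⟩
      simp [zrules, Fm.any, Fm.eval, eval_fc, env]
      exact ⟨hq, h⟩
    | tab hq ha had h => exact key 9 (by decide) ⟨trivial, ⟨hq, ha, had, h, trivial⟩, trivial⟩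
    | sh h => exact key 10 (by decide) ⟨trivial, fun h' => h ((eval_fshOK n a b).1 h'), trivial⟩
    | lab0 hm h => exact key 11 (by decide) ⟨hm, h, trivial⟩
    | labw hs h => exact key 12 (by decide) ⟨hs, trivial, h⟩
    | dup hs hb h => exact key 13 (by decide) ⟨hs, ⟨hb, h⟩, trivial⟩

theorem Lv_E {n : ℕ} {a b c d : Cell} :
    (Lv n).E a b c d ↔ (Bd n a ∧ Bd n b ∧ Bd n c ∧ Bd n d) ∧ ER n a b c d := by
  rw [← erules_iff]; rfl

theorem Lv_Z {n : ℕ} {a b : Cell} : (Lv n).Z a b ↔ (Bd n a ∧ Bd n b) ∧ ZR n a b := by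
  rw [← zrules_iff]; rfl

theorem Lv_S {n : ℕ} {a : Cell} : a ∈ (Lv n).S ↔ Bd n a := mem_alph

end Vale.Agent.P192
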