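import Vale.Agent.P192.Pres

/-! Abstract interface between two consecutive levels of the hierarchy. -/

namespace Vale.Agent.P192

/-- A segment: a start letter followed by letters that are not start letters. -/
def Seg {A : Type} (start : A → Prop) (g : List A) : Prop :=
  ∃ a t, g = a :: t ∧ start a ∧ ∀ b ∈ t, ¬ start b

/-- `Q` simulates `Q'`. -/
structure Sim {A A' : Type} (Q : QP A) (Q' : QP A') where
  n : ℕ
  npos : 0 < n
  L : ℕ
  start : A → Prop
  φ : A' → List A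
  D1 : List A → A' → Prop
  D2 : List A → A' → A' → Prop
  D1_spec : ∀ g a, D1 g a → a ∈ Q'.S ∧ g.length = n ∧ (∀ x ∈ g, x ∈ Q.S) ∧ Seg start g ∧
    Q.Eqv g (φ a)
  D2_spec : ∀ g a b, D2 g a b → a ∈ Q'.S ∧ b ∈ Q'.S ∧ g.length = 2 * n ∧ (∀ x ∈ g, x ∈ Q.S) ∧
    Seg start g ∧ Q.Eqv g (φ a ++ φ b)
  D1_fun : ∀ g a a', D1 g a → D1 g a' → a = a'
  D2_fun : ∀ g a b a' b', D2 g a b → D2 g a' b' → a = a' ∧ b = b'
  complete : ∀ g x, (∀ z ∈ g, z ∈ Q.S) → Seg start g → x ∈ Q.S → start x →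
    (∃ a, D1 g a) ∨ (∃ a b, D2 g a b) ∨ Q.Null (g ++ [x])
  long : ∀ w, (∀ z ∈ w, z ∈ Q.S) → (∀ z ∈ w, ¬ start z) → L ≤ w.length → Q.Null w
  simE : ∀ a b c d, Q'.E a b c d → Q.Eqv (φ a ++ φ b) (φ c ++ φ d)
  simZ : ∀ a b, Q'.Z a b → Q.Null (φ a ++ φ b)

namespace Sim

variable {A A' : Type} {Q : QP A} {Q' : QP A'} (σ : Sim Q Q') {B : Type} [Ring B]

open Classical in
/-- Total weight of the segments that decode to one letter. -/
noncomputable def N1 (ρ : A → B) (a : A') : B :=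
  ∑ g ∈ words Q.S σ.n, if σ.D1 g a then wd ρ g else 0

open Classical in
/-- Total weight of the segments that decode to two letters. -/
noncomputable def N2 (ρ : A → B) (a b : A') : B :=
  ∑ g ∈ words Q.S (2 * σ.n), if σ.D2 g a b then wd ρ g else 0

/-- Total weight of the segment sequences that decode to a word. -/
noncomputable def N (ρ : A → B) : List A' → B
  | [] => 1
  | [a] => σ.N1 ρ a
  | a :: b :: w => σ.N1 ρ a * N ρ (b :: w) + σ.N2 ρ a b * N ρ w

/-- The degree `m` part of the decoded series. -/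
noncomputable def Tm {T : Type} [Ring T] (β : B → T) (y : A → T) (ρ : A → B) (m : ℕ) : T :=
  ∑ w ∈ words Q'.S m, β (σ.N ρ w) * wd (fun a => wd y (σ.φ a)) w

end Sim

/-- The factor of length `D` at offset `p`. -/
def regAt {A : Type} (p D : ℕ) (g : List A) : List A := (g.drop p).take D

/-- Replace the factor of length `D` at offset `p` by its image under `f`. -/
def modAt {A : Type} (p D : ℕ) (f : List A → List A) (g : List A) : List A :=
  g.take p ++ f (regAt p D g) ++ g.drop (p + D)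

/-- Permutable labels on the upper level, stored in a label-blind way on the lower level. -/
structure Tok {A A' : Type} {Q : QP A} {Q' : QP A'} (σ : Sim Q Q') where
  Lab : Finset ℕ
  lab : A' → ℕ
  setLab : A' → ℕ → A'
  win : A' → Prop
  loud : A' → Prop
  dflt : A'
  o : ℕ
  D : ℕ
  oD : o + D ≤ σ.n
  put : List A → ℕ → List A
  C : Finset (List A)
  l0 : ℕ
  put_len : ∀ r l, (put r l).length = r.length
  put_put : ∀ r l l', put (put r l) l' = put r l'
  lab_set : ∀ a l, lab (setLab a l) = l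
  set_set : ∀ a l l', setLab (setLab a l) l' = setLab a l'
  set_lab : ∀ a, setLab a (lab a) = a
  win_set : ∀ a l, win (setLab a l) ↔ win a
  loud_set : ∀ a l, loud (setLab a l) ↔ loud a
  set_mem : ∀ a l, a ∈ Q'.S → l ∈ Lab → setLab a l ∈ Q'.S
  lab_mem : ∀ a, a ∈ Q'.S → lab a ∈ Lab
  B1 : ∀ g a, σ.D1 g a → win a → ¬ loud a →
    put (regAt o D g) (lab a) = regAt o D g ∧ put (regAt o D g) l0 ∈ C ∧
    ∀ l ∈ Lab, σ.D1 (modAt o D (fun r => put r l) g) (setLab a l)
  B2L : ∀ g a b, σ.D2 g a b → win a → ¬ loud a → ¬ loud b →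
    put (regAt o D g) (lab a) = regAt o D g ∧ put (regAt o D g) l0 ∈ C ∧
    ∀ l ∈ Lab, σ.D2 (modAt o D (fun r => put r l) g) (setLab a l) b
  B2R : ∀ g a b, σ.D2 g a b → win b → ¬ loud a → ¬ loud b →
    put (regAt (σ.n + o) D g) (lab b) = regAt (σ.n + o) D g ∧
    put (regAt (σ.n + o) D g) l0 ∈ C ∧
    ∀ l ∈ Lab, σ.D2 (modAt (σ.n + o) D (fun r => put r l) g) a (setLab b l)
  J : List A' → Finset ℕ
  m0 : ℕ
  r : ℕ
  J_inv : ∀ w j l, J (w.set j (setLab (w.getD j dflt) l)) = J w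
  J_spec : ∀ w, (∀ a ∈ w, a ∈ Q'.S) → m0 ≤ w.length → ¬ Q'.Null w →
    r ≤ (J w).card ∧
    (∀ j ∈ J w, j < w.length ∧ win (w.getD j dflt) ∧
      ∀ i, i < w.length → j ≤ i + 1 → i ≤ j + 1 → ¬ loud (w.getD i dflt)) ∧
    (∀ j ∈ J w, ∀ j' ∈ J w, lab (w.getD j dflt) = lab (w.getD j' dflt) → j = j') ∧
    (∀ j ∈ J w, ∀ j' ∈ J w, Q'.Eqv w
      ((w.set j (setLab (w.getD j dflt) (lab (w.getD j' dflt)))).set j'
        (setLab (w.getD j' dflt) (lab (w.getD j dflt)))))

end Vale.Agent.P192
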