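import Vale.Agent.P192.Unwind

/-! The simulation structure between two consecutive levels. -/

namespace Vale.Agent.P192

theorem dec_bd {n : ℕ} (hn : Big n) {c : Cfg} (h : c.SV n) : ∀ a ∈ c.dec n, Bd (n ^ Dg) a := by
  cases h2 : c.two
  · have hq : c.q = 0 := by
      rcases h.ctl with h' | h'
      · exact h'.1
      · simp [h2] at h'
    intro a ha
    simp only [Cfg.dec, h2, Bool.false_eq_true, if_false, List.mem_singleton] at ha
    subst ha
    refine letter_bd fun f i => ?_
    simp only [Cfg.dmem, hq, if_true, Cfg.ps]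
    refine h.mem_lt _ ?_
    simp only [Cfg.len, h2, Bool.false_eq_true, if_false]
    exact (pos_lt_iff hn _).2 rfl
  · have hm := h.mv hn h2
    have key : ∀ α, c.dmem n α < n := by
      intro α
      unfold Cfg.dmem
      split_ifs
      · exact hm.1 α
      · rcases hl : locate progs c.pc with _ | ⟨π, j⟩
        · exact hm.1 α
        · have hp := (locate_spec hl).1
          simp only [Prog.dmem]
          split_ifs
          · exact (hm.bwd fun i hi =>
              ((prog_shape hp).1 i (List.mem_of_mem_take hi)).1).1 α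
          · exact (hm.fwd fun i hi =>
              ((prog_shape hp).2.1 i (List.mem_of_mem_drop hi)).1).1 α
    intro a ha
    simp only [Cfg.dec, h2, if_true, List.mem_cons, List.not_mem_nil, or_false] at ha
    rcases ha with rfl | rfl <;> exact letter_bd fun f i => key _

theorem complete_seg {n : ℕ} (hn : Big n) {g : List Cell} {x : Cell} (hg : ∀ z ∈ g, Bd n z)
    (hs : Seg startC g) (hx : Bd n x) (hxs : startC x) (hz : ¬ (Lv n).Null (g ++ [x])) :
    ∃ c : Cfg, c.Valid n ∧ g = c.render n := by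
  obtain ⟨c, hc, rfl⟩ := struct_seg hn hg hs hx hxs fun h => hz ⟨_, QP.Eqv.refl _, h⟩
  refine ⟨c, ⟨hc, ?_, ?_⟩, rfl⟩
  · by_contra ht
    exact hz (by simpa using (null_tok hn hc ht).ctx [] [x])
  · by_contra ht
    exact hz (by simpa using (null_illegit hn hc ht).ctx [] [x])

noncomputable def simLv {n : ℕ} (hn : Big n) : Sim (Lv n) (Lv (n ^ Dg)) where
  n := n
  npos := by unfold Big at hn; omega
  L := 2 * n + 2
  start := startC
  φ := phi n
  D1 g a := ∃ c : Cfg, c.Valid n ∧ g = c.render n ∧ c.dec n = [a]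
  D2 g a b := ∃ c : Cfg, c.Valid n ∧ g = c.render n ∧ c.dec n = [a, b]
  D1_spec := by
    rintro g a ⟨c, hc, rfl, hd⟩
    have h2 : c.two = false := by
      cases h : c.two
      · rfl
      · simp [Cfg.dec, h] at hd
    refine ⟨Lv_S.2 (dec_bd hn hc.sv a (by simp [hd])), by simp [Cfg.render_length, Cfg.len, h2],
      fun x hx => Lv_S.2 (render_bd hn hc.sv x hx), render_seg hn hc.sv, ?_⟩
    simpa [hd] using eqv_dec hn hc
  D2_spec := by
    rintro g a b ⟨c, hc, rfl, hd⟩
    have h2 : c.two = true := by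
      cases h : c.two
      · simp [Cfg.dec, h] at hd
      · rfl
    refine ⟨Lv_S.2 (dec_bd hn hc.sv a (by simp [hd])), Lv_S.2 (dec_bd hn hc.sv b (by simp [hd])),
      by simp [Cfg.render_length, Cfg.len, h2],
      fun x hx => Lv_S.2 (render_bd hn hc.sv x hx), render_seg hn hc.sv, ?_⟩
    simpa [hd] using eqv_dec hn hc
  D1_fun := by
    rintro g a a' ⟨c, hc, rfl, hd⟩ ⟨c', hc', e, hd'⟩
    have := (render_inj hn hc.sv hc'.sv e).2
    rw [hd, hd'] at this
    simpa using this
  D2_fun := by
    rintro g a b a' b' ⟨c, hc, rfl, hd⟩ ⟨c', hc', e, hd'⟩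
    have := (render_inj hn hc.sv hc'.sv e).2
    rw [hd, hd'] at this
    simpa using this
  complete := by
    intro g x hg hs hx hxs
    by_cases hz : (Lv n).Null (g ++ [x])
    · exact Or.inr (Or.inr hz)
    · obtain ⟨c, hc, rfl⟩ :=
        complete_seg hn (fun z h => Lv_S.1 (hg z h)) hs (Lv_S.1 hx) hxs hz
      cases h2 : c.two
      · exact Or.inl ⟨letter n (c.dmem n) false, c, hc, rfl, by simp [Cfg.dec, h2]⟩
      · exact Or.inr (Or.inl ⟨letter n (c.dmem n) false, letter n (c.dmem n) true, c, hc, rfl,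
          by simp [Cfg.dec, h2]⟩)
  long := fun w hw hs hl =>
    ⟨w, QP.Eqv.refl _, long_hasZ hn (fun z h => Lv_S.1 (hw z h)) hs hl⟩
  simE := fun _ _ _ _ h => sim_E hn h
  simZ := fun _ _ h => sim_Z hn h

end Vale.Agent.P192
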