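import Vale.Agent.P192.SoundE2

/-! Rewriting steps inside one configuration. -/

namespace Vale.Agent.P192

theorem Same.symm {l : List Fld} {a c : Cell} (h : Same l a c) : Same l c a :=
  fun f hf => (h f hf).symm

theorem Same.ext {l : List Fld} {A a a' : Cell} (h : Same l A a) (h' : Same l A a')
    (e : ∀ f ∈ l, a' f = a f) : a' = a := by
  funext f
  by_cases hf : f ∈ l
  · exact e f hf
  · rw [h f hf, h' f hf]

theorem Same.nil {a c : Cell} (h : Same [] a c) : a = c := funext fun f => (h f (by simp)).symm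

/-- The conclusion of a step inside a configuration. -/
def StepGoal (n : ℕ) (c : Cfg) (x : ℕ) (a b : Cell) : Prop :=
  ∃ cs : List Cfg, (∀ c' ∈ cs, c'.Valid n) ∧
    cs.flatMap (Cfg.render n) = ((c.render n).set x a).set (x + 1) b ∧
    (Lv (n ^ Dg)).Eqv (c.dec n) (cs.flatMap (Cfg.dec n))

theorem StepGoal.one {n : ℕ} {c : Cfg} {x : ℕ} {a b : Cell} (c' : Cfg) (hv : c'.Valid n)
    (hd : (Lv (n ^ Dg)).Eqv (c.dec n) (c'.dec n)) (hl : c'.len n = c.len n)
    (ho : ∀ y, y ≠ x → y ≠ x + 1 → c'.cell n y = c.cell n y) (ha : c'.cell n x = a)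
    (hb : c'.cell n (x + 1) = b) : StepGoal n c x a b :=
  ⟨[c'], by simpa using hv, by simpa using Cfg.render_set hl ho ha hb, by simpa using hd⟩

namespace Cfg

variable {n : ℕ} {c : Cfg}

theorem eqv_of_eq {u v : List Cell} {m : ℕ} (h : u = v) : (Lv m).Eqv u v :=
  h ▸ QP.Eqv.refl _

theorem setCtl_other {q pc hm ha y : ℕ} (hy : y ≠ c.h) :
    (c.setCtl q pc hm ha).cell n y = c.cell n y := by
  funext f; cases f <;> first | rfl | simp [Cfg.cell, setCtl, hy]

theorem setCtl_same {q pc hm ha y : ℕ} :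
    Same ctlF (c.cell n y) ((c.setCtl q pc hm ha).cell n y) := by
  intro f hf; cases f <;> first | rfl | simp [ctlF] at hf

theorem goal_setCtl {x q pc hm ha : ℕ} {a : Cell} (hx : x = c.h)
    (hv : (c.setCtl q pc hm ha).Valid n)
    (hd : (Lv (n ^ Dg)).Eqv (c.dec n) ((c.setCtl q pc hm ha).dec n))
    (hs : Same ctlF (c.cell n x) a) (e1 : a .q = q) (e2 : a .pc = pc) (e3 : a .hm = hm)
    (e4 : a .ha = ha) : StepGoal n c x a (c.cell n (x + 1)) := by
  refine StepGoal.one _ hv hd rfl (fun y h1 _ => setCtl_other (hx ▸ h1)) ?_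
    (setCtl_other (by omega))
  refine hs.ext setCtl_same ?_
  simp [ctlF, Cfg.cell, setCtl, hx, e1, e2, e3, e4]

theorem head_other {h' y : ℕ} (h1 : y ≠ c.h) (h2 : y ≠ h') (h3 : y < c.h ↔ y < h') :
    Cfg.cell n { c with h := h' } y = c.cell n y := by
  funext f; cases f <;> simp [Cfg.cell, h1, h2, h3]

theorem head_same {h' y : ℕ} : Same regF (c.cell n y) (Cfg.cell n { c with h := h' } y) := by
  intro f hf; cases f <;> first | rfl | simp [regF] at hf

theorem goal_move_fwd (hc : c.Valid n) {x : ℕ} (hx : x + 1 < c.len n) {a b : Cell}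
    (har : ((c.cell n x .ar = 4 ∧ c.cell n (x + 1) .ar = 3 ∧ a .ar = 0 ∧ b .ar = 4) ∨
        (c.cell n x .ar = 5 ∧ c.cell n (x + 1) .ar = 2 ∧ a .ar = 0 ∧ b .ar = 5) ∨
        (c.cell n x .ar = 6 ∧ c.cell n (x + 1) .ar = 3 ∧ a .ar = 1 ∧ b .ar = 6)) ∨
        (c.cell n x .ar = 5 ∧ c.cell n (x + 1) .ar = 3 ∧ a .ar = 0 ∧ b .ar = 6))
    (h0 : R0 a) (hq : b .q = c.cell n x .q) (hpc : b .pc = c.cell n x .pc)
    (hhm : b .hm = c.cell n x .hm) (hha : b .ha = c.cell n x .ha) (hr1 : b .r1 = c.cell n x .r1)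
    (hr2 : b .r2 = c.cell n x .r2) (h1 : Same regF (c.cell n x) a)
    (h2 : Same regF (c.cell n (x + 1)) b) : StepGoal n c x a b := by
  have hv := valid_head hc hx
  simp only [ar2, ar3, ar4, ar5, ar6] at har
  have hxh : x = c.h := by tauto
  have e1 : Cfg.cell n { c with h := x + 1 } x .ar = a .ar := by
    rcases har with (g | g | g) | g <;> rw [g.2.2.1]
    · rw [ar0]; simp only [Cfg.len, g.1.2] at hx; simp at hx ⊢; omega
    · rw [ar0]; simp [g.1.2.2]
    · rw [ar1]; simp [g.1.2.2]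
    · rw [ar0]; simp [g.1.2.2]
  have e2 : Cfg.cell n { c with h := x + 1 } (x + 1) .ar = b .ar := by
    rcases har with (g | g | g) | g <;> rw [g.2.2.2]
    · rw [ar4]; simp [g.1.2]
    · rw [ar5]; simp [g.2.1.2]
    · rw [ar6]; simp [g.1.2.1]; omega
    · rw [ar6]; have := g.2.1.2; simp [g.1.2.1] at this ⊢; omega
  refine StepGoal.one _ hv.1 (eqv_of_eq hv.2) rfl
    (fun y g1 g2 => head_other (by omega) g2 (by omega)) (h1.ext head_same ?_)
    (h2.ext head_same ?_)
  · obtain ⟨g1, g2, g3, g4, g5, g6⟩ := h0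
    simp only [regF, List.forall_mem_cons, e1, g1, g2, g3, g4, g5, g6]
    simp [Cfg.cell]
  · simp only [regF, List.forall_mem_cons, e2, hq, hpc, hhm, hha, hr1, hr2]
    simp [Cfg.cell, hxh]

theorem goal_move_bwd (hc : c.Valid n) {x : ℕ} (hx : x + 1 < c.len n) {a b : Cell}
    (har : ((a .ar = 4 ∧ b .ar = 3 ∧ c.cell n x .ar = 0 ∧ c.cell n (x + 1) .ar = 4) ∨
        (a .ar = 5 ∧ b .ar = 2 ∧ c.cell n x .ar = 0 ∧ c.cell n (x + 1) .ar = 5) ∨
        (a .ar = 6 ∧ b .ar = 3 ∧ c.cell n x .ar = 1 ∧ c.cell n (x + 1) .ar = 6)) ∨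
        (a .ar = 5 ∧ b .ar = 3 ∧ c.cell n x .ar = 0 ∧ c.cell n (x + 1) .ar = 6))
    (h0 : R0 b) (hq : c.cell n (x + 1) .q = a .q) (hpc : c.cell n (x + 1) .pc = a .pc)
    (hhm : c.cell n (x + 1) .hm = a .hm) (hha : c.cell n (x + 1) .ha = a .ha)
    (hr1 : c.cell n (x + 1) .r1 = a .r1) (hr2 : c.cell n (x + 1) .r2 = a .r2)
    (h1 : Same regF (c.cell n x) a)
    (h2 : Same regF (c.cell n (x + 1)) b) : StepGoal n c x a b := by
  have hv := valid_head hc (h' := x) (by omega)
  simp only [ar0, ar1, ar4, ar5, ar6] at har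
  have hxh : x + 1 = c.h := by tauto
  have e1 : Cfg.cell n { c with h := x } x .ar = a .ar := by
    rcases har with (g | g | g) | g <;> rw [g.1]
    · rw [ar4]; simp [g.2.2.2.2]
    · rw [ar5]; simp [g.2.2.2.2.1, g.2.2.1.2]
    · rw [ar6]; simp [g.2.2.2.2.1, g.2.2.1.2]
    · rw [ar5]; simp [g.2.2.2.2.1, g.2.2.1.2]
  have e2 : Cfg.cell n { c with h := x } (x + 1) .ar = b .ar := by
    rcases har with (g | g | g) | g <;> rw [g.2.1]
    · rw [ar3]; simp [g.2.2.2.2]
    · rw [ar2]; simp [g.2.2.2.2.1, g.2.2.2.2.2]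
    · rw [ar3]; simp [g.2.2.2.2.2]
    · rw [ar3]; simp [g.2.2.2.2.2]
  refine StepGoal.one _ hv.1 (eqv_of_eq hv.2) rfl
    (fun y g1 g2 => head_other (by omega) g1 (by omega)) (h1.ext head_same ?_)
    (h2.ext head_same ?_)
  · simp only [regF, List.forall_mem_cons, e1, ← hq, ← hpc, ← hhm, ← hha, ← hr1, ← hr2]
    simp [Cfg.cell, hxh]
  · obtain ⟨g1, g2, g3, g4, g5, g6⟩ := h0
    simp only [regF, List.forall_mem_cons, e2, g1, g2, g3, g4, g5, g6]
    simp [Cfg.cell]

theorem goal_scratch (hn : Big n) (hc : c.Valid n) {x : ℕ} {b : Cell} (hb : Bd n b)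
    (ha : c.cell n x .ar = 4 ∨ c.cell n x .ar = 5 ∨ c.cell n x .ar = 6)
    (hq : c.cell n x .q = 0) (hm : c.cell n (x + 1) .m = 0)
    (h2 : Same [.val] (c.cell n (x + 1)) b) : StepGoal n c x (c.cell n x) b := by
  have hxh : x = c.h := by simp only [ar4, ar5, ar6] at ha; tauto
  have hq' : c.q = 0 := by simpa [Cfg.cell, hxh] using hq
  have hv := valid_scratch hn hc hq' (y := x + 1) (tb_eq_zero.1 hm) (hb .val)
  have ho : ∀ y, y ≠ x + 1 →
      Cfg.cell n { c with mem := Function.update c.mem (x + 1) (b .val) } y = c.cell n y := by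
    intro y hy; funext f; cases f <;> simp [Cfg.cell, hy]
  refine StepGoal.one _ hv.1 (eqv_of_eq hv.2) rfl (fun y _ g => ho y g) (ho x (by omega))
    (h2.ext ?_ ?_)
  · intro f hf; cases f <;> first | rfl | simp at hf
  · simp [Cfg.cell]

/-- The instruction under the head. -/
theorem instr_at (hn : Big n) (hc : c.Valid n) {x : ℕ} (hx : x < c.len n) {s : Bool}
    (ha : c.cell n x .ar = 5 + s.toNat) (hq : c.cell n x .q ≠ 0) (h7 : 7 ≤ c.cell n x .hm)
    (hha : c.cell n x .ha = c.cell n x .addr) :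
    x = c.h ∧ ∃ π e i, locate progs c.pc = some (π, e + 1) ∧ π.body[e]? = some i ∧
      c.hm = i.code ∧ c.ha = i.adr.2.adr ∧ π.Ok n (c.ex (e + 1)) (c.ps n) ∧
      x = pos n (s, i.adr.2) := by
  obtain ⟨hxh, h2, hs⟩ := ar5s ha
  subst hxh
  simp only [Cfg.cell, if_true] at hq h7 hha
  obtain ⟨π, e, i, g1, g2, g3, g4, g5⟩ := instr_of_code hc hq h7
  refine ⟨rfl, π, e, i, g1, g2, g3, g4, g5, ?_⟩
  rw [g4] at hha
  cases s
  · have := hs.2 rfl
    simp only [adx, this, if_true] at hha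
    rw [pos_false, hha]
  · have : ¬ c.h < n := fun h => by simpa using hs.1 h
    simp only [adx, this, if_false] at hha
    rw [pos_true, hha]; omega

theorem execI_other {q' y : ℕ} {i : Ins} (hy : y ≠ c.h) (hi : pos n i.adr = c.h) :
    (c.execI n q' i).cell n y = c.cell n y := by
  funext f
  cases i <;> simp only [Ins.adr] at hi <;> cases f <;>
    first | rfl | simp [Cfg.cell, execI, hy, hi]

theorem execI_len {q' : ℕ} {i : Ins} : (c.execI n q' i).len n = c.len n := by
  cases i <;> rfl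

theorem goal_x1 (hn : Big n) (hc : c.Valid n) {x : ℕ} (hx : x < c.len n) {s : Bool} {a : Cell}
    (ha : c.cell n x .ar = 5 + s.toNat) (hhm : c.cell n x .hm = 7 + s.toNat)
    (hha : c.cell n x .ha = c.cell n x .addr)
    (hq : (c.cell n x .q = 1 ∧ a .q = 2) ∨ (c.cell n x .q = 2 ∧ a .q = 1))
    (hv : a .val = c.cell n x .r1) (hr : a .r1 = c.cell n x .val)
    (h1 : Same [.q, .val, .r1] (c.cell n x) a) : StepGoal n c x a (c.cell n (x + 1)) := by
  obtain ⟨hxh, π, e, i, g1, g2, g3, g4, g5, g6⟩ :=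
    instr_at hn hc hx ha (by omega) (by omega) hha
  have hi : i = .x1 (s, i.adr.2) := Ins.code_x1 (by simpa [Cfg.cell, hxh, g3] using hhm)
  generalize i.adr.2 = l at hi g6
  subst hi
  have hp : pos n (Ins.x1 (s, l)).adr = c.h := g6.symm.trans hxh
  have hp' : pos n (s, l) = c.h := hp
  have key : ∀ q', a .q = q' → (c.execI n q' (.x1 (s, l))).cell n x = a := by
    intro q' hq'
    refine h1.ext ?_ ?_
    · intro f hf; cases f <;> first | rfl | simp at hf
    · simp [Cfg.cell, execI, hxh, hq', hv, hr, hp']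
  rcases hq with ⟨q1, q2⟩ | ⟨q1, q2⟩
  · have := valid_exec_fwd hn hc (by simpa [Cfg.cell, hxh] using q1) g1 g2 g3 g4 g5 trivial
    exact StepGoal.one _ this.1 this.2 execI_len (fun y h _ => execI_other (hxh ▸ h) hp)
      (key _ q2) (execI_other (by omega) hp)
  · have := valid_exec_bwd hn hc (by simpa [Cfg.cell, hxh] using q1) g1 g2 g3 g4 g5 trivial
    exact StepGoal.one _ this.1 this.2 execI_len (fun y h _ => execI_other (hxh ▸ h) hp)
      (key _ q2) (execI_other (by omega) hp)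

theorem goal_x2 (hn : Big n) (hc : c.Valid n) {x : ℕ} (hx : x < c.len n) {s : Bool} {a : Cell}
    (ha : c.cell n x .ar = 5 + s.toNat) (hhm : c.cell n x .hm = 9 + s.toNat)
    (hha : c.cell n x .ha = c.cell n x .addr)
    (hq : (c.cell n x .q = 1 ∧ a .q = 2) ∨ (c.cell n x .q = 2 ∧ a .q = 1))
    (hv : a .val = c.cell n x .r2) (hr : a .r2 = c.cell n x .val)
    (h1 : Same [.q, .val, .r2] (c.cell n x) a) : StepGoal n c x a (c.cell n (x + 1)) := by
  obtain ⟨hxh, π, e, i, g1, g2, g3, g4, g5, g6⟩ :=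
    instr_at hn hc hx ha (by omega) (by omega) hha
  have hi : i = .x2 (s, i.adr.2) := Ins.code_x2 (by simpa [Cfg.cell, hxh, g3] using hhm)
  generalize i.adr.2 = l at hi g6
  subst hi
  have hp : pos n (Ins.x2 (s, l)).adr = c.h := g6.symm.trans hxh
  have hp' : pos n (s, l) = c.h := hp
  have key : ∀ q', a .q = q' → (c.execI n q' (.x2 (s, l))).cell n x = a := by
    intro q' hq'
    refine h1.ext ?_ ?_
    · intro f hf; cases f <;> first | rfl | simp at hf
    · simp [Cfg.cell, execI, hxh, hq', hv, hr, hp']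
  rcases hq with ⟨q1, q2⟩ | ⟨q1, q2⟩
  · have := valid_exec_fwd hn hc (by simpa [Cfg.cell, hxh] using q1) g1 g2 g3 g4 g5 trivial
    exact StepGoal.one _ this.1 this.2 execI_len (fun y h _ => execI_other (hxh ▸ h) hp)
      (key _ q2) (execI_other (by omega) hp)
  · have := valid_exec_bwd hn hc (by simpa [Cfg.cell, hxh] using q1) g1 g2 g3 g4 g5 trivial
    exact StepGoal.one _ this.1 this.2 execI_len (fun y h _ => execI_other (hxh ▸ h) hp)
      (key _ q2) (execI_other (by omega) hp)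

theorem goal_gate (hn : Big n) (hc : c.Valid n) {x : ℕ} (hx : x < c.len n) {md pol k s : Bool}
    {a : Cell} (ha : c.cell n x .ar = 5 + s.toNat) (hhm : c.cell n x .hm = gcode md pol k s)
    (hg : gateOK n pol k (c.cell n x .val) (c.cell n x .r1))
    (hha : c.cell n x .ha = c.cell n x .addr)
    (hq : (c.cell n x .q = 1 ∧ a .q = 2) ∨ (c.cell n x .q = 2 ∧ a .q = 1))
    (h1 : Same [.q] (c.cell n x) a) : StepGoal n c x a (c.cell n (x + 1)) := by
  obtain ⟨hxh, π, e, i, g1, g2, g3, g4, g5, g6⟩ :=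
    instr_at hn hc hx ha (by omega) (by have := gcode_bd md pol k s; omega) hha
  have hi : i = .gate md pol k (s, i.adr.2) :=
    Ins.code_gate (by simpa [Cfg.cell, hxh, g3] using hhm)
  generalize i.adr.2 = l at hi g6
  subst hi
  have hp : pos n (Ins.gate md pol k (s, l)).adr = c.h := g6.symm.trans hxh
  have hp' : pos n (s, l) = c.h := hp
  have hok : (Ins.gate md pol k (s, l)).ok n (c.ps n) := by
    simpa [Ins.ok, Cfg.ps, Cfg.cell, hxh, hp'] using hg
  have key : ∀ q', a .q = q' → (c.execI n q' (.gate md pol k (s, l))).cell n x = a := by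
    intro q' hq'
    refine h1.ext ?_ ?_
    · intro f hf; cases f <;> first | rfl | simp at hf
    · simp [Cfg.cell, execI, hxh, hq']
  rcases hq with ⟨q1, q2⟩ | ⟨q1, q2⟩
  · have := valid_exec_fwd hn hc (by simpa [Cfg.cell, hxh] using q1) g1 g2 g3 g4 g5 hok
    exact StepGoal.one _ this.1 this.2 execI_len (fun y h _ => execI_other (hxh ▸ h) hp)
      (key _ q2) (execI_other (by omega) hp)
  · have := valid_exec_bwd hn hc (by simpa [Cfg.cell, hxh] using q1) g1 g2 g3 g4 g5 hok
    exact StepGoal.one _ this.1 this.2 execI_len (fun y h _ => execI_other (hxh ▸ h) hp)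
      (key _ q2) (execI_other (by omega) hp)

theorem sh1 {x : ℕ} : c.cell n x .sh = 1 ↔ P1 ≤ adx n x ∧ x < (if x < n then c.s0 else c.s1) := by
  simp only [Cfg.cell]; split_ifs <;> simp_all
theorem sh2 {x : ℕ} : c.cell n x .sh = 2 ↔ P1 ≤ adx n x ∧ x = (if x < n then c.s0 else c.s1) := by
  simp only [Cfg.cell]; split_ifs <;> simp_all <;> omega
theorem sh3 {x : ℕ} : c.cell n x .sh = 3 ↔ P1 ≤ adx n x ∧ (if x < n then c.s0 else c.s1) < x := by
  simp only [Cfg.cell]; split_ifs <;> simp_all <;> omega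

theorem same_block {x : ℕ} (h : P1 ≤ adx n (x + 1)) : x < n ↔ x + 1 < n := by
  have := PP_ge; have := PP_le_P1
  simp only [adx] at h
  split_ifs at h <;> omega

theorem moveS_other {y z : ℕ} {τ : ℕ → ℕ} (hτ : τ z = c.lab z)
    (h : (z < n ↔ y < n) → (z < y ∧ z < (if z < n then c.s0 else c.s1)) ∨
      (y < z ∧ (if z < n then c.s0 else c.s1) < z)) :
    (c.moveS n y τ).cell n z = c.cell n z := by
  funext f
  cases f
  case lab => simp [Cfg.cell, moveS, hτ]
  case sh =>
    simp only [Cfg.cell, moveS]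
    split_ifs at h ⊢ <;> first | rfl | omega
  all_goals rfl

theorem moveS_same {y z : ℕ} {τ : ℕ → ℕ} :
    Same [.sh, .lab] (c.cell n z) ((c.moveS n y τ).cell n z) := by
  intro f hf; cases f <;> first | rfl | simp at hf

theorem goal_shift (hc : c.Valid n) {x : ℕ} (hx : x + 1 < c.len n) {a b : Cell}
    (hs : (c.cell n x .sh = 2 ∧ c.cell n (x + 1) .sh = 3 ∧ a .sh = 1 ∧ b .sh = 2) ∨
      (c.cell n x .sh = 1 ∧ c.cell n (x + 1) .sh = 2 ∧ a .sh = 2 ∧ b .sh = 3))
    (hl : (a .lab = c.cell n x .lab ∧ b .lab = c.cell n (x + 1) .lab) ∨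
      (a .lab = c.cell n (x + 1) .lab ∧ b .lab = c.cell n x .lab))
    (h1 : Same [.sh, .lab] (c.cell n x) a) (h2 : Same [.sh, .lab] (c.cell n (x + 1)) b) :
    StepGoal n c x a b := by
  simp only [sh1, sh2, sh3] at hs
  have wx : P1 ≤ adx n x := by tauto
  have wy : P1 ≤ adx n (x + 1) := by tauto
  have hb := same_block wy
  have wx' : ¬ adx n x < P1 := by omega
  have wy' : ¬ adx n (x + 1) < P1 := by omega
  obtain ⟨τ, hτ, t1, t2, t3⟩ : ∃ τ : ℕ → ℕ, Cfg.Valid n { c with lab := τ } ∧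
      (∀ z, z ≠ x → z ≠ x + 1 → τ z = c.lab z) ∧ τ x = a .lab ∧ τ (x + 1) = b .lab := by
    rcases hl with hl | hl
    · exact ⟨c.lab, hc, fun _ _ _ => rfl, by simp [hl.1, Cfg.cell, wx'],
        by simp [hl.2, Cfg.cell, wy']⟩
    · exact ⟨_, valid_swap hc (by omega) hx wx wy hb,
        fun z g1 g2 => by simp [Equiv.swap_apply_of_ne_of_ne g1 g2],
        by simp [hl.1, Cfg.cell, wy'], by simp [hl.2, Cfg.cell, wx']⟩
  rcases hs with ⟨g1, g2, g3, g4⟩ | ⟨g1, g2, g3, g4⟩
  · refine StepGoal.one (c.moveS n (x + 1) τ) (valid_moveS hτ hx wy) (QP.Eqv.refl _) rfl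
      (fun z k1 k2 => moveS_other (t1 z k1 k2) fun k => ?_) (h1.ext moveS_same ?_)
      (h2.ext moveS_same ?_)
    · have := g1.2
      split_ifs at this ⊢ <;> omega
    · simp only [List.forall_mem_cons, g3, sh1, ← t2]
      simp [Cfg.cell, moveS, wx', wx]
      split_ifs <;> omega
    · simp only [List.forall_mem_cons, g4, sh2, ← t3]
      simp [Cfg.cell, moveS, wy', wy]
      split_ifs <;> omega
  · refine StepGoal.one (c.moveS n x τ) (valid_moveS hτ (Nat.lt_of_succ_lt hx) wx)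
      (QP.Eqv.refl _) rfl
      (fun z k1 k2 => moveS_other (t1 z k1 k2) fun k => ?_) (h1.ext moveS_same ?_)
      (h2.ext moveS_same ?_)
    · have := g2.2
      split_ifs at this ⊢ <;> omega
    · simp only [List.forall_mem_cons, g3, sh2, ← t2]
      simp [Cfg.cell, moveS, wx', wx]
      split_ifs <;> omega
    · simp only [List.forall_mem_cons, g4, sh3, ← t3]
      simp [Cfg.cell, moveS, wy', wy]
      split_ifs <;> omega

theorem goal_split (hn : Big n) (hc : c.Valid n) {x : ℕ} {a b : Cell}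
    (ha : a .ar = 4) (hb : b .ar = 4) (hA : c.cell n x .ar = 5) (hB : c.cell n (x + 1) .ar = 3)
    (hq : c.cell n x .q = 0) (h1 : Same [.ar] (c.cell n x) a)
    (h2 : Same [.ar] (c.cell n (x + 1)) b) : StepGoal n c x a b := by
  obtain ⟨hxh, ht, hxn⟩ := ar5.1 hA
  have hx1 : x + 1 = n := by
    have := (ar3.1 hB).2
    simp [ht] at this; omega
  have hq' : c.q = 0 := by simpa [Cfg.cell, hxh] using hq
  obtain ⟨v1, v2, v3⟩ := valid_split hn hc ht hq' (hxh ▸ hxn)
  have l1 : c.lft.len n = n := by simp [Cfg.len, lft]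
  have l2 : (c.rgt n).len n = n := by simp [Cfg.len, rgt]
  have l3 : c.len n = 2 * n := by simp [Cfg.len, ht]
  refine ⟨[c.lft, c.rgt n], by simp [v1, v2], ?_, eqv_of_eq (by simpa using v3)⟩
  apply List.ext_getElem?
  intro y
  simp only [List.flatMap_cons, List.flatMap_nil, List.append_nil, List.getElem?_append,
    List.getElem?_set, render_get?, List.length_set, render_length, l1, l2, l3]
  by_cases k1 : y < n
  · have k2 : ¬ x + 1 = y := by omega
    have k3 : y < 2 * n := by omega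
    simp only [k1, k2, k3, if_true, if_false]
    by_cases k4 : x = y
    · subst k4
      simp only [k3, if_true, Option.some.injEq]
      refine h1.ext ?_ ?_
      · intro f hf; cases f <;> first | rfl | simp at hf
      · simp only [List.forall_mem_cons, ha, ar4]
        simp [lft, hxh]
    · simp only [k4, if_false, Option.some.injEq]
      have k5 : y < c.h := by omega
      funext f; cases f <;> first | rfl | simp [Cfg.cell, lft, k5]
  · obtain ⟨z, rfl⟩ := Nat.exists_eq_add_of_le (not_lt.1 k1)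
    simp only [k1, if_false, Nat.add_sub_cancel_left]
    by_cases k2 : z = 0
    · subst k2
      have k3 : 0 < n := by omega
      have k4 : x + 1 < 2 * n := by omega
      simp only [hx1, k3, Nat.add_zero, if_true]
      rw [if_pos (by omega), Option.some.injEq]
      rw [hx1] at h2
      refine h2.ext ?_ ?_
      · have := PP_ge; have := PP_le_P1
        have e1 : adx n n = 0 := by simp [adx]
        have e2 : adx n 0 = 0 := by simp [adx]
        have e3 : ¬ n = c.h := by omega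
        have e4 : 0 < P1 := by omega
        intro f hf; cases f <;> first | (simp at hf; done) | simp [Cfg.cell, rgt, e1, e2, e3, e4]
      · simp only [List.forall_mem_cons, hb, ar4]
        simp [rgt]
    · have k3 : ¬ x + 1 = n + z := by omega
      have k4 : ¬ x = n + z := by omega
      simp only [k3, k4, if_false]
      by_cases k5 : z < n
      · rw [if_pos k5, if_pos (by omega), rgt_cell hn hc.sv ht (by omega) k5 k2]
      · rw [if_neg k5, if_neg (by omega)]

end Cfg

end Vale.Agent.P192
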