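import Vale.Agent.P192.Struct
import Vale.Agent.P192.Sem
import Vale.Agent.P192.SoundE3

/-! Rewriting steps, in both directions, preserve validity and the decoded word. -/

namespace Vale.Agent.P192

open Cfg in
theorem step_in {n : ℕ} (hn : Big n) {c : Cfg} (hc : c.Valid n) {x : ℕ} (hx : x + 1 < c.len n)
    {a b : Cell} (h : (Lv n).E (c.cell n x) (c.cell n (x + 1)) a b ∨
      (Lv n).E a b (c.cell n x) (c.cell n (x + 1))) :
    ∃ cs : List Cfg, (∀ c' ∈ cs, c'.Valid n) ∧
      cs.flatMap (Cfg.render n) = ((c.render n).set x a).set (x + 1) b ∧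
      (Lv (n ^ Dg)).Eqv (c.dec n) (cs.flatMap (Cfg.dec n)) := by
  change StepGoal n c x a b
  have hx' : x < c.len n := by omega
  have triv : StepGoal n c x (c.cell n x) (c.cell n (x + 1)) :=
    StepGoal.one c hc (QP.Eqv.refl _) rfl (fun _ _ _ => rfl) rfl rfl
  rcases h with h | h
  · obtain ⟨⟨-, -, ba, bb⟩, h⟩ := Lv_E.1 h
    cases h with
    | triv h1 h2 => rw [← h1.nil, ← h2.nil]; exact triv
    | move har hb hc' hq hpc hhm hha hr1 hr2 h1 h2 =>
      exact goal_move_fwd hc hx (har.imp And.right And.right) hc' hq hpc hhm hha hr1 hr2 h1 h2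
    | capture h0 ha hb hc' hd hq h1 h2 =>
      have := (ar4.1 ha).1; have := (ar4.1 hb).1; omega
    | scratch ha hq hm h1 h2 => rw [← h1.nil]; exact goal_scratch hn hc bb ha hq hm h2
    | start ha hm h0 hq hpc hhm hha h1 h2 =>
      obtain ⟨hxh, ht, hxn⟩ := ar5.1 ha
      have e : adx n x = x := by simp [adx, hxn]
      simp only [Cfg.cell, e] at hm hpc hhm hha
      have v := valid_start_fwd hn hc ht (by simpa [Cfg.cell, hxh] using h0.1) hxn hm
      rw [← h2.nil]
      exact goal_setCtl hxh v.1 (eqv_of_eq v.2) h1 hq hpc hhm hha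
    | fin ha hm h0 hq hpc hhm hha h1 h2 =>
      obtain ⟨hxh, ht, hxn⟩ := ar5.1 ha
      have v := valid_fin_fwd hn hc (by simpa [Cfg.cell, hxh] using hq)
        (by rw [hm] at hhm; simpa [Cfg.cell, hxh] using hhm)
      rw [← h2.nil]
      exact goal_setCtl hxh v.1 v.2 h1 h0.1 h0.2.1 h0.2.2.1 h0.2.2.2.1
    | adv ha hq hpc hhm hha hq' hpc' hhm' hha' h1 h2 =>
      obtain ⟨hxh, ht, hxn⟩ := ar5.1 ha
      have e : adx n x = x := by simp [adx, hxn]
      have hp : c.pc = x := by simpa [Cfg.cell, ← hxh, e] using hpc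
      have v := valid_adv_fwd hn hc (by simpa [Cfg.cell, hxh] using hq)
      rw [hp] at v
      have e' : adx n (x + 1) = x + 1 := by simp [adx, v.1]
      simp only [Cfg.cell, e'] at hpc' hhm' hha'
      rw [← h2.nil]
      exact goal_setCtl hxh v.2.1 (eqv_of_eq v.2.2) h1 hq' hpc' hhm' hha'
    | x1 s ha hhm hha hq hq' hv hr h1 h2 =>
      rw [← h2.nil]; exact goal_x1 hn hc hx' ha hhm hha (Or.inl ⟨hq, hq'⟩) hv hr h1
    | x2 s ha hhm hha hq hq' hv hr h1 h2 =>
      rw [← h2.nil]; exact goal_x2 hn hc hx' ha hhm hha (Or.inl ⟨hq, hq'⟩) hv hr h1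
    | gate md pol k s ha hhm hg hha hq hq' h1 h2 =>
      rw [← h2.nil]; exact goal_gate hn hc hx' ha hhm hg hha (Or.inl ⟨hq, hq'⟩) h1
    | plain ha hd hb hc' h1 h2 =>
      exact goal_shift hc hx (Or.inl ⟨ha, hb, hc', hd⟩)
        (Or.inl ⟨h1 _ (by simp), h2 _ (by simp)⟩) (fun f hf => h1 f (by simp_all))
        (fun f hf => h2 f (by simp_all))
    | carry ha hd hb hc' hl1 hl2 h1 h2 =>
      exact goal_shift hc hx (Or.inl ⟨ha, hb, hc', hd⟩) (Or.inr ⟨hl1, hl2⟩) h1 h2
  · obtain ⟨⟨ba, bb, -, -⟩, h⟩ := Lv_E.1 h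
    cases h with
    | triv h1 h2 => rw [h1.nil, h2.nil]; exact triv
    | move har hb hc' hq hpc hhm hha hr1 hr2 h1 h2 =>
      exact goal_move_bwd hc hx (har.imp And.right And.right) hb hq hpc hhm hha hr1 hr2 h1.symm h2.symm
    | capture h0 ha hb hc' hd hq h1 h2 =>
      exact goal_split hn hc ha hb hc' hd ((h1 _ (by simp)).trans hq) h1.symm h2.symm
    | scratch ha hq hm h1 h2 =>
      obtain rfl := h1.nil
      exact goal_scratch hn hc bb ha hq ((h2 _ (by simp)).trans hm) h2.symm
    | start ha hm h0 hq hpc hhm hha h1 h2 =>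
      obtain ⟨hxh, ht, hxn⟩ := ar5.1 ((h1 _ (by simp [ctlF])).trans ha)
      have v := valid_start_bwd hn hc (by simpa [Cfg.cell, hxh] using hq)
        (by rw [hm] at hhm; simpa [Cfg.cell, hxh] using hhm)
      rw [h2.nil]
      exact goal_setCtl hxh v.1 (eqv_of_eq v.2) h1.symm h0.1 h0.2.1 h0.2.2.1 h0.2.2.2.1
    | fin ha hm h0 hq hpc hhm hha h1 h2 =>
      obtain ⟨hxh, ht, hxn⟩ := ar5.1 ((h1 _ (by simp [ctlF])).trans ha)
      have e : adx n x = x := by simp [adx, hxn]
      rw [← h1 .m (by simp [ctlF])] at hm hhm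
      rw [← h1 .addr (by simp [ctlF])] at hpc
      rw [← h1 .ad (by simp [ctlF])] at hha
      simp only [Cfg.cell, e] at hm hpc hhm hha
      have v := valid_fin_bwd hn hc ht (by simpa [Cfg.cell, hxh] using h0.1) hxn hm
      rw [h2.nil]
      exact goal_setCtl hxh v.1 v.2 h1.symm hq hpc hhm hha
    | adv ha hq hpc hhm hha hq' hpc' hhm' hha' h1 h2 =>
      obtain ⟨hxh, ht, hxn⟩ := ar5.1 ((h1 _ (by simp [ctlF])).trans ha)
      have e : adx n x = x := by simp [adx, hxn]
      obtain rfl := h2.nil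
      have v := valid_adv_bwd hn hc (by simpa [Cfg.cell, hxh] using hq')
      have hp : c.pc = adx n (x + 1) := by simpa [Cfg.cell, ← hxh] using hpc'
      have hp' : c.pc - 1 = x := by
        have := v.1
        simp only [adx] at hp
        split_ifs at hp <;> omega
      rw [hp'] at v
      rw [← h1 .m (by simp [ctlF])] at hhm
      rw [← h1 .addr (by simp [ctlF])] at hpc
      rw [← h1 .ad (by simp [ctlF])] at hha
      simp only [Cfg.cell, e] at hpc hhm hha
      exact goal_setCtl hxh v.2.1 (eqv_of_eq v.2.2) h1.symm hq hpc hhm hha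
    | x1 s ha hhm hha hq hq' hv hr h1 h2 =>
      rw [h2.nil]
      exact goal_x1 hn hc hx' ((h1 _ (by simp)).trans ha) ((h1 _ (by simp)).trans hhm)
        (((h1 _ (by simp)).trans hha).trans (h1 _ (by simp)).symm) (Or.inr ⟨hq', hq⟩) hr.symm
        hv.symm h1.symm
    | x2 s ha hhm hha hq hq' hv hr h1 h2 =>
      rw [h2.nil]
      exact goal_x2 hn hc hx' ((h1 _ (by simp)).trans ha) ((h1 _ (by simp)).trans hhm)
        (((h1 _ (by simp)).trans hha).trans (h1 _ (by simp)).symm) (Or.inr ⟨hq', hq⟩) hr.symm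
        hv.symm h1.symm
    | gate md pol k s ha hhm hg hha hq hq' h1 h2 =>
      rw [h2.nil]
      rw [← h1 .val (by simp), ← h1 .r1 (by simp)] at hg
      exact goal_gate hn hc hx' ((h1 _ (by simp)).trans ha) ((h1 _ (by simp)).trans hhm) hg
        (((h1 _ (by simp)).trans hha).trans (h1 _ (by simp)).symm) (Or.inr ⟨hq', hq⟩) h1.symm
    | plain ha hd hb hc' h1 h2 =>
      exact goal_shift hc hx (Or.inr ⟨hc', hd, ha, hb⟩)
        (Or.inl ⟨(h1 _ (by simp)).symm, (h2 _ (by simp)).symm⟩)
        (fun f hf => h1.symm f (by simp_all)) (fun f hf => h2.symm f (by simp_all))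
    | carry ha hd hb hc' hl1 hl2 h1 h2 =>
      exact goal_shift hc hx (Or.inr ⟨hc', hd, ha, hb⟩) (Or.inr ⟨hl2.symm, hl1.symm⟩)
        h1.symm h2.symm

namespace Cfg

variable {n : ℕ} {c : Cfg}

theorem len_pos2 (hn : Big n) : n ≤ c.len n ∧ 0 < n := by
  unfold Big at hn; simp only [Cfg.len]; split_ifs <;> omega

theorem last_ar (hn : Big n) (hc : c.SV n) :
    c.cell n (c.len n - 1) .ar = 3 ∨ c.cell n (c.len n - 1) .ar = 4 ∨
      c.cell n (c.len n - 1) .ar = 6 := by
  have := hc.h_lt
  have := len_pos2 (c := c) hn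
  simp only [ar3, ar4, ar6]
  cases ht : c.two <;> simp only [Cfg.len, ht] at * <;> simp at * <;> omega

theorem first_ar (hn : Big n) :
    c.cell n 0 .ar = 0 ∨ c.cell n 0 .ar = 4 ∨ c.cell n 0 .ar = 5 := by
  have := len_pos2 (c := c) hn
  simp only [ar0, ar4, ar5]
  cases c.two <;> simp <;> omega

theorem first_m : c.cell n 0 .m ≠ 0 := by
  have := PP_ge; have := PP_le_P1
  have e : adx n 0 = 0 := by simp [adx]
  simp only [Cfg.cell, e, Ne, tb_eq_zero]; omega

theorem first_sh : c.cell n 0 .sh = 0 := by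
  have := PP_ge; have := PP_le_P1
  have e : adx n 0 = 0 := by simp [adx]
  simp only [Cfg.cell, e]; rw [if_pos (by omega)]

theorem first_addr : c.cell n 0 .addr = 0 := by simp [Cfg.cell, adx]

theorem last_noinstr (hn : Big n) (hc : c.Valid n) {s : Bool}
    (ha : c.cell n (c.len n - 1) .ar = 5 + s.toNat) (hq : c.cell n (c.len n - 1) .q ≠ 0)
    (h7 : 7 ≤ c.cell n (c.len n - 1) .hm)
    (hha : c.cell n (c.len n - 1) .ha = c.cell n (c.len n - 1) .addr) : False := by
  have := len_pos2 (c := c) hn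
  obtain ⟨-, π, e, i, -, -, -, -, -, g⟩ := instr_at hn hc (by omega) ha hq h7 hha
  have h2 := (ar5s ha).2.1
  have := pos_lt hn (s, i.adr.2)
  simp only [Cfg.len, h2, if_true] at g
  omega

theorem set_cell (c : Cfg) (x : ℕ) : (c.render n).set x (c.cell n x) = c.render n := by
  apply List.ext_getElem?
  intro y
  simp only [List.getElem?_set, render_get?, render_length]
  by_cases h : x = y
  · subst h; simp
  · simp [h]

theorem goal_join (hn : Big n) {c' : Cfg} (hc : c.Valid n) (hc' : c'.Valid n) {a b : Cell}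
    (ha : c.cell n (c.len n - 1) .ar = 4) (hb : c'.cell n 0 .ar = 4) (hA : a .ar = 5)
    (hB : b .ar = 3) (h1 : Same [.ar] (c.cell n (c.len n - 1)) a)
    (h2 : Same [.ar] (c'.cell n 0) b) :
    ∃ cs : List Cfg, (∀ c'' ∈ cs, c''.Valid n) ∧
      cs.flatMap (Cfg.render n) = (c.render n).set (c.len n - 1) a ++ (c'.render n).set 0 b ∧
      (Lv (n ^ Dg)).Eqv (c.dec n ++ c'.dec n) (cs.flatMap (Cfg.dec n)) := by
  obtain ⟨k1, t1⟩ := ar4.1 ha
  obtain ⟨k2, t2⟩ := ar4.1 hb
  have l1 : c.len n = n := by simp [Cfg.len, t1]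
  have l2 : c'.len n = n := by simp [Cfg.len, t2]
  have l3 : (join n c c').len n = 2 * n := by simp [Cfg.len, join]
  have h0 := (len_pos2 (c := c) hn).2
  obtain ⟨v1, v2⟩ := valid_join hn hc hc' t1 t2
  have f1 := hc.sv.free_of_q (solo_q hc.sv t1)
  have f2 := hc'.sv.free_of_q (solo_q hc'.sv t2)
  rw [l1] at k1 h1 ⊢
  refine ⟨[join n c c'], by simpa using v1, ?_, eqv_of_eq (by simpa using v2.symm)⟩
  apply List.ext_getElem?
  intro y
  simp only [List.flatMap_cons, List.flatMap_nil, List.append_nil, List.getElem?_append,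
    List.getElem?_set, render_get?, List.length_set, render_length, l1, l2, l3]
  by_cases g1 : y < n
  · have g2 : y < 2 * n := by omega
    simp only [g1, g2, if_true]
    by_cases g3 : n - 1 = y
    · subst g3
      simp only [g1, if_true, Option.some.injEq]
      refine h1.ext ?_ ?_
      · obtain ⟨q1, q2, q3, q4, q5, q6⟩ := f1
        intro f hf
        cases f <;> first | (simp at hf; done) | simp [Cfg.cell, join, g1, q1, q2, q3, q4, q5, q6]
      · simp only [List.forall_mem_cons, hA, ar5]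
        simp [join, g1]
    · simp only [g3, if_false]
      rw [join_cell_left t1 k1.symm (by omega)]
  · obtain ⟨z, rfl⟩ := Nat.exists_eq_add_of_le (not_lt.1 g1)
    simp only [g1, if_false, Nat.add_sub_cancel_left]
    by_cases g2 : 0 = z
    · subst g2
      simp only [h0, if_true, Nat.add_zero]
      rw [if_pos (by omega), Option.some.injEq]
      refine h2.ext ?_ ?_
      · have := PP_ge; have := PP_le_P1
        obtain ⟨q1, q2, q3, q4, q5, q6⟩ := f2
        have e1 : adx n n = 0 := by simp [adx]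
        have e2 : adx n 0 = 0 := by simp [adx]
        have e3 : ¬ n = n - 1 := by omega
        have e4 : 0 < P1 := by omega
        intro f hf
        cases f <;> first
          | (simp at hf; done)
          | simp [Cfg.cell, join, e1, e2, e3, e4, q1, q2, q3, q4, q5, q6]
      · simp only [List.forall_mem_cons, hB, ar3]
        simp [join, h0]
    · simp only [g2, if_false]
      by_cases g3 : z < n
      · rw [if_pos g3, if_pos (by omega), join_cell_right t2 k2.symm g3 (Ne.symm g2)]
      · rw [if_neg g3, if_neg (by omega)]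

end Cfg

open Cfg in
theorem step_across {n : ℕ} (hn : Big n) {c c' : Cfg} (hc : c.Valid n) (hc' : c'.Valid n)
    {a b : Cell} (h : (Lv n).E (c.cell n (c.len n - 1)) (c'.cell n 0) a b ∨
      (Lv n).E a b (c.cell n (c.len n - 1)) (c'.cell n 0)) :
    ∃ cs : List Cfg, (∀ c'' ∈ cs, c''.Valid n) ∧
      cs.flatMap (Cfg.render n) = (c.render n).set (c.len n - 1) a ++ (c'.render n).set 0 b ∧
      (Lv (n ^ Dg)).Eqv (c.dec n ++ c'.dec n) (cs.flatMap (Cfg.dec n)) := by
  have triv : ∃ cs : List Cfg, (∀ c'' ∈ cs, c''.Valid n) ∧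
      cs.flatMap (Cfg.render n) = (c.render n).set (c.len n - 1) (c.cell n (c.len n - 1)) ++
        (c'.render n).set 0 (c'.cell n 0) ∧
      (Lv (n ^ Dg)).Eqv (c.dec n ++ c'.dec n) (cs.flatMap (Cfg.dec n)) :=
    ⟨[c, c'], by simp [hc, hc'], by simp [set_cell], eqv_of_eq (by simp)⟩
  have la := last_ar hn hc.sv
  have fa := first_ar (c := c') hn
  have fm := first_m (c := c') (n := n)
  have fs := first_sh (c := c') (n := n)
  have fd := first_addr (c := c') (n := n)
  rcases h with h | h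
  · obtain ⟨-, h⟩ := Lv_E.1 h
    cases h with
    | triv h1 h2 => rw [← h1.nil, ← h2.nil]; exact triv
    | move har hb hc' hq hpc hhm hha hr1 hr2 h1 h2 => omega
    | capture h0 ha hb hc'' hd hq h1 h2 => exact goal_join hn hc hc' ha hb hc'' hd h1 h2
    | scratch ha hq hm h1 h2 => omega
    | start ha hm h0 hq hpc hhm hha h1 h2 => omega
    | fin ha hm h0 hq hpc hhm hha h1 h2 => omega
    | adv ha hq hpc hhm hha hq' hpc' hhm' hha' h1 h2 => omega
    | x1 s ha hhm hha hq hq' hv hr h1 h2 =>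
      exact (last_noinstr hn hc ha (by omega) (by omega) hha).elim
    | x2 s ha hhm hha hq hq' hv hr h1 h2 =>
      exact (last_noinstr hn hc ha (by omega) (by omega) hha).elim
    | gate md pol k s ha hhm hg hha hq hq' h1 h2 =>
      exact (last_noinstr hn hc ha (by omega) (by have := gcode_bd md pol k s; omega) hha).elim
    | plain ha hd hb hc' h1 h2 => omega
    | carry ha hd hb hc' hl1 hl2 h1 h2 => omega
  · obtain ⟨-, h⟩ := Lv_E.1 h
    cases h with
    | triv h1 h2 => rw [h1.nil, h2.nil]; exact triv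
    | move har hb hc' hq hpc hhm hha hr1 hr2 h1 h2 => omega
    | capture h0 ha hb hc'' hd hq h1 h2 => omega
    | scratch ha hq hm h1 h2 => have := h2 .m (by simp); omega
    | start ha hm h0 hq hpc hhm hha h1 h2 => have := h1 .ar (by simp [ctlF]); omega
    | fin ha hm h0 hq hpc hhm hha h1 h2 => have := h1 .ar (by simp [ctlF]); omega
    | adv ha hq hpc hhm hha hq' hpc' hhm' hha' h1 h2 => have := h1 .ar (by simp [ctlF]); omega
    | x1 s ha hhm hha hq hq' hv hr h1 h2 =>
      have := h1 .hm (by simp)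
      exact (last_noinstr hn hc ((h1 _ (by simp)).trans ha) (by omega) (by omega)
        (((h1 _ (by simp)).trans hha).trans (h1 _ (by simp)).symm)).elim
    | x2 s ha hhm hha hq hq' hv hr h1 h2 =>
      have := h1 .hm (by simp)
      exact (last_noinstr hn hc ((h1 _ (by simp)).trans ha) (by omega) (by omega)
        (((h1 _ (by simp)).trans hha).trans (h1 _ (by simp)).symm)).elim
    | gate md pol k s ha hhm hg hha hq hq' h1 h2 =>
      have := h1 .hm (by simp)
      exact (last_noinstr hn hc ((h1 _ (by simp)).trans ha) (by omega)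
        (by have := gcode_bd md pol k s; omega)
        (((h1 _ (by simp)).trans hha).trans (h1 _ (by simp)).symm)).elim
    | plain ha hd hb hc' h1 h2 => omega
    | carry ha hd hb hc' hl1 hl2 h1 h2 => omega

end Vale.Agent.P192
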