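import Vale.Agent.P192.Sem

/-! Abstract steps on configurations preserve validity. -/

namespace Vale.Agent.P192

namespace Cfg

variable {n : ℕ} {c : Cfg}

theorem ar0 {x : ℕ} : c.cell n x .ar = 0 ↔ x < c.h ∧ x < n := by
  simp only [Cfg.cell]; split_ifs <;> simp_all
theorem ar1 {x : ℕ} : c.cell n x .ar = 1 ↔ x < c.h ∧ n ≤ x := by
  simp only [Cfg.cell]; split_ifs <;> simp_all
theorem ar2 {x : ℕ} : c.cell n x .ar = 2 ↔ c.h < x ∧ c.two = true ∧ x < n := by
  simp only [Cfg.cell]; split_ifs <;> simp_all <;> omega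
theorem ar3 {x : ℕ} : c.cell n x .ar = 3 ↔ c.h < x ∧ ¬ (c.two = true ∧ x < n) := by
  simp only [Cfg.cell]; split_ifs <;> simp_all <;> omega
theorem ar4 {x : ℕ} : c.cell n x .ar = 4 ↔ x = c.h ∧ c.two = false := by
  simp only [Cfg.cell]; split_ifs <;> simp_all <;> omega
theorem ar5 {x : ℕ} : c.cell n x .ar = 5 ↔ x = c.h ∧ c.two = true ∧ x < n := by
  simp only [Cfg.cell]; split_ifs <;> simp_all <;> omega
theorem ar6 {x : ℕ} : c.cell n x .ar = 6 ↔ x = c.h ∧ c.two = true ∧ n ≤ x := by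
  simp only [Cfg.cell]; split_ifs <;> simp_all <;> omega

theorem ar5s {x : ℕ} {s : Bool} (h : c.cell n x .ar = 5 + s.toNat) :
    x = c.h ∧ c.two = true ∧ (x < n ↔ s = false) := by
  cases s
  · have := ar5.1 h; simp [this]; omega
  · have := ar6.1 h; simp [this]; omega

theorem dmem_q0 (h : c.q = 0) : c.dmem n = (c.ps n).mem := by simp [Cfg.dmem, h]

theorem dmem_loc (h : c.q ≠ 0) {π : Prog} {j : ℕ} (hl : locate progs c.pc = some (π, j)) :
    c.dmem n = π.dmem (c.ex j) (c.ps n) := by simp [Cfg.dmem, h, hl]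

theorem dec_two (h : c.two = true) :
    c.dec n = [letter n (c.dmem n) false, letter n (c.dmem n) true] := by simp [Cfg.dec, h]

theorem dec_one (h : c.two = false) : c.dec n = [letter n (c.dmem n) false] := by
  simp [Cfg.dec, h]

theorem SV.two_of_q (h : c.SV n) (hq : c.q ≠ 0) : c.two = true ∧ (c.q = 1 ∨ c.q = 2) := by
  rcases h.ctl with h' | h'
  · exact absurd h'.1 hq
  · exact h'

theorem SV.free_of_q (h : c.SV n) (hq : c.q = 0) : c.Free := by
  rcases h.ctl with h' | h'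
  · exact h'
  · omega

theorem Legit.get (h : c.Legit n) (hq : c.q ≠ 0) :
    ∃ π j, locate progs c.pc = some (π, j) ∧ c.hm = (π.entry j).1 ∧
      c.ha = (π.entry j).2 ∧ (c.q = 1 → 1 ≤ j) ∧ (c.q = 2 → j ≤ π.body.length) ∧
      π.Ok n (c.ex j) (c.ps n) := h.resolve_left hq

/-- Execution of an instruction on a configuration, setting the state to `q'`. -/
noncomputable def execI (n : ℕ) (c : Cfg) (q' : ℕ) : Ins → Cfg
  | .x1 α => { c with q := q', mem := Function.update c.mem (pos n α) c.r1, r1 := c.mem (pos n α) }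
  | .x2 α => { c with q := q', mem := Function.update c.mem (pos n α) c.r2, r2 := c.mem (pos n α) }
  | .gate _ _ _ _ => { c with q := q' }

theorem ps_execI (hn : Big n) (q' : ℕ) (i : Ins) :
    (c.execI n q' i).ps n = i.exec (c.ps n) := by
  cases i with
  | x1 α =>
    simp only [execI, Cfg.ps, Ins.exec, PS.mk.injEq, and_true]
    funext β
    simp only [Function.update_apply, (pos_inj hn).eq_iff]
  | x2 α =>
    simp only [execI, Cfg.ps, Ins.exec, PS.mk.injEq, and_true]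
    funext β
    simp only [Function.update_apply, (pos_inj hn).eq_iff]
  | gate md pol k β => rfl

theorem execI_fields (q' : ℕ) (i : Ins) :
    (c.execI n q' i).two = c.two ∧ (c.execI n q' i).q = q' ∧ (c.execI n q' i).pc = c.pc ∧
    (c.execI n q' i).hm = c.hm ∧ (c.execI n q' i).ha = c.ha ∧ (c.execI n q' i).h = c.h ∧
    (c.execI n q' i).lab = c.lab := by
  cases i <;> simp [execI]

theorem dyn_adx (hn : Big n) {α : Adr} (h : ∀ k, α.2 ≠ .K k) : PP ≤ adx n (pos n α) := by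
  rw [adx_pos hn]
  obtain ⟨s, l⟩ := α
  cases l with
  | K k => exact absurd rfl (h k)
  | D f i => exact (Loc.adr_D f i).1
  | S f i => exact PP_le_P1.trans (Loc.adr_S f i).1

theorem SV.execI (hn : Big n) (h : c.SV n) (h2 : c.two = true) {q' : ℕ} (hq : q' = 1 ∨ q' = 2)
    {i : Ins} (hi : i.Dyn) : (c.execI n q' i).SV n := by
  have hl : ∀ α, pos n α < c.len n := fun α => by
    have := pos_lt hn α; simp only [Cfg.len, h2, if_true]; omega
  obtain ⟨g1, g2, g3, g4, g5⟩ := h.regs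
  cases i with
  | x1 α =>
    refine ⟨h.h_lt, ⟨g1, g2, g3, h.mem_lt _ (hl α), g5⟩, Or.inr ⟨h2, hq⟩, fun x hx => ?_,
      fun x hx hp => ?_, h.s0_mem, h.s1_mem, h.lab_lt⟩
    · simp only [Cfg.execI, Function.update_apply]
      split_ifs
      · exact g4
      · exact h.mem_lt x hx
    · have : x ≠ pos n α := by
        rintro rfl
        have := dyn_adx hn hi; omega
      simp only [Cfg.execI, Function.update_of_ne this]
      exact h.mem_prog x hx hp
  | x2 α =>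
    refine ⟨h.h_lt, ⟨g1, g2, g3, g4, h.mem_lt _ (hl α)⟩, Or.inr ⟨h2, hq⟩, fun x hx => ?_,
      fun x hx hp => ?_, h.s0_mem, h.s1_mem, h.lab_lt⟩
    · simp only [Cfg.execI, Function.update_apply]
      split_ifs
      · exact g5
      · exact h.mem_lt x hx
    · have : x ≠ pos n α := by
        rintro rfl
        have := dyn_adx hn hi; omega
      simp only [Cfg.execI, Function.update_of_ne this]
      exact h.mem_prog x hx hp
  | gate md pol k β =>
    exact ⟨h.h_lt, ⟨g1, g2, g3, g4, g5⟩, Or.inr ⟨h2, hq⟩, h.mem_lt, h.mem_prog, h.s0_mem,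
      h.s1_mem, h.lab_lt⟩

theorem TokOK.execI (h : c.TokOK n) (q' : ℕ) (i : Ins) : (c.execI n q' i).TokOK n := by
  cases i <;> exact ⟨h.1, h.2⟩

/-- Decoding of the head registers of a running configuration positioned on an instruction. -/
theorem instr_of_code (hc : c.Valid n) (hq : c.q ≠ 0) (h7 : 7 ≤ c.hm) :
    ∃ π e i, locate progs c.pc = some (π, e + 1) ∧ π.body[e]? = some i ∧ c.hm = i.code ∧
      c.ha = i.adr.2.adr ∧ π.Ok n (c.ex (e + 1)) (c.ps n) := by
  obtain ⟨π, j, h1, h2, h3, -, -, h6⟩ := hc.legit.get hq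
  rcases π.entry_cases (locate_spec h1).2.1 with ⟨-, h⟩ | ⟨e, i, rfl, hi, h⟩ | ⟨-, h⟩
  · rw [h] at h2; simp only at h2; omega
  · rw [h] at h2 h3
    exact ⟨π, e, i, h1, hi, h2, h3, h6⟩
  · rw [h] at h2; have := π.last.code_bd; simp only at h2; omega

theorem valid_exec_fwd (hn : Big n) (hc : c.Valid n) (hq : c.q = 1) {π : Prog} {e : ℕ} {i : Ins}
    (hl : locate progs c.pc = some (π, e + 1)) (hi : π.body[e]? = some i) (hm : c.hm = i.code)
    (ha : c.ha = i.adr.2.adr) (hO : π.Ok n (c.ex (e + 1)) (c.ps n)) (hok : i.ok n (c.ps n)) :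
    (c.execI n 2 i).Valid n ∧ (Lv (n ^ Dg)).Eqv (c.dec n) ((c.execI n 2 i).dec n) := by
  have hp := (locate_spec hl).1
  have h2 := (hc.sv.two_of_q (by omega)).1
  obtain ⟨f1, f2, f3, f4, f5, -, -⟩ := execI_fields (n := n) (c := c) 2 i
  have e1 : c.ex (e + 1) = e := by simp [Cfg.ex, hq]
  have e2 : (c.execI n 2 i).ex (e + 1) = e + 1 := by simp [Cfg.ex, f2]
  rw [e1] at hO
  have st := ok_step hn hp hi (hc.sv.mv hn h2) hok
  refine ⟨⟨hc.sv.execI hn h2 (Or.inr rfl) (body_dyn hp i (List.mem_of_getElem? hi)),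
    hc.tok.execI _ _, Or.inr ⟨π, e + 1, by rw [f3]; exact hl, ?_, ?_, by omega, fun _ => ?_, ?_⟩⟩,
    ?_⟩
  · rw [f4, π.entry_succ hi, hm]
  · rw [f5, π.entry_succ hi, ha]
  · have := (List.getElem?_eq_some_iff.1 hi).1; omega
  · rw [e2, ps_execI hn]; exact st.1.1 hO
  · rw [dec_two h2, dec_two (f1.trans h2), dmem_loc (by omega) hl,
      dmem_loc (by omega) (by rw [f3]; exact hl), e1, e2, ps_execI hn]
    exact st.2 hO

theorem valid_exec_bwd (hn : Big n) (hc : c.Valid n) (hq : c.q = 2) {π : Prog} {e : ℕ} {i : Ins}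
    (hl : locate progs c.pc = some (π, e + 1)) (hi : π.body[e]? = some i) (hm : c.hm = i.code)
    (ha : c.ha = i.adr.2.adr) (hO : π.Ok n (c.ex (e + 1)) (c.ps n))
    (hok : i.ok n (i.exec (c.ps n))) :
    (c.execI n 1 i).Valid n ∧ (Lv (n ^ Dg)).Eqv (c.dec n) ((c.execI n 1 i).dec n) := by
  have hp := (locate_spec hl).1
  have h2 := (hc.sv.two_of_q (by omega)).1
  have hd := body_dyn hp i (List.mem_of_getElem? hi)
  obtain ⟨f1, f2, f3, f4, f5, -, -⟩ := execI_fields (n := n) (c := c) 1 i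
  have e1 : c.ex (e + 1) = e + 1 := by simp [Cfg.ex, hq]
  have e2 : (c.execI n 1 i).ex (e + 1) = e := by simp [Cfg.ex, f2]
  rw [e1] at hO
  have st := ok_step hn hp hi ((hc.sv.mv hn h2).exec hd) hok
  rw [Ins.exec_exec] at st
  refine ⟨⟨hc.sv.execI hn h2 (Or.inl rfl) hd,
    hc.tok.execI _ _, Or.inr ⟨π, e + 1, by rw [f3]; exact hl, ?_, ?_, by omega, by omega, ?_⟩⟩,
    ?_⟩
  · rw [f4, π.entry_succ hi, hm]
  · rw [f5, π.entry_succ hi, ha]
  · rw [e2, ps_execI hn]; exact st.1.2 hO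
  · rw [dec_two h2, dec_two (f1.trans h2), dmem_loc (by omega) hl,
      dmem_loc (by omega) (by rw [f3]; exact hl), e1, e2, ps_execI hn]
    exact (st.2 (st.1.2 hO)).symm

/-- Changing only the control registers. -/
def setCtl (c : Cfg) (q pc hm ha : ℕ) : Cfg := { c with q := q, pc := pc, hm := hm, ha := ha }

theorem SV.setCtl (h : c.SV n) {q pc hm ha : ℕ} (h1 : pc < n) (h2 : hm < n) (h3 : ha < n)
    (h4 : (c.setCtl q pc hm ha).Free ∨ (c.two = true ∧ (q = 1 ∨ q = 2))) :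
    (c.setCtl q pc hm ha).SV n :=
  ⟨h.h_lt, ⟨h1, h2, h3, h.regs.2.2.2⟩, h4, h.mem_lt, h.mem_prog, h.s0_mem, h.s1_mem, h.lab_lt⟩

theorem dec_setCtl (h2 : c.two = true) {q pc hm ha : ℕ} : (c.setCtl q pc hm ha).dec n =
    [letter n ((c.setCtl q pc hm ha).dmem n) false, letter n ((c.setCtl q pc hm ha).dmem n) true] :=
  dec_two h2

theorem dmem_setCtl0 {pc hm ha : ℕ} : (c.setCtl 0 pc hm ha).dmem n = (c.ps n).mem :=
  dmem_q0 rfl

theorem dmem_setCtl {q pc hm ha : ℕ} (hq : q ≠ 0) {π : Prog} {j : ℕ}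
    (hl : locate progs pc = some (π, j)) :
    (c.setCtl q pc hm ha).dmem n = π.dmem ((c.setCtl q pc hm ha).ex j) (c.ps n) :=
  dmem_loc (c := c.setCtl q pc hm ha) hq hl

theorem tb_lt_n (hn : Big n) (w : Bool) (p : ℕ) : tb w p < n := by
  have := tb_lt w p; unfold Big at hn; omega

theorem loc_of_tb {p : ℕ} (h : 2 ≤ tb false p) : ∃ π j, locate progs p = some (π, j) := by
  rw [← locate_iff]
  by_contra hp
  rw [(tb_of_ge (by omega)).1] at h
  split_ifs at h <;> omega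

theorem entry_two {π : Prog} {j : ℕ} (hj : j < π.len) (h : (π.entry j).1 = 2) : j = 0 := by
  rcases π.entry_cases hj with ⟨h0, -⟩ | ⟨e, i, -, -, h'⟩ | ⟨-, h'⟩
  · exact h0
  · rw [h'] at h; have := i.code_bd; simp only at h; omega
  · rw [h'] at h; have := π.last.code_bd; simp only at h; omega

theorem entry_three {π : Prog} {j : ℕ} (hj : j < π.len) (h : (π.entry j).1 = 3) :
    j = π.body.length + 1 ∧ π.last = .fin := by
  rcases π.entry_cases hj with ⟨-, h'⟩ | ⟨e, i, -, -, h'⟩ | ⟨h0, h'⟩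
  · rw [h'] at h; simp at h
  · rw [h'] at h; have := i.code_bd; simp only at h; omega
  · rw [h'] at h; exact ⟨h0, Last.code_fin h⟩

theorem valid_start_fwd (hn : Big n) (hc : c.Valid n) (h2 : c.two = true) (hq : c.q = 0)
    {x : ℕ} (hx : x < n) (hm : tb false x = 2) :
    (c.setCtl 2 x (tb false x) (tb true x)).Valid n ∧
      c.dec n = (c.setCtl 2 x (tb false x) (tb true x)).dec n := by
  obtain ⟨π, j, hl⟩ := loc_of_tb (p := x) (by omega)
  have ht := tb_of_locate hl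
  obtain rfl : j = 0 := entry_two (locate_spec hl).2.1 (ht.1 ▸ hm)
  have hf := hc.sv.free_of_q hq
  have st := ok_start n π (c.ps n)
  refine ⟨⟨hc.sv.setCtl hx (tb_lt_n hn _ _) (tb_lt_n hn _ _) (Or.inr ⟨h2, Or.inr rfl⟩),
    ⟨hc.tok.1, hc.tok.2⟩, Or.inr ⟨π, 0, hl, ht.1, ht.2, by simp [setCtl], by simp, ?_⟩⟩, ?_⟩
  · exact st.1.2 ⟨hf.2.2.2.2.1, hf.2.2.2.2.2⟩
  · rw [dec_two h2, dec_setCtl h2, dmem_q0 hq,
      dmem_setCtl (by omega) hl]
    have : π.dmem ((c.setCtl 2 x (tb false x) (tb true x)).ex 0) (c.ps n) = (c.ps n).mem := st.2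
    rw [this]

theorem valid_start_bwd (hn : Big n) (hc : c.Valid n) (hq : c.q = 2) (hm : c.hm = 2) :
    (c.setCtl 0 0 0 0).Valid n ∧ c.dec n = (c.setCtl 0 0 0 0).dec n := by
  have h2 := (hc.sv.two_of_q (by omega)).1
  obtain ⟨π, j, hl, h3, -, -, -, hO⟩ := hc.legit.get (by omega)
  obtain rfl : j = 0 := entry_two (locate_spec hl).2.1 (h3 ▸ hm)
  have st := ok_start n π (c.ps n)
  have e : c.ex 0 = 0 := by simp [Cfg.ex]
  rw [e] at hO
  have h0 : 0 < n := by unfold Big at hn; omega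
  refine ⟨⟨hc.sv.setCtl h0 h0 h0 (Or.inl ⟨rfl, rfl, rfl, rfl, st.1.1 hO⟩),
    ⟨hc.tok.1, hc.tok.2⟩, Or.inl rfl⟩, ?_⟩
  rw [dec_two h2, dec_setCtl h2, dmem_setCtl0,
    dmem_loc (by omega) hl, e, st.2]

theorem valid_fin_fwd (hn : Big n) (hc : c.Valid n) (hq : c.q = 1) (hm : c.hm = 3) :
    (c.setCtl 0 0 0 0).Valid n ∧
      (Lv (n ^ Dg)).Eqv (c.dec n) ((c.setCtl 0 0 0 0).dec n) := by
  have h2 := (hc.sv.two_of_q (by omega)).1
  obtain ⟨π, j, hl, h3, -, -, -, hO⟩ := hc.legit.get (by omega)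
  obtain ⟨rfl, hf⟩ := entry_three (locate_spec hl).2.1 (h3 ▸ hm)
  have st := ok_fin hn (locate_spec hl).1 hf (hc.sv.mv hn h2)
  have e : c.ex (π.body.length + 1) = π.body.length := by simp [Cfg.ex, hq]
  rw [e] at hO
  have h0 : 0 < n := by unfold Big at hn; omega
  refine ⟨⟨hc.sv.setCtl h0 h0 h0 (Or.inl ⟨rfl, rfl, rfl, rfl, st.1.1 hO⟩),
    ⟨hc.tok.1, hc.tok.2⟩, Or.inl rfl⟩, ?_⟩
  rw [dec_two h2, dec_setCtl h2, dmem_setCtl0,
    dmem_loc (by omega) hl, e]
  exact st.2 hO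

theorem valid_fin_bwd (hn : Big n) (hc : c.Valid n) (h2 : c.two = true) (hq : c.q = 0)
    {x : ℕ} (hx : x < n) (hm : tb false x = 3) :
    (c.setCtl 1 x (tb false x) (tb true x)).Valid n ∧
      (Lv (n ^ Dg)).Eqv (c.dec n) ((c.setCtl 1 x (tb false x) (tb true x)).dec n) := by
  obtain ⟨π, j, hl⟩ := loc_of_tb (p := x) (by omega)
  have ht := tb_of_locate hl
  obtain ⟨rfl, hfin⟩ := entry_three (locate_spec hl).2.1 (ht.1 ▸ hm)
  have hf := hc.sv.free_of_q hq
  have st := ok_fin hn (locate_spec hl).1 hfin (hc.sv.mv hn h2)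
  have hO := st.1.2 ⟨hf.2.2.2.2.1, hf.2.2.2.2.2⟩
  have e : (c.setCtl 1 x (tb false x) (tb true x)).ex (π.body.length + 1) = π.body.length := by
    simp [Cfg.ex, setCtl]
  refine ⟨⟨hc.sv.setCtl hx (tb_lt_n hn _ _) (tb_lt_n hn _ _) (Or.inr ⟨h2, Or.inl rfl⟩),
    ⟨hc.tok.1, hc.tok.2⟩, Or.inr ⟨π, _, hl, ht.1, ht.2, by simp, by simp [setCtl], ?_⟩⟩, ?_⟩
  · rw [e]; exact hO
  · rw [dec_two h2, dec_setCtl h2, dmem_q0 hq,
      dmem_setCtl (by omega) hl, e]
    exact (st.2 hO).symm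

theorem valid_adv_fwd (hn : Big n) (hc : c.Valid n) (hq : c.q = 2) :
    c.pc + 1 < n ∧
    (c.setCtl 1 (c.pc + 1) (tb false (c.pc + 1)) (tb true (c.pc + 1))).Valid n ∧
      c.dec n = (c.setCtl 1 (c.pc + 1) (tb false (c.pc + 1)) (tb true (c.pc + 1))).dec n := by
  have h2 := (hc.sv.two_of_q (by omega)).1
  obtain ⟨π, j, hl, -, -, -, h5, hO⟩ := hc.legit.get (by omega)
  have hl' := locate_succ hl (by have := h5 hq; unfold Prog.len; omega)
  have ht := tb_of_locate hl'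
  have hx : c.pc + 1 < n := by
    have := (locate_spec hl').2.2.2; have := PP_le_P1; have := P1_lt_P2; unfold Big at hn; omega
  have e : (c.setCtl 1 (c.pc + 1) (tb false (c.pc + 1)) (tb true (c.pc + 1))).ex (j + 1)
      = c.ex j := by simp [Cfg.ex, setCtl, hq]
  refine ⟨hx, ⟨hc.sv.setCtl hx (tb_lt_n hn _ _) (tb_lt_n hn _ _) (Or.inr ⟨h2, Or.inl rfl⟩),
    ⟨hc.tok.1, hc.tok.2⟩, Or.inr ⟨π, _, hl', ht.1, ht.2, by simp, by simp [setCtl], ?_⟩⟩, ?_⟩
  · rw [e]; exact hO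
  · rw [dec_two h2, dec_setCtl h2, dmem_loc (by omega) hl,
      dmem_setCtl (by omega) hl', e]

theorem valid_adv_bwd (hn : Big n) (hc : c.Valid n) (hq : c.q = 1) :
    1 ≤ c.pc ∧
    (c.setCtl 2 (c.pc - 1) (tb false (c.pc - 1)) (tb true (c.pc - 1))).Valid n ∧
      c.dec n = (c.setCtl 2 (c.pc - 1) (tb false (c.pc - 1)) (tb true (c.pc - 1))).dec n := by
  have h2 := (hc.sv.two_of_q (by omega)).1
  obtain ⟨π, j, hl, -, -, h4, -, hO⟩ := hc.legit.get (by omega)
  have hj := h4 hq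
  have hl' := locate_pred hl hj
  have ht := tb_of_locate hl'
  have hs := locate_spec hl
  have hx : c.pc - 1 < n := by have := hc.sv.regs.1; omega
  have e : (c.setCtl 2 (c.pc - 1) (tb false (c.pc - 1)) (tb true (c.pc - 1))).ex (j - 1)
      = c.ex j := by simp [Cfg.ex, setCtl, hq]
  refine ⟨by omega, ⟨hc.sv.setCtl hx (tb_lt_n hn _ _) (tb_lt_n hn _ _) (Or.inr ⟨h2, Or.inr rfl⟩),
    ⟨hc.tok.1, hc.tok.2⟩, Or.inr ⟨π, _, hl', ht.1, ht.2, by simp [setCtl], fun _ => ?_, ?_⟩⟩, ?_⟩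
  · have := hs.2.1; unfold Prog.len at this; omega
  · rw [e]; exact hO
  · rw [dec_two h2, dec_setCtl h2, dmem_loc (by omega) hl,
      dmem_setCtl (by omega) hl', e]

theorem valid_head (hc : c.Valid n) {h' : ℕ} (hh : h' < c.len n) :
    Cfg.Valid n { c with h := h' } ∧ c.dec n = Cfg.dec n { c with h := h' } :=
  ⟨⟨⟨hh, hc.sv.regs, hc.sv.ctl, hc.sv.mem_lt, hc.sv.mem_prog, hc.sv.s0_mem, hc.sv.s1_mem,
    hc.sv.lab_lt⟩, ⟨hc.tok.1, hc.tok.2⟩, hc.legit⟩, rfl⟩

theorem valid_scratch (hn : Big n) (hc : c.Valid n) (hq : c.q = 0) {y v : ℕ}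
    (hy : P1 ≤ adx n y) (hv : v < n) :
    Cfg.Valid n { c with mem := Function.update c.mem y v } ∧
      c.dec n = Cfg.dec n { c with mem := Function.update c.mem y v } := by
  refine ⟨⟨⟨hc.sv.h_lt, hc.sv.regs, hc.sv.ctl, fun x hx => ?_, fun x hx hp => ?_, hc.sv.s0_mem,
    hc.sv.s1_mem, hc.sv.lab_lt⟩, ⟨hc.tok.1, hc.tok.2⟩, Or.inl hq⟩, ?_⟩
  · simp only [Function.update_apply]
    split_ifs
    · exact hv
    · exact hc.sv.mem_lt x hx
  · have : x ≠ y := by rintro rfl; have := PP_le_P1; omega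
    simp only [Function.update_of_ne this]
    exact hc.sv.mem_prog x hx hp
  · have key : ∀ s, letter n (c.dmem n) s =
        letter n (Cfg.dmem n { c with mem := Function.update c.mem y v }) s := by
      intro s
      refine letter_congr fun f i => ?_
      rw [dmem_q0 hq, dmem_q0 (c := { c with mem := Function.update c.mem y v }) hq]
      have : pos n (s, .D f i) ≠ y := by
        rintro rfl
        rw [adx_pos hn] at hy
        have := (Loc.adr_D f i).2
        simp only at hy; omega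
      simp only [Cfg.ps, Function.update_of_ne this]
    simp only [Cfg.dec, key]

end Cfg

end Vale.Agent.P192
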