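import Vale.Agent.P192.SoundE1

/-! Token moves, joining and splitting of configurations. -/

namespace Vale.Agent.P192

namespace Cfg

variable {n : ℕ} {c c' : Cfg}

theorem render_get? (c : Cfg) (y : ℕ) :
    (c.render n)[y]? = if y < c.len n then some (c.cell n y) else none := by
  simp only [Cfg.render, List.getElem?_map]
  split_ifs with h
  · simp [h]
  · simp [h]

theorem render_set {x : ℕ} {a b : Cell} (hl : c'.len n = c.len n)
    (ho : ∀ y, y ≠ x → y ≠ x + 1 → c'.cell n y = c.cell n y) (ha : c'.cell n x = a)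
    (hb : c'.cell n (x + 1) = b) :
    c'.render n = ((c.render n).set x a).set (x + 1) b := by
  apply List.ext_getElem?
  intro y
  simp only [List.getElem?_set, render_get?, List.length_set, render_length, hl]
  by_cases h1 : x + 1 = y
  · subst h1; simp [hb]
  · by_cases h2 : x = y
    · subst h2; simp [ha]
    · simp [h1, h2, ho y (Ne.symm h2) (Ne.symm h1)]

/-- Move the shuffler of the block containing `y` to `y`, and replace the labels. -/
def moveS (n : ℕ) (c : Cfg) (y : ℕ) (τ : ℕ → ℕ) : Cfg :=
  { c with s0 := if y < n then y else c.s0, s1 := if y < n then c.s1 else y, lab := τ }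

theorem valid_moveS (hc : c.Valid n) {y : ℕ} (hy : y < c.len n) (wy : P1 ≤ adx n y) :
    (c.moveS n y c.lab).Valid n := by
  refine ⟨⟨hc.sv.h_lt, hc.sv.regs, hc.sv.ctl, hc.sv.mem_lt, hc.sv.mem_prog, ?_, fun h2 => ?_,
    hc.sv.lab_lt⟩, ⟨hc.tok.1, hc.tok.2⟩, hc.legit⟩
  · have := hc.sv.s0_mem
    simp only [moveS, adx] at wy ⊢
    split_ifs at wy ⊢ <;> omega
  · have := hc.sv.s1_mem h2
    have h2' : c.two = true := h2
    simp only [moveS, adx, Cfg.len, h2', if_true] at wy hy ⊢
    split_ifs at wy ⊢ <;> omega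

theorem valid_swap (hc : c.Valid n) {x y : ℕ} (hx : x < c.len n) (hy : y < c.len n)
    (wx : P1 ≤ adx n x) (wy : P1 ≤ adx n y) (hxy : x < n ↔ y < n) :
    Cfg.Valid n { c with lab := c.lab ∘ Equiv.swap x y } := by
  have key : ∀ z, z < c.len n → P1 ≤ adx n z →
      Equiv.swap x y z < c.len n ∧ P1 ≤ adx n (Equiv.swap x y z) ∧
        (Equiv.swap x y z < n ↔ z < n) := by
    intro z hz wz
    rw [Equiv.swap_apply_def]
    split_ifs with h1 h2
    · subst h1; exact ⟨hy, wy, hxy.symm⟩
    · subst h2; exact ⟨hx, wx, hxy⟩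
    · exact ⟨hz, wz, Iff.rfl⟩
  refine ⟨⟨hc.sv.h_lt, hc.sv.regs, hc.sv.ctl, hc.sv.mem_lt, hc.sv.mem_prog, hc.sv.s0_mem,
    hc.sv.s1_mem, fun z hz => ?_⟩, ⟨fun z hz wz => ?_, fun z z' hz hz' wz wz' hzz h => ?_⟩,
    hc.legit⟩
  · refine hc.sv.lab_lt _ ?_
    rw [Equiv.swap_apply_def]
    split_ifs
    exacts [hy, hx, hz]
  · exact hc.tok.1 _ (key z hz wz).1 (key z hz wz).2.1
  · have k1 := key z hz wz
    have k2 := key z' hz' wz'
    exact (Equiv.swap x y).injective
      (hc.tok.2 _ _ k1.1 k2.1 k1.2.1 k2.2.1 (k1.2.2.trans (hzz.trans k2.2.2.symm)) h)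

/-- Two solo configurations joined into a pair. -/
def join (n : ℕ) (c c' : Cfg) : Cfg where
  two := true
  h := n - 1
  q := 0
  pc := 0
  hm := 0
  ha := 0
  r1 := 0
  r2 := 0
  mem x := if x < n then c.mem x else c'.mem (x - n)
  s0 := c.s0
  s1 := n + c'.s0
  lab x := if x < n then c.lab x else c'.lab (x - n)

theorem solo_q (hc : c.SV n) (h : c.two = false) : c.q = 0 := by
  rcases hc.ctl with h' | h'
  · exact h'.1
  · simp [h] at h'

theorem valid_join (hn : Big n) (hc : c.Valid n) (hc' : c'.Valid n) (h : c.two = false)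
    (h' : c'.two = false) :
    (join n c c').Valid n ∧ (join n c c').dec n = c.dec n ++ c'.dec n := by
  have l1 : c.len n = n := by simp [Cfg.len, h]
  have l2 : c'.len n = n := by simp [Cfg.len, h']
  have l3 : (join n c c').len n = 2 * n := by simp [Cfg.len, join]
  have h0 : 0 < n := by unfold Big at hn; omega
  have s1 := hc.sv; have s2 := hc'.sv; have t1 := hc.tok; have t2 := hc'.tok
  refine ⟨⟨⟨?_, ?_, Or.inl ?_, fun x hx => ?_, fun x hx hp => ?_, s1.s0_mem, fun _ => ?_,
    fun x hx => ?_⟩, ⟨fun x hx wx => ?_, fun x y hx hy wx wy hxy e => ?_⟩, Or.inl rfl⟩, ?_⟩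
  · rw [l3]; simp only [join]; omega
  · simp [join, h0]
  · simp [join, Cfg.Free]
  · rw [l3] at hx
    simp only [join]
    split_ifs
    · exact s1.mem_lt _ (by omega)
    · exact s2.mem_lt _ (by omega)
  · rw [l3] at hx
    simp only [join]
    split_ifs with h1
    · exact s1.mem_prog _ (by omega) hp
    · have e : adx n (x - n) = adx n x := by simp only [adx]; split_ifs <;> omega
      rw [← e] at hp ⊢
      exact s2.mem_prog _ (by omega) hp
  · have := s2.s0_mem; simp only [join]; omega
  · rw [l3] at hx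
    simp only [join]
    split_ifs
    · exact s1.lab_lt _ (by omega)
    · exact s2.lab_lt _ (by omega)
  · rw [l3] at hx
    simp only [join]
    split_ifs with h1
    · exact t1.1 _ (by omega) wx
    · have e : adx n (x - n) = adx n x := by simp only [adx]; split_ifs <;> omega
      exact t2.1 _ (by omega) (e ▸ wx)
  · rw [l3] at hx hy
    simp only [join] at e
    by_cases h1 : x < n
    · have h2 := hxy.1 h1
      simp only [h1, h2, if_true] at e
      exact t1.2 _ _ (by omega) (by omega) wx wy hxy e
    · have h2 : ¬ y < n := fun h2 => h1 (hxy.2 h2)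
      simp only [h1, h2, if_false] at e
      have e1 : adx n (x - n) = adx n x := by simp only [adx]; split_ifs <;> omega
      have e2 : adx n (y - n) = adx n y := by simp only [adx]; split_ifs <;> omega
      have := t2.2 (x - n) (y - n) (by omega) (by omega) (e1 ▸ wx) (e2 ▸ wy) (by omega) e
      omega
  · rw [dec_two rfl, dec_one h, dec_one h', dmem_q0 rfl, dmem_q0 (solo_q s1 h),
      dmem_q0 (solo_q s2 h')]
    have e1 : letter n ((join n c c').ps n).mem false = letter n (c.ps n).mem false :=
      letter_congr fun f i => by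
        have := (pos_lt_iff hn (false, .D f i)).2 rfl
        simp [Cfg.ps, join, this]
    have e2 : letter n ((join n c c').ps n).mem true = letter n (c'.ps n).mem false :=
      letter_congr fun f i => by simp [Cfg.ps, join, pos]
    rw [e1, e2]; rfl

/-- Left half of a free pair. -/
def lft (c : Cfg) : Cfg := { c with two := false }

/-- Right half of a free pair. -/
def rgt (n : ℕ) (c : Cfg) : Cfg where
  two := false
  h := 0
  q := 0
  pc := 0
  hm := 0
  ha := 0
  r1 := 0
  r2 := 0
  mem x := c.mem (n + x)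
  s0 := c.s1 - n
  s1 := 0
  lab x := c.lab (n + x)

theorem valid_split (hn : Big n) (hc : c.Valid n) (h : c.two = true) (hq : c.q = 0)
    (hh : c.h < n) :
    c.lft.Valid n ∧ (c.rgt n).Valid n ∧ c.dec n = c.lft.dec n ++ (c.rgt n).dec n := by
  have l1 : c.lft.len n = n := by simp [Cfg.len, lft]
  have l2 : (c.rgt n).len n = n := by simp [Cfg.len, rgt]
  have l3 : c.len n = 2 * n := by simp [Cfg.len, h]
  have h0 : 0 < n := by unfold Big at hn; omega
  have s := hc.sv; have t := hc.tok
  have e : ∀ x, x < n → adx n (n + x) = adx n x := by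
    intro x hx; simp only [adx]; split_ifs <;> omega
  refine ⟨⟨⟨by rw [l1]; exact hh, s.regs, Or.inl (s.free_of_q hq),
      fun x hx => s.mem_lt x (by omega), fun x hx => s.mem_prog x (by omega), s.s0_mem,
      by simp [lft], fun x hx => s.lab_lt x (by omega)⟩,
      ⟨fun x hx => t.1 x (by omega), fun x y hx hy => t.2 x y (by omega) (by omega)⟩,
      Or.inl hq⟩,
    ⟨⟨by rw [l2]; exact h0, by simp [rgt, h0], Or.inl (by simp [rgt, Cfg.Free]),
      fun x hx => s.mem_lt (n + x) (by omega), fun x hx hp => ?_, ?_, by simp [rgt],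
      fun x hx => s.lab_lt (n + x) (by omega)⟩,
      ⟨fun x hx wx => t.1 (n + x) (by omega) (by rw [e x (by omega)]; exact wx),
        fun x y hx hy wx wy _ hl => ?_⟩, Or.inl rfl⟩, ?_⟩
  · rw [← e x (by omega)] at hp ⊢
    exact s.mem_prog (n + x) (by omega) hp
  · have := s.s1_mem h; simp only [rgt]; omega
  · have := t.2 (n + x) (n + y) (by omega) (by omega) (by rw [e x (by omega)]; exact wx)
      (by rw [e y (by omega)]; exact wy) (by omega) hl
    omega
  · rw [dec_two h, dec_one (c := c.lft) rfl, dec_one (c := c.rgt n) rfl, dmem_q0 hq,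
      dmem_q0 (c := c.lft) hq, dmem_q0 (c := c.rgt n) rfl]
    rfl

theorem rgt_cell (hn : Big n) (hc : c.SV n) (h : c.two = true) (hh : c.h < n) {y : ℕ}
    (hy : y < n) (h0 : y ≠ 0) : (c.rgt n).cell n y = c.cell n (n + y) := by
  have := hc.s1_mem h
  have e : adx n (n + y) = y := by simp [adx]
  have e' : adx n y = y := by simp [adx, hy]
  have e2 : ¬ n + y = c.h := by omega
  have e3 : ¬ n + y < c.h := by omega
  have e4 : ¬ n + y < n := by omega
  funext f
  cases f <;> simp only [Cfg.cell, rgt, e, e', h, e2, e3, e4, h0, hy] <;> (try split_ifs) <;>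
    first | rfl | omega | simp_all

theorem join_cell_left (h : c.two = false) (hh : c.h = n - 1) {y : ℕ} (hy : y < n - 1) :
    (join n c c').cell n y = c.cell n y := by
  funext f
  cases f <;> simp only [Cfg.cell, join, h, hh] <;> split_ifs <;> first | rfl | omega | simp_all

theorem join_cell_right (h : c'.two = false) (hh : c'.h = 0) {y : ℕ} (hy : y < n) (h0 : y ≠ 0) :
    (join n c c').cell n (n + y) = c'.cell n y := by
  have e : adx n (n + y) = y := by simp [adx]
  have e' : adx n y = y := by simp [adx, hy]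
  funext f
  cases f <;> simp only [Cfg.cell, join, e, e', h, hh] <;> split_ifs <;>
    first | rfl | omega | simp_all

end Cfg

end Vale.Agent.P192
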