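import Mathlib

/-!
Steinberg groups of an associative ring, indexed by an arbitrary type.
The generators `x i i r` on the diagonal are declared trivial, so that `x` is a total function.
-/

namespace Vale.Agent.P192

/-- The Steinberg relations for a family `y i j r` in a group. -/
structure IsSt {I R G : Type} [Ring R] [Group G] (y : I → I → R → G) : Prop where
  diag : ∀ i r, y i i r = 1
  add : ∀ i j r s, y i j r * y i j s = y i j (r + s)
  comm : ∀ i j k l r s, j ≠ k → i ≠ l → y i j r * y k l s = y k l s * y i j r
  mul : ∀ i j k r s, i ≠ j → j ≠ k → i ≠ k →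
    y i j r * y j k s * (y i j r)⁻¹ * (y j k s)⁻¹ = y i k (r * s)

/-- Relators of the Steinberg group. -/
inductive StRel (I R : Type) [Ring R] : FreeGroup (I × I × R) → Prop
  | diag (i r) : StRel I R (FreeGroup.of (i, i, r))
  | add (i j r s) : StRel I R
      (FreeGroup.of (i, j, r) * FreeGroup.of (i, j, s) * (FreeGroup.of (i, j, r + s))⁻¹)
  | comm (i j k l r s) (h1 : j ≠ k) (h2 : i ≠ l) : StRel I R
      (FreeGroup.of (i, j, r) * FreeGroup.of (k, l, s) *
        (FreeGroup.of (k, l, s) * FreeGroup.of (i, j, r))⁻¹)
  | mul (i j k r s) (h1 : i ≠ j) (h2 : j ≠ k) (h3 : i ≠ k) : StRel I R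
      (FreeGroup.of (i, j, r) * FreeGroup.of (j, k, s) * (FreeGroup.of (i, j, r))⁻¹ *
        (FreeGroup.of (j, k, s))⁻¹ * (FreeGroup.of (i, k, r * s))⁻¹)

/-- The Steinberg group. -/
def St (I R : Type) [Ring R] : Type := PresentedGroup {g | StRel I R g}

namespace St

variable {I J R S G : Type} [Ring R] [Ring S] [Group G]

instance : Group (St I R) := inferInstanceAs (Group (PresentedGroup _))

/-- The Steinberg generators. -/
def x (i j : I) (r : R) : St I R := PresentedGroup.of (rels := {g | StRel I R g}) (i, j, r)

private theorem rel_one {g : FreeGroup (I × I × R)} (h : StRel I R g) :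
    PresentedGroup.mk {g | StRel I R g} g = 1 :=
  (QuotientGroup.eq_one_iff _).2 (Subgroup.subset_normalClosure h)

theorem isSt : IsSt (x : I → I → R → St I R) where
  diag i r := rel_one (StRel.diag i r)
  add i j r s := by
    have := rel_one (StRel.add i j r s)
    rw [map_mul, map_mul, map_inv, mul_inv_eq_one] at this
    exact this
  comm i j k l r s h1 h2 := by
    have := rel_one (StRel.comm i j k l r s h1 h2)
    rw [map_mul, map_mul, map_inv, map_mul, mul_inv_eq_one] at this
    exact this
  mul i j k r s h1 h2 h3 := by
    have := rel_one (StRel.mul i j k r s h1 h2 h3)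
    rw [map_mul, map_mul, map_mul, map_mul, map_inv, map_inv, map_inv, mul_inv_eq_one] at this
    exact this

/-- Universal property of the Steinberg group. -/
def lift {y : I → I → R → G} (h : IsSt y) : St I R →* G :=
  PresentedGroup.toGroup (f := fun t : I × I × R => y t.1 t.2.1 t.2.2)
    (rels := {g | StRel I R g}) (by
      intro g hg
      cases hg with
      | diag i r => simp [h.diag]
      | add i j r s => simp [h.add]
      | comm i j k l r s h1 h2 => simp [h.comm i j k l r s h1 h2]
      | mul i j k r s h1 h2 h3 => simp [h.mul i j k r s h1 h2 h3])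

@[simp] theorem lift_x {y : I → I → R → G} (h : IsSt y) (i j : I) (r : R) :
    lift h (x i j r) = y i j r :=
  PresentedGroup.toGroup.of _

theorem hom_ext {f g : St I R →* G} (h : ∀ i j r, f (x i j r) = g (x i j r)) : f = g :=
  PresentedGroup.ext fun t => h t.1 t.2.1 t.2.2

theorem mem_of_x_mem (H : Subgroup (St I R)) (h : ∀ i j r, x i j r ∈ H) (g : St I R) : g ∈ H :=
  PresentedGroup.generated_by _ H (fun t => h t.1 t.2.1 t.2.2) g

/-- Induction on elements of the Steinberg group. -/
theorem induction {p : St I R → Prop} (one : p 1)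
    (step : ∀ i j r g, i ≠ j → p g → p (x i j r * g)) (g : St I R) : p g := by
  have key : ∀ g : St I R, ∀ h, p h → p (g * h) ∧ p (g⁻¹ * h) := by
    intro g
    let H : Subgroup (St I R) :=
      { carrier := {g | ∀ h, p h → p (g * h) ∧ p (g⁻¹ * h)}
        one_mem' := by intro h hh; simpa using hh
        mul_mem' := by
          intro a b ha hb h hh
          refine ⟨?_, ?_⟩
          · rw [mul_assoc]; exact (ha _ (hb h hh).1).1
          · rw [mul_inv_rev, mul_assoc]; exact (hb _ (ha h hh).2).2
        inv_mem' := by
          intro a ha h hh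
          exact ⟨(ha h hh).2, by simpa using (ha h hh).1⟩ }
    refine mem_of_x_mem H ?_ g
    intro i j r h hh
    by_cases hij : i = j
    · subst hij; simpa [isSt.diag] using hh
    · refine ⟨step i j r h hij hh, ?_⟩
      have h0 : (x i j (0 : R) : St I R) = 1 := by
        have := (isSt (I := I) (R := R)).add i j 0 0
        rw [add_zero] at this
        exact left_eq_mul.1 this.symm
      have : (x i j r : St I R)⁻¹ = x i j (-r) := by
        rw [inv_eq_iff_mul_eq_one, isSt.add, add_neg_cancel, h0]
      rw [this]; exact step i j _ h hij hh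
  simpa using (key g 1 one).1

end St

namespace IsSt

variable {I R G H : Type} [Ring R] [Group G] [Group H] {y : I → I → R → G}

theorem zero (h : IsSt y) (i j : I) : y i j 0 = 1 := by
  have := h.add i j 0 0
  rw [add_zero] at this
  exact left_eq_mul.1 this.symm

theorem inv (h : IsSt y) (i j : I) (r : R) : (y i j r)⁻¹ = y i j (-r) := by
  rw [inv_eq_iff_mul_eq_one, h.add, add_neg_cancel, h.zero]

theorem commute (h : IsSt y) {i j k l : I} (r s : R) (h1 : j ≠ k) (h2 : i ≠ l) :
    Commute (y i j r) (y k l s) := h.comm i j k l r s h1 h2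

theorem map (h : IsSt y) (f : G →* H) : IsSt fun i j r => f (y i j r) where
  diag i r := by simp [h.diag]
  add i j r s := by rw [← map_mul, h.add]
  comm i j k l r s h1 h2 := by rw [← map_mul, ← map_mul, h.comm i j k l r s h1 h2]
  mul i j k r s h1 h2 h3 := by
    rw [← h.mul i j k r s h1 h2 h3]; simp

end IsSt

namespace St

variable {I J R S : Type} [Ring R] [Ring S]

/-- Functoriality in the index type (along an injection) and in the ring. -/
def map (e : I → J) (he : Function.Injective e) (f : R →+* S) : St I R →* St J S :=
  lift (y := fun i j r => x (e i) (e j) (f r))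
    { diag := fun i r => isSt.diag _ _
      add := fun i j r s => by rw [isSt.add, map_add]
      comm := fun i j k l r s h1 h2 => isSt.comm _ _ _ _ _ _ (he.ne h1) (he.ne h2)
      mul := fun i j k r s h1 h2 h3 => by
        rw [isSt.mul _ _ _ _ _ (he.ne h1) (he.ne h2) (he.ne h3), map_mul] }

@[simp] theorem map_x (e : I → J) (he : Function.Injective e) (f : R →+* S) (i j : I) (r : R) :
    map e he f (x i j r) = x (e i) (e j) (f r) := lift_x _ _ _ _

variable [Fintype I] [DecidableEq I]

theorem single_mul_ne {i j k l : I} (h : j ≠ k) (r s : R) :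
    (Matrix.single i j r * Matrix.single k l s : Matrix I I R) = 0 :=
  Matrix.single_mul_single_of_ne _ _ _ _ h _

/-- Elementary matrix as a unit (the identity on the diagonal). -/
def elem (i j : I) (r : R) : (Matrix I I R)ˣ :=
  if h : i = j then 1 else
    { val := 1 + Matrix.single i j r
      inv := 1 + Matrix.single i j (-r)
      val_inv := by
        simp [add_mul, mul_add, single_mul_ne (Ne.symm h), add_assoc,
          ← Matrix.single_add]
      inv_val := by
        simp [add_mul, mul_add, single_mul_ne (Ne.symm h), add_assoc,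
          ← Matrix.single_add] }

theorem elem_val {i j : I} (h : i ≠ j) (r : R) :
    (elem i j r : Matrix I I R) = 1 + Matrix.single i j r := by
  simp [elem, h]

theorem elem_inv_val {i j : I} (h : i ≠ j) (r : R) :
    (((elem i j r)⁻¹ : (Matrix I I R)ˣ) : Matrix I I R) = 1 + Matrix.single i j (-r) := by
  simp [elem, h]

theorem isSt_elem : IsSt (elem : I → I → R → (Matrix I I R)ˣ) where
  diag i r := by simp [elem]
  add i j r s := by
    by_cases h : i = j
    · simp [elem, h]
    · ext1
      simp [elem_val h, add_mul, mul_add, single_mul_ne (Ne.symm h),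
        add_assoc, Matrix.single_add, add_comm, add_left_comm]
  comm i j k l r s h1 h2 := by
    by_cases h : i = j
    · simp [elem, h]
    by_cases h' : k = l
    · simp [elem, h']
    ext1
    simp [elem_val h, elem_val h', add_mul, mul_add, single_mul_ne h1,
      single_mul_ne (Ne.symm h2), add_comm, add_left_comm]
  mul i j k r s h1 h2 h3 := by
    rw [mul_inv_eq_iff_eq_mul, mul_inv_eq_iff_eq_mul]
    ext1
    simp [elem_val h1, elem_val h2, elem_val h3, add_mul, mul_add,
      single_mul_ne (Ne.symm h2),
      single_mul_ne (Ne.symm h3), add_assoc, add_comm, add_left_comm]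

/-- The canonical map to invertible matrices. -/
def toGL : St I R →* (Matrix I I R)ˣ := lift isSt_elem

@[simp] theorem toGL_x (i j : I) (r : R) : toGL (x i j r) = elem i j r := lift_x _ _ _ _

end St

end Vale.Agent.P192
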