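import Vale.Agent.P192.St
import Vale.Agent.P192.Pres

/-! Auxiliary definitions for the group-theoretic part. -/

namespace Vale.Agent.P192

/-- A partial right action of the Steinberg generators on a set `Y` lying over unimodular rows.
`F k a b r` is the action of `x a b r` computed in the chart where coordinate `k` is a unit. -/
structure PartAct (Ω R Y : Type) [DecidableEq Ω] [Ring R] (ε : R →+* ZMod 2) where
  v : Y → Ω → R
  F : Ω → Ω → Ω → R → Y → Y
  uni : ∀ y, ∃ k, ε (v y k) = 1
  vF : ∀ k a b r y, ε (v y k) = 1 → b ≠ k → a ≠ b →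
    v (F k a b r y) = Function.update (v y) b (v y b + v y a * r)
  indep : ∀ k l a b r y, ε (v y k) = 1 → ε (v y l) = 1 → b ≠ k → b ≠ l → a ≠ b →
    F k a b r y = F l a b r y
  zero : ∀ k a b y, ε (v y k) = 1 → b ≠ k → a ≠ b → F k a b 0 y = y
  add : ∀ k a b r s y, ε (v y k) = 1 → b ≠ k → a ≠ b →
    F k a b s (F k a b r y) = F k a b (r + s) y
  comm : ∀ k a b c d r s y, ε (v y k) = 1 → b ≠ k → d ≠ k → a ≠ b → c ≠ d → b ≠ c → a ≠ d →
    F k c d s (F k a b r y) = F k a b r (F k c d s y)
  mul : ∀ k a b d r s y, ε (v y k) = 1 → b ≠ k → d ≠ k → a ≠ b → b ≠ d → a ≠ d →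
    F k b d s (F k a b r y) = F k a b r (F k b d s (F k a d (r * s) y))

namespace St

variable {I J M R : Type} [Ring R]

/-- The unipotent subgroup attached to a height function. -/
def U (R : Type) [Ring R] (pos : J → ℕ) : Subgroup (St J R) :=
  Subgroup.closure {g | ∃ p q r, pos p < pos q ∧ g = x p q r}

/-- Block triangular subgroup whose diagonal blocks are constant. -/
def T0 (I R : Type) [Ring R] (pos : M → ℕ) : Subgroup (St (I × M) R) :=
  Subgroup.closure ({g | ∃ p q r, pos p.2 < pos q.2 ∧ g = x p q r} ∪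
    {g | ∃ p q : I × M, p.2 = q.2 ∧ g = x p q 1})

/-- The inclusion of the `a`-th diagonal block, with a change of rings. -/
def inc {S : Type} [Ring S] (a : M) (f : S →+* R) : St I S →* St (I × M) R :=
  map (fun i => (i, a)) (fun _ _ h => (Prod.ext_iff.1 h).1) f

@[simp] theorem inc_x {S : Type} [Ring S] (a : M) (f : S →+* R) (i j : I) (s : S) :
    inc a f (x i j s) = x (i, a) (j, a) (f s) := map_x _ _ _ _ _ _

/-- Change of rings. -/
def rmap {S : Type} [Ring S] (f : S →+* R) : St I S →* St I R :=
  map id Function.injective_id f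

@[simp] theorem rmap_x {S : Type} [Ring S] (f : S →+* R) (i j : I) (s : S) :
    rmap f (x i j s) = x i j (f s) := map_x _ _ _ _ _ _

/-- Specification of the block homomorphism. -/
def IsBlk [Fintype M] [DecidableEq M] (b : St I (Matrix M M R) →* St (I × M) R) : Prop :=
  ∀ i j a c r, i ≠ j → b (x i j (Matrix.single a c r)) = x (i, a) (j, c) r

end St

end Vale.Agent.P192
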