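import Vale.Agent.P192.St2

/-!
Partial actions over rows with an arbitrary notion of good coordinate, the chart-free form of a
partial action, and the construction of a partial action from an atlas.
-/

namespace Vale.Agent.P192

/-- The row `v` multiplied on the right by the elementary matrix `x a b r`. -/
def mv {Ω R : Type} [DecidableEq Ω] [Ring R] (v : Ω → R) (a b : Ω) (r : R) : Ω → R :=
  Function.update v b (v b + v a * r)

section mv

variable {Ω R : Type} [DecidableEq Ω] [Ring R]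

theorem mv_ne (v : Ω → R) (a : Ω) {b n : Ω} (r : R) (h : b ≠ n) : mv v a b r n = v n :=
  Function.update_of_ne (Ne.symm h) _ _

theorem mv_self (v : Ω → R) (a b : Ω) (r : R) : mv v a b r b = v b + v a * r :=
  Function.update_self _ _ _

theorem mv_zero (v : Ω → R) (a b : Ω) : mv v a b 0 = v := by
  simp [mv]

theorem mv_add (v : Ω → R) {a b : Ω} (h : a ≠ b) (r s : R) :
    mv (mv v a b r) a b s = mv v a b (r + s) := by
  funext n
  by_cases hn : b = n
  · subst hn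
    rw [mv_self, mv_self, mv_self, mv_ne _ _ _ (Ne.symm h), mul_add, add_assoc]
  · rw [mv_ne _ _ _ hn, mv_ne _ _ _ hn, mv_ne _ _ _ hn]

theorem mv_comm (v : Ω → R) {a b c d : Ω} (h1 : b ≠ c) (h2 : a ≠ d) (r s : R) :
    mv (mv v a b r) c d s = mv (mv v c d s) a b r := by
  funext n
  by_cases hb : b = n
  · subst hb
    by_cases hd : d = b
    · subst hd
      rw [mv_self, mv_self, mv_self, mv_self, mv_ne _ _ _ h1, mv_ne _ _ _ (Ne.symm h2)]
      abel
    · rw [mv_ne _ _ _ hd, mv_self, mv_self, mv_ne _ _ _ hd, mv_ne _ _ _ (Ne.symm h2)]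
  · by_cases hd : d = n
    · subst hd
      rw [mv_self, mv_ne _ _ _ hb, mv_ne _ _ _ hb, mv_self, mv_ne _ _ _ h1]
    · rw [mv_ne _ _ _ hb, mv_ne _ _ _ hd, mv_ne _ _ _ hb, mv_ne _ _ _ hd]

theorem mv_mul (v : Ω → R) {a b d : Ω} (h1 : a ≠ b) (h2 : b ≠ d) (h3 : a ≠ d) (r s : R) :
    mv (mv v a b r) b d s = mv (mv (mv v a d (r * s)) b d s) a b r := by
  funext n
  by_cases hb : b = n
  · subst hb
    rw [mv_ne _ _ _ (Ne.symm h2), mv_self, mv_self, mv_ne _ _ _ (Ne.symm h2),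
      mv_ne _ _ _ (Ne.symm h2), mv_ne _ _ _ (Ne.symm h3), mv_ne _ _ _ (Ne.symm h3)]
  · by_cases hd : d = n
    · subst hd
      rw [mv_self, mv_ne _ _ _ hb, mv_self, mv_ne _ _ _ hb, mv_self, mv_self,
        mv_ne _ _ _ (Ne.symm h2), add_mul, mul_assoc]
      abel
    · rw [mv_ne _ _ _ hb, mv_ne _ _ _ hd, mv_ne _ _ _ hb, mv_ne _ _ _ hd, mv_ne _ _ _ hd]

end mv

/-- A right action of the Steinberg generators defined where some good coordinate is fixed. -/
structure PA (Ω R Y : Type) [DecidableEq Ω] [Ring R] (good : R → Prop) where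
  v : Y → Ω → R
  F : Ω → Ω → Ω → R → Y → Y
  uni : ∀ y, ∃ k, good (v y k)
  vF : ∀ k a b r y, good (v y k) → b ≠ k → a ≠ b → v (F k a b r y) = mv (v y) a b r
  indep : ∀ k l a b r y, good (v y k) → good (v y l) → b ≠ k → b ≠ l → a ≠ b →
    F k a b r y = F l a b r y
  zero : ∀ k a b y, good (v y k) → b ≠ k → a ≠ b → F k a b 0 y = y
  add : ∀ k a b r s y, good (v y k) → b ≠ k → a ≠ b →
    F k a b s (F k a b r y) = F k a b (r + s) y
  comm : ∀ k a b c d r s y, good (v y k) → b ≠ k → d ≠ k → a ≠ b → c ≠ d → b ≠ c → a ≠ d →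
    F k c d s (F k a b r y) = F k a b r (F k c d s y)
  mul : ∀ k a b d r s y, good (v y k) → b ≠ k → d ≠ k → a ≠ b → b ≠ d → a ≠ d →
    F k b d s (F k a b r y) = F k a b r (F k b d s (F k a d (r * s) y))

namespace PA

variable {Ω R Y : Type} [DecidableEq Ω] [Ring R] {good : R → Prop} (P : PA Ω R Y good)

open Classical in
/-- The action without reference to a chart. -/
noncomputable def A (a b : Ω) (r : R) (y : Y) : Y :=
  if h : ∃ k, good (P.v y k) ∧ b ≠ k then P.F h.choose a b r y else y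

theorem A_eq (k : Ω) {a b : Ω} (r : R) {y : Y} (hk : good (P.v y k)) (hb : b ≠ k) (hab : a ≠ b) :
    P.A a b r y = P.F k a b r y := by
  have h : ∃ k, good (P.v y k) ∧ b ≠ k := ⟨k, hk, hb⟩
  rw [A, dif_pos h]
  exact P.indep _ _ _ _ _ _ h.choose_spec.1 hk h.choose_spec.2 hb hab

theorem vA (k : Ω) {a b : Ω} (r : R) {y : Y} (hk : good (P.v y k)) (hb : b ≠ k) (hab : a ≠ b) :
    P.v (P.A a b r y) = mv (P.v y) a b r := by
  rw [P.A_eq k r hk hb hab, P.vF _ _ _ _ _ hk hb hab]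

theorem vA_ne {a b n : Ω} (r : R) (y : Y) (hab : a ≠ b) (hn : b ≠ n) :
    P.v (P.A a b r y) n = P.v y n := by
  by_cases h : ∃ k, good (P.v y k) ∧ b ≠ k
  · obtain ⟨k, hk, hb⟩ := h
    rw [P.vA k r hk hb hab, mv_ne _ _ _ hn]
  · rw [A, dif_neg h]

theorem keep {k a b : Ω} (r : R) {y : Y} (hk : good (P.v y k)) (hb : b ≠ k) (hab : a ≠ b) :
    good (P.v (P.A a b r y) k) := by
  rw [P.vA_ne r y hab hb]; exact hk

theorem A_zero (k : Ω) {a b : Ω} {y : Y} (hk : good (P.v y k)) (hb : b ≠ k) (hab : a ≠ b) :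
    P.A a b 0 y = y := by
  rw [P.A_eq k _ hk hb hab, P.zero _ _ _ _ hk hb hab]

theorem A_add (k : Ω) {a b : Ω} (r s : R) {y : Y} (hk : good (P.v y k)) (hb : b ≠ k)
    (hab : a ≠ b) : P.A a b s (P.A a b r y) = P.A a b (r + s) y := by
  rw [P.A_eq k s (P.keep r hk hb hab) hb hab, P.A_eq k r hk hb hab, P.A_eq k _ hk hb hab,
    P.add _ _ _ _ _ _ hk hb hab]

theorem A_A (two : ∀ r : R, r + r = 0) (k : Ω) {a b : Ω} (r : R) {y : Y} (hk : good (P.v y k))
    (hb : b ≠ k) (hab : a ≠ b) : P.A a b r (P.A a b r y) = y := by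
  rw [P.A_add k r r hk hb hab, two, P.A_zero k hk hb hab]

theorem A_comm (k : Ω) {a b c d : Ω} (r s : R) {y : Y} (hk : good (P.v y k)) (hb : b ≠ k)
    (hd : d ≠ k) (hab : a ≠ b) (hcd : c ≠ d) (hbc : b ≠ c) (had : a ≠ d) :
    P.A c d s (P.A a b r y) = P.A a b r (P.A c d s y) := by
  rw [P.A_eq k s (P.keep r hk hb hab) hd hcd, P.A_eq k r (P.keep s hk hd hcd) hb hab,
    P.A_eq k r hk hb hab, P.A_eq k s hk hd hcd, P.comm _ _ _ _ _ _ _ _ hk hb hd hab hcd hbc had]

theorem A_mul (k : Ω) {a b d : Ω} (r s : R) {y : Y} (hk : good (P.v y k)) (hb : b ≠ k)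
    (hd : d ≠ k) (hab : a ≠ b) (hbd : b ≠ d) (had : a ≠ d) :
    P.A b d s (P.A a b r y) = P.A a b r (P.A b d s (P.A a d (r * s) y)) := by
  have h1 := P.keep (r * s) hk hd had
  have h2 := P.keep s h1 hd hbd
  rw [P.A_eq k s (P.keep r hk hb hab) hd hbd, P.A_eq k r h2 hb hab, P.A_eq k s h1 hd hbd,
    P.A_eq k r hk hb hab, P.A_eq k _ hk hd had, P.mul _ _ _ _ _ _ _ hk hb hd hab hbd had]

end PA

/-- Chart data: fibres `Over v k`, changes of chart `S` and local actions `M`. -/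
structure Atlas (Ω R Z : Type) [DecidableEq Ω] [Ring R] (good : R → Prop) where
  Over : (Ω → R) → Ω → Z → Prop
  S : (Ω → R) → Ω → Ω → Z → Z
  M : (Ω → R) → Ω → Ω → Ω → R → Z → Z
  S_over : ∀ v k l z, good (v k) → good (v l) → Over v k z → Over v l (S v k l z)
  S_self : ∀ v k z, good (v k) → Over v k z → S v k k z = z
  S_S : ∀ v k l m z, good (v k) → good (v l) → good (v m) → Over v k z →
    S v l m (S v k l z) = S v k m z
  M_over : ∀ v k a b r z, good (v k) → b ≠ k → a ≠ b → Over v k z →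
    Over (mv v a b r) k (M v k a b r z)
  M_S : ∀ v k l a b r z, good (v k) → good (v l) → b ≠ k → b ≠ l → a ≠ b → Over v k z →
    S (mv v a b r) k l (M v k a b r z) = M v l a b r (S v k l z)
  M_zero : ∀ v k a b z, good (v k) → b ≠ k → a ≠ b → Over v k z → M v k a b 0 z = z
  M_add : ∀ v k a b r s z, good (v k) → b ≠ k → a ≠ b → Over v k z →
    M (mv v a b r) k a b s (M v k a b r z) = M v k a b (r + s) z
  M_comm : ∀ v k a b c d r s z, good (v k) → b ≠ k → d ≠ k → a ≠ b → c ≠ d → b ≠ c → a ≠ d →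
    Over v k z →
    M (mv v a b r) k c d s (M v k a b r z) = M (mv v c d s) k a b r (M v k c d s z)
  M_mul : ∀ v k a b d r s z, good (v k) → b ≠ k → d ≠ k → a ≠ b → b ≠ d → a ≠ d →
    Over v k z →
    M (mv v a b r) k b d s (M v k a b r z) =
      M (mv (mv v a d (r * s)) b d s) k a b r (M (mv v a d (r * s)) k b d s (M v k a d (r * s) z))

namespace Atlas

variable {Ω R Z : Type} [DecidableEq Ω] [Ring R] {good : R → Prop} (T : Atlas Ω R Z good)

/-- Total space of an atlas. -/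
def Tot : Type :=
  {p : (Ω → R) × Z // ∃ h : ∃ k, good (p.1 k), T.Over p.1 h.choose p.2}

/-- The point of the total space with given coordinates in the chart `k`. -/
noncomputable def emb (v : Ω → R) (k : Ω) (z : Z) (hk : good (v k)) (hz : T.Over v k z) : T.Tot :=
  ⟨(v, T.S v k (Exists.choose (⟨k, hk⟩ : ∃ k, good (v k))) z), ⟨k, hk⟩,
    T.S_over _ _ _ _ hk (Exists.choose_spec (⟨k, hk⟩ : ∃ k, good (v k))) hz⟩

/-- Coordinates of a point in the chart `k`. -/
noncomputable def crd (p : T.Tot) (k : Ω) : Z := T.S p.1.1 p.2.1.choose k p.1.2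

theorem crd_over (p : T.Tot) {k : Ω} (hk : good (p.1.1 k)) : T.Over p.1.1 k (T.crd p k) :=
  T.S_over _ _ _ _ p.2.1.choose_spec hk p.2.2

theorem crd_emb (v : Ω → R) (k : Ω) (z : Z) (hk : good (v k)) (hz : T.Over v k z) {l : Ω}
    (hl : good (v l)) : T.crd (T.emb v k z hk hz) l = T.S v k l z :=
  T.S_S _ _ _ _ _ hk (Exists.choose_spec (⟨k, hk⟩ : ∃ k, good (v k))) hl hz

theorem crd_emb_self (v : Ω → R) (k : Ω) (z : Z) (hk : good (v k)) (hz : T.Over v k z) :
    T.crd (T.emb v k z hk hz) k = z := by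
  rw [T.crd_emb v k z hk hz hk, T.S_self _ _ _ hk hz]

theorem S_crd (p : T.Tot) {k l : Ω} (hk : good (p.1.1 k)) (hl : good (p.1.1 l)) :
    T.S p.1.1 k l (T.crd p k) = T.crd p l :=
  T.S_S _ _ _ _ _ p.2.1.choose_spec hk hl p.2.2

theorem ext_crd {p q : T.Tot} (hv : p.1.1 = q.1.1) {k : Ω} (hk : good (p.1.1 k))
    (h : T.crd p k = T.crd q k) : p = q := by
  obtain ⟨⟨v, z⟩, h1, h2⟩ := p
  obtain ⟨⟨v', z'⟩, h1', h2'⟩ := q
  obtain rfl : v = v' := hv
  have e1 := T.S_crd ⟨(v, z), h1, h2⟩ hk h1.choose_spec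
  have e2 := T.S_crd ⟨(v, z'), h1', h2'⟩ hk h1.choose_spec
  rw [h] at e1
  have e3 : T.crd ⟨(v, z), h1, h2⟩ h1.choose = z := T.S_self _ _ _ h1.choose_spec h2
  have e4 : T.crd ⟨(v, z'), h1', h2'⟩ h1.choose = z' := T.S_self _ _ _ h1.choose_spec h2'
  obtain rfl : z = z' := by rw [← e3, ← e4, ← e1, ← e2]
  rfl

theorem good_mv {v : Ω → R} {k b : Ω} (a : Ω) (r : R) (hk : good (v k)) (hb : b ≠ k) :
    good (mv v a b r k) := by
  rw [mv_ne _ _ _ hb]; exact hk

open Classical in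
/-- The action in the chart `k` on the total space. -/
noncomputable def F (k a b : Ω) (r : R) (p : T.Tot) : T.Tot :=
  if h : good (p.1.1 k) ∧ b ≠ k ∧ a ≠ b then
    T.emb (mv p.1.1 a b r) k (T.M p.1.1 k a b r (T.crd p k)) (good_mv a r h.1 h.2.1)
      (T.M_over _ _ _ _ _ _ h.1 h.2.1 h.2.2 (T.crd_over p h.1))
  else p

theorem F_v {k a b : Ω} (r : R) (p : T.Tot) (hk : good (p.1.1 k)) (hb : b ≠ k) (hab : a ≠ b) :
    (T.F k a b r p).1.1 = mv p.1.1 a b r := by
  rw [F, dif_pos ⟨hk, hb, hab⟩]; rfl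

theorem F_crd {k a b : Ω} (r : R) (p : T.Tot) (hk : good (p.1.1 k)) (hb : b ≠ k) (hab : a ≠ b) :
    T.crd (T.F k a b r p) k = T.M p.1.1 k a b r (T.crd p k) := by
  rw [F, dif_pos ⟨hk, hb, hab⟩, crd_emb_self]

theorem F_good {k a b : Ω} (r : R) (p : T.Tot) (hk : good (p.1.1 k)) (hb : b ≠ k) (hab : a ≠ b) :
    good ((T.F k a b r p).1.1 k) := by
  rw [T.F_v r p hk hb hab]; exact good_mv a r hk hb

/-- The action on the total space. -/
noncomputable def toPA : PA Ω R T.Tot good where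
  v p := p.1.1
  F := T.F
  uni p := p.2.1
  vF k a b r p hk hb hab := T.F_v r p hk hb hab
  indep k l a b r p hk hl hb hb' hab := by
    have hl' : good ((T.F k a b r p).1.1 l) := by
      rw [T.F_v r p hk hb hab]; exact good_mv a r hl hb'
    refine T.ext_crd (by rw [T.F_v r p hk hb hab, T.F_v r p hl hb' hab]) hl' ?_
    rw [← T.S_crd _ (T.F_good r p hk hb hab) hl', T.F_crd r p hk hb hab, T.F_crd r p hl hb' hab,
      T.F_v r p hk hb hab, T.M_S _ _ _ _ _ _ _ hk hl hb hb' hab (T.crd_over p hk),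
      T.S_crd p hk hl]
  zero k a b p hk hb hab := by
    refine T.ext_crd (by rw [T.F_v _ p hk hb hab, mv_zero]) (T.F_good _ p hk hb hab) ?_
    rw [T.F_crd _ p hk hb hab, T.M_zero _ _ _ _ _ hk hb hab (T.crd_over p hk)]
  add k a b r s p hk hb hab := by
    have h1 := T.F_good r p hk hb hab
    refine T.ext_crd ?_ (T.F_good _ _ h1 hb hab) ?_
    · rw [T.F_v _ _ h1 hb hab, T.F_v _ p hk hb hab, T.F_v _ p hk hb hab, mv_add _ hab]
    · rw [T.F_crd _ _ h1 hb hab, T.F_crd _ p hk hb hab, T.F_crd _ p hk hb hab,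
        T.F_v _ p hk hb hab, T.M_add _ _ _ _ _ _ _ hk hb hab (T.crd_over p hk)]
  comm k a b c d r s p hk hb hd hab hcd hbc had := by
    have h1 := T.F_good r p hk hb hab
    have h2 := T.F_good s p hk hd hcd
    refine T.ext_crd ?_ (T.F_good _ _ h1 hd hcd) ?_
    · rw [T.F_v _ _ h1 hd hcd, T.F_v _ _ h2 hb hab, T.F_v _ p hk hb hab, T.F_v _ p hk hd hcd,
        mv_comm _ hbc had]
    · rw [T.F_crd _ _ h1 hd hcd, T.F_crd _ _ h2 hb hab, T.F_crd _ p hk hb hab,
        T.F_crd _ p hk hd hcd, T.F_v _ p hk hb hab, T.F_v _ p hk hd hcd,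
        T.M_comm _ _ _ _ _ _ _ _ _ hk hb hd hab hcd hbc had (T.crd_over p hk)]
  mul k a b d r s p hk hb hd hab hbd had := by
    have h1 := T.F_good r p hk hb hab
    have h2 := T.F_good (r * s) p hk hd had
    have h3 := T.F_good s _ h2 hd hbd
    refine T.ext_crd ?_ (T.F_good _ _ h1 hd hbd) ?_
    · rw [T.F_v _ _ h1 hd hbd, T.F_v _ _ h3 hb hab, T.F_v _ _ h2 hd hbd, T.F_v _ p hk hb hab,
        T.F_v _ p hk hd had, mv_mul _ hab hbd had]
    · rw [T.F_crd _ _ h1 hd hbd, T.F_crd _ _ h3 hb hab, T.F_crd _ _ h2 hd hbd,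
        T.F_crd _ p hk hb hab, T.F_crd _ p hk hd had, T.F_v _ _ h2 hd hbd, T.F_v _ p hk hb hab,
        T.F_v _ p hk hd had, T.M_mul _ _ _ _ _ _ _ _ hk hb hd hab hbd had (T.crd_over p hk)]

/-- Summary of the construction. -/
theorem exists_PA : ∃ (Y : Type) (P : PA Ω R Y good)
    (emb : ∀ (v : Ω → R) (k : Ω) (z : Z), good (v k) → T.Over v k z → Y),
    (∀ v k z hk hz, P.v (emb v k z hk hz) = v) ∧
    (∀ v k z z' hk hz hz', emb v k z hk hz = emb v k z' hk hz' → z = z') ∧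
    ∀ v k z hk hz a b r v' z' hk' hz', b ≠ k → a ≠ b → v' = mv v a b r → z' = T.M v k a b r z →
      P.F k a b r (emb v k z hk hz) = emb v' k z' hk' hz' := by
  refine ⟨T.Tot, T.toPA, T.emb, fun _ _ _ _ _ => rfl, ?_, ?_⟩
  · intro v k z z' hk hz hz' h
    rw [← T.crd_emb_self v k z hk hz, h, crd_emb_self]
  · intro v k z hk hz a b r v' z' hk' hz' hb hab hv' hz''
    subst hv' hz''
    have hk0 : good ((T.emb v k z hk hz).1.1 k) := hk
    refine T.ext_crd (T.F_v r _ hk0 hb hab) (T.F_good r _ hk0 hb hab) ?_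
    change T.crd (T.F k a b r _) k = _
    rw [T.F_crd r _ hk0 hb hab, crd_emb_self, crd_emb_self]
    rfl

end Atlas

end Vale.Agent.P192
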