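import Vale.Agent.P192.St2
import Vale.Agent.P192.StabAtlas

namespace Vale.Agent.P192

theorem exists_notMem_list {Ω : Type} [Fintype Ω] (L : List Ω) (h : L.length < Fintype.card Ω) :
    ∃ n, n ∉ L := by
  classical
  by_contra hc
  push Not at hc
  have h1 : (Finset.univ : Finset Ω) ⊆ L.toFinset := fun n _ => List.mem_toFinset.2 (hc n)
  have h2 := Finset.card_le_card h1
  have h3 := L.toFinset_card_le
  rw [Finset.card_univ] at h2
  omega

theorem zmod2_ne_one {x : ZMod 2} (h : ¬ x = 1) : x = 0 := by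
  revert x; decide

namespace PA

variable {Ω R Y : Type} [DecidableEq Ω] [Ring R] {good : R → Prop} (P : PA Ω R Y good)

/-- In a chart avoiding `j` and `k`, conjugation of `x a j r` by `x j k s`. -/
theorem conj_formal (two : ∀ r : R, r + r = 0) (n : Ω) {a j k : Ω} (r s : R) {y : Y}
    (hn : good (P.v y n)) (hj : j ≠ n) (hk : k ≠ n) (haj : a ≠ j) (hjk : j ≠ k) (hak : a ≠ k) :
    P.A j k s (P.A a k (r * s) (P.A a j r (P.A j k s y))) = P.A a j r y := by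
  have h1 := P.keep s hn hk hjk
  rw [P.A_comm n r (r * s) h1 hj hk haj hak (Ne.symm haj) hak]
  have h2 := P.keep (r * s) h1 hk hak
  rw [P.A_mul n r s h2 hj hk haj hjk hak, P.A_A two n _ h1 hk hak, P.A_A two n _ hn hk hjk]

end PA

section ext

variable {Ω R Y : Type} [DecidableEq Ω] [Ring R] {ε : R →+* ZMod 2}
  (P : PA Ω R Y (fun r => ε r = 1))

open Classical in
/-- The extended action. -/
noncomputable def PA.G (aux : Ω → Ω → Ω) (a b : Ω) (r : R) (y : Y) : Y :=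
  if ∃ k, ε (P.v y k) = 1 ∧ b ≠ k then P.A a b r y
  else P.A b (aux a b) 1 (P.A a (aux a b) r (P.A a b r (P.A b (aux a b) 1 y)))

variable {aux : Ω → Ω → Ω}

theorem PA.G_good (k : Ω) {a b : Ω} (r : R) {y : Y} (hk : ε (P.v y k) = 1) (hb : b ≠ k) :
    P.G aux a b r y = P.A a b r y := by
  rw [PA.G, if_pos ⟨k, hk, hb⟩]

/-- Adding a multiple of a non-unit coordinate does not change residues. -/
theorem PA.res_of_zero (k : Ω) {a b : Ω} (r : R) {y : Y} (hk : ε (P.v y k) = 1) (hb : b ≠ k)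
    (hab : a ≠ b) (ha : ε (P.v y a) = 0) (n : Ω) : ε (P.v (P.A a b r y) n) = ε (P.v y n) := by
  rw [P.vA k r hk hb hab]
  by_cases h : b = n
  · subst h
    rw [mv_self, map_add, map_mul, ha, zero_mul, add_zero]
  · rw [mv_ne _ _ _ h]

/-- Adding a unit coordinate to a non-unit coordinate gives a unit. -/
theorem PA.res_make {j k : Ω} {y : Y} (hj : ε (P.v y j) = 1) (hk : ε (P.v y k) = 0)
    (hjk : j ≠ k) : ε (P.v (P.A j k 1 y) k) = 1 := by
  rw [P.vA j 1 hj (Ne.symm hjk) hjk, mv_self, map_add, map_mul, hj, hk, map_one]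
  simp

theorem PA.G_one (two : ∀ r : R, r + r = 0) (haux : ∀ a b, aux a b ≠ a ∧ aux a b ≠ b)
    {a j k : Ω} (r : R) {y : Y} (hj : ε (P.v y j) = 1) (ha : ε (P.v y a) = 0)
    (hk : ε (P.v y k) = 0) (haj : a ≠ j) (hjk : j ≠ k) (hak : a ≠ k) :
    P.G aux a j r y = P.A j k 1 (P.A a k r (P.A a j r (P.A j k 1 y))) := by
  by_cases h : ∃ n, ε (P.v y n) = 1 ∧ j ≠ n
  · obtain ⟨n, hn, hjn⟩ := h
    have hkn : k ≠ n := by
      rintro rfl
      rw [hk] at hn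
      exact zero_ne_one hn
    have := P.conj_formal two n r 1 hn hjn hkn haj hjk hak
    rw [mul_one] at this
    rw [this, P.G_good n r hn hjn]
  · rw [PA.G, if_neg h]
    obtain ⟨h1, h2⟩ := haux a j
    generalize aux a j = m at h1 h2
    by_cases hmk : m = k
    · rw [hmk]
    have hm : ε (P.v y m) = 0 := zmod2_ne_one fun hm => h ⟨m, hm, Ne.symm h2⟩
    have ham : a ≠ m := Ne.symm h1
    have hjm : j ≠ m := Ne.symm h2
    have hkm : k ≠ m := Ne.symm hmk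
    -- the state after making `m` a unit
    have m1 : ε (P.v (P.A j m 1 y) m) = 1 := P.res_make hj hm hjm
    have k1 : ε (P.v (P.A j k 1 y) k) = 1 := P.res_make hj hk hjk
    have e1 := P.conj_formal two m r 1 m1 hjm hkm haj hjk hak
    have e2 := P.conj_formal two k r 1 k1 hjk hmk haj hjm ham
    rw [mul_one] at e1 e2
    rw [← e1, ← e2]
    rw [P.A_comm j 1 1 hj h2 (Ne.symm hjk) hjm hjk h2 hjk]
    set y1 := P.A j m 1 (P.A j k 1 y) with hy1
    have j0 : ε (P.v (P.A j k 1 y) j) = 1 := P.keep 1 hj (Ne.symm hjk) hjk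
    have j1 : ε (P.v y1 j) = 1 := P.keep 1 j0 h2 hjm
    have mm1 : ε (P.v y1 m) = 1 := by
      rw [hy1, ← P.A_comm j 1 1 hj h2 (Ne.symm hjk) hjm hjk h2 hjk]
      exact P.keep 1 m1 hkm hjk
    have a1 : ε (P.v y1 a) = 0 := by
      rw [hy1, P.vA_ne 1 _ hjm h1, P.vA_ne 1 _ hjk (Ne.symm hak), ha]
    have j2 : ε (P.v (P.A a j r y1) j) = 1 := by
      rw [P.res_of_zero m r mm1 hjm haj a1, j1]
    set y2 := P.A a j r y1
    have j3 : ε (P.v (P.A a k r y2) j) = 1 := P.keep r j2 (Ne.symm hjk) hak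
    have j4 : ε (P.v (P.A a m r y2) j) = 1 := P.keep r j2 h2 ham
    rw [P.A_comm j 1 r j3 (Ne.symm hjk) h2 hjk ham (Ne.symm hak) hjm,
      P.A_comm j r r j2 (Ne.symm hjk) h2 hak ham (Ne.symm hak) ham,
      P.A_comm j 1 1 (P.keep r j4 (Ne.symm hjk) hak) (Ne.symm hjk) h2 hjk hjm (Ne.symm hjk) hjm,
      P.A_comm j r 1 j4 (Ne.symm hjk) h2 hak hjm (Ne.symm hjk) ham]

/-- The conjugating element. -/
noncomputable def PA.Z (j k l : Ω) (y : Y) : Y := P.A j k 1 (P.A j l 1 y)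

/-- The conjugate of `x a j r`. -/
noncomputable def PA.C (j k l a : Ω) (r : R) (y : Y) : Y := P.A a k r (P.A a l r (P.A a j r y))

theorem PA.Z_Z (two : ∀ r : R, r + r = 0) {j k l : Ω} {y : Y} (hj : ε (P.v y j) = 1)
    (hjk : j ≠ k) (hjl : j ≠ l) : P.Z j k l (P.Z j k l y) = y := by
  have h1 := P.keep 1 hj (Ne.symm hjl) hjl
  unfold PA.Z
  rw [P.A_comm j 1 1 h1 (Ne.symm hjk) (Ne.symm hjl) hjk hjl (Ne.symm hjk) hjl,
    P.A_A two j 1 hj (Ne.symm hjl) hjl, P.A_A two j 1 hj (Ne.symm hjk) hjk]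

theorem PA.Z_ne {j k l n : Ω} (y : Y) (hjk : j ≠ k) (hjl : j ≠ l) (hk : k ≠ n) (hl : l ≠ n) :
    P.v (P.Z j k l y) n = P.v y n := by
  unfold PA.Z
  rw [P.vA_ne 1 _ hjk hk, P.vA_ne 1 _ hjl hl]

theorem PA.Z_k {j k l : Ω} {y : Y} (hj : ε (P.v y j) = 1) (hk : ε (P.v y k) = 0)
    (hjk : j ≠ k) (hjl : j ≠ l) (hkl : k ≠ l) : ε (P.v (P.Z j k l y) k) = 1 := by
  unfold PA.Z
  refine P.res_make (P.keep 1 hj (Ne.symm hjl) hjl) ?_ hjk
  rw [P.vA_ne 1 _ hjl (Ne.symm hkl), hk]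

theorem PA.Z_l {j k l : Ω} {y : Y} (hj : ε (P.v y j) = 1) (hl : ε (P.v y l) = 0)
    (hjk : j ≠ k) (hjl : j ≠ l) (hkl : k ≠ l) : ε (P.v (P.Z j k l y) l) = 1 := by
  unfold PA.Z
  exact P.keep 1 (P.res_make hj hl hjl) hkl hjk

/-- Column `j`: the extended action is the conjugate by `Z` of the word `C`. -/
theorem PA.G_col (two : ∀ r : R, r + r = 0) (haux : ∀ a b, aux a b ≠ a ∧ aux a b ≠ b)
    {a j k l : Ω} (r : R) {w : Y} (hj : ε (P.v w j) = 1) (hk : ε (P.v w k) = 1)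
    (hl : ε (P.v w l) = 1) (ha : ε (P.v w a) = 0) (haj : a ≠ j) (hjk : j ≠ k) (hak : a ≠ k)
    (hjl : j ≠ l) (hal : a ≠ l) (hkl : k ≠ l) :
    P.G aux a j r (P.Z j k l w) = P.Z j k l (P.C j k l a r w) := by
  have j1 : ε (P.v (P.A j l 1 w) j) = 1 := P.keep 1 hj (Ne.symm hjl) hjl
  have k1 : ε (P.v (P.A j l 1 w) k) = 1 := P.keep 1 hk (Ne.symm hkl) hjl
  have zj : ε (P.v (P.Z j k l w) j) = 1 := by
    rw [P.Z_ne w hjk hjl (Ne.symm hjk) (Ne.symm hjl), hj]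
  have za : ε (P.v (P.Z j k l w) a) = 0 := by
    rw [P.Z_ne w hjk hjl (Ne.symm hak) (Ne.symm hal), ha]
  have zk : ε (P.v (P.Z j k l w) k) = 0 := by
    unfold PA.Z
    rw [P.vA j 1 j1 (Ne.symm hjk) hjk, mv_self, map_add, map_mul, j1, k1, map_one]
    decide
  rw [P.G_one two haux r zj za zk haj hjk hak]
  unfold PA.Z PA.C
  rw [P.A_A two j 1 j1 (Ne.symm hjk) hjk]
  have e := P.conj_formal two k r 1 k1 hjk (Ne.symm hkl) haj hjl hal
  rw [mul_one, P.A_A two j 1 hj (Ne.symm hjl) hjl] at e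
  rw [← e]
  have j2 : ε (P.v (P.A a j r w) j) = 1 := by
    rw [P.res_of_zero k r hk hjk haj ha, hj]
  have j3 := P.keep r j2 (Ne.symm hjl) hal
  rw [P.A_comm j 1 r j3 (Ne.symm hjl) (Ne.symm hjk) hjl hak (Ne.symm hal) hjk]

/-- Other columns: the extended action commutes with `Z`. -/
theorem PA.G_oth {a b j k l : Ω} (r : R) {w : Y} (hj : ε (P.v w j) = 1) (hab : a ≠ b)
    (hbj : b ≠ j) (hjk : j ≠ k) (hak : a ≠ k) (hjl : j ≠ l) (hal : a ≠ l) :
    P.G aux a b r (P.Z j k l w) = P.Z j k l (P.A a b r w) := by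
  have j1 : ε (P.v (P.A j l 1 w) j) = 1 := P.keep 1 hj (Ne.symm hjl) hjl
  have zj : ε (P.v (P.Z j k l w) j) = 1 := by
    rw [P.Z_ne w hjk hjl (Ne.symm hjk) (Ne.symm hjl), hj]
  rw [P.G_good j r zj hbj]
  unfold PA.Z
  rw [P.A_comm j 1 r j1 (Ne.symm hjk) hbj hjk hab (Ne.symm hak) (Ne.symm hbj),
    P.A_comm j 1 r hj (Ne.symm hjl) hbj hjl hab (Ne.symm hal) (Ne.symm hbj)]

/-- Three distinct unit coordinates. -/
structure PA.Tri (j k l : Ω) (w : Y) : Prop where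
  hj : ε (P.v w j) = 1
  hk : ε (P.v w k) = 1
  hl : ε (P.v w l) = 1
  jk : j ≠ k
  jl : j ≠ l
  kl : k ≠ l

variable {P}

theorem PA.Tri.chart {j k l : Ω} {w : Y} (h : P.Tri j k l w) (b d : Ω) :
    ∃ n, ε (P.v w n) = 1 ∧ b ≠ n ∧ d ≠ n := by
  have h1 := h.jk
  have h2 := h.jl
  have h3 := h.kl
  by_cases hj : b ≠ j ∧ d ≠ j
  · exact ⟨j, h.hj, hj⟩
  by_cases hk : b ≠ k ∧ d ≠ k
  · exact ⟨k, h.hk, hk⟩
  refine ⟨l, h.hl, ?_⟩
  by_cases e1 : b = j <;> by_cases e2 : d = j <;> by_cases e3 : b = k <;> by_cases e4 : d = k <;>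
    simp_all [eq_comm]

theorem PA.Tri.res {j k l : Ω} {w : Y} (h : P.Tri j k l w) {a b : Ω} (r : R) (hab : a ≠ b)
    (ha : ε (P.v w a) = 0) (n : Ω) : ε (P.v (P.A a b r w) n) = ε (P.v w n) := by
  obtain ⟨m, hm, hb, -⟩ := h.chart b b
  exact P.res_of_zero m r hm hb hab ha n

theorem PA.Tri.step {j k l : Ω} {w : Y} (h : P.Tri j k l w) {a b : Ω} (r : R) (hab : a ≠ b)
    (ha : ε (P.v w a) = 0) : P.Tri j k l (P.A a b r w) :=
  ⟨by rw [h.res r hab ha, h.hj], by rw [h.res r hab ha, h.hk], by rw [h.res r hab ha, h.hl],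
    h.jk, h.jl, h.kl⟩

theorem PA.Tri.step' {j k l : Ω} {w : Y} (h : P.Tri j k l w) {a b : Ω} (r : R) (hab : a ≠ b)
    (hj : b ≠ j) (hk : b ≠ k) (hl : b ≠ l) : P.Tri j k l (P.A a b r w) :=
  ⟨P.keep r h.hj hj hab, P.keep r h.hk hk hab, P.keep r h.hl hl hab, h.jk, h.jl, h.kl⟩

theorem PA.Tri.comm {j k l : Ω} {w : Y} (h : P.Tri j k l w) {a b c d : Ω} (r s : R)
    (hab : a ≠ b) (hcd : c ≠ d) (hbc : b ≠ c) (had : a ≠ d) :
    P.A c d s (P.A a b r w) = P.A a b r (P.A c d s w) := by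
  obtain ⟨n, hn, hb, hd⟩ := h.chart b d
  exact P.A_comm n r s hn hb hd hab hcd hbc had

theorem PA.Tri.add {j k l : Ω} {w : Y} (h : P.Tri j k l w) {a b : Ω} (r s : R)
    (hab : a ≠ b) : P.A a b s (P.A a b r w) = P.A a b (r + s) w := by
  obtain ⟨n, hn, hb, -⟩ := h.chart b b
  exact P.A_add n r s hn hb hab

theorem PA.Tri.mul {j k l : Ω} {w : Y} (h : P.Tri j k l w) {a b d : Ω} (r s : R)
    (hab : a ≠ b) (hbd : b ≠ d) (had : a ≠ d) :
    P.A b d s (P.A a b r w) = P.A a b r (P.A b d s (P.A a d (r * s) w)) := by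
  obtain ⟨n, hn, hb, hd⟩ := h.chart b d
  exact P.A_mul n r s hn hb hd hab hbd had

theorem PA.Tri.res_C {j k l : Ω} {w : Y} (h : P.Tri j k l w) {a : Ω} (r : R)
    (ha : ε (P.v w a) = 0) (haj : a ≠ j) (hak : a ≠ k) (hal : a ≠ l) (n : Ω) :
    ε (P.v (P.C j k l a r w) n) = ε (P.v w n) := by
  have t1 := h.step r haj ha
  have a1 := (h.res r haj ha a).trans ha
  have t2 := t1.step r hal a1
  have a2 := (t1.res r hal a1 a).trans a1
  unfold PA.C
  rw [t2.res r hak a2, t1.res r hal a1, h.res r haj ha]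

theorem PA.Tri.step_C {j k l : Ω} {w : Y} (h : P.Tri j k l w) {a : Ω} (r : R)
    (ha : ε (P.v w a) = 0) (haj : a ≠ j) (hak : a ≠ k) (hal : a ≠ l) :
    P.Tri j k l (P.C j k l a r w) :=
  ⟨by rw [h.res_C r ha haj hak hal, h.hj], by rw [h.res_C r ha haj hak hal, h.hk],
    by rw [h.res_C r ha haj hak hal, h.hl], h.jk, h.jl, h.kl⟩

/-- A generator with a non-unit row commuting formally with the three factors of `C`. -/
theorem PA.Tri.comm_C {j k l : Ω} {w : Y} (h : P.Tri j k l w) {a c d : Ω} (r s : R)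
    (ha : ε (P.v w a) = 0) (haj : a ≠ j) (hak : a ≠ k) (hal : a ≠ l) (hcd : c ≠ d)
    (hcj : c ≠ j) (hck : c ≠ k) (hcl : c ≠ l) (had : a ≠ d) :
    P.A c d s (P.C j k l a r w) = P.C j k l a r (P.A c d s w) := by
  have t1 := h.step r haj ha
  have a1 := (h.res r haj ha a).trans ha
  have t2 := t1.step r hal a1
  unfold PA.C
  rw [t2.comm r s hak hcd (Ne.symm hck) had, t1.comm r s hal hcd (Ne.symm hcl) had,
    h.comm r s haj hcd (Ne.symm hcj) had]

theorem PA.Tri.C_add {j k l : Ω} {w : Y} (h : P.Tri j k l w) {a : Ω} (r s : R)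
    (ha : ε (P.v w a) = 0) (haj : a ≠ j) (hak : a ≠ k) (hal : a ≠ l) :
    P.C j k l a s (P.C j k l a r w) = P.C j k l a (r + s) w := by
  have t1 := h.step r haj ha
  have a1 := (h.res r haj ha a).trans ha
  have t2 := t1.step r hal a1
  have u1 := h.step (r + s) haj ha
  have b1 := (h.res (r + s) haj ha a).trans ha
  have u2 := u1.step r hal b1
  have u3 := u1.step (r + s) hal b1
  unfold PA.C
  rw [t2.comm r s hak haj (Ne.symm hak) haj, t1.comm r s hal haj (Ne.symm hal) haj,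
    h.add r s haj, u2.comm r s hak hal (Ne.symm hak) hal, u1.add r s hal, u3.add r s hak]

theorem PA.Tri.C_C {j k l : Ω} {w : Y} (h : P.Tri j k l w) {a c : Ω} (r s : R)
    (ha : ε (P.v w a) = 0) (haj : a ≠ j) (hak : a ≠ k) (hal : a ≠ l)
    (hc : ε (P.v w c) = 0) (hcj : c ≠ j) (hck : c ≠ k) (hcl : c ≠ l) :
    P.C j k l c s (P.C j k l a r w) = P.C j k l a r (P.C j k l c s w) := by
  have t1 := h.step s hcj hc
  have a1 := (h.res s hcj hc a).trans ha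
  have c1 := (h.res s hcj hc c).trans hc
  have t2 := t1.step s hcl c1
  have a2 := (t1.res s hcl c1 a).trans a1
  change P.A c k s (P.A c l s (P.A c j s (P.C j k l a r w))) =
    P.C j k l a r (P.A c k s (P.A c l s (P.A c j s w)))
  rw [h.comm_C r s ha haj hak hal hcj hcj hck hcl haj,
    t1.comm_C r s a1 haj hak hal hcl hcj hck hcl hal,
    t2.comm_C r s a2 haj hak hal hck hcj hck hcl hak]

variable (P)

/-- Normal form of a point all of whose units lie in two given columns. -/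
theorem PA.exists_Z (two : ∀ r : R, r + r = 0) {j k l : Ω} {y : Y} (hj : ε (P.v y j) = 1)
    (hk : ε (P.v y k) = 0) (hl : ε (P.v y l) = 0) (hjk : j ≠ k) (hjl : j ≠ l) (hkl : k ≠ l) :
    ∃ w, P.Tri j k l w ∧ y = P.Z j k l w ∧ ∀ n, k ≠ n → l ≠ n → P.v w n = P.v y n :=
  ⟨P.Z j k l y, ⟨by rw [P.Z_ne y hjk hjl (Ne.symm hjk) (Ne.symm hjl), hj],
    P.Z_k hj hk hjk hjl hkl, P.Z_l hj hl hjk hjl hkl, hjk, hjl, hkl⟩,
    (P.Z_Z two hj hjk hjl).symm, fun _ h1 h2 => P.Z_ne y hjk hjl h1 h2⟩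

theorem PA.G_col' (two : ∀ r : R, r + r = 0) (haux : ∀ a b, aux a b ≠ a ∧ aux a b ≠ b)
    {a j k l : Ω} (r : R) {w : Y} (h : P.Tri j k l w) (ha : ε (P.v w a) = 0) (haj : a ≠ j)
    (hak : a ≠ k) (hal : a ≠ l) :
    P.G aux a j r (P.Z j k l w) = P.Z j k l (P.C j k l a r w) :=
  P.G_col two haux r h.hj h.hk h.hl ha haj h.jk hak h.jl hal h.kl

theorem PA.G_oth' {a b j k l : Ω} (r : R) {w : Y} (h : P.Tri j k l w) (hab : a ≠ b)
    (hbj : b ≠ j) (hak : a ≠ k) (hal : a ≠ l) :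
    P.G aux a b r (P.Z j k l w) = P.Z j k l (P.A a b r w) :=
  P.G_oth r h.hj hab hbj h.jk hak h.jl hal

variable [Fintype Ω]

theorem exists_two_more (hΩ : 6 ≤ Fintype.card Ω) (a b c d : Ω) :
    ∃ k l : Ω, k ≠ l ∧ (a ≠ k ∧ b ≠ k ∧ c ≠ k ∧ d ≠ k) ∧ (a ≠ l ∧ b ≠ l ∧ c ≠ l ∧ d ≠ l) := by
  obtain ⟨k, hk⟩ := exists_notMem_list [a, b, c, d] (by simp; omega)
  obtain ⟨l, hl⟩ := exists_notMem_list [k, a, b, c, d] (by simp; omega)
  simp only [List.mem_cons, List.not_mem_nil, or_false, not_or] at hk hl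
  exact ⟨k, l, Ne.symm hl.1, ⟨Ne.symm hk.1, Ne.symm hk.2.1, Ne.symm hk.2.2.1, Ne.symm hk.2.2.2⟩,
    ⟨Ne.symm hl.2.1, Ne.symm hl.2.2.1, Ne.symm hl.2.2.2.1, Ne.symm hl.2.2.2.2⟩⟩

theorem PA.G_add (two : ∀ r : R, r + r = 0) (haux : ∀ a b, aux a b ≠ a ∧ aux a b ≠ b)
    (hΩ : 6 ≤ Fintype.card Ω) {a b : Ω} (r s : R) (y : Y) (hab : a ≠ b) :
    P.G aux a b s (P.G aux a b r y) = P.G aux a b (r + s) y := by
  by_cases h : ∃ n, ε (P.v y n) = 1 ∧ b ≠ n
  · obtain ⟨n, hn, hb⟩ := h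
    rw [P.G_good n r hn hb, P.G_good n _ hn hb, P.G_good n s (P.keep r hn hb hab) hb,
      P.A_add n r s hn hb hab]
  have hz : ∀ n, b ≠ n → ε (P.v y n) = 0 := fun n hn => zmod2_ne_one fun e => h ⟨n, e, hn⟩
  obtain ⟨j, hj⟩ := P.uni y
  obtain rfl : b = j := by
    by_contra e
    exact h ⟨j, hj, e⟩
  obtain ⟨k, l, hkl, ⟨hak, hbk, -, -⟩, ⟨hal, hbl, -, -⟩⟩ := exists_two_more hΩ a b a b
  obtain ⟨w, t, rfl, hw⟩ := P.exists_Z two hj (hz k hbk) (hz l hbl) hbk hbl hkl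
  have ha : ε (P.v w a) = 0 := by rw [hw a (Ne.symm hak) (Ne.symm hal), hz a (Ne.symm hab)]
  rw [P.G_col' two haux r t ha hab hak hal, P.G_col' two haux _ t ha hab hak hal,
    P.G_col' two haux s (t.step_C r ha hab hak hal) ((t.res_C r ha hab hak hal a).trans ha)
      hab hak hal, t.C_add r s ha hab hak hal]

theorem PA.G_zero (two : ∀ r : R, r + r = 0) (haux : ∀ a b, aux a b ≠ a ∧ aux a b ≠ b)
    (hΩ : 6 ≤ Fintype.card Ω) {a b : Ω} (y : Y) (hab : a ≠ b) : P.G aux a b 0 y = y := by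
  by_cases h : ∃ n, ε (P.v y n) = 1 ∧ b ≠ n
  · obtain ⟨n, hn, hb⟩ := h
    rw [P.G_good n _ hn hb, P.A_zero n hn hb hab]
  have hz : ∀ n, b ≠ n → ε (P.v y n) = 0 := fun n hn => zmod2_ne_one fun e => h ⟨n, e, hn⟩
  obtain ⟨j, hj⟩ := P.uni y
  obtain rfl : b = j := by
    by_contra e
    exact h ⟨j, hj, e⟩
  obtain ⟨k, l, hkl, ⟨hak, hbk, -, -⟩, ⟨hal, hbl, -, -⟩⟩ := exists_two_more hΩ a b a b
  obtain ⟨w, t, rfl, hw⟩ := P.exists_Z two hj (hz k hbk) (hz l hbl) hbk hbl hkl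
  have ha : ε (P.v w a) = 0 := by rw [hw a (Ne.symm hak) (Ne.symm hal), hz a (Ne.symm hab)]
  rw [P.G_col' two haux _ t ha hab hak hal]
  unfold PA.C
  rw [P.A_zero k t.hk hbk hab, P.A_zero b t.hj (Ne.symm hbl) hal,
    P.A_zero b t.hj (Ne.symm hbk) hak]

theorem PA.G_comm_aux (two : ∀ r : R, r + r = 0) (haux : ∀ a b, aux a b ≠ a ∧ aux a b ≠ b)
    (hΩ : 6 ≤ Fintype.card Ω) {a b c d : Ω} (r s : R) (y : Y) (hab : a ≠ b) (hcd : c ≠ d)
    (hbc : b ≠ c) (had : a ≠ d) (hz : ∀ n, b ≠ n → d ≠ n → ε (P.v y n) = 0)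
    (hb : ε (P.v y b) = 1) :
    P.G aux c d s (P.G aux a b r y) = P.G aux a b r (P.G aux c d s y) := by
  obtain ⟨k, l, hkl, ⟨hak, hbk, hck, hdk⟩, ⟨hal, hbl, hcl, hdl⟩⟩ := exists_two_more hΩ a b c d
  obtain ⟨w, t, rfl, hw⟩ := P.exists_Z two hb (hz k hbk hdk) (hz l hbl hdl) hbk hbl hkl
  have ha : ε (P.v w a) = 0 := by
    rw [hw a (Ne.symm hak) (Ne.symm hal), hz a (Ne.symm hab) (Ne.symm had)]
  have hc : ε (P.v w c) = 0 := by
    rw [hw c (Ne.symm hck) (Ne.symm hcl), hz c hbc (Ne.symm hcd)]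
  by_cases e : d = b
  · subst e
    rw [P.G_col' two haux r t ha hab hak hal, P.G_col' two haux s t hc hcd hck hcl,
      P.G_col' two haux s (t.step_C r ha hab hak hal) ((t.res_C r ha hab hak hal c).trans hc)
        hcd hck hcl,
      P.G_col' two haux r (t.step_C s hc hcd hck hcl) ((t.res_C s hc hcd hck hcl a).trans ha)
        hab hak hal, t.C_C r s ha hab hak hal hc hcd hck hcl]
  · rw [P.G_col' two haux r t ha hab hak hal, P.G_oth' s t hcd e hck hcl,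
      P.G_oth' s (t.step_C r ha hab hak hal) hcd e hck hcl,
      P.G_col' two haux r (t.step s hcd hc) ((t.res s hcd hc a).trans ha) hab hak hal,
      t.comm_C r s ha hab hak hal hcd (Ne.symm hbc) hck hcl had]

theorem PA.G_comm (two : ∀ r : R, r + r = 0) (haux : ∀ a b, aux a b ≠ a ∧ aux a b ≠ b)
    (hΩ : 6 ≤ Fintype.card Ω) {a b c d : Ω} (r s : R) (y : Y) (hab : a ≠ b) (hcd : c ≠ d)
    (hbc : b ≠ c) (had : a ≠ d) :
    P.G aux c d s (P.G aux a b r y) = P.G aux a b r (P.G aux c d s y) := by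
  by_cases h : ∃ n, ε (P.v y n) = 1 ∧ b ≠ n ∧ d ≠ n
  · obtain ⟨n, hn, hb, hd⟩ := h
    rw [P.G_good n r hn hb, P.G_good n s hn hd, P.G_good n s (P.keep r hn hb hab) hd,
      P.G_good n r (P.keep s hn hd hcd) hb, P.A_comm n r s hn hb hd hab hcd hbc had]
  have hz : ∀ n, b ≠ n → d ≠ n → ε (P.v y n) = 0 :=
    fun n h1 h2 => zmod2_ne_one fun e => h ⟨n, e, h1, h2⟩
  obtain ⟨j, hj⟩ := P.uni y
  by_cases e : b = j
  · subst e
    exact P.G_comm_aux two haux hΩ r s y hab hcd hbc had hz hj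
  obtain rfl : d = j := by
    by_contra e'
    exact h ⟨j, hj, e, e'⟩
  exact (P.G_comm_aux two haux hΩ s r y hcd hab (Ne.symm had) (Ne.symm hbc)
    (fun n h1 h2 => hz n h2 h1) hj).symm

theorem PA.G_mul (two : ∀ r : R, r + r = 0) (haux : ∀ a b, aux a b ≠ a ∧ aux a b ≠ b)
    (hΩ : 6 ≤ Fintype.card Ω) {a b d : Ω} (r s : R) (y : Y) (hab : a ≠ b) (hbd : b ≠ d)
    (had : a ≠ d) :
    P.G aux b d s (P.G aux a b r y) =
      P.G aux a b r (P.G aux b d s (P.G aux a d (r * s) y)) := by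
  by_cases h : ∃ n, ε (P.v y n) = 1 ∧ b ≠ n ∧ d ≠ n
  · obtain ⟨n, hn, hb, hd⟩ := h
    have h1 := P.keep (r * s) hn hd had
    rw [P.G_good n r hn hb, P.G_good n _ hn hd, P.G_good n s (P.keep r hn hb hab) hd,
      P.G_good n s h1 hd, P.G_good n r (P.keep s h1 hd hbd) hb,
      P.A_mul n r s hn hb hd hab hbd had]
  have hz : ∀ n, b ≠ n → d ≠ n → ε (P.v y n) = 0 :=
    fun n h1 h2 => zmod2_ne_one fun e => h ⟨n, e, h1, h2⟩
  obtain ⟨k, l, hkl, ⟨hak, hbk, hdk, -⟩, ⟨hal, hbl, hdl, -⟩⟩ := exists_two_more hΩ a b d d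
  by_cases hb : ε (P.v y b) = 1
  · obtain ⟨w, t, rfl, hw⟩ := P.exists_Z two hb (hz k hbk hdk) (hz l hbl hdl) hbk hbl hkl
    have ha : ε (P.v w a) = 0 := by
      rw [hw a (Ne.symm hak) (Ne.symm hal), hz a (Ne.symm hab) (Ne.symm had)]
    have t1 := t.step (r * s) had ha
    have t2 := t1.step' s hbd (Ne.symm hbd) hdk hdl
    have a2 : ε (P.v (P.A b d s (P.A a d (r * s) w)) a) = 0 := by
      rw [P.vA_ne s _ hbd (Ne.symm had), P.vA_ne _ _ had (Ne.symm had), ha]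
    rw [P.G_col' two haux r t ha hab hak hal,
      P.G_oth' s (t.step_C r ha hab hak hal) hbd (Ne.symm hbd) hbk hbl,
      P.G_oth' _ t had (Ne.symm hbd) hak hal, P.G_oth' s t1 hbd (Ne.symm hbd) hbk hbl,
      P.G_col' two haux r t2 a2 hab hak hal]
    congr 1
    have u1 := t.step r hab ha
    have a1 := (t.res r hab ha a).trans ha
    have u2 := u1.step r hal a1
    unfold PA.C
    rw [u2.comm r s hak hbd (Ne.symm hbk) had, u1.comm r s hal hbd (Ne.symm hbl) had,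
      t.mul r s hab hbd had]
  obtain ⟨j, hj⟩ := P.uni y
  obtain rfl : d = j := by
    by_contra e'
    refine h ⟨j, hj, ?_, e'⟩
    rintro rfl
    exact hb hj
  obtain ⟨w, t, rfl, hw⟩ := P.exists_Z two hj (hz k hbk hdk) (hz l hbl hdl) hdk hdl hkl
  have ha : ε (P.v w a) = 0 := by
    rw [hw a (Ne.symm hak) (Ne.symm hal), hz a (Ne.symm hab) (Ne.symm had)]
  have hb' : ε (P.v w b) = 0 := by
    rw [hw b (Ne.symm hbk) (Ne.symm hbl), zmod2_ne_one hb]
  have t1 := t.step r hab ha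
  have b1 := (t.res r hab ha b).trans hb'
  have u1 := t.step_C (r * s) ha had hak hal
  have c1 := (t.res_C (r * s) ha had hak hal b).trans hb'
  have u2 := u1.step_C s c1 hbd hbk hbl
  rw [P.G_oth' r t hab hbd hak hal, P.G_col' two haux s t1 b1 hbd hbk hbl,
    P.G_col' two haux _ t ha had hak hal, P.G_col' two haux s u1 c1 hbd hbk hbl,
    P.G_oth' r u2 hab hbd hak hal]
  congr 1
  -- the identity in the middle region, where `d, k, l` stay units
  have p1 := t.step (r * s) had ha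
  have pa1 := (t.res (r * s) had ha a).trans ha
  have pb1 := (t.res (r * s) had ha b).trans hb'
  have p2 := p1.step s hbd pb1
  have pa2 := (p1.res s hbd pb1 a).trans pa1
  have pb2 := (p1.res s hbd pb1 b).trans pb1
  have p3 := p2.step (r * s) hal pa2
  have pa3 := (p2.res (r * s) hal pa2 a).trans pa2
  have pb3 := (p2.res (r * s) hal pa2 b).trans pb2
  have p4 := p3.step s hbl pb3
  have q2 := p1.step (r * s) hal pa1
  unfold PA.C
  rw [t.mul r s hab hbd had, p2.mul r s hab hbl hal, p4.mul r s hab hbk hak,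
    q2.comm (r * s) s hak hbd (Ne.symm hbk) had, p1.comm (r * s) s hal hbd (Ne.symm hbl) had,
    p3.comm (r * s) s hak hbl (Ne.symm hbk) hal]

end ext

/-- A partial action in the sense of `PartAct` as a `PA`. -/
def PartAct.toPA {Ω R Y : Type} [DecidableEq Ω] [Ring R] {ε : R →+* ZMod 2}
    (P : PartAct Ω R Y ε) : PA Ω R Y (fun r => ε r = 1) :=
  ⟨P.v, P.F, P.uni, P.vF, P.indep, P.zero, P.add, P.comm, P.mul⟩

theorem PartAct.extend {Ω R Y : Type} [Fintype Ω] [DecidableEq Ω] [Ring R]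
    (two : ∀ r : R, r + r = 0) {ε : R →+* ZMod 2} (P : PartAct Ω R Y ε)
    (hΩ : 6 ≤ Fintype.card Ω) :
    ∃ G : Ω → Ω → R → Equiv.Perm Y, IsSt G ∧
      ∀ k a b r y, ε (P.v y k) = 1 → b ≠ k → a ≠ b → G a b r y = P.F k a b r y := by
  have hex : ∀ a b : Ω, ∃ k, k ≠ a ∧ k ≠ b := by
    intro a b
    obtain ⟨k, -, -, ⟨h1, h2, -, -⟩, -⟩ := exists_two_more hΩ a b a b
    exact ⟨k, Ne.symm h1, Ne.symm h2⟩
  choose aux haux using hex
  let Q := P.toPA
  have inv : ∀ a b r, a ≠ b → Function.Involutive (Q.G aux a b r) := by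
    intro a b r hab y
    rw [Q.G_add two haux hΩ r r y hab, two, Q.G_zero two haux hΩ y hab]
  let G : Ω → Ω → R → Equiv.Perm Y := fun a b r =>
    if h : a = b then 1 else (inv a b r h).toPerm _
  have hG : ∀ a b r y, a ≠ b → G a b r y = Q.G aux a b r y := by
    intro a b r y hab
    simp only [G, dif_neg hab]
    rfl
  have hG1 : ∀ a r, G a a r = 1 := by
    intro a r
    simp only [G, dif_pos]
  have hGG : ∀ a b r, G a b r * G a b r = 1 := by
    intro a b r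
    by_cases hab : a = b
    · subst hab
      rw [hG1, one_mul]
    · ext y
      rw [Equiv.Perm.mul_apply, hG _ _ _ _ hab, hG _ _ _ _ hab, inv a b r hab]
      rfl
  have hGi : ∀ a b r, (G a b r)⁻¹ = G a b r := fun a b r => inv_eq_of_mul_eq_one_right (hGG a b r)
  refine ⟨G, ⟨hG1, ?_, ?_, ?_⟩, ?_⟩
  · intro a b r s
    by_cases hab : a = b
    · subst hab
      rw [hG1, hG1, hG1, one_mul]
    · ext y
      rw [Equiv.Perm.mul_apply, hG _ _ _ _ hab, hG _ _ _ _ hab, hG _ _ _ _ hab,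
        Q.G_add two haux hΩ s r y hab, add_comm]
  · intro a b c d r s hbc had
    by_cases hab : a = b
    · subst hab
      rw [hG1, one_mul, mul_one]
    by_cases hcd : c = d
    · subst hcd
      rw [hG1, one_mul, mul_one]
    ext y
    rw [Equiv.Perm.mul_apply, Equiv.Perm.mul_apply, hG _ _ _ _ hab, hG _ _ _ _ hab,
      hG _ _ _ _ hcd, hG _ _ _ _ hcd, Q.G_comm two haux hΩ r s y hab hcd hbc had]
  · intro a b d r s hab hbd had
    have key : G b d s * G a b r = G a b r * (G b d s * G a d (r * s)) := by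
      ext y
      simp only [Equiv.Perm.mul_apply]
      rw [hG _ _ _ _ hab, hG _ _ _ _ hbd, hG _ _ _ _ hab, hG _ _ _ _ hbd, hG _ _ _ _ had,
        Q.G_mul two haux hΩ r s y hab hbd had]
    have e : G a d (r * s) = (G b d s)⁻¹ * ((G a b r)⁻¹ * (G b d s * G a b r)) := by
      rw [key]; group
    rw [← hGi a d, e, mul_inv_rev, mul_inv_rev, mul_inv_rev, inv_inv, inv_inv, hGi, hGi]
  · intro k a b r y hk hb hab
    rw [hG _ _ _ _ hab, Q.G_good k r hk hb, Q.A_eq k r hk hb hab]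
    rfl

end Vale.Agent.P192
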