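import Vale.Agent.P192.StabA
import Vale.Agent.P192.StabB

namespace Vale.Agent.P192

theorem St.map_some_injective {I R : Type} [Fintype I] [Ring R]
    (two : ∀ r : R, r + r = 0) (ε : R →+* ZMod 2) (hu : ∀ r, ε r = 1 → IsUnit r)
    (hI : 5 ≤ Fintype.card I) :
    Function.Injective (St.map some (Option.some_injective I) (RingHom.id R)) := by
  classical
  obtain ⟨Y, P, pt, hinj, hv, hF⟩ := St.exists_partAct two ε hu hI
  obtain ⟨G, hG, hGF⟩ := P.extend two (by rw [Fintype.card_option]; omega)
  have key : ∀ g : St I R, ∀ σ,
      St.lift hG (St.map some (Option.some_injective I) (RingHom.id R) g) (pt σ) = pt (σ * g⁻¹) := by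
    intro g
    induction g using St.induction with
    | one => intro σ; simp
    | step i j r g hij ih =>
      intro σ
      have hij' : some i ≠ some j := fun h => hij (Option.some_injective _ h)
      rw [map_mul, map_mul, Equiv.Perm.mul_apply, ih, St.map_x, St.lift_x, RingHom.id_apply,
        hGF none _ _ _ _ (hv _) (by simp) hij', hF _ _ _ _ hij, mul_inv_rev, St.isSt.inv' two,
        mul_assoc]
  intro g g' h
  have e1 := key g 1
  rw [h, key g' 1] at e1
  have e2 := hinj e1
  simpa using e2.symm

theorem St.map_comp {I J K R : Type} [Ring R] (e : I → J) (he : Function.Injective e)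
    (f : J → K) (hf : Function.Injective f) (g : St I R) :
    St.map f hf (RingHom.id R) (St.map e he (RingHom.id R) g) =
      St.map (f ∘ e) (hf.comp he) (RingHom.id R) g := by
  have : (St.map f hf (RingHom.id R)).comp (St.map e he (RingHom.id R)) =
      St.map (f ∘ e) (hf.comp he) (RingHom.id R) := St.hom_ext fun i j r => by simp
  exact DFunLike.congr_fun this g

theorem St.map_equiv_injective {I J R : Type} [Ring R] (e : I ≃ J) :
    Function.Injective (St.map e e.injective (RingHom.id R)) := by
  have : (St.map e.symm e.symm.injective (RingHom.id R)).comp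
      (St.map e e.injective (RingHom.id R)) = MonoidHom.id _ := St.hom_ext fun i j r => by simp
  exact Function.LeftInverse.injective (g := St.map e.symm e.symm.injective (RingHom.id R))
    fun g => DFunLike.congr_fun this g

theorem St.map_injective_aux {I R : Type} [Fintype I] [Ring R]
    (two : ∀ r : R, r + r = 0) (ε : R →+* ZMod 2) (hu : ∀ r, ε r = 1 → IsUnit r)
    (hI : 5 ≤ Fintype.card I) (n : ℕ) : ∀ (J : Type) [Fintype J] (e : I → J)
    (he : Function.Injective e), Fintype.card J = Fintype.card I + n →
    Function.Injective (St.map e he (RingHom.id R)) := by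
  classical
  induction n with
  | zero =>
    intro J _ e he hc
    have hb : Function.Bijective e := (Fintype.bijective_iff_injective_and_card e).2 ⟨he, by omega⟩
    exact St.map_equiv_injective (Equiv.ofBijective e hb)
  | succ n ih =>
    intro J _ e he hc
    have hns : ¬ Function.Surjective e := fun hs => by
      have := Fintype.card_le_of_surjective e hs
      omega
    obtain ⟨j0, hj0⟩ : ∃ j0, ∀ i, e i ≠ j0 := by
      simpa [Function.Surjective] using hns
    let e' : I → {j // j ≠ j0} := fun i => ⟨e i, hj0 i⟩
    have he' : Function.Injective e' := fun a b h => he (congrArg Subtype.val h)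
    let q : Option {j // j ≠ j0} ≃ J := Equiv.optionSubtypeNe j0
    have hcard : Fintype.card {j // j ≠ j0} = Fintype.card I + n := by
      have := Fintype.card_congr q
      rw [Fintype.card_option] at this
      omega
    have i1 := ih _ e' he' hcard
    have i2 := St.map_some_injective (I := {j // j ≠ j0}) two ε hu (by omega)
    have i3 := St.map_equiv_injective (R := R) q
    intro g g' h
    apply i1
    apply i2
    apply i3
    rw [St.map_comp, St.map_comp, St.map_comp, St.map_comp]
    exact h

theorem St.map_injective {I J R : Type} [Fintype I] [Fintype J] [Ring R]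
    (two : ∀ r : R, r + r = 0) (ε : R →+* ZMod 2) (hu : ∀ r, ε r = 1 → IsUnit r)
    (hI : 5 ≤ Fintype.card I) (e : I → J) (he : Function.Injective e) :
    Function.Injective (St.map e he (RingHom.id R)) := by
  obtain ⟨n, hn⟩ := Nat.exists_eq_add_of_le (Fintype.card_le_of_injective e he)
  exact St.map_injective_aux two ε hu hI n J e he hn

end Vale.Agent.P192
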