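import Vale.Agent.P192.StabB

/-!
From charts in which a coordinate equals `1` to charts in which a coordinate is a unit.
A row `v` with a unit coordinate `k` is represented by the row obtained from `v` by making
another coordinate `j` equal to `1` with the help of `x k j`.
-/

namespace Vale.Agent.P192

/-- The coefficient `c` with `v j + v k * c = 1`. -/
noncomputable def cf {Ω R : Type} [Ring R] (v : Ω → R) (k j : Ω) : R :=
  Ring.inverse (v k) * (1 + v j)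

theorem mul_cf {Ω R : Type} [Ring R] {v : Ω → R} {k : Ω} (hk : IsUnit (v k)) (j : Ω) :
    v k * cf v k j = 1 + v j := Ring.mul_inverse_cancel_left _ _ hk

theorem cf_mv {Ω R : Type} [DecidableEq Ω] [Ring R] (v : Ω → R) (a : Ω) {b k j : Ω} (r : R)
    (hk : b ≠ k) (hj : b ≠ j) : cf (mv v a b r) k j = cf v k j := by
  rw [cf, cf, mv_ne _ _ _ hk, mv_ne _ _ _ hj]

namespace PA

variable {Ω R Y : Type} [DecidableEq Ω] [Ring R] (P : PA Ω R Y (fun r => r = 1))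

/-- `y` lies over the row `v` with the coordinate `j` replaced by `1`. -/
def Ov (v : Ω → R) (j : Ω) (y : Y) : Prop := P.v y = Function.update v j 1

/-- Change of the representing row. -/
noncomputable def tau (v : Ω → R) (k j l j' : Ω) (y : Y) : Y :=
  if j = j' then y else P.A k j (cf v k j) (P.A l j' (cf v l j') y)

variable {P}

theorem Ov.one {v : Ω → R} {j : Ω} {y : Y} (h : P.Ov v j y) : P.v y j = 1 := by
  rw [h, Function.update_self]

theorem Ov.ne {v : Ω → R} {j n : Ω} {y : Y} (h : P.Ov v j y) (hn : n ≠ j) : P.v y n = v n := by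
  rw [h, Function.update_of_ne hn]

theorem make_one (two : ∀ r : R, r + r = 0) {v : Ω → R} (n : Ω) {l j : Ω} {y : Y}
    (hn : P.v y n = 1) (hj : j ≠ n) (hlj : l ≠ j) (hl : IsUnit (v l)) (e1 : P.v y l = v l)
    (e2 : P.v y j = v j) : P.v (P.A l j (cf v l j) y) j = 1 := by
  rw [P.vA n _ hn hj hlj, mv_self, e1, e2, mul_cf hl, add_comm 1, ← add_assoc, two, zero_add]

theorem tau_ne {v : Ω → R} (k l : Ω) {j j' : Ω} (h : j ≠ j') (y : Y) :
    P.tau v k j l j' y = P.A k j (cf v k j) (P.A l j' (cf v l j') y) := if_neg h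

theorem tau_self (v : Ω → R) (k l j : Ω) (y : Y) : P.tau v k j l j y = y := if_pos rfl

theorem Ov.tau (two : ∀ r : R, r + r = 0) {v : Ω → R} {k l j j' : Ω} {y : Y} (h : P.Ov v j y)
    (hk : IsUnit (v k)) (hl : IsUnit (v l)) (kj : k ≠ j) (kj' : k ≠ j') (lj : l ≠ j)
    (lj' : l ≠ j') : P.Ov v j' (P.tau v k j l j' y) := by
  by_cases e : j = j'
  · subst e
    rw [tau_self]; exact h
  have h1 : P.v (P.A l j' (cf v l j') y) j' = 1 :=
    make_one two j h.one (Ne.symm e) lj' hl (h.ne lj) (h.ne (Ne.symm e))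
  rw [tau_ne k l e]
  funext n
  by_cases n1 : j' = n
  · subst n1
    rw [P.vA_ne _ _ kj e, h1, Function.update_self]
  rw [Function.update_of_ne (Ne.symm n1)]
  by_cases n2 : j = n
  · subst n2
    rw [P.vA j' _ h1 e kj, mv_self, P.vA_ne _ _ lj' n1, P.vA_ne _ _ lj' (Ne.symm kj'), h.one,
      h.ne kj, mul_cf hk, ← add_assoc, two, zero_add]
  · rw [P.vA_ne _ _ kj n2, P.vA_ne _ _ lj' n1, h.ne (Ne.symm n2)]

theorem Ov.tau_back (two : ∀ r : R, r + r = 0) {v : Ω → R} {k l j j' : Ω} {y : Y}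
    (h : P.Ov v j y) (hl : IsUnit (v l)) (kj : k ≠ j) (lj : l ≠ j)
    (lj' : l ≠ j') : P.tau v l j' k j (P.tau v k j l j' y) = y := by
  by_cases e : j = j'
  · subst e
    rw [tau_self, tau_self]
  have h1 : P.v (P.A l j' (cf v l j') y) j' = 1 :=
    make_one two j h.one (Ne.symm e) lj' hl (h.ne lj) (h.ne (Ne.symm e))
  rw [tau_ne k l e, tau_ne l k (Ne.symm e), P.A_A two j' _ h1 e kj,
    P.A_A two j _ h.one (Ne.symm e) lj']

theorem Ov.tau_tau (two : ∀ r : R, r + r = 0) {v : Ω → R} {k l m j j' j'' : Ω} {y : Y}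
    (h : P.Ov v j y) (hl : IsUnit (v l)) (hm : IsUnit (v m))
    (kj : k ≠ j) (kj' : k ≠ j') (kj'' : k ≠ j'') (lj : l ≠ j) (lj' : l ≠ j') (lj'' : l ≠ j'')
    (mj : m ≠ j) (mj' : m ≠ j') (mj'' : m ≠ j'') (e1 : j ≠ j') (e2 : j' ≠ j'') (e3 : j ≠ j'') :
    P.tau v l j' m j'' (P.tau v k j l j' y) = P.tau v k j m j'' y := by
  have h1 : P.v (P.A l j' (cf v l j') y) j' = 1 :=
    make_one two j h.one (Ne.symm e1) lj' hl (h.ne lj) (h.ne (Ne.symm e1))
  have h2 : P.v (P.A m j'' (cf v m j'') y) j'' = 1 :=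
    make_one two j h.one (Ne.symm e3) mj'' hm (h.ne mj) (h.ne (Ne.symm e3))
  rw [tau_ne k l e1, tau_ne l m e2, tau_ne k m e3,
    P.A_comm j' _ _ h1 e1 (Ne.symm e2) kj mj'' (Ne.symm mj) kj'',
    P.A_comm j _ _ h.one (Ne.symm e1) (Ne.symm e3) lj' mj'' (Ne.symm mj') lj'',
    P.A_comm j'' _ _ h2 e2 e3 lj' kj (Ne.symm kj') lj,
    P.A_A two j'' _ (P.keep _ h2 e3 kj) e2 lj']

theorem Ov.T_T (two : ∀ r : R, r + r = 0) {v : Ω → R} {k j j' j'' : Ω} {y : Y}
    (h : P.Ov v j y) (hk : IsUnit (v k)) (kj : k ≠ j) (kj' : k ≠ j') (kj'' : k ≠ j'') :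
    P.tau v k j' k j'' (P.tau v k j k j' y) = P.tau v k j k j'' y := by
  by_cases e1 : j = j'
  · subst e1
    rw [tau_self]
  by_cases e2 : j' = j''
  · subst e2
    rw [tau_self]
  by_cases e3 : j = j''
  · subst e3
    rw [h.tau_back two hk kj kj kj', tau_self]
  exact h.tau_tau two hk hk kj kj' kj'' kj kj' kj'' kj kj' kj'' e1 e2 e3

theorem Ov.T_tau (two : ∀ r : R, r + r = 0) {v : Ω → R} {k l i i' i'' : Ω} {y : Y}
    (h : P.Ov v i y) (hl : IsUnit (v l)) (ki : k ≠ i) (ki' : k ≠ i') (ki'' : k ≠ i'')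
    (li : l ≠ i) (li' : l ≠ i') (li'' : l ≠ i'') (e1 : i ≠ i') (e3 : i ≠ i'') :
    P.tau v l i' l i'' (P.tau v k i l i' y) = P.tau v k i l i'' y := by
  by_cases e2 : i' = i''
  · subst e2
    rw [tau_self]
  exact h.tau_tau two hl hl ki ki' ki'' li li' li'' li li' li'' e1 e2 e3

theorem Ov.tau_T (two : ∀ r : R, r + r = 0) {v : Ω → R} {k l i i' i'' : Ω} {y : Y}
    (h : P.Ov v i y) (hk : IsUnit (v k)) (hl : IsUnit (v l)) (ki : k ≠ i) (ki' : k ≠ i')
    (ki'' : k ≠ i'') (li : l ≠ i) (li' : l ≠ i') (li'' : l ≠ i'') (e2 : i' ≠ i'')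
    (e3 : i ≠ i'') : P.tau v k i' l i'' (P.tau v k i k i' y) = P.tau v k i l i'' y := by
  by_cases e1 : i = i'
  · subst e1
    rw [tau_self]
  exact h.tau_tau two hk hl ki ki' ki'' ki ki' ki'' li li' li'' e1 e2 e3

theorem Ov.move {v : Ω → R} {j a b : Ω} {y : Y} (h : P.Ov v j y) (r : R) (hab : a ≠ b)
    (aj : a ≠ j) (bj : b ≠ j) : P.Ov (mv v a b r) j (P.A a b r y) := by
  funext n
  by_cases n1 : j = n
  · subst n1
    rw [P.vA_ne _ _ hab bj, h.one, Function.update_self]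
  rw [Function.update_of_ne (Ne.symm n1), P.vA j r h.one bj hab]
  by_cases n2 : b = n
  · subst n2
    rw [mv_self, mv_self, h.ne bj, h.ne aj]
  · rw [mv_ne _ _ _ n2, mv_ne _ _ _ n2, h.ne (Ne.symm n1)]

theorem Ov.tau_move (two : ∀ r : R, r + r = 0) {v : Ω → R} {k l j j' a b : Ω} {y : Y}
    (h : P.Ov v j y) (r : R) (hl : IsUnit (v l)) (kj : k ≠ j) (lj : l ≠ j) (lj' : l ≠ j')
    (hab : a ≠ b) (aj : a ≠ j) (bj : b ≠ j) (aj' : a ≠ j') (bj' : b ≠ j') (bk : b ≠ k)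
    (bl : b ≠ l) :
    P.tau (mv v a b r) k j l j' (P.A a b r y) = P.A a b r (P.tau v k j l j' y) := by
  by_cases e : j = j'
  · subst e
    rw [tau_self, tau_self]
  have h1 : P.v (P.A l j' (cf v l j') y) j' = 1 :=
    make_one two j h.one (Ne.symm e) lj' hl (h.ne lj) (h.ne (Ne.symm e))
  rw [tau_ne k l e, tau_ne k l e, cf_mv v a r bk bj, cf_mv v a r bl bj',
    P.A_comm j _ _ h.one bj (Ne.symm e) hab lj' bl aj',
    P.A_comm j' _ _ h1 bj' e hab kj bk aj]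

end PA

/-- Auxiliary choices of indices. -/
structure Aux (Ω : Type) where
  j0 : Ω → Ω
  n3 : Ω → Ω → Ω → Ω
  i1 : Ω → Ω → Ω
  i2 : Ω → Ω → Ω
  hj0 : ∀ k, k ≠ j0 k
  hn3 : ∀ k a b, k ≠ n3 k a b ∧ a ≠ n3 k a b ∧ b ≠ n3 k a b
  hi1 : ∀ k l, k ≠ i1 k l ∧ l ≠ i1 k l
  hi2 : ∀ k l, k ≠ i2 k l ∧ l ≠ i2 k l
  hi : ∀ k l, i1 k l ≠ i2 k l

theorem exists_ne5 {Ω : Type} [Fintype Ω] (hΩ : 6 ≤ Fintype.card Ω) (a b c d e : Ω) :
    ∃ n, a ≠ n ∧ b ≠ n ∧ c ≠ n ∧ d ≠ n ∧ e ≠ n := by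
  obtain ⟨k, hk⟩ := exists_notMem_list [a, b, c, d, e] (by simp; omega)
  simp only [List.mem_cons, List.not_mem_nil, or_false, not_or] at hk
  exact ⟨k, Ne.symm hk.1, Ne.symm hk.2.1, Ne.symm hk.2.2.1, Ne.symm hk.2.2.2.1,
    Ne.symm hk.2.2.2.2⟩

theorem exists_aux {Ω : Type} [Fintype Ω] (hΩ : 6 ≤ Fintype.card Ω) : Nonempty (Aux Ω) := by
  choose f hf using exists_ne5 hΩ
  exact ⟨⟨fun k => f k k k k k, fun k a b => f k a b b b, fun k l => f k l l l l,
    fun k l => f k l (f k l l l l) l l, fun k => (hf _ _ _ _ _).1,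
    fun k a b => ⟨(hf _ _ _ _ _).1, (hf _ _ _ _ _).2.1, (hf _ _ _ _ _).2.2.1⟩,
    fun k l => ⟨(hf _ _ _ _ _).1, (hf _ _ _ _ _).2.1⟩,
    fun k l => ⟨(hf _ _ _ _ _).1, (hf _ _ _ _ _).2.1⟩, fun k l => (hf _ _ _ _ _).2.2.1⟩⟩

namespace PA

variable {Ω R Y : Type} [DecidableEq Ω] [Ring R] (P : PA Ω R Y (fun r => r = 1)) (X : Aux Ω)

/-- Coordinates with respect to the auxiliary index `n`. -/
noncomputable def crd (v : Ω → R) (k n : Ω) (z : Y) : Y := P.tau v k (X.j0 k) k n z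

/-- The local action in a unit chart. -/
noncomputable def uM (v : Ω → R) (k a b : Ω) (r : R) (z : Y) : Y :=
  P.tau (mv v a b r) k (X.n3 k a b) k (X.j0 k) (P.A a b r (P.crd X v k (X.n3 k a b) z))

/-- The change of unit chart. -/
noncomputable def uS (v : Ω → R) (k l : Ω) (z : Y) : Y :=
  P.tau v l (X.i2 k l) l (X.j0 l) (P.tau v k (X.i1 k l) l (X.i2 k l) (P.crd X v k (X.i1 k l) z))

variable {P X}

theorem crd_ov (two : ∀ r : R, r + r = 0) {v : Ω → R} {k n : Ω} {z : Y}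
    (h : P.Ov v (X.j0 k) z) (hk : IsUnit (v k)) (kn : k ≠ n) : P.Ov v n (P.crd X v k n z) :=
  h.tau two hk hk (X.hj0 k) kn (X.hj0 k) kn

theorem T_crd (two : ∀ r : R, r + r = 0) {v : Ω → R} {k n n' : Ω} {z : Y}
    (h : P.Ov v (X.j0 k) z) (hk : IsUnit (v k)) (kn : k ≠ n) (kn' : k ≠ n') :
    P.tau v k n k n' (P.crd X v k n z) = P.crd X v k n' z :=
  h.T_T two hk (X.hj0 k) kn kn'

theorem crd_inj (two : ∀ r : R, r + r = 0) {v : Ω → R} {k : Ω} (n : Ω) {z z' : Y}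
    (h : P.Ov v (X.j0 k) z) (h' : P.Ov v (X.j0 k) z') (hk : IsUnit (v k)) (kn : k ≠ n)
    (e : P.crd X v k n z = P.crd X v k n z') : z = z' := by
  have e1 := T_crd two h hk kn (X.hj0 k)
  have e2 := T_crd two h' hk kn (X.hj0 k)
  rw [e, e2] at e1
  unfold crd at e1
  rw [tau_self, tau_self] at e1
  exact e1.symm

theorem isUnit_mv {v : Ω → R} {k b : Ω} (a : Ω) (r : R) (hk : IsUnit (v k)) (hb : b ≠ k) :
    IsUnit (mv v a b r k) := by
  rw [mv_ne _ _ _ hb]; exact hk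

theorem uM_ov (two : ∀ r : R, r + r = 0) {v : Ω → R} {k a b : Ω} (r : R) {z : Y}
    (h : P.Ov v (X.j0 k) z) (hk : IsUnit (v k)) (hb : b ≠ k) (hab : a ≠ b) :
    P.Ov (mv v a b r) (X.j0 k) (P.uM X v k a b r z) := by
  obtain ⟨n1, n2, n3⟩ := X.hn3 k a b
  have hk' := isUnit_mv a r hk hb
  exact ((crd_ov two h hk n1).move r hab n2 n3).tau two hk' hk' n1 (X.hj0 k) n1 (X.hj0 k)

theorem crd_uM (two : ∀ r : R, r + r = 0) {v : Ω → R} {k a b n : Ω} (r : R) {z : Y}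
    (h : P.Ov v (X.j0 k) z) (hk : IsUnit (v k)) (hb : b ≠ k) (hab : a ≠ b) (kn : k ≠ n)
    (an : a ≠ n) (bn : b ≠ n) :
    P.crd X (mv v a b r) k n (P.uM X v k a b r z) = P.A a b r (P.crd X v k n z) := by
  obtain ⟨n1, n2, n3⟩ := X.hn3 k a b
  have hk' := isUnit_mv a r hk hb
  have h1 := crd_ov two h hk n1
  unfold uM
  rw [crd, (h1.move r hab n2 n3).T_T two hk' n1 (X.hj0 k) kn,
    h1.tau_move two r hk n1 n1 kn hab n2 n3 an bn hb hb, T_crd two h hk n1 kn]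

theorem uS_ov (two : ∀ r : R, r + r = 0) {v : Ω → R} {k l : Ω} {z : Y}
    (h : P.Ov v (X.j0 k) z) (hk : IsUnit (v k)) (hl : IsUnit (v l)) :
    P.Ov v (X.j0 l) (P.uS X v k l z) := by
  obtain ⟨a1, a2⟩ := X.hi1 k l
  obtain ⟨b1, b2⟩ := X.hi2 k l
  exact ((crd_ov two h hk a1).tau two hk hl a1 b1 a2 b2).tau two hl hl b2 (X.hj0 l) b2 (X.hj0 l)

variable [Fintype Ω]

theorem crd_uS (two : ∀ r : R, r + r = 0) (hΩ : 6 ≤ Fintype.card Ω) {v : Ω → R} {k l : Ω}
    (i : Ω) {i' : Ω} {z : Y} (h : P.Ov v (X.j0 k) z) (hk : IsUnit (v k)) (hl : IsUnit (v l))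
    (ki : k ≠ i) (li : l ≠ i) (ki' : k ≠ i') (li' : l ≠ i') (e : i ≠ i') :
    P.crd X v l i' (P.uS X v k l z) = P.tau v k i l i' (P.crd X v k i z) := by
  obtain ⟨a1, a2⟩ := X.hi1 k l
  obtain ⟨b1, b2⟩ := X.hi2 k l
  have c := X.hi k l
  obtain ⟨n, kn, ln, n1, n2, -⟩ := exists_ne5 hΩ k l (X.i1 k l) i i
  have h1 := crd_ov two h hk a1
  have h2 := crd_ov two h hk ki
  have h3 := h1.tau two hk hl a1 b1 a2 b2
  unfold uS
  rw [crd, h3.T_T two hl b2 (X.hj0 l) li', ← h3.T_T two hl b2 ln li',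
    h1.T_tau two hl a1 b1 kn a2 b2 ln c n1, ← h1.tau_T two hk hl a1 ki kn a2 li ln n2 n1,
    T_crd two h hk a1 ki, h2.T_tau two hl ki kn ki' li ln li' n2 e]

variable (P X)

/-- The atlas of unit charts. -/
noncomputable def unitAtlas (two : ∀ r : R, r + r = 0) (hΩ : 6 ≤ Fintype.card Ω)
    (ε : R →+* ZMod 2) (hu : ∀ r, ε r = 1 → IsUnit r) : Atlas Ω R Y (fun r => ε r = 1) where
  Over v k z := P.Ov v (X.j0 k) z
  S := P.uS X
  M := P.uM X
  S_over v k l z hk hl h := uS_ov two h (hu _ hk) (hu _ hl)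
  S_self v k z hk h := by
    have hk := hu _ hk
    obtain ⟨a1, -⟩ := X.hi1 k k
    obtain ⟨b1, -⟩ := X.hi2 k k
    refine crd_inj two (X.i2 k k) (uS_ov two h hk hk) h hk b1 ?_
    rw [crd_uS two hΩ (X.i1 k k) h hk hk a1 a1 b1 b1 (X.hi k k), T_crd two h hk a1 b1]
  S_S v k l m z hk hl hm h := by
    have hk := hu _ hk
    have hl := hu _ hl
    have hm := hu _ hm
    obtain ⟨i, ki, li, mi, -, -⟩ := exists_ne5 hΩ k l m m m
    obtain ⟨i', ki', li', mi', e1, -⟩ := exists_ne5 hΩ k l m i i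
    obtain ⟨i'', ki'', li'', mi'', e3, e2⟩ := exists_ne5 hΩ k l m i i'
    have h1 := uS_ov two h hk hl
    refine crd_inj two i'' (uS_ov two h1 hl hm) (uS_ov two h hk hm) hm mi'' ?_
    rw [crd_uS two hΩ i' h1 hl hm li' mi' li'' mi'' e2, crd_uS two hΩ i h hk hl ki li ki' li' e1,
      crd_uS two hΩ i h hk hm ki mi ki'' mi'' e3,
      (crd_ov two h hk ki).tau_tau two hl hm ki ki' ki'' li li' li'' mi mi' mi'' e1 e2 e3]
  M_over v k a b r z hk hb hab h := uM_ov two r h (hu _ hk) hb hab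
  M_S v k l a b r z hk hl hb hb' hab h := by
    have hk := hu _ hk
    have hl := hu _ hl
    have hk' := isUnit_mv a r hk hb
    have hl' := isUnit_mv a r hl hb'
    obtain ⟨i, ki, li, ai, bi, -⟩ := exists_ne5 hΩ k l a b b
    obtain ⟨i', ki', li', ai', bi', e⟩ := exists_ne5 hΩ k l a b i
    have h1 := uM_ov two r h hk hb hab
    have h2 := uS_ov two h hk hl
    refine crd_inj two i' (uS_ov two h1 hk' hl') (uM_ov two r h2 hl hb' hab) hl' li' ?_
    rw [crd_uS two hΩ i h1 hk' hl' ki li ki' li' e, crd_uM two r h hk hb hab ki ai bi,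
      crd_uM two r h2 hl hb' hab li' ai' bi', crd_uS two hΩ i h hk hl ki li ki' li' e,
      (crd_ov two h hk ki).tau_move two r hl ki li li' hab ai bi ai' bi' hb hb']
  M_zero v k a b z hk hb hab h := by
    have hk := hu _ hk
    obtain ⟨n, kn, an, bn, -, -⟩ := exists_ne5 hΩ k a b b b
    have h1 := uM_ov two 0 h hk hb hab
    have e := crd_uM two 0 h hk hb hab kn an bn
    rw [mv_zero] at h1 e
    refine crd_inj two n h1 h hk kn ?_
    rw [e, P.A_zero n (crd_ov two h hk kn).one bn hab]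
  M_add v k a b r s z hk hb hab h := by
    have hk := hu _ hk
    obtain ⟨n, kn, an, bn, -, -⟩ := exists_ne5 hΩ k a b b b
    have h1 := uM_ov two r h hk hb hab
    have k1 := isUnit_mv a r hk hb
    have h2 := uM_ov two s h1 k1 hb hab
    have e := crd_uM two s h1 k1 hb hab kn an bn
    rw [mv_add _ hab] at h2 e
    refine crd_inj two n h2 (uM_ov two _ h hk hb hab) (isUnit_mv a _ hk hb) kn ?_
    rw [e, crd_uM two r h hk hb hab kn an bn, crd_uM two _ h hk hb hab kn an bn,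
      P.A_add n r s (crd_ov two h hk kn).one bn hab]
  M_comm v k a b c d r s z hk hb hd hab hcd hbc had h := by
    have hk := hu _ hk
    obtain ⟨n, kn, an, bn, cn, dn⟩ := exists_ne5 hΩ k a b c d
    have h1 := uM_ov two r h hk hb hab
    have k1 := isUnit_mv a r hk hb
    have h2 := uM_ov two s h1 k1 hd hcd
    have e := crd_uM two s h1 k1 hd hcd kn cn dn
    have h3 := uM_ov two s h hk hd hcd
    have k3 := isUnit_mv c s hk hd
    rw [mv_comm _ hbc had] at h2 e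
    refine crd_inj two n h2 (uM_ov two r h3 k3 hb hab) (isUnit_mv a _ k3 hb) kn ?_
    rw [e, crd_uM two r h hk hb hab kn an bn, crd_uM two r h3 k3 hb hab kn an bn,
      crd_uM two s h hk hd hcd kn cn dn,
      P.A_comm n r s (crd_ov two h hk kn).one bn dn hab hcd hbc had]
  M_mul v k a b d r s z hk hb hd hab hbd had h := by
    have hk := hu _ hk
    obtain ⟨n, kn, an, bn, dn, -⟩ := exists_ne5 hΩ k a b d d
    have h1 := uM_ov two r h hk hb hab
    have k1 := isUnit_mv a r hk hb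
    have h2 := uM_ov two s h1 k1 hd hbd
    have e := crd_uM two s h1 k1 hd hbd kn bn dn
    have h3 := uM_ov two (r * s) h hk hd had
    have k3 := isUnit_mv a (r * s) hk hd
    have h4 := uM_ov two s h3 k3 hd hbd
    have k4 := isUnit_mv b s k3 hd
    rw [mv_mul _ hab hbd had] at h2 e
    refine crd_inj two n h2 (uM_ov two r h4 k4 hb hab) (isUnit_mv a _ k4 hb) kn ?_
    rw [e, crd_uM two r h hk hb hab kn an bn, crd_uM two r h4 k4 hb hab kn an bn,
      crd_uM two s h3 k3 hd hbd kn bn dn, crd_uM two _ h hk hd had kn an dn,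
      P.A_mul n r s (crd_ov two h hk kn).one bn dn hab hbd had]

omit [Fintype Ω] in
theorem lift_ov (two : ∀ r : R, r + r = 0) {k n : Ω} {y : Y} (h : P.v y k = 1) (kn : k ≠ n) :
    P.Ov (P.v y) n (P.A k n (cf (P.v y) k n) y) := by
  have hk : IsUnit (P.v y k) := by rw [h]; exact isUnit_one
  funext m
  by_cases e : n = m
  · subst e
    rw [make_one two k h (Ne.symm kn) kn hk rfl rfl, Function.update_self]
  · rw [P.vA_ne _ _ kn e, Function.update_of_ne (Ne.symm e)]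

omit [Fintype Ω] in
theorem crd_lift (two : ∀ r : R, r + r = 0) {k n : Ω} {y : Y} (h : P.v y k = 1) (kn : k ≠ n) :
    P.crd X (P.v y) k n (P.A k (X.j0 k) (cf (P.v y) k (X.j0 k)) y) =
      P.A k n (cf (P.v y) k n) y := by
  have kj := X.hj0 k
  by_cases e : X.j0 k = n
  · rw [crd, e, tau_self]
  · rw [crd, tau_ne k k e, P.A_comm k _ _ h (Ne.symm kj) (Ne.symm kn) kj kn (Ne.symm kj) kn,
      P.A_A two k _ (P.keep _ h (Ne.symm kn) kn) (Ne.symm kj) kj]

/-- A partial action in charts of ones extends to a partial action in unit charts. -/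
theorem exists_unit (two : ∀ r : R, r + r = 0) (hΩ : 6 ≤ Fintype.card Ω)
    (ε : R →+* ZMod 2) (hu : ∀ r, ε r = 1 → IsUnit r) (k : Ω) :
    ∃ (Y' : Type) (Q : PA Ω R Y' (fun r => ε r = 1)) (ι : ∀ y : Y, P.v y k = 1 → Y'),
      (∀ y h, Q.v (ι y h) = P.v y) ∧ (∀ y y' h h', ι y h = ι y' h' → y = y') ∧
      ∀ y h a b r y' h', b ≠ k → a ≠ b → y' = P.F k a b r y → Q.F k a b r (ι y h) = ι y' h' := by
  obtain ⟨X⟩ := exists_aux hΩ
  obtain ⟨Y', Q, emb, h1, h2, h3⟩ := (P.unitAtlas X two hΩ ε hu).exists_PA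
  have kj := X.hj0 k
  have g : ∀ y, P.v y k = 1 → ε (P.v y k) = 1 := fun y h => by rw [h, map_one]
  refine ⟨Y', Q, fun y h => emb (P.v y) k (P.A k (X.j0 k) (cf (P.v y) k (X.j0 k)) y) (g y h)
    (P.lift_ov two h kj), fun y h => h1 _ _ _ _ _, ?_, ?_⟩
  · intro y y' h h' e
    have ev : P.v y = P.v y' := (h1 _ _ _ _ _).symm.trans ((congrArg Q.v e).trans (h1 _ _ _ _ _))
    have key : ∀ (v v' : Ω → R) (_ : v = v') (g1 g2 o1 o2),
        emb v k (P.A k (X.j0 k) (cf v k (X.j0 k)) y) g1 o1 =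
          emb v' k (P.A k (X.j0 k) (cf v' k (X.j0 k)) y') g2 o2 → y = y' := by
      intro v v' hv g1 g2 o1 o2 e
      subst hv
      have e' := congrArg (P.A k (X.j0 k) (cf v k (X.j0 k))) (h2 _ _ _ _ _ _ _ e)
      rwa [P.A_A two k _ h (Ne.symm kj) kj, P.A_A two k _ h' (Ne.symm kj) kj] at e'
    exact key _ _ ev _ _ _ _ e
  · intro y h a b r y' h' hb hab hy'
    rw [← P.A_eq k r h hb hab] at hy'
    subst hy'
    have ev := P.vA k r h hb hab
    refine h3 _ _ _ _ _ _ _ _ _ _ _ _ hb hab ev ?_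
    have hk : IsUnit (P.v y k) := by rw [h]; exact isUnit_one
    obtain ⟨n, kn, an, bn, -, -⟩ := exists_ne5 hΩ k a b b b
    have o1 := P.lift_ov two h' kj
    have c1 := P.crd_lift X two h' kn
    rw [ev] at o1 c1
    rw [ev]
    refine crd_inj two n o1 (uM_ov two r (P.lift_ov two h kj) hk hb hab)
      (isUnit_mv a r hk hb) kn ?_
    change _ = P.crd X _ k n (P.uM X _ k a b r _)
    rw [c1, crd_uM two r (P.lift_ov two h kj) hk hb hab kn an bn, P.crd_lift X two h kn,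
      cf_mv _ a r hb bn, P.A_comm k _ _ h hb (Ne.symm kn) hab kn hb an]

end PA

end Vale.Agent.P192
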