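import Vale.Agent.P192.StabAtlas

/-!
Weyl elements in characteristic two, Steinberg families with a hole, and row products.
-/

namespace Vale.Agent.P192

section W

variable {I R G : Type} [Ring R] [Group G] {y : I → I → R → G}

theorem IsSt.sq (h : IsSt y) (two : ∀ r : R, r + r = 0) (a b : I) (r : R) :
    y a b r * y a b r = 1 := by
  rw [h.add, two, h.zero]

theorem IsSt.inv' (h : IsSt y) (two : ∀ r : R, r + r = 0) (a b : I) (r : R) :
    (y a b r)⁻¹ = y a b r := inv_eq_of_mul_eq_one_right (h.sq two a b r)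

theorem IsSt.cj0 (h : IsSt y) {a b p q : I} (s r : R) (h1 : b ≠ p) (h2 : a ≠ q) :
    MulAut.conj (y a b s) (y p q r) = y p q r := by
  rw [MulAut.conj_apply, h.comm a b p q s r h1 h2, mul_inv_cancel_right]

theorem IsSt.cj1 (h : IsSt y) {a b q : I} (r : R) (h1 : a ≠ b) (h2 : b ≠ q) (h3 : a ≠ q) :
    MulAut.conj (y a b 1) (y b q r) = y a q r * y b q r := by
  have := h.mul a b q 1 r h1 h2 h3
  rw [one_mul] at this
  rw [MulAut.conj_apply, ← this, inv_mul_cancel_right]

theorem IsSt.cj2 (h : IsSt y) (two : ∀ r : R, r + r = 0) {p a b : I} (r : R) (h1 : p ≠ a)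
    (h2 : a ≠ b) (h3 : p ≠ b) : MulAut.conj (y a b 1) (y p a r) = y p a r * y p b r := by
  have := h.mul p a b r 1 h1 h2 h3
  rw [mul_one] at this
  rw [MulAut.conj_apply, ← this, h.inv' two p a, ← mul_assoc, ← mul_assoc, ← mul_assoc, h.sq two,
    one_mul]

/-- The Weyl element. -/
def wy (y : I → I → R → G) (a b : I) : G := y a b 1 * y b a 1 * y a b 1

theorem conj_wy (a b : I) (t : G) : MulAut.conj (wy y a b) t =
    MulAut.conj (y a b 1) (MulAut.conj (y b a 1) (MulAut.conj (y a b 1) t)) := by
  rw [wy, map_mul, map_mul, MulAut.mul_apply, MulAut.mul_apply]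

theorem IsSt.w_out (h : IsSt y) {a b p q : I} (r : R) (pa : p ≠ a) (pb : p ≠ b) (qa : q ≠ a)
    (qb : q ≠ b) : MulAut.conj (wy y a b) (y p q r) = y p q r := by
  rw [conj_wy, h.cj0 _ _ pb.symm qa.symm, h.cj0 _ _ pa.symm qb.symm, h.cj0 _ _ pb.symm qa.symm]

theorem IsSt.w_aq (h : IsSt y) (two : ∀ r : R, r + r = 0) {a b q : I} (r : R) (ab : a ≠ b)
    (qa : q ≠ a) (qb : q ≠ b) : MulAut.conj (wy y a b) (y a q r) = y b q r := by
  rw [conj_wy, h.cj0 _ _ ab.symm qa.symm, h.cj1 _ ab.symm qa.symm qb.symm, map_mul,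
    h.cj1 _ ab qb.symm qa.symm, h.cj0 _ _ ab.symm qa.symm, h.comm a q b q r r qb qa.symm,
    mul_assoc, h.sq two, mul_one]

theorem IsSt.w_bq (h : IsSt y) (two : ∀ r : R, r + r = 0) {a b q : I} (r : R) (ab : a ≠ b)
    (qa : q ≠ a) (qb : q ≠ b) : MulAut.conj (wy y a b) (y b q r) = y a q r := by
  rw [conj_wy, h.cj1 _ ab qb.symm qa.symm, map_mul, h.cj1 _ ab.symm qa.symm qb.symm,
    h.cj0 _ _ ab qb.symm, h.comm b q a q r r qa qb.symm, mul_assoc, h.sq two, mul_one,
    h.cj0 _ _ ab.symm qa.symm]

theorem IsSt.w_pa (h : IsSt y) (two : ∀ r : R, r + r = 0) {a b p : I} (r : R) (ab : a ≠ b)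
    (pa : p ≠ a) (pb : p ≠ b) : MulAut.conj (wy y a b) (y p a r) = y p b r := by
  rw [conj_wy, h.cj2 two _ pa ab pb, map_mul, h.cj0 _ _ pa.symm ab.symm,
    h.cj2 two _ pb ab.symm pa, h.comm p b p a r r pb.symm pa, ← mul_assoc, h.sq two, one_mul,
    h.cj0 _ _ pb.symm ab]

theorem IsSt.w_pb (h : IsSt y) (two : ∀ r : R, r + r = 0) {a b p : I} (r : R) (ab : a ≠ b)
    (pa : p ≠ a) (pb : p ≠ b) : MulAut.conj (wy y a b) (y p b r) = y p a r := by
  rw [conj_wy, h.cj0 _ _ pb.symm ab, h.cj2 two _ pb ab.symm pa, map_mul, h.cj0 _ _ pb.symm ab,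
    h.cj2 two _ pa ab pb, h.comm p a p b r r pa.symm pb, ← mul_assoc, h.sq two, one_mul]

theorem IsSt.w_conj [DecidableEq I] (h : IsSt y) (two : ∀ r : R, r + r = 0)
    (h3 : ∀ a b : I, ∃ c, c ≠ a ∧ c ≠ b) {a b : I} (ab : a ≠ b) (p q : I) (r : R) :
    MulAut.conj (wy y a b) (y p q r) = y (Equiv.swap a b p) (Equiv.swap a b q) r := by
  obtain ⟨c, ca, cb⟩ := h3 a b
  by_cases pq : p = q
  · subst pq
    rw [h.diag, h.diag, map_one]
  by_cases pa : p = a
  · subst pa
    rw [Equiv.swap_apply_left]
    by_cases qb : q = b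
    · subst qb
      have e1 := h.mul p c q r 1 ca.symm cb ab
      have e2 := h.mul q c p r 1 cb.symm ca ab.symm
      rw [mul_one] at e1 e2
      rw [Equiv.swap_apply_right, ← e1, ← e2]
      simp only [map_mul, map_inv]
      rw [h.w_aq two r ab ca cb, h.w_pb two 1 ab ca cb]
    · rw [Equiv.swap_apply_of_ne_of_ne (Ne.symm pq) qb, h.w_aq two r ab (Ne.symm pq) qb]
  by_cases pb : p = b
  · subst pb
    rw [Equiv.swap_apply_right]
    by_cases qa : q = a
    · subst qa
      have e1 := h.mul p c q r 1 cb.symm ca pq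
      have e2 := h.mul q c p r 1 ca.symm cb ab
      rw [mul_one] at e1 e2
      rw [Equiv.swap_apply_left, ← e1, ← e2]
      simp only [map_mul, map_inv]
      rw [h.w_bq two r ab ca cb, h.w_pa two 1 ab ca cb]
    · rw [Equiv.swap_apply_of_ne_of_ne qa (Ne.symm pq), h.w_bq two r ab qa (Ne.symm pq)]
  rw [Equiv.swap_apply_of_ne_of_ne pa pb]
  by_cases qa : q = a
  · subst qa
    rw [Equiv.swap_apply_left, h.w_pa two r ab pa pb]
  by_cases qb : q = b
  · subst qb
    rw [Equiv.swap_apply_right, h.w_pb two r ab pa pb]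
  rw [Equiv.swap_apply_of_ne_of_ne qa qb, h.w_out r pa pb qa qb]

end W

/-- A Steinberg family in which the row and the column `k` are trivial. -/
structure HSt {Ω R G : Type} [Ring R] [Group G] (y : Ω → Ω → R → G) (k : Ω) : Prop where
  diag : ∀ i r, y i i r = 1
  add : ∀ i j r s, y i j r * y i j s = y i j (r + s)
  comm : ∀ i j a b r s, j ≠ a → i ≠ b → y i j r * y a b s = y a b s * y i j r
  mul : ∀ i j a r s, i ≠ j → j ≠ a → i ≠ a → j ≠ k →
    y i j r * y j a s = y i a (r * s) * y j a s * y i j r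
  row : ∀ j r, y k j r = 1
  col : ∀ i r, y i k r = 1

namespace HSt

variable {Ω R G : Type} [Ring R] [Group G] {y : Ω → Ω → R → G} {k : Ω}

theorem zero (h : HSt y k) (i j : Ω) : y i j 0 = 1 := by
  have := h.add i j 0 0
  rw [add_zero] at this
  exact left_eq_mul.1 this.symm

theorem sq (h : HSt y k) (two : ∀ r : R, r + r = 0) (a b : Ω) (r : R) :
    y a b r * y a b r = 1 := by
  rw [h.add, two, h.zero]

theorem comm_row (h : HSt y k) (a i j : Ω) (r s : R) : Commute (y a i r) (y a j s) := by
  by_cases hi : i = a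
  · subst hi
    rw [h.diag]; exact Commute.one_left _
  by_cases hj : a = j
  · subst hj
    rw [h.diag]; exact Commute.one_right _
  exact h.comm _ _ _ _ _ _ hi hj

theorem comp (h : HSt y k) (e : Equiv.Perm Ω) {l : Ω} (hl : e l = k) :
    HSt (fun a b r => y (e a) (e b) r) l where
  diag _ _ := h.diag _ _
  add _ _ _ _ := h.add _ _ _ _
  comm _ _ _ _ _ _ h1 h2 := h.comm _ _ _ _ _ _ (e.injective.ne h1) (e.injective.ne h2)
  mul _ _ _ _ _ h1 h2 h3 h4 := h.mul _ _ _ _ _ (e.injective.ne h1) (e.injective.ne h2)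
    (e.injective.ne h3) (hl ▸ e.injective.ne h4)
  row _ _ := by rw [hl, h.row]
  col _ _ := by rw [hl, h.col]

/-- One root subgroup as a homomorphism. -/
def root (h : HSt y k) (a j : Ω) : Multiplicative R →* G where
  toFun r := y a j r.toAdd
  map_one' := h.zero a j
  map_mul' r s := (h.add a j _ _).symm

theorem root_comm (h : HSt y k) (a : Ω) :
    Pairwise fun i j => ∀ r s : Multiplicative R, Commute (h.root a i r) (h.root a j s) :=
  fun i j _ _ _ => h.comm_row a i j _ _

variable [Fintype Ω] [DecidableEq Ω]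

/-- The product of the generators in the row `a` with coefficients `v`. -/
noncomputable def rho (h : HSt y k) (a : Ω) (v : Ω → R) : G :=
  MonoidHom.noncommPiCoprod (fun j => h.root a j) (h.root_comm a)
    (fun j => Multiplicative.ofAdd (v j))

theorem rho_zero (h : HSt y k) (a : Ω) : h.rho a 0 = 1 :=
  map_one (MonoidHom.noncommPiCoprod (fun j => h.root a j) _)

theorem rho_add (h : HSt y k) (a : Ω) (v w : Ω → R) : h.rho a (v + w) = h.rho a v * h.rho a w :=
  map_mul (MonoidHom.noncommPiCoprod (fun j => h.root a j) _)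
    (fun j => Multiplicative.ofAdd (v j)) (fun j => Multiplicative.ofAdd (w j))

theorem rho_single (h : HSt y k) (a j : Ω) (r : R) : h.rho a (Pi.single j r) = y a j r := by
  have : (fun i => Multiplicative.ofAdd ((Pi.single j r : Ω → R) i)) =
      Pi.mulSingle j (Multiplicative.ofAdd r) := by
    funext i
    by_cases e : i = j
    · subst e; simp
    · simp [e]
  rw [rho, this, MonoidHom.noncommPiCoprod_mulSingle]
  rfl

theorem rho_commute (h : HSt y k) (a : Ω) (v : Ω → R) (g : G)
    (hg : ∀ j, Commute g (y a j (v j))) : Commute g (h.rho a v) :=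
  Finset.noncommProd_commute _ _ (fun _ _ _ _ e => h.root_comm a e _ _) _ fun j _ => hg j

theorem rho_rho (h : HSt y k) (a : Ω) (v w : Ω → R) : Commute (h.rho a v) (h.rho a w) := by
  change _ * _ = _ * _
  rw [← h.rho_add, ← h.rho_add, add_comm]

theorem rho_sq (h : HSt y k) (two : ∀ r : R, r + r = 0) (a : Ω) (v : Ω → R) :
    h.rho a v * h.rho a v = 1 := by
  rw [← h.rho_add, ← h.rho_zero a]
  congr 1
  funext j
  exact two _

theorem rho_hole (h : HSt y k) (v : Ω → R) : h.rho k v = 1 := by
  induction v using Pi.single_induction with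
  | zero => exact h.rho_zero k
  | add f g hf hg => rw [h.rho_add, hf, hg, one_mul]
  | single j r => rw [h.rho_single, h.row]

theorem mv_eq (v : Ω → R) (a b : Ω) (r : R) : mv v a b r = v + Pi.single b (v a * r) := by
  funext n
  by_cases e : b = n
  · subst e
    rw [mv_self]; simp
  · rw [mv_ne _ _ _ e]; simp [Ne.symm e]

theorem rho_mv (h : HSt y k) (c : Ω) (v : Ω → R) (a b : Ω) (r : R) :
    h.rho c (mv v a b r) = h.rho c v * y c b (v a * r) := by
  rw [mv_eq, h.rho_add, h.rho_single]

theorem rho_move (h : HSt y k) {c a b : Ω} (v : Ω → R) (r : R) (ca : c ≠ a) (cb : c ≠ b)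
    (ab : a ≠ b) (ak : a ≠ k) : h.rho c v * y a b r = y a b r * h.rho c (mv v a b r) := by
  rw [h.rho_mv]
  induction v using Pi.single_induction with
  | zero => simp [h.rho_zero, h.zero]
  | add f g hf hg =>
    have e : h.rho c g * y c b (f a * r) = y c b (f a * r) * h.rho c g := by
      rw [← h.rho_single]; exact h.rho_rho _ _ _
    rw [h.rho_add, mul_assoc, hg, ← mul_assoc, hf, Pi.add_apply, add_mul, ← h.add]
    simp only [mul_assoc]
    rw [← mul_assoc (h.rho c g), e, mul_assoc]
  | single j s =>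
    rw [h.rho_single]
    by_cases e : j = a
    · subst e
      rw [Pi.single_eq_same, h.mul c j b s r ca ab cb ak, h.comm c b j b _ _ ab.symm cb,
        mul_assoc, (h.comm_row c b j _ _).eq]
    · rw [Pi.single_eq_of_ne (Ne.symm e), zero_mul, h.zero, mul_one, h.comm c j a b _ _ e cb]

theorem rho_transport {y' : Ω → Ω → R → G} {k' : Ω} (h : HSt y k) (h' : HSt y' k')
    (f : G →* G) (e : Equiv.Perm Ω) (hf : ∀ a b r, f (y a b r) = y' (e a) (e b) r) (a : Ω)
    (v : Ω → R) : f (h.rho a v) = h'.rho (e a) (v ∘ e.symm) := by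
  induction v using Pi.single_induction with
  | zero => rw [h.rho_zero, map_one]; exact (h'.rho_zero _).symm
  | add f g hf hg => rw [h.rho_add, map_mul, hf, hg, ← h'.rho_add]; rfl
  | single j s =>
    have : (Pi.single j s : Ω → R) ∘ e.symm = Pi.single (e j) s := by
      funext i
      by_cases hi : i = e j
      · subst hi; simp
      · have : e.symm i ≠ j := fun e' => hi (by rw [← e', Equiv.apply_symm_apply])
        simp [hi, this]
    rw [h.rho_single, hf, this, h'.rho_single]

/-- The row with the coordinates `a` and `b` removed. -/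
def cut (a b : Ω) (v : Ω → R) : Ω → R := fun j => if j = a ∨ j = b then 0 else v j

theorem rho_cut (h : HSt y k) {a b : Ω} (ab : a ≠ b) (ak : a ≠ k) (v : Ω → R) :
    y b a 1 * h.rho a (cut a b v) = h.rho b (cut a b v) * h.rho a (cut a b v) * y b a 1 := by
  induction v using Pi.single_induction with
  | zero =>
    have : cut a b (0 : Ω → R) = 0 := by funext j; simp [cut]
    simp [this, h.rho_zero]
  | add f g hf hg =>
    have e0 : cut a b (f + g) = cut a b f + cut a b g := by
      funext j
      simp only [cut, Pi.add_apply]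
      split_ifs <;> simp
    have e : Commute (h.rho a (cut a b f)) (h.rho b (cut a b g)) := by
      refine h.rho_commute _ _ _ fun j => (h.rho_commute _ _ _ fun i => ?_).symm
      by_cases hj : j = a
      · simp [cut, hj, h.zero]
      by_cases hi : b = i
      · simp [cut, hi, h.zero]
      exact h.comm _ _ _ _ _ _ hj hi
    rw [e0, h.rho_add, h.rho_add, ← mul_assoc, hf, mul_assoc, hg]
    simp only [mul_assoc]
    rw [← mul_assoc (h.rho a (cut a b f)), e.eq, mul_assoc]
  | single j s =>
    by_cases hj : j = a ∨ j = b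
    · have : cut a b (Pi.single j s : Ω → R) = 0 := by
        funext i
        simp only [cut]
        split_ifs with hi
        · rfl
        · have : i ≠ j := by
            rintro rfl
            exact hi hj
          simp [this]
      simp [this, h.rho_zero]
    · have : cut a b (Pi.single j s : Ω → R) = Pi.single j s := by
        funext i
        simp only [cut]
        split_ifs with hi
        · have : i ≠ j := by
            rintro rfl
            exact hj hi
          simp [this]
        · rfl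
      rw [not_or] at hj
      rw [this, h.rho_single, h.rho_single, h.mul b a j 1 s ab.symm (Ne.symm hj.1) (Ne.symm hj.2) ak,
        one_mul]

theorem rho_tri (h : HSt y k) (two : ∀ r : R, r + r = 0) {a b : Ω} (ab : a ≠ b) (ak : a ≠ k)
    {v : Ω → R} (ha : v a = 1) (hb : v b = 1) :
    h.rho a v * h.rho b v = wy y a b * h.rho a v := by
  have hv : v = Pi.single a 1 + Pi.single b 1 + cut a b v := by
    funext j
    simp only [cut, Pi.add_apply]
    by_cases e1 : j = a
    · subst e1; simp [ab, ha]
    by_cases e2 : j = b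
    · subst e2; simp [e1, hb]
    simp [e1, e2]
  have e1 : h.rho a v = y a b 1 * h.rho a (cut a b v) := by
    conv_lhs => rw [hv]
    rw [h.rho_add, h.rho_add, h.rho_single, h.rho_single, h.diag, one_mul]
  have e2 : h.rho b v = y b a 1 * h.rho b (cut a b v) := by
    conv_lhs => rw [hv]
    rw [h.rho_add, h.rho_add, h.rho_single, h.rho_single, h.diag, mul_one]
  have e3 := h.rho_cut ab ak v
  have e4 : h.rho b (cut a b v) * y b a 1 = y b a 1 * h.rho b (cut a b v) := by
    rw [← h.rho_single]; exact h.rho_rho _ _ _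
  have e5 := h.rho_sq two b (cut a b v)
  have e6 := h.sq two a b 1
  have e7 : Commute (h.rho a (cut a b v)) (h.rho b (cut a b v)) := by
    refine h.rho_commute _ _ _ fun j => (h.rho_commute _ _ _ fun i => ?_).symm
    by_cases hj : j = a
    · simp [cut, hj, h.zero]
    by_cases hi : b = i
    · simp [cut, hi, h.zero]
    exact h.comm _ _ _ _ _ _ hj hi
  rw [e1, e2, wy]
  generalize h.rho a (cut a b v) = A at *
  generalize h.rho b (cut a b v) = B at *
  generalize y a b 1 = p at *
  generalize y b a 1 = q at *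
  calc p * A * (q * B) = p * (A * (B * q)) := by rw [e4]; simp only [mul_assoc]
    _ = p * (B * A * q) := by rw [← mul_assoc A, e7.eq]
    _ = p * q * (p * p) * A := by rw [← e3, e6]; simp only [mul_assoc, one_mul]
    _ = p * q * p * (p * A) := by simp only [mul_assoc]

end HSt

end Vale.Agent.P192
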