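import Vale.Agent.P192.St2
import Vale.Agent.P192.StabW
import Vale.Agent.P192.StabUnit

namespace Vale.Agent.P192

section one

variable {I R : Type} [Ring R]

/-- The Steinberg generators extended trivially to the extra index. -/
def xo : Option I → Option I → R → St I R
  | some i, some j, r => St.x i j r
  | none, _, _ => 1
  | some _, none, _ => 1

@[simp] theorem xo_some (i j : I) (r : R) : xo (some i) (some j) r = St.x i j r := rfl

@[simp] theorem xo_row (j : Option I) (r : R) : (xo none j r : St I R) = 1 := rfl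

@[simp] theorem xo_col (i : Option I) (r : R) : (xo i none r : St I R) = 1 := by
  cases i <;> rfl

theorem hSt_xo : HSt (xo : Option I → Option I → R → St I R) none where
  diag i r := by
    cases i with
    | none => rfl
    | some i => exact St.isSt.diag i r
  add i j r s := by
    cases i with
    | none => simp
    | some i =>
      cases j with
      | none => simp
      | some j => exact St.isSt.add i j r s
  comm i j a b r s h1 h2 := by
    cases i with
    | none => simp
    | some i =>
    cases j with
    | none => simp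
    | some j =>
    cases a with
    | none => simp
    | some a =>
    cases b with
    | none => simp
    | some b =>
      exact St.isSt.comm i j a b r s (fun e => h1 (congrArg some e)) (fun e => h2 (congrArg some e))
  mul i j a r s h1 h2 h3 h4 := by
    cases j with
    | none => exact absurd rfl h4
    | some j =>
    cases i with
    | none =>
      simp
    | some i =>
    cases a with
    | none => simp
    | some a =>
      have := St.isSt.mul i j a r s (fun e => h1 (congrArg some e)) (fun e => h2 (congrArg some e))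
        (fun e => h3 (congrArg some e))
      simp only [xo_some]
      rw [← this]
      group
  row := xo_row
  col := xo_col

variable [DecidableEq I]

/-- The generators in the chart `k`. -/
def gc (k a b : Option I) (r : R) : St I R :=
  xo (Equiv.swap none k a) (Equiv.swap none k b) r

theorem hSt_gc (k : Option I) : HSt (gc k : Option I → Option I → R → St I R) k :=
  hSt_xo.comp (Equiv.swap none k) (Equiv.swap_apply_right _ _)

/-- The permutation induced by the Weyl element. -/
def tw : Option I → Option I → Equiv.Perm (Option I)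
  | some k, some l => Equiv.swap (some k) (some l)
  | none, _ => 1
  | some _, none => 1

omit [DecidableEq I] in
theorem wy_row (l : Option I) : (wy xo none l : St I R) = 1 := by simp [wy]

omit [DecidableEq I] in
theorem wy_col (l : Option I) : (wy xo l none : St I R) = 1 := by simp [wy]

omit [DecidableEq I] in
theorem wy_self (l : Option I) : (wy xo l l : St I R) = 1 := by simp [wy, hSt_xo.diag]

theorem swap_some (k l p : I) :
    Equiv.swap (some k) (some l) (some p) = some (Equiv.swap k l p) :=
  ((Option.some_injective I).map_swap k l p).symm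

theorem swap_none (k l : I) : Equiv.swap (some k) (some l) none = none :=
  Equiv.swap_apply_of_ne_of_ne (by simp) (by simp)

theorem conj_xo (two : ∀ r : R, r + r = 0) (h3 : ∀ a b : I, ∃ c, c ≠ a ∧ c ≠ b)
    {k l : Option I} (kl : k ≠ l) (p q : Option I) (r : R) :
    MulAut.conj (wy xo k l : St I R) (xo p q r) = xo (tw k l p) (tw k l q) r := by
  cases k with
  | none => simp [wy_row, tw]
  | some k =>
  cases l with
  | none => simp [wy_col, tw]
  | some l =>
  cases p with
  | none => simp [tw, swap_none]
  | some p =>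
  cases q with
  | none => simp [tw, swap_none]
  | some q =>
    simp only [tw, swap_some, xo_some]
    exact St.isSt.w_conj two h3 (fun e => kl (congrArg some e)) p q r

theorem tw_swap {k l : Option I} (kl : k ≠ l) (a : Option I) :
    tw k l (Equiv.swap none k a) = Equiv.swap none l (Equiv.swap k l a) := by
  cases k with
  | none => simp [tw]
  | some k =>
  cases l with
  | none => simp [tw, Equiv.swap_comm]
  | some l =>
    simp only [tw]
    by_cases e1 : a = none
    · subst e1
      rw [Equiv.swap_apply_left, Equiv.swap_apply_left, swap_none, Equiv.swap_apply_left]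
    by_cases e2 : a = some k
    · subst e2
      rw [Equiv.swap_apply_right, Equiv.swap_apply_left, swap_none, Equiv.swap_apply_right]
    by_cases e3 : a = some l
    · subst e3
      rw [Equiv.swap_apply_of_ne_of_ne e1 e2, Equiv.swap_apply_right,
        Equiv.swap_apply_of_ne_of_ne (by simp) kl]
    rw [Equiv.swap_apply_of_ne_of_ne e1 e2, Equiv.swap_apply_of_ne_of_ne e2 e3,
      Equiv.swap_apply_of_ne_of_ne e1 e3]

theorem conj_gc (two : ∀ r : R, r + r = 0) (h3 : ∀ a b : I, ∃ c, c ≠ a ∧ c ≠ b)
    {k l : Option I} (kl : k ≠ l) (a b : Option I) (r : R) :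
    MulAut.conj (wy xo k l : St I R) (gc k a b r) =
      gc l (Equiv.swap k l a) (Equiv.swap k l b) r := by
  rw [gc, conj_xo two h3 kl, tw_swap kl, tw_swap kl, gc]

omit [DecidableEq I] in
theorem wy_sq (two : ∀ r : R, r + r = 0) (k l : Option I) :
    (wy xo k l * wy xo k l : St I R) = 1 := by
  have e1 := (hSt_xo (I := I)).sq two k l 1
  have e2 := (hSt_xo (I := I)).sq two l k 1
  unfold wy
  generalize (xo k l 1 : St I R) = p at *
  generalize (xo l k 1 : St I R) = q at *
  calc p * q * p * (p * q * p) = p * (q * (p * p) * q) * p := by simp only [mul_assoc]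
    _ = 1 := by rw [e1, mul_one, e2, mul_one, e1]

theorem conj_wy_xo (two : ∀ r : R, r + r = 0) (h3 : ∀ a b : I, ∃ c, c ≠ a ∧ c ≠ b)
    {k l : Option I} (kl : k ≠ l) (p q : Option I) :
    MulAut.conj (wy xo k l : St I R) (wy xo p q) = wy xo (tw k l p) (tw k l q) := by
  conv_lhs => rw [wy.eq_1 xo p q]
  rw [map_mul, map_mul, conj_xo two h3 kl, conj_xo two h3 kl, wy]

theorem wy_symm (two : ∀ r : R, r + r = 0) (h3 : ∀ a b : I, ∃ c, c ≠ a ∧ c ≠ b)
    (k l : Option I) : (wy xo k l : St I R) = wy xo l k := by
  by_cases kl : k = l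
  · rw [kl]
  cases k with
  | none => rw [wy_row, wy_col]
  | some k =>
  cases l with
  | none => rw [wy_row, wy_col]
  | some l =>
    have := conj_wy_xo two h3 kl (some k) (some l)
    rw [MulAut.conj_apply, mul_inv_cancel_right] at this
    rw [this]
    simp [tw]

theorem wy_inv (two : ∀ r : R, r + r = 0) (k l : Option I) :
    (wy xo k l : St I R)⁻¹ = wy xo k l := inv_eq_of_mul_eq_one_right (wy_sq two k l)

theorem wy_gc (m k l : Option I) :
    (wy (gc m) k l : St I R) = wy xo (Equiv.swap none m k) (Equiv.swap none m l) := rfl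

theorem wy_tri (two : ∀ r : R, r + r = 0) (h3 : ∀ a b : I, ∃ c, c ≠ a ∧ c ≠ b)
    {k l m : Option I} (kl : k ≠ l) (lm : l ≠ m) (km : k ≠ m) :
    (wy xo k l * wy xo l m * wy (gc m) k l : St I R) = wy xo k m := by
  rw [wy_gc]
  cases m with
  | none => simp [wy_col, wy_sq two]
  | some m =>
  cases k with
  | none =>
    rw [Equiv.swap_apply_left, Equiv.swap_apply_of_ne_of_ne kl.symm lm, wy_row, wy_row, one_mul,
      wy_symm two h3 l, wy_sq two]
  | some k =>
  cases l with
  | none =>
    rw [Equiv.swap_apply_left, Equiv.swap_apply_of_ne_of_ne kl km, wy_row, wy_col, one_mul,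
      one_mul]
  | some l =>
    have := conj_wy_xo two h3 kl (some l) (some m)
    rw [MulAut.conj_apply, wy_inv two] at this
    rw [Equiv.swap_apply_of_ne_of_ne (by simp) km, Equiv.swap_apply_of_ne_of_ne (by simp) lm,
      this]
    simp only [tw]
    rw [Equiv.swap_apply_right, Equiv.swap_apply_of_ne_of_ne km.symm lm.symm]

variable [Fintype I]

/-- The change of chart. -/
noncomputable def gam (v : Option I → R) (k l : Option I) : St I R :=
  wy xo k l * (hSt_gc l).rho k v

theorem gam_self (v : Option I → R) (k : Option I) : gam v k k = 1 := by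
  rw [gam, wy_self, (hSt_gc k).rho_hole, one_mul]

theorem mul_wy (two : ∀ r : R, r + r = 0) (k l : Option I) (t : St I R) :
    t * wy xo k l = wy xo k l * MulAut.conj (wy xo k l : St I R) t := by
  rw [MulAut.conj_apply, wy_inv two, ← mul_assoc, ← mul_assoc, wy_sq two, one_mul]

theorem rho_wy (two : ∀ r : R, r + r = 0) (h3 : ∀ a b : I, ∃ c, c ≠ a ∧ c ≠ b)
    {l m : Option I} (lm : l ≠ m) (k : Option I) {v : Option I → R} (hl : v l = 1)
    (hm : v m = 1) :
    (hSt_gc l).rho k v * wy xo l m = wy xo l m * (hSt_gc m).rho (Equiv.swap l m k) v := by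
  have e : v ∘ (Equiv.swap l m).symm = v := by
    funext j
    simp only [Function.comp, Equiv.symm_swap]
    by_cases e1 : j = l
    · subst e1; rw [Equiv.swap_apply_left, hl, hm]
    by_cases e2 : j = m
    · subst e2; rw [Equiv.swap_apply_right, hl, hm]
    rw [Equiv.swap_apply_of_ne_of_ne e1 e2]
  have := (hSt_gc l).rho_transport (hSt_gc m) (MulAut.conj (wy xo l m : St I R)).toMonoidHom
    (Equiv.swap l m) (fun a b r => conj_gc two h3 lm a b r) k v
  rw [e] at this
  rw [mul_wy two, ← this]
  rfl

theorem gam_gam (two : ∀ r : R, r + r = 0) (h3 : ∀ a b : I, ∃ c, c ≠ a ∧ c ≠ b)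
    (v : Option I → R) (k l m : Option I) (hk : v k = 1) (hl : v l = 1) (hm : v m = 1) :
    gam v k l * gam v l m = gam v k m := by
  by_cases kl : k = l
  · subst kl
    rw [gam_self, one_mul]
  by_cases lm : l = m
  · subst lm
    rw [gam_self, mul_one]
  have e := rho_wy two h3 lm k hl hm
  have e' : gam v k l * gam v l m = wy xo k l * wy xo l m *
      ((hSt_gc m).rho (Equiv.swap l m k) v * (hSt_gc m).rho l v) := by
    rw [gam, gam, mul_assoc, ← mul_assoc ((hSt_gc l).rho k v), e]
    simp only [mul_assoc]
  by_cases km : k = m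
  · subst km
    rw [e', Equiv.swap_apply_right, (hSt_gc k).rho_sq two, mul_one, wy_symm two h3 l k,
      wy_sq two, gam_self]
  rw [e', Equiv.swap_apply_of_ne_of_ne kl km, (hSt_gc m).rho_tri two kl km hk hl, ← mul_assoc,
    wy_tri two h3 kl lm km, gam]

theorem gc_gam (two : ∀ r : R, r + r = 0) (h3 : ∀ a b : I, ∃ c, c ≠ a ∧ c ≠ b)
    (v : Option I → R) {k l a b : Option I} (r : R) (hk : v k = 1) (hl : v l = 1) (bk : b ≠ k)
    (bl : b ≠ l) (ab : a ≠ b) :
    gc k a b r * gam (mv v a b r) k l = gam v k l * gc l a b r := by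
  by_cases kl : k = l
  · subst kl
    rw [gam_self, gam_self, one_mul, mul_one]
  rw [gam, gam, ← mul_assoc, mul_wy two, conj_gc two h3 kl, Equiv.swap_apply_of_ne_of_ne bk bl,
    mul_assoc, mul_assoc]
  congr 1
  by_cases ak : a = k
  · subst ak
    rw [Equiv.swap_apply_left, (hSt_gc l).row, one_mul, (hSt_gc l).rho_mv, hk, one_mul]
  by_cases al : a = l
  · subst al
    have e : (hSt_gc a).rho k v * gc a k b r = gc a k b r * (hSt_gc a).rho k v := by
      rw [← (hSt_gc a).rho_single]; exact (hSt_gc a).rho_rho _ _ _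
    rw [Equiv.swap_apply_right, (hSt_gc a).row, mul_one, (hSt_gc a).rho_mv, hl, one_mul, e,
      ← mul_assoc, (hSt_gc a).sq two, one_mul]
  rw [Equiv.swap_apply_of_ne_of_ne ak al, (hSt_gc l).rho_move v r (Ne.symm ak) (Ne.symm bk) ab al]

/-- The atlas of charts in which a coordinate equals one. -/
noncomputable def oneAtlas (two : ∀ r : R, r + r = 0) (h3 : ∀ a b : I, ∃ c, c ≠ a ∧ c ≠ b) :
    Atlas (Option I) R (St I R) (fun r => r = 1) where
  Over _ _ _ := True
  S v k l σ := σ * gam v k l
  M _ k a b r σ := σ * gc k a b r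
  S_over _ _ _ _ _ _ _ := trivial
  S_self v k σ _ _ := by rw [gam_self, mul_one]
  S_S v k l m σ hk hl hm _ := by rw [mul_assoc, gam_gam two h3 v k l m hk hl hm]
  M_over _ _ _ _ _ _ _ _ _ _ := trivial
  M_S v k l a b r σ hk hl bk bl ab _ := by
    rw [mul_assoc, mul_assoc, gc_gam two h3 v r hk hl bk bl ab]
  M_zero v k a b σ _ _ _ _ := by rw [(hSt_gc k).zero, mul_one]
  M_add v k a b r s σ _ _ _ _ := by rw [mul_assoc, (hSt_gc k).add]
  M_comm v k a b c d r s σ _ _ _ _ _ bc ad _ := by
    rw [mul_assoc, mul_assoc, (hSt_gc k).comm a b c d r s bc ad]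
  M_mul v k a b d r s σ _ bk _ ab bd ad _ := by
    rw [mul_assoc, (hSt_gc k).mul a b d r s ab bd ad bk]
    simp only [mul_assoc]

end one

theorem St.exists_partAct {I R : Type} [Fintype I] [DecidableEq I] [Ring R]
    (two : ∀ r : R, r + r = 0) (ε : R →+* ZMod 2) (hu : ∀ r, ε r = 1 → IsUnit r)
    (hI : 5 ≤ Fintype.card I) :
    ∃ (Y : Type) (P : PartAct (Option I) R Y ε) (pt : St I R → Y), Function.Injective pt ∧
      (∀ σ, ε (P.v (pt σ) none) = 1) ∧
      ∀ i j r σ, i ≠ j → P.F none (some i) (some j) r (pt σ) = pt (σ * St.x i j r) := by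
  have h3 : ∀ a b : I, ∃ c, c ≠ a ∧ c ≠ b := by
    intro a b
    obtain ⟨c, hc⟩ := exists_notMem_list [a, b] (by simp; omega)
    simp only [List.mem_cons, List.not_mem_nil, or_false, not_or] at hc
    exact ⟨c, hc⟩
  have hΩ : 6 ≤ Fintype.card (Option I) := by rw [Fintype.card_option]; omega
  obtain ⟨Y, P, emb, h1, h2, h4⟩ := (oneAtlas (I := I) two h3).exists_PA
  obtain ⟨Y', Q, ι, k1, k2, k3⟩ := P.exists_unit two hΩ ε hu none
  let e : Option I → R := Pi.single none 1
  have he : e none = 1 := Pi.single_eq_same _ _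
  have hp : ∀ σ, P.v (emb e none σ he trivial) none = 1 := fun σ =>
    (congrFun (h1 e none σ he trivial) none).trans he
  refine ⟨Y', ⟨Q.v, Q.F, Q.uni, Q.vF, Q.indep, Q.zero, Q.add, Q.comm, Q.mul⟩,
    fun σ => ι (emb e none σ he trivial) (hp σ), ?_, ?_, ?_⟩
  · intro σ σ' h
    exact h2 _ _ _ _ _ _ _ (k2 _ _ _ _ h)
  · intro σ
    change ε (Q.v (ι _ _) none) = 1
    rw [k1, hp, map_one]
  · intro i j r σ hij
    have hij' : some i ≠ some j := fun h => hij (Option.some_injective _ h)
    refine k3 _ _ _ _ _ _ _ (by simp) hij' (h4 _ _ _ _ _ _ _ _ _ _ _ _ (by simp) hij' ?_ ?_).symm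
    · have : e (some i) = 0 := Pi.single_eq_of_ne (by simp) _
      rw [mv, this, zero_mul, add_zero, Function.update_eq_self]
    · change _ = σ * gc none (some i) (some j) r
      simp [gc]

end Vale.Agent.P192
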