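import Vale.Agent.P192.Table

/-! Words without a zero factor are renderings of structurally valid configurations. -/

namespace Vale.Agent.P192

namespace StructAux

theorem big_facts {n : ℕ} (hn : Big n) : 27 ≤ PP ∧ PP ≤ P1 ∧ P1 < P2 ∧ P2 + 2 ≤ n :=
  ⟨PP_ge, PP_le_P1, P1_lt_P2, hn⟩

theorem len_le (n : ℕ) (c : Cfg) : c.len n ≤ 2 * n := by
  unfold Cfg.len; split_ifs <;> omega

theorem cell_bd {n : ℕ} (hn : Big n) {c : Cfg} (h : c.SV n) {x : ℕ} (hx : x < c.len n) :
    Bd n (c.cell n x) := by
  obtain ⟨b1, b2, b3, b4⟩ := big_facts hn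
  have hl := len_le n c
  have hq : c.q < n := by
    rcases h.ctl with h' | ⟨-, h' | h'⟩
    · rw [h'.1]; omega
    · omega
    · omega
  obtain ⟨r1, r2, r3, r4, r5⟩ := h.regs
  intro f
  cases f
  · simp only [Cfg.cell, adx]; split_ifs <;> omega
  · have := tb_lt false (adx n x); simp only [Cfg.cell]; omega
  · have := tb_lt true (adx n x); simp only [Cfg.cell]; omega
  · exact h.mem_lt x hx
  · simp only [Cfg.cell]; split_ifs <;> omega
  · simp only [Cfg.cell]; split_ifs <;> omega
  · simp only [Cfg.cell]; split_ifs <;> omega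
  · simp only [Cfg.cell]; split_ifs <;> omega
  · simp only [Cfg.cell]; split_ifs <;> omega
  · simp only [Cfg.cell]; split_ifs <;> omega
  · simp only [Cfg.cell]; split_ifs <;> omega
  · simp only [Cfg.cell]; split_ifs <;> omega
  · have := h.lab_lt x hx
    simp only [Cfg.cell]; split_ifs <;> omega

theorem phase (a : ℕ → ℕ) (p : ℕ) (Q : ℕ → Prop) (R : ℕ → ℕ) (lo hi : ℕ) (hle : lo ≤ hi)
    (h0 : a lo = p ∨ Q (a lo))
    (s1 : ∀ i, lo ≤ i → i < hi → a i = p → a (i + 1) = p ∨ Q (a (i + 1)))
    (s2 : ∀ i, lo ≤ i → i < hi → ∀ q, Q q → (a i = q ∨ a i = R q) → a (i + 1) = R q) :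
    (∀ i, lo ≤ i → i ≤ hi → a i = p) ∨ ∃ s, lo ≤ s ∧ s ≤ hi ∧ (∀ i, lo ≤ i → i < s → a i = p) ∧
      Q (a s) ∧ ∀ i, s < i → i ≤ hi → a i = R (a s) := by
  induction hi, hle using Nat.le_induction with
  | base =>
    rcases h0 with h0 | h0
    · left; intro i h1 h2; rw [show i = lo by omega]; exact h0
    · right; exact ⟨lo, le_rfl, le_rfl, fun i h1 h2 => by omega, h0, fun i h1 h2 => by omega⟩
  | succ k hk ih =>
    rcases ih (fun i h1 h2 => s1 i h1 (by omega)) (fun i h1 h2 => s2 i h1 (by omega)) with
      h | ⟨s, h1, h2, h3, h4, h5⟩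
    · rcases s1 k hk (by omega) (h k hk le_rfl) with h' | h'
      · left; intro i h1 h2
        rcases Nat.lt_or_ge i (k + 1) with h3 | h3
        · exact h i h1 (by omega)
        · rw [show i = k + 1 by omega]; exact h'
      · right
        exact ⟨k + 1, by omega, le_rfl, fun i h1 h2 => h i h1 (by omega), h',
          fun i h1 h2 => by omega⟩
    · right
      refine ⟨s, h1, by omega, h3, h4, fun i h6 h7 => ?_⟩
      rcases Nat.lt_or_ge i (k + 1) with h8 | h8
      · exact h5 i h6 (by omega)
      · rw [show i = k + 1 by omega]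
        refine s2 k hk (by omega) _ h4 ?_
        rcases Nat.lt_or_ge s k with h9 | h9
        · right; exact h5 k h9 le_rfl
        · left; rw [show k = s by omega]

theorem split2 {A : Type} (w : List A) (i : ℕ) (hi : i + 1 < w.length) :
    w = w.take i ++ w[i] :: w[i + 1] :: w.drop (i + 2) := by
  conv_lhs => rw [← List.take_append_drop i w]
  rw [List.drop_eq_getElem_cons (by omega : i < w.length), List.drop_eq_getElem_cons hi]

theorem noZ {n : ℕ} {w : List Cell} (hw : ∀ z ∈ w, Bd n z) (hz : ¬ (Lv n).HasZ w) (i : ℕ)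
    (hi : i + 1 < w.length) :
    ¬ ZR n (w.getD i (fun _ => 0)) (w.getD (i + 1) (fun _ => 0)) := by
  intro h
  rw [List.getD_eq_getElem _ _ (by omega), List.getD_eq_getElem _ _ hi] at h
  exact hz ⟨_, _, _, _, Lv_Z.2 ⟨⟨hw _ (List.getElem_mem _), hw _ (List.getElem_mem _)⟩, h⟩,
    split2 w i hi⟩

section
variable {n N : ℕ} {f : ℕ → Cell}

theorem addr_succ (hz : ∀ i, i < N → ¬ ZR n (f i) (f (i + 1))) {i : ℕ} (hi : i < N) :
    f (i + 1) .addr = (f i .addr + 1) % n := by
  by_contra h; exact hz i hi (.addr h)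

theorem arOK (hz : ∀ i, i < N → ¬ ZR n (f i) (f (i + 1))) {i : ℕ} (hi : i < N) :
    ArOK (f i) (f (i + 1)) := by
  by_contra h; exact hz i hi (.ar h)

theorem shOK (hz : ∀ i, i < N → ¬ ZR n (f i) (f (i + 1))) {i : ℕ} (hi : i < N) :
    ShOK (f i) (f (i + 1)) := by
  by_contra h; exact hz i hi (.sh h)

theorem addr_run (hz : ∀ i, i < N → ¬ ZR n (f i) (f (i + 1))) {b : ℕ} (j : ℕ)
    (hj : f b .addr + j < n) (hN : b + j ≤ N) : f (b + j) .addr = f b .addr + j := by
  induction j with
  | zero => rfl
  | succ j ih =>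
    rw [← Nat.add_assoc, addr_succ hz (by omega), ih (by omega) (by omega),
      Nat.mod_eq_of_lt (by omega)]
    omega

theorem addr_wrap (hz : ∀ i, i < N → ¬ ZR n (f i) (f (i + 1))) {b : ℕ}
    (hb : f b .addr < n) (hN : b + (n - f b .addr) ≤ N) : f (b + (n - f b .addr)) .addr = 0 := by
  have h1 := addr_run hz (b := b) (n - f b .addr - 1) (by omega) (by omega)
  have h2 := addr_succ hz (i := b + (n - f b .addr - 1)) (by omega)
  rw [h1, show f b .addr + (n - f b .addr - 1) + 1 = n by omega, Nat.mod_self] at h2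
  rw [← h2]; congr 1; omega

theorem addr_blk (hz : ∀ i, i < N → ¬ ZR n (f i) (f (i + 1))) {b : ℕ} (hb : f b .addr = 0)
    {i : ℕ} (h1 : b ≤ i) (h2 : i < b + n) (hN : i ≤ N) : f i .addr = i - b := by
  have := addr_run hz (b := b) (i - b) (by omega) (by omega)
  rw [show b + (i - b) = i by omega] at this
  omega

theorem addr_next (hz : ∀ i, i < N → ¬ ZR n (f i) (f (i + 1))) {b : ℕ} (hb : f b .addr = 0)
    (hn : 0 < n) (hN : b + n ≤ N) : f (b + n) .addr = 0 := by
  have := addr_wrap hz (b := b) (by omega) (by omega)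
  rw [hb] at this
  exact this

/-- Arrows of a left or solo block. -/
theorem left_blk (hz : ∀ i, i < N → ¬ ZR n (f i) (f (i + 1))) (hb : startC (f 0))
    (hn : 0 < n) (hN : n ≤ N) :
    (∀ i, i < n → f i .ar = 0) ∨ ∃ s, s < n ∧ (∀ i, i < s → f i .ar = 0) ∧
      ((f s .ar = 4 ∧ ∀ i, s < i → i < n → f i .ar = 3) ∨
        (f s .ar = 5 ∧ ∀ i, s < i → i < n → f i .ar = 2)) := by
  have key : ∀ i, i < n - 1 → f (i + 1) .addr ≠ 0 := fun i hi => by
    rw [addr_blk hz hb.1 (by omega) (by omega) (by omega)]; omega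
  rcases phase (fun i => f i .ar) 0 (fun q => q = 4 ∨ q = 5) (fun q => if q = 4 then 3 else 2)
    0 (n - 1) (by omega) hb.2
    (fun i _ h2 h3 => by
      have := arOK hz (i := i) (by omega); have := key i h2
      simp only [ArOK] at *; omega)
    (fun i _ h2 q h3 h4 => by
      have := arOK hz (i := i) (by omega); have := key i h2
      simp only [ArOK] at *
      rcases h3 with rfl | rfl <;> simp at h4 ⊢ <;> omega) with h | ⟨s, -, h2, h3, h4, h5⟩
  · left; intro i hi; exact h i (by omega) (by omega)
  · right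
    refine ⟨s, by omega, fun i hi => h3 i (by omega) hi, ?_⟩
    rcases h4 with h4 | h4
    · left; refine ⟨h4, fun i h6 h7 => ?_⟩
      have := h5 i h6 (by omega)
      simpa [h4] using this
    · right; refine ⟨h4, fun i h6 h7 => ?_⟩
      have := h5 i h6 (by omega)
      simpa [h4] using this

/-- Arrows of a right block; the next cell is a start letter. -/
theorem right_blk (hz : ∀ i, i < N → ¬ ZR n (f i) (f (i + 1))) {b : ℕ} (hb : f b .addr = 0)
    (hb' : f b .ar = 1 ∨ f b .ar = 6 ∨ f b .ar = 3) (hn : 0 < n) (hN : b + n ≤ N) :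
    startC (f (b + n)) ∧ ((∀ i, b ≤ i → i < b + n → f i .ar = 3) ∨
      ∃ s, b ≤ s ∧ s < b + n ∧ (∀ i, b ≤ i → i < s → f i .ar = 1) ∧ f s .ar = 6 ∧
        ∀ i, s < i → i < b + n → f i .ar = 3) := by
  have key : ∀ i, b ≤ i → i < b + n - 1 → f (i + 1) .addr ≠ 0 := fun i h1 hi => by
    rw [addr_blk hz hb (by omega) (by omega) (by omega)]; omega
  have hnx := addr_next hz hb hn hN
  have hend := arOK hz (i := b + n - 1) (by omega)
  rw [show b + n - 1 + 1 = b + n by omega] at hend
  have fin : (f (b + n - 1) .ar = 3 ∨ f (b + n - 1) .ar = 6) → startC (f (b + n)) := by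
    intro h; refine ⟨hnx, ?_⟩
    simp only [ArOK] at hend; omega
  by_cases h3 : f b .ar = 3
  · rcases phase (fun i => f i .ar) 3 (fun _ => False) (fun q => q) b (b + n - 1) (by omega)
      (Or.inl h3)
      (fun i h1 h2 h3 => by
        have := arOK hz (i := i) (by omega); have := key i h1 h2
        simp only [ArOK] at *; omega)
      (fun i _ h2 q h3 h4 => h3.elim) with h | ⟨s, -, h2, h3, h4, h5⟩
    · exact ⟨fin (Or.inl (h _ (by omega) le_rfl)), Or.inl fun i h1 h2 => h i h1 (by omega)⟩
    · exact h4.elim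
  · rcases phase (fun i => f i .ar) 1 (fun q => q = 6) (fun _ => 3) b (b + n - 1) (by omega)
      (by omega)
      (fun i h1 h2 h3 => by
        have := arOK hz (i := i) (by omega); have := key i h1 h2
        simp only [ArOK] at *; omega)
      (fun i h1 h2 q h3 h4 => by
        have := arOK hz (i := i) (by omega); have := key i h1 h2
        simp only [ArOK] at *; omega) with h | ⟨s, h1, h2, h3, h4, h5⟩
    · have := h (b + n - 1) (by omega) le_rfl
      simp only [ArOK] at hend this; omega
    · refine ⟨fin ?_, Or.inr ⟨s, h1, by omega, h3, h4, fun i h6 h7 => h5 i h6 (by omega)⟩⟩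
      rcases Nat.lt_or_ge s (b + n - 1) with h6 | h6
      · left; exact h5 _ h6 le_rfl
      · right; rw [show b + n - 1 = s by omega]; exact h4

theorem m_eq (hz : ∀ i, i < N → ¬ ZR n (f i) (f (i + 1))) {i : ℕ} (hi : i < N) :
    f i .m = tb false (f i .addr) := by
  by_contra h; exact hz i hi (.tabm h)

theorem ad_eq (hz : ∀ i, i < N → ¬ ZR n (f i) (f (i + 1))) {i : ℕ} (hi : i < N) :
    f i .ad = tb true (f i .addr) := by
  by_contra h; exact hz i hi (.taba h)

/-- The shuffler of a block. -/
theorem sh_blk (hn : Big n) (hz : ∀ i, i < N → ¬ ZR n (f i) (f (i + 1))) {b : ℕ}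
    (hb : f b .addr = 0) (hN : b + n ≤ N) :
    ∃ s, b + P1 ≤ s ∧ s < b + n ∧ ∀ i, b ≤ i → i < b + n →
      f i .sh = if i - b < P1 then 0 else if i < s then 1 else if i = s then 2 else 3 := by
  obtain ⟨b1, b2, b3, b4⟩ := big_facts hn
  have had : ∀ i, b ≤ i → i < b + n → f i .addr = i - b := fun i h1 h2 =>
    addr_blk hz hb h1 h2 (by omega)
  have hm : ∀ i, b ≤ i → i < b + n → (f i .m = 0 ↔ b + P1 ≤ i) := fun i h1 h2 => by
    rw [m_eq hz (by omega), had i h1 h2, tb_eq_zero]; omega
  have hnx := addr_next hz hb (by omega) hN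
  have h0 : f (b + P1) .sh = 1 ∨ f (b + P1) .sh = 2 := by
    have h1 := shOK hz (i := b + P1 - 1) (by omega)
    rw [show b + P1 - 1 + 1 = b + P1 by omega] at h1
    have h2 := hm (b + P1 - 1) (by omega) (by omega)
    have h3 := hm (b + P1) (by omega) (by omega)
    simp only [ShOK] at h1; omega
  have hlow : ∀ i, b ≤ i → i < b + P1 → f i .sh = 0 := fun i h1 h2 => by
    have h3 := shOK hz (i := i) (by omega)
    have h4 := hm i h1 (by omega)
    simp only [ShOK] at h3; omega
  rcases phase (fun i => f i .sh) 1 (fun q => q = 2) (fun _ => 3) (b + P1) (b + n - 1) (by omega) h0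
    (fun i h1 h2 h3 => by
      have := shOK hz (i := i) (by omega)
      have := hm i (by omega) (by omega)
      have := had (i + 1) (by omega) (by omega)
      simp only [ShOK] at *; omega)
    (fun i h1 h2 q h3 h4 => by
      have := shOK hz (i := i) (by omega)
      have := hm i (by omega) (by omega)
      have := had (i + 1) (by omega) (by omega)
      simp only [ShOK] at *; omega) with h | ⟨s, h1, h2, h3, h4, h5⟩
  · have h1 := shOK hz (i := b + n - 1) (by omega)
    rw [show b + n - 1 + 1 = b + n by omega] at h1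
    have h2 := hm (b + n - 1) (by omega) (by omega)
    have h3 := h (b + n - 1) (by omega) le_rfl
    simp only [ShOK] at h1 h3; omega
  · refine ⟨s, h1, by omega, fun i h6 h7 => ?_⟩
    split_ifs with h8 h9 h10
    · exact hlow i h6 (by omega)
    · exact h3 i (by omega) h9
    · rw [h10]; exact h4
    · exact h5 i (by omega) (by omega)

theorem build (hn : Big n) (hz : ∀ i, i < N → ¬ ZR n (f i) (f (i + 1)))
    (hbd : ∀ i, i < N → Bd n (f i)) (two : Bool) (hN : N = if two then 2 * n else n)
    (h0 : f 0 .addr = 0) (h : ℕ) (hh : h < N)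
    (har : ∀ x, x < N → f x .ar = if x < h then (if x < n then 0 else 1)
      else if x = h then (if two then (if x < n then 5 else 6) else 4)
      else (if two ∧ x < n then 2 else 3)) :
    ∃ c : Cfg, c.SV n ∧ c.len n = N ∧ ∀ x, x < N → f x = c.cell n x := by
  obtain ⟨b1, b2, b3, b4⟩ := big_facts hn
  have hnN : n ≤ N := by rw [hN]; split_ifs <;> omega
  have hN2 : N ≤ 2 * n := by rw [hN]; split_ifs <;> omega
  have hn0 : f n .addr = 0 := by
    have := addr_next hz h0 (by omega) (by omega)
    simpa using this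
  have had : ∀ x, x < N → f x .addr = adx n x := fun x hx => by
    unfold adx
    split_ifs with h1
    · exact addr_blk hz h0 (by omega) (by omega) (by omega)
    · exact addr_blk hz hn0 (by omega) (by omega) (by omega)
  obtain ⟨s0, hs1, hs2, hs3⟩ := sh_blk hn hz h0 (by omega)
  have : ∃ s1, (two = true → n + P1 ≤ s1 ∧ s1 < 2 * n) ∧ ∀ i, n ≤ i → i < N →
      f i .sh = if i - n < P1 then 0 else if i < s1 then 1 else if i = s1 then 2 else 3 := by
    cases two
    · exact ⟨0, by simp, fun i h1 h2 => by simp at hN; omega⟩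
    · simp only [if_true] at hN
      obtain ⟨s1, ht1, ht2, ht3⟩ := sh_blk hn hz hn0 (by omega)
      exact ⟨s1, fun _ => ⟨ht1, by omega⟩, fun i h1 h2 => ht3 i h1 (by omega)⟩
  obtain ⟨s1, ht1, ht3⟩ := this
  have hregs : ∀ x, x < N → R0 (f x) ∨ ((f x .ar = 5 ∨ f x .ar = 6) ∧ (f x .q = 1 ∨ f x .q = 2)) :=
    fun x hx => by by_contra h'; exact hz x hx (.regs h')
  have hR0 : ∀ x, x < N → x ≠ h → R0 (f x) := fun x hx hne => by
    rcases hregs x hx with h' | ⟨h', -⟩
    · exact h'
    · rw [har x hx] at h'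
      split_ifs at h' <;> first | omega | simp at h'
  refine ⟨⟨two, h, f h .q, f h .pc, f h .hm, f h .ha, f h .r1, f h .r2, fun x => f x .val, s0, s1,
    fun x => f x .lab⟩, ⟨?_, ?_, ?_, ?_, ?_, ?_, ht1, ?_⟩, hN.symm, ?_⟩
  · simp only [Cfg.len, ← hN]; exact hh
  · exact ⟨hbd h hh _, hbd h hh _, hbd h hh _, hbd h hh _, hbd h hh _⟩
  · rcases hregs h hh with h' | ⟨h', h''⟩
    · left; exact h'
    · right; refine ⟨?_, h''⟩
      rw [har h hh] at h'
      cases two
      · simp at h'
      · rfl
  · intro x hx; simp only [Cfg.len, ← hN] at hx; exact hbd x hx _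
  · intro x hx hp
    simp only [Cfg.len, ← hN] at hx
    have h1 := tb_prog hp
    rw [← had x hx, ← m_eq hz hx] at h1
    by_contra h2
    rw [← had x hx] at h2
    exact hz x hx (.val (by omega) (by omega) h2)
  · exact ⟨by simpa using hs1, by simpa using hs2⟩
  · intro x hx; simp only [Cfg.len, ← hN] at hx; exact hbd x hx _
  · intro x hx
    have hr : x ≠ h → R0 (f x) := hR0 x hx
    funext fl
    cases fl
    · exact had x hx
    · simp only [Cfg.cell]; rw [← had x hx]; exact m_eq hz hx
    · simp only [Cfg.cell]; rw [← had x hx]; exact ad_eq hz hx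
    · rfl
    · exact har x hx
    · simp only [Cfg.cell]; split_ifs with e
      · rw [e]
      · exact (hr e).1
    · simp only [Cfg.cell]; split_ifs with e
      · rw [e]
      · exact (hr e).2.1
    · simp only [Cfg.cell]; split_ifs with e
      · rw [e]
      · exact (hr e).2.2.1
    · simp only [Cfg.cell]; split_ifs with e
      · rw [e]
      · exact (hr e).2.2.2.1
    · simp only [Cfg.cell]; split_ifs with e
      · rw [e]
      · exact (hr e).2.2.2.2.1
    · simp only [Cfg.cell]; split_ifs with e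
      · rw [e]
      · exact (hr e).2.2.2.2.2
    · simp only [Cfg.cell, adx]
      by_cases hxn : x < n
      · simp only [hxn, if_true]
        simpa using hs3 x (by omega) (by omega)
      · simp only [hxn, if_false]
        exact ht3 x (by omega) hx
    · simp only [Cfg.cell]; split_ifs with e
      · by_contra h2
        refine hz x hx (.lab0 ?_ h2)
        rw [m_eq hz hx, had x hx, Ne, tb_eq_zero]; omega
      · rfl

end

end StructAux

open StructAux

theorem render_bd {n : ℕ} (hn : Big n) {c : Cfg} (h : c.SV n) : ∀ z ∈ c.render n, Bd n z := by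
  intro z hz
  simp only [Cfg.render, List.mem_map, List.mem_range] at hz
  obtain ⟨x, hx, rfl⟩ := hz
  exact cell_bd hn h hx

theorem render_seg {n : ℕ} (hn : Big n) {c : Cfg} (h : c.SV n) : Seg startC (c.render n) := by
  obtain ⟨b1, b2, b3, b4⟩ := big_facts hn
  have hl := len_le n c
  obtain ⟨k, hk⟩ : ∃ k, c.len n = k + 1 := ⟨c.len n - 1, by have := h.h_lt; omega⟩
  refine ⟨c.cell n 0, ((List.range k).map Nat.succ).map (c.cell n), ?_, ⟨?_, ?_⟩, ?_⟩
  · rw [Cfg.render, hk, List.range_succ_eq_map, List.map_cons]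
  · simp only [Cfg.cell, adx]; split_ifs <;> omega
  · simp only [Cfg.cell]; split_ifs <;> omega
  · intro b hb
    simp only [List.mem_map, List.mem_range] at hb
    obtain ⟨x, ⟨y, hy, rfl⟩, rfl⟩ := hb
    rintro ⟨h1, h2⟩
    have h3 : y + 1 = n := by
      simp only [Cfg.cell, adx] at h1; split_ifs at h1 <;> omega
    have h4 : c.two = true := by
      by_contra h5
      simp only [Cfg.len, h5] at hk
      simp at hk; omega
    simp only [Cfg.cell, h4] at h2
    split_ifs at h2 <;> first | omega | simp at h2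

theorem render_inj {n : ℕ} (hn : Big n) {c c' : Cfg} (h : c.SV n) (h' : c'.SV n)
    (e : c.render n = c'.render n) : c.two = c'.two ∧ c.dec n = c'.dec n := by
  obtain ⟨b1, b2, b3, b4⟩ := big_facts hn
  have hl : c.len n = c'.len n := by rw [← c.render_length, e, c'.render_length]
  have h2 : c.two = c'.two := by
    simp only [Cfg.len] at hl
    cases h1 : c.two <;> cases h2 : c'.two <;> simp [h1, h2] at hl ⊢ <;> omega
  have hc : ∀ x, x < c.len n → c.cell n x = c'.cell n x := fun x hx => by
    simp only [Cfg.render, ← hl] at e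
    exact List.map_inj_left.1 e x (List.mem_range.2 hx)
  have hh : c.h = c'.h := by
    have := congrFun (hc _ h.h_lt) .ar
    simp only [Cfg.cell] at this
    split_ifs at this <;> omega
  have hm : ∀ x, x < c.len n → c.mem x = c'.mem x := fun x hx => congrFun (hc x hx) .val
  have e1 : c.q = c'.q := by simpa [Cfg.cell, hh] using congrFun (hc _ h.h_lt) .q
  have e2 : c.pc = c'.pc := by simpa [Cfg.cell, hh] using congrFun (hc _ h.h_lt) .pc
  have e3 : c.r1 = c'.r1 := by simpa [Cfg.cell, hh] using congrFun (hc _ h.h_lt) .r1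
  have e4 : c.r2 = c'.r2 := by simpa [Cfg.cell, hh] using congrFun (hc _ h.h_lt) .r2
  refine ⟨h2, ?_⟩
  cases ht : c.two
  · have hq : c.q = 0 := by
      rcases h.ctl with h3 | ⟨h3, -⟩
      · exact h3.1
      · simp [ht] at h3
    simp only [Cfg.dec, ← h2, ht, Cfg.dmem, ← e1, hq, if_true, Bool.false_eq_true, if_false]
    congr 1
    refine letter_congr fun f i => hm _ ?_
    have := (pos_lt_iff hn (false, .D f i)).2 rfl
    simpa [Cfg.len, ht] using this
  · have hps : c.ps n = c'.ps n := by
      simp only [Cfg.ps, e3, e4]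
      congr 1
      funext α
      refine hm _ ?_
      have := pos_lt hn α
      simp only [Cfg.len, ht, if_true]; omega
    have hd : c.dmem n = c'.dmem n := by
      simp only [Cfg.dmem, Cfg.ex, hps, e1, e2]
    simp only [Cfg.dec, ← h2, ht, hd]

theorem struct_seg {n : ℕ} (hn : Big n) {g : List Cell} {x : Cell} (hg : ∀ z ∈ g, Bd n z)
    (hs : Seg startC g) (hx : Bd n x) (hxs : startC x) (hz : ¬ (Lv n).HasZ (g ++ [x])) :
    ∃ c : Cfg, c.SV n ∧ g = c.render n := by
  obtain ⟨b1, b2, b3, b4⟩ := big_facts hn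
  set f : ℕ → Cell := fun i => (g ++ [x]).getD i (fun _ => 0) with hf
  have hw : ∀ z ∈ g ++ [x], Bd n z := by
    intro z hz
    rcases List.mem_append.1 hz with h | h
    · exact hg z h
    · rw [List.mem_singleton.1 h]; exact hx
  have hZ : ∀ i, i < g.length → ¬ ZR n (f i) (f (i + 1)) := fun i hi =>
    noZ hw hz i (by simp; omega)
  have hfg : ∀ i (hi : i < g.length), f i = g[i] := fun i hi => by
    simp only [hf]
    rw [List.getD_eq_getElem _ _ (by simp; omega), List.getElem_append_left hi]
  have hfN : f g.length = x := by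
    simp only [hf]
    rw [List.getD_eq_getElem _ _ (by simp)]
    simp
  obtain ⟨a, t, hat, ha, ht⟩ := hs
  have hpos : 0 < g.length := by rw [hat]; simp
  have h0 : startC (f 0) := by rw [hfg 0 hpos]; simpa [hat] using ha
  have hns : ∀ i, 0 < i → i < g.length → ¬ startC (f i) := fun i h1 h2 => by
    rw [hfg i h2]
    apply ht
    obtain ⟨j, rfl⟩ : ∃ j, i = j + 1 := ⟨i - 1, by omega⟩
    subst hat
    simp
  have hbd : ∀ i, i < g.length → Bd n (f i) := fun i hi => by
    rw [hfg i hi]; exact hg _ (List.getElem_mem _)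
  have hnN : n ≤ g.length := by
    by_contra h
    have := addr_blk hZ h0.1 (i := g.length) (by omega) (by omega) le_rfl
    rw [hfN, hxs.1] at this; omega
  have fin : (∃ c : Cfg, c.SV n ∧ c.len n = g.length ∧ ∀ x, x < g.length → f x = c.cell n x) →
      ∃ c : Cfg, c.SV n ∧ g = c.render n := by
    rintro ⟨c, h1, h2, h3⟩
    refine ⟨c, h1, List.ext_getElem (by rw [c.render_length, h2]) fun i hi hi' => ?_⟩
    rw [← hfg i hi, h3 i hi]
    simp [Cfg.render]
  apply fin
  have hn0 : f n .addr = 0 := by
    have := addr_next hZ h0.1 (by omega) (by omega)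
    simpa using this
  have hend := arOK hZ (i := n - 1) (by omega)
  rw [show n - 1 + 1 = n by omega] at hend
  have hL := left_blk hZ h0 (by omega) hnN
  rcases Nat.lt_or_ge n g.length with hlt | hge
  · have hnst := hns n (by omega) hlt
    have h2N : 2 * n ≤ g.length := by
      by_contra h
      have := addr_blk hZ hn0 (i := g.length) (by omega) (by omega) le_rfl
      rw [hfN, hxs.1] at this; omega
    have har : (f (n - 1) .ar = 0 ∧ (f n .ar = 1 ∨ f n .ar = 6)) ∨
        ((f (n - 1) .ar = 5 ∨ f (n - 1) .ar = 2) ∧ f n .ar = 3) := by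
      simp only [startC, hn0, true_and] at hnst
      simp only [ArOK] at hend; omega
    obtain ⟨hst, hR⟩ := right_blk hZ hn0 (by omega) (by omega) (by omega)
    have hN : g.length = 2 * n := by
      by_contra h
      exact hns (n + n) (by omega) (by omega) hst
    rcases hL with hL | ⟨s, h1, h2, ⟨h3, h4⟩ | ⟨h3, h4⟩⟩
    · have e1 := hL (n - 1) (by omega)
      rcases hR with hR | ⟨s, h1, h2, h3, h4, h5⟩
      · have := hR n le_rfl (by omega); omega
      · refine build hn hZ hbd true (by simpa using hN) h0.1 s (by omega) fun y hy => ?_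
        simp only [if_true, true_and]
        split_ifs with k1 k2 k3 k4 k5
        · exact hL y k2
        · exact h3 y (by omega) k1
        · omega
        · rw [k3]; exact h4
        · omega
        · exact h5 y (by omega) (by omega)
    · exfalso
      rcases Nat.lt_or_ge s (n - 1) with k | k
      · have := h4 (n - 1) k (by omega); omega
      · rw [show s = n - 1 by omega] at h3; omega
    · have e1 : f n .ar = 3 := by
        rcases Nat.lt_or_ge s (n - 1) with k | k
        · have := h4 (n - 1) k (by omega); omega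
        · rw [show s = n - 1 by omega] at h3; omega
      rcases hR with hR | ⟨s', h5, h6, h7, h8, h9⟩
      · refine build hn hZ hbd true (by simpa using hN) h0.1 s (by omega) fun y hy => ?_
        simp only [if_true, true_and]
        split_ifs with k1 k2 k3 k4 k5
        · exact h2 y k1
        · omega
        · rw [k3]; exact h3
        · omega
        · exact h4 y (by omega) k5
        · exact hR y (by omega) (by omega)
      · exfalso
        rcases Nat.lt_or_ge n s' with k | k
        · have := h7 n le_rfl k; omega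
        · rw [show s' = n by omega] at h8; omega
  · have hN : g.length = n := by omega
    have e1 : f n .ar = 0 ∨ f n .ar = 4 ∨ f n .ar = 5 := by
      rw [← hN, hfN]; exact hxs.2
    have e2 : f (n - 1) .ar = 4 ∨ f (n - 1) .ar = 3 ∨ f (n - 1) .ar = 6 := by
      simp only [ArOK] at hend; omega
    rcases hL with hL | ⟨s, h1, h2, ⟨h3, h4⟩ | ⟨h3, h4⟩⟩
    · have := hL (n - 1) (by omega); omega
    · refine build hn hZ hbd false (by simpa using hN) h0.1 s (by omega) fun y hy => ?_
      simp only [Bool.false_eq_true, if_false, false_and]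
      split_ifs with k1 k2 k3
      · exact h2 y k1
      · omega
      · rw [k3]; exact h3
      · exact h4 y (by omega) (by omega)
    · exfalso
      rcases Nat.lt_or_ge s (n - 1) with k | k
      · have := h4 (n - 1) k (by omega); omega
      · rw [show s = n - 1 by omega] at h3; omega

theorem long_hasZ {n : ℕ} (hn : Big n) {w : List Cell} (hw : ∀ z ∈ w, Bd n z)
    (hs : ∀ z ∈ w, ¬ startC z) (hl : 2 * n + 2 ≤ w.length) : (Lv n).HasZ w := by
  obtain ⟨b1, b2, b3, b4⟩ := big_facts hn
  by_contra hz
  set f : ℕ → Cell := fun i => w.getD i (fun _ => 0) with hf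
  have hZ : ∀ i, i < 2 * n + 1 → ¬ ZR n (f i) (f (i + 1)) := fun i hi => noZ hw hz i (by omega)
  have hmem : ∀ i, i < w.length → f i ∈ w := fun i hi => by
    simp only [hf]
    rw [List.getD_eq_getElem _ _ hi]; exact List.getElem_mem _
  have h0 : f 0 .addr < n := hw _ (hmem 0 (by omega)) _
  have h1 := addr_wrap hZ (b := 0) h0 (by omega)
  generalize hb : 0 + (n - f 0 .addr) = b at h1
  have hb1 : 1 ≤ b := by omega
  have hb2 : b ≤ n := by omega
  have h2 := arOK hZ (i := b - 1) (by omega)
  rw [show b - 1 + 1 = b by omega] at h2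
  have h3 := hs _ (hmem b (by omega))
  have h4 : f b .ar = 1 ∨ f b .ar = 6 ∨ f b .ar = 3 := by
    simp only [startC, h1, true_and] at h3
    simp only [ArOK] at h2; omega
  exact hs _ (hmem (b + n) (by omega)) (right_blk hZ h1 h4 (by omega) (by omega)).1

end Vale.Agent.P192
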