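import Vale.Agent.P192.Rules

/-! Basic facts on the table, addresses, digits, and program semantics. -/

namespace Vale.Agent.P192

theorem Dg_pos : 0 < Dg := by rw [Dg_eq]; decide

theorem P1_eq : P1 = PP + 13 * Dg := rfl
theorem P2_eq : P2 = P1 + 13 * Dg := by unfold P1 P2; omega

theorem locate_aux (l : List Prog) (p : ℕ) :
    (p < (l.map Prog.len).sum ↔ ∃ π j, locate l p = some (π, j)) ∧
    (∀ π j, locate l p = some (π, j) → π ∈ l ∧ j < π.len ∧ j ≤ p ∧
      (j + 1 < π.len → locate l (p + 1) = some (π, j + 1)) ∧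
      (1 ≤ j → locate l (p - 1) = some (π, j - 1))) := by
  induction l generalizing p with
  | nil => simp [locate]
  | cons π0 l ih =>
    by_cases h : p < π0.len
    · refine ⟨⟨fun _ => ⟨π0, p, by simp [locate, h]⟩, fun _ => by simp; omega⟩, ?_⟩
      intro π j hj
      simp only [locate, h, if_true, Option.some.injEq, Prod.mk.injEq] at hj
      obtain ⟨rfl, rfl⟩ := hj
      refine ⟨by simp, h, le_rfl, fun h1 => by simp [locate, h1], fun h1 => ?_⟩
      have : p - 1 < π0.len := by omega
      simp [locate, this]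
    · have e : locate (π0 :: l) p = locate l (p - π0.len) := by simp [locate, h]
      refine ⟨?_, ?_⟩
      · rw [e, ← (ih _).1]; simp; omega
      · intro π j hj
        rw [e] at hj
        obtain ⟨h1, h2, h3, h4, h5⟩ := (ih _).2 π j hj
        refine ⟨by simp [h1], h2, by omega, fun h6 => ?_, fun h6 => ?_⟩
        · have : ¬ p + 1 < π0.len := by omega
          simp only [locate, this, if_false]
          rw [← h4 h6]; congr 1; omega
        · have : ¬ p - 1 < π0.len := by omega
          simp only [locate, this, if_false]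
          rw [← h5 h6]; congr 1; omega

theorem locate_iff {p : ℕ} : p < PP ↔ ∃ π j, locate progs p = some (π, j) :=
  (locate_aux progs p).1

theorem locate_spec {p j : ℕ} {π : Prog} (h : locate progs p = some (π, j)) :
    π ∈ progs ∧ j < π.len ∧ j ≤ p ∧ p < PP :=
  have := (locate_aux progs p).2 π j h
  ⟨this.1, this.2.1, this.2.2.1, locate_iff.2 ⟨π, j, h⟩⟩

theorem locate_succ {p j : ℕ} {π : Prog} (h : locate progs p = some (π, j))
    (hj : j + 1 < π.len) : locate progs (p + 1) = some (π, j + 1) :=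
  ((locate_aux progs p).2 π j h).2.2.2.1 hj

theorem locate_pred {p j : ℕ} {π : Prog} (h : locate progs p = some (π, j))
    (hj : 1 ≤ j) : locate progs (p - 1) = some (π, j - 1) :=
  ((locate_aux progs p).2 π j h).2.2.2.2 hj

theorem exists_locate_aux (l : List Prog) {π : Prog} (h : π ∈ l) :
    ∃ p, locate l p = some (π, 0) := by
  induction l with
  | nil => simp at h
  | cons π0 l ih =>
    rcases List.mem_cons.1 h with rfl | h
    · exact ⟨0, by simp [locate, Prog.len]⟩
    · obtain ⟨p, hp⟩ := ih h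
      exact ⟨p + π0.len, by simp [locate, hp]⟩

theorem exists_locate {π : Prog} (h : π ∈ progs) : ∃ p, locate progs p = some (π, 0) :=
  exists_locate_aux _ h

theorem PP_ge : 27 ≤ PP := by
  have h : ∀ l : List Prog, 2 * l.length ≤ (l.map Prog.len).sum := by
    intro l
    induction l with
    | nil => simp
    | cons π l ih => simp [Prog.len] at ih ⊢; omega
  have h2 : 14 ≤ progs.length := by
    rw [progs_eq, erules]
    simp only [List.flatMap_cons, List.length_append]
    have : (ERule.progs ⟨.any (List.replicate 14 .tt), .tt, [], []⟩).length = 14 := by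
      simp [ERule.progs, Fm.any, Fm.bind, Fm.dnf, List.replicate]
    omega
  have := h progs
  unfold PP; omega

theorem Fld.idx_lt (f : Fld) : f.idx < 13 := by cases f <;> decide
theorem Fld.ofIdx_idx (f : Fld) : Fld.ofIdx f.idx = f := by cases f <;> rfl
theorem Fld.idx_inj {f g : Fld} (h : f.idx = g.idx) : f = g := by
  rw [← f.ofIdx_idx, h, g.ofIdx_idx]

theorem idx_mul_lt (f : Fld) (i : Fin Dg) : f.idx * Dg + i.val < 13 * Dg := by
  have := f.idx_lt
  have := i.2
  nlinarith

theorem Loc.adr_K (c : Fin 27) : (Loc.K c).adr < PP := by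
  have := PP_ge; have := c.2; simp [Loc.adr]; omega

theorem Loc.adr_D (f : Fld) (i : Fin Dg) : PP ≤ (Loc.D f i).adr ∧ (Loc.D f i).adr < P1 := by
  have := idx_mul_lt f i
  simp only [Loc.adr, P1_eq]; omega

theorem Loc.adr_S (f : Fld) (i : Fin Dg) : P1 ≤ (Loc.S f i).adr ∧ (Loc.S f i).adr < P2 := by
  have := idx_mul_lt f i
  simp only [Loc.adr, P2_eq]; omega

theorem PP_le_P1 : PP ≤ P1 := by rw [P1_eq]; omega
theorem P1_lt_P2 : P1 < P2 := by rw [P2_eq]; have := Dg_pos; omega

theorem Loc.adr_lt (l : Loc) : l.adr < P2 := by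
  have := PP_le_P1; have := P1_lt_P2
  cases l with
  | K c => have := Loc.adr_K c; omega
  | D f i => have := Loc.adr_D f i; omega
  | S f i => exact (Loc.adr_S f i).2

theorem idx_mul_inj {f g : Fld} {i j : Fin Dg} (h : f.idx * Dg + i.val = g.idx * Dg + j.val) :
    f = g ∧ i = j := by
  have h1 : (f.idx * Dg + i.val) / Dg = f.idx := by
    rw [Nat.add_comm, Nat.add_mul_div_right _ _ Dg_pos, Nat.div_eq_of_lt i.2]; simp
  have h2 : (g.idx * Dg + j.val) / Dg = g.idx := by
    rw [Nat.add_comm, Nat.add_mul_div_right _ _ Dg_pos, Nat.div_eq_of_lt j.2]; simp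
  have h3 : f.idx = g.idx := by rw [← h1, h, h2]
  refine ⟨Fld.idx_inj h3, Fin.ext ?_⟩
  rw [h3] at h; omega

theorem Loc.adr_inj : Function.Injective Loc.adr := by
  intro l l' h
  have := PP_le_P1
  cases l with
  | K c =>
    cases l' with
    | K c' => simp only [Loc.adr] at h; rw [Fin.ext h]
    | D f i => have := Loc.adr_K c; have := Loc.adr_D f i; omega
    | S f i => have := Loc.adr_K c; have := Loc.adr_S f i; omega
  | D f i =>
    cases l' with
    | K c' => have := Loc.adr_K c'; have := Loc.adr_D f i; omega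
    | D g j =>
      simp only [Loc.adr] at h
      obtain ⟨rfl, rfl⟩ := idx_mul_inj (f := f) (g := g) (i := i) (j := j) (by omega); rfl
    | S g j => have := Loc.adr_D f i; have := Loc.adr_S g j; omega
  | S f i =>
    cases l' with
    | K c' => have := Loc.adr_K c'; have := Loc.adr_S f i; omega
    | D g j => have := Loc.adr_D g j; have := Loc.adr_S f i; omega
    | S g j =>
      simp only [Loc.adr] at h
      obtain ⟨rfl, rfl⟩ := idx_mul_inj (f := f) (g := g) (i := i) (j := j) (by omega); rfl

theorem pos_false (n : ℕ) (l : Loc) : pos n (false, l) = l.adr := rfl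
theorem pos_true (n : ℕ) (l : Loc) : pos n (true, l) = n + l.adr := rfl

theorem pos_lt {n : ℕ} (hn : Big n) (α : Adr) : pos n α + 1 < 2 * n := by
  obtain ⟨s, l⟩ := α
  have := l.adr_lt; unfold Big at hn
  cases s <;> simp [pos] <;> omega

theorem pos_lt_iff {n : ℕ} (hn : Big n) (α : Adr) : pos n α < n ↔ α.1 = false := by
  obtain ⟨s, l⟩ := α
  have := l.adr_lt; unfold Big at hn
  cases s <;> simp [pos]; omega

theorem adx_pos {n : ℕ} (hn : Big n) (α : Adr) : adx n (pos n α) = α.2.adr := by
  obtain ⟨s, l⟩ := α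
  have := l.adr_lt; unfold Big at hn
  cases s <;> simp [pos, adx]; omega

theorem pos_inj {n : ℕ} (hn : Big n) : Function.Injective (pos n) := by
  intro α β h
  have h1 : α.1 = β.1 := by
    have := pos_lt_iff hn α; have := pos_lt_iff hn β
    cases ha : α.1 <;> cases hb : β.1 <;> simp_all
  have h2 : α.2 = β.2 := Loc.adr_inj (by rw [← adx_pos hn, ← adx_pos hn, h])
  exact Prod.ext h1 h2

theorem gcode_bd (md pol k s : Bool) : 11 ≤ gcode md pol k s ∧ gcode md pol k s ≤ 26 := by
  cases md <;> cases pol <;> cases k <;> cases s <;> decide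

theorem gcode_inj {md pol k s md' pol' k' s' : Bool}
    (h : gcode md pol k s = gcode md' pol' k' s') : md = md' ∧ pol = pol' ∧ k = k' ∧ s = s' := by
  revert h
  cases md <;> cases pol <;> cases k <;> cases s <;> cases md' <;> cases pol' <;> cases k' <;>
    cases s' <;> decide

theorem Ins.code_bd (i : Ins) : 7 ≤ i.code ∧ i.code ≤ 26 := by
  cases i with
  | x1 α => obtain ⟨s, l⟩ := α; cases s <;> simp [Ins.code]
  | x2 α => obtain ⟨s, l⟩ := α; cases s <;> simp [Ins.code]
  | gate md pol k β => have := gcode_bd md pol k β.1; simp only [Ins.code]; omega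

theorem Ins.code_x1 {i : Ins} {s : Bool} (h : i.code = 7 + s.toNat) : i = .x1 (s, i.adr.2) := by
  cases i with
  | x1 α => obtain ⟨s', l⟩ := α; cases s <;> cases s' <;> simp_all [Ins.code, Ins.adr]
  | x2 α => obtain ⟨s', l⟩ := α; cases s <;> cases s' <;> simp_all [Ins.code]
  | gate md pol k β =>
    have := gcode_bd md pol k β.1; simp only [Ins.code] at h; cases s <;> simp at h <;> omega

theorem Ins.code_x2 {i : Ins} {s : Bool} (h : i.code = 9 + s.toNat) : i = .x2 (s, i.adr.2) := by
  cases i with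
  | x1 α => obtain ⟨s', l⟩ := α; cases s <;> cases s' <;> simp_all [Ins.code]
  | x2 α => obtain ⟨s', l⟩ := α; cases s <;> cases s' <;> simp_all [Ins.code, Ins.adr]
  | gate md pol k β =>
    have := gcode_bd md pol k β.1; simp only [Ins.code] at h; cases s <;> simp at h <;> omega

theorem Ins.code_gate {i : Ins} {md pol k s : Bool} (h : i.code = gcode md pol k s) :
    i = .gate md pol k (s, i.adr.2) := by
  have := gcode_bd md pol k s
  cases i with
  | x1 α => obtain ⟨s', l⟩ := α; cases s' <;> simp [Ins.code] at h <;> omega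
  | x2 α => obtain ⟨s', l⟩ := α; cases s' <;> simp [Ins.code] at h <;> omega
  | gate md' pol' k' β =>
    obtain ⟨rfl, rfl, rfl, rfl⟩ := gcode_inj h; rfl

theorem Last.code_bd (l : Last) : 3 ≤ l.code ∧ l.code ≤ 6 := by
  cases l with
  | fin => decide
  | zero => decide
  | tab w => cases w <;> decide

theorem Last.code_fin {l : Last} (h : l.code = 3) : l = .fin := by
  cases l with
  | fin => rfl
  | zero => simp [Last.code] at h
  | tab w => cases w <;> simp [Last.code] at h

theorem Last.code_zero {l : Last} (h : l.code = 4) : l = .zero := by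
  cases l with
  | fin => simp [Last.code] at h
  | zero => rfl
  | tab w => cases w <;> simp [Last.code] at h

theorem Last.code_tab {l : Last} {w : Bool} (h : l.code = 5 + w.toNat) : l = .tab w := by
  cases l with
  | fin => cases w <;> simp [Last.code] at h
  | zero => cases w <;> simp [Last.code] at h
  | tab w' => cases w <;> cases w' <;> simp_all [Last.code]

theorem Prog.entry_zero (π : Prog) : π.entry 0 = (2, 0) := rfl

theorem Prog.entry_succ (π : Prog) {e : ℕ} {i : Ins} (h : π.body[e]? = some i) :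
    π.entry (e + 1) = (i.code, i.adr.2.adr) := by
  simp [Prog.entry, h]

theorem Prog.entry_last (π : Prog) : π.entry (π.body.length + 1) = (π.last.code, 0) := by
  simp [Prog.entry]

theorem Prog.entry_cases (π : Prog) {j : ℕ} (h : j < π.len) :
    (j = 0 ∧ π.entry j = (2, 0)) ∨
    (∃ e i, j = e + 1 ∧ π.body[e]? = some i ∧ π.entry j = (i.code, i.adr.2.adr)) ∨
    (j = π.body.length + 1 ∧ π.entry j = (π.last.code, 0)) := by
  rcases j with _ | e
  · exact Or.inl ⟨rfl, rfl⟩
  · by_cases he : e < π.body.length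
    · exact Or.inr (Or.inl ⟨e, π.body[e], rfl, by simp [he], π.entry_succ (by simp [he])⟩)
    · have : e = π.body.length := by unfold Prog.len at h; omega
      subst this
      exact Or.inr (Or.inr ⟨rfl, π.entry_last⟩)

theorem tb_of_locate {p j : ℕ} {π : Prog} (h : locate progs p = some (π, j)) :
    tb false p = (π.entry j).1 ∧ tb true p = (π.entry j).2 := by
  simp [tb, h]

theorem tb_of_ge {p : ℕ} (h : PP ≤ p) :
    tb false p = (if p < P1 then 1 else 0) ∧ tb true p = 0 := by
  have : locate progs p = none := by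
    rcases hl : locate progs p with _ | ⟨π, j⟩
    · rfl
    · have := (locate_spec hl).2.2.2; omega
  simp [tb, this]

theorem tb_prog {p : ℕ} (h : p < PP) : 2 ≤ tb false p ∧ tb false p ≤ 26 := by
  obtain ⟨π, j, hl⟩ := locate_iff.1 h
  rw [(tb_of_locate hl).1]
  rcases π.entry_cases (locate_spec hl).2.1 with ⟨-, h⟩ | ⟨e, i, -, -, h⟩ | ⟨-, h⟩
  · simp [h]
  · have := i.code_bd; simp only [h]; omega
  · have := π.last.code_bd; simp only [h]; omega

theorem tb_eq_zero {p : ℕ} : tb false p = 0 ↔ P1 ≤ p := by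
  have := PP_le_P1
  by_cases h : p < PP
  · have := tb_prog h; omega
  · rw [(tb_of_ge (by omega)).1]; by_cases h' : p < P1 <;> simp [h']; omega

theorem tb_eq_one {p : ℕ} : tb false p = 1 ↔ PP ≤ p ∧ p < P1 := by
  by_cases h : p < PP
  · have := tb_prog h; omega
  · rw [(tb_of_ge (by omega)).1]; by_cases h' : p < P1 <;> simp [h']; omega

theorem tb_big (w : Bool) {p : ℕ} (h : P1 ≤ p) : tb w p = 0 := by
  cases w
  · exact tb_eq_zero.2 h
  · exact (tb_of_ge (PP_le_P1.trans h)).2

theorem tb_lt (w : Bool) (p : ℕ) : tb w p < P2 := by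
  have := PP_le_P1; have := P1_lt_P2; have := PP_ge
  by_cases h : p < PP
  · cases w
    · have := tb_prog h; omega
    · obtain ⟨π, j, hl⟩ := locate_iff.1 h
      rw [(tb_of_locate hl).2]
      rcases π.entry_cases (locate_spec hl).2.1 with ⟨-, h⟩ | ⟨e, i, -, -, h⟩ | ⟨-, h⟩
      · simp only [h]; omega
      · simp only [h]; exact Loc.adr_lt _
      · simp only [h]; omega
  · cases w
    · rw [(tb_of_ge (by omega)).1]; split_ifs <;> omega
    · rw [(tb_of_ge (by omega)).2]; omega

theorem Big.pow {n : ℕ} (hn : Big n) : Big (n ^ Dg) := by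
  unfold Big at *
  exact hn.trans (Nat.le_self_pow Dg_pos.ne' n)

/-! ### Digits -/

theorem dig_lt {n : ℕ} (hn : 0 < n) (X i : ℕ) : dig n X i < n := Nat.mod_lt _ hn

theorem num_lt {n D : ℕ} (g : Fin D → ℕ) (hg : ∀ i, g i < n) :
    ∑ i : Fin D, g i * n ^ i.val < n ^ D := by
  have := (finFunctionFinEquiv (fun i => (⟨g i, hg i⟩ : Fin n))).2
  rwa [finFunctionFinEquiv_apply] at this

theorem dig_num {n D : ℕ} (g : Fin D → ℕ) (hg : ∀ i, g i < n) (i : Fin D) :
    dig n (∑ i : Fin D, g i * n ^ i.val) i.val = g i := by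
  have h := congrFun (finFunctionFinEquiv.symm_apply_apply (fun i => (⟨g i, hg i⟩ : Fin n))) i
  have h2 := congrArg Fin.val h
  rw [finFunctionFinEquiv_symm_apply_val, finFunctionFinEquiv_apply] at h2
  exact h2

theorem num_dig {n D X : ℕ} (hX : X < n ^ D) : ∑ i : Fin D, dig n X i.val * n ^ i.val = X := by
  have h := congrArg Fin.val (finFunctionFinEquiv.apply_symm_apply (⟨X, hX⟩ : Fin (n ^ D)))
  rw [finFunctionFinEquiv_apply] at h
  simpa [finFunctionFinEquiv_symm_apply_val, dig] using h

theorem letter_bd {n : ℕ} {μ : Adr → ℕ} {s : Bool} (h : ∀ f i, μ (s, .D f i) < n) :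
    Bd (n ^ Dg) (letter n μ s) := fun f => num_lt _ (h f)

theorem dig_letter {n : ℕ} {μ : Adr → ℕ} {s : Bool} (h : ∀ f i, μ (s, .D f i) < n) (f : Fld)
    (i : Fin Dg) : dig n (letter n μ s f) i.val = μ (s, .D f i) := dig_num _ (h f) i

theorem letter_eq {n : ℕ} {μ : Adr → ℕ} {s : Bool} {a : Cell} (ha : Bd (n ^ Dg) a)
    (h : ∀ f i, μ (s, .D f i) = dig n (a f) i.val) : letter n μ s = a := by
  funext f
  simp only [letter, h]
  exact num_dig (ha f)

theorem letter_congr {n : ℕ} {μ μ' : Adr → ℕ} {s s' : Bool}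
    (h : ∀ f i, μ (s, .D f i) = μ' (s', .D f i)) : letter n μ s = letter n μ' s' := by
  funext f; simp only [letter, h]

/-! ### Execution -/

theorem Ins.exec_exec (i : Ins) (σ : PS) : i.exec (i.exec σ) = σ := by
  cases i <;> simp [Ins.exec]

theorem fwd_append (l l' : List Ins) (σ : PS) : fwd (l ++ l') σ = fwd l' (fwd l σ) := by
  induction l generalizing σ with
  | nil => rfl
  | cons i l ih => simp [fwd, ih]

theorem okAll_append (n : ℕ) (l l' : List Ins) (σ : PS) :
    okAll n (l ++ l') σ ↔ okAll n l σ ∧ okAll n l' (fwd l σ) := by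
  induction l generalizing σ with
  | nil => simp [okAll, fwd]
  | cons i l ih => simp [okAll, fwd, ih, and_assoc]

theorem bwd_fwd (l : List Ins) (σ : PS) : bwd l (fwd l σ) = σ := by
  induction l generalizing σ with
  | nil => rfl
  | cons i l ih =>
    have := ih (i.exec σ)
    simp only [bwd, List.reverse_cons, fwd_append, fwd] at this ⊢
    rw [this, Ins.exec_exec]

theorem fwd_bwd (l : List Ins) (σ : PS) : fwd l (bwd l σ) = σ := by
  have := bwd_fwd l.reverse σ
  simpa [bwd] using this

theorem bwd_snoc (l : List Ins) (i : Ins) (σ : PS) : bwd (l ++ [i]) σ = bwd l (i.exec σ) := by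
  simp [bwd, fwd]

/-- An instruction that never writes to a constant cell. -/
def Ins.Dyn : Ins → Prop
  | .x1 α => ∀ c, α.2 ≠ .K c
  | .x2 α => ∀ c, α.2 ≠ .K c
  | .gate _ _ _ _ => True

/-- The gate mode of an instruction is `md` (no condition on exchanges). -/
def Ins.Mode (md : Bool) : Ins → Prop
  | .gate md' _ _ _ => md' = md
  | _ => True

theorem MV.exec {n : ℕ} {σ : PS} (h : MV n σ) {i : Ins} (hi : i.Dyn) : MV n (i.exec σ) := by
  obtain ⟨h1, h2, h3, h4⟩ := h
  cases i with
  | x1 α =>
    refine ⟨fun β => ?_, fun s c => ?_, h1 _, h4⟩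
    · simp only [Ins.exec, Function.update_apply]; split_ifs; exacts [h3, h1 _]
    · have : (s, Loc.K c) ≠ α := fun e => hi c (by rw [← e])
      simp [Ins.exec, Function.update_of_ne this, h2]
  | x2 α =>
    refine ⟨fun β => ?_, fun s c => ?_, h3, h1 _⟩
    · simp only [Ins.exec, Function.update_apply]; split_ifs; exacts [h4, h1 _]
    · have : (s, Loc.K c) ≠ α := fun e => hi c (by rw [← e])
      simp [Ins.exec, Function.update_of_ne this, h2]
  | gate md pol k β => exact ⟨h1, h2, h3, h4⟩

theorem MV.fwd {n : ℕ} {σ : PS} (h : MV n σ) {l : List Ins} (hl : ∀ i ∈ l, i.Dyn) :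
    MV n (fwd l σ) := by
  induction l generalizing σ with
  | nil => exact h
  | cons i l ih => exact ih (h.exec (hl i (by simp))) fun j hj => hl j (by simp [hj])

theorem MV.bwd {n : ℕ} {σ : PS} (h : MV n σ) {l : List Ins} (hl : ∀ i ∈ l, i.Dyn) :
    MV n (bwd l σ) := h.fwd fun i hi => hl i (List.mem_reverse.1 hi)

/-! ### Configurations -/

theorem Cfg.SV.mv {n : ℕ} (hn : Big n) {c : Cfg} (h : c.SV n) (h2 : c.two = true) :
    MV n (c.ps n) := by
  have hl : ∀ α, pos n α < c.len n := fun α => by
    have := pos_lt hn α; simp only [Cfg.len, h2, if_true]; omega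
  refine ⟨fun α => h.mem_lt _ (hl α), fun s k => ?_, h.regs.2.2.2.1, h.regs.2.2.2.2⟩
  have := h.mem_prog _ (hl (s, .K k)) (by rw [adx_pos hn]; exact Loc.adr_K k)
  rw [adx_pos hn] at this
  exact this

theorem Cfg.render_length (n : ℕ) (c : Cfg) : (c.render n).length = c.len n := by
  simp [Cfg.render]

theorem idle_mem (n : ℕ) (a : Cell) (f : Fld) (i : Fin Dg) :
    (idle n a).mem (Loc.D f i).adr = dig n (a f) i.val := by
  have h := Loc.adr_D f i
  have h1 : ¬ (Loc.D f i).adr < PP := by omega
  simp only [idle, h1, h.2, if_true, if_false]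
  have e : (Loc.D f i).adr - PP = i.val + f.idx * Dg := by simp only [Loc.adr]; omega
  rw [e, Nat.add_mul_div_right _ _ Dg_pos, Nat.add_mul_mod_self_right, Nat.div_eq_of_lt i.2,
    Nat.mod_eq_of_lt i.2, Nat.zero_add, Fld.ofIdx_idx]

theorem idle_valid {n : ℕ} (hn : Big n) (a : Cell) : (idle n a).Valid n := by
  have := PP_le_P1; have := P1_lt_P2; unfold Big at hn
  refine ⟨⟨?_, ?_, Or.inl ?_, ?_, ?_, ?_, ?_, ?_⟩, ⟨?_, ?_⟩, Or.inl rfl⟩
  · simp [idle, Cfg.len]; omega
  · simp [idle]; omega
  · simp [idle, Cfg.Free]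
  · intro x hx
    simp only [idle, Cfg.len] at hx ⊢
    split_ifs
    · omega
    · exact dig_lt (by omega) _ _
    · omega
  · intro x hx h
    simp only [idle, Cfg.len, Bool.false_eq_true, if_false] at hx ⊢
    simp only [adx, hx, if_true] at h ⊢
    simp [h]
  · simp [idle]; omega
  · simp [idle]
  · intro x hx; simpa [idle, Cfg.len] using hx
  · intro x hx h
    simp only [idle, Cfg.len, Bool.false_eq_true, if_false] at hx ⊢
    simpa [adx, hx] using h
  · intro x y _ _ _ _ _ h; exact h

theorem idle_dec {n : ℕ} {a : Cell} (ha : Bd (n ^ Dg) a) : (idle n a).dec n = [a] := by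
  have : letter n ((idle n a).dmem n) false = a :=
    letter_eq ha fun f i => idle_mem n a f i
  simp only [Cfg.dec, this]; rfl

end Vale.Agent.P192
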