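import Vale.Agent.P192.Tri
import Vale.Agent.P192.Stab

namespace Vale.Agent.P192

namespace Transfer

open St

theorem exists_list {A I R : Type} [Ring R] {y : A → R}
    (hs : ∀ r : R, r ∈ AddSubmonoid.closure (Set.range (wd y))) (c : St I R) :
    ∃ (L : List (I × I × List A)) (E : ℕ), (∀ t ∈ L, t.1 ≠ t.2.1 ∧ t.2.2.length ≤ E) ∧
      c = (L.map fun t => x t.1 t.2.1 (wd y t.2.2)).prod := by
  induction c using St.induction with
  | one => exact ⟨[], 0, by simp, by simp⟩
  | step i j r g hij ih =>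
    induction hs r using AddSubmonoid.closure_induction generalizing g with
    | mem r hr =>
      obtain ⟨w, rfl⟩ := hr
      obtain ⟨L, E, h1, h2⟩ := ih
      refine ⟨(i, j, w) :: L, max E w.length, ?_, by simp [h2]⟩
      intro t ht
      rcases List.mem_cons.1 ht with rfl | ht
      · exact ⟨hij, le_max_right _ _⟩
      · exact ⟨(h1 t ht).1, (h1 t ht).2.trans (le_max_left _ _)⟩
    | zero => rw [isSt.zero, one_mul]; exact ih
    | add r r' _ _ h1 h2 => rw [← isSt.add, mul_assoc]; exact h1 _ (h2 _ ih)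

theorem zmod_cases (u : ZMod 2) : u = 0 ∨ u = 1 := by
  revert u; decide

theorem iota_comm {R : Type} [Ring R] (ι : ZMod 2 →+* R) (u : ZMod 2) (r : R) :
    r * ι u = ι u * r := by
  rcases zmod_cases u with rfl | rfl <;> simp

theorem exists_psi {A : Type} {Q : QP A} {R : Type} [Ring R] {y : A → R} (h : Q.Presents R y)
    (ι : ZMod 2 →+* R) {M : Type} [Fintype M] [DecidableEq M] (D : Matrix M M (ZMod 2)) :
    ∃ ψ : R →+* Matrix M M R,
      ∀ w, ψ (wd y w) = (D ^ w.length).map ι * Matrix.scalar M (wd y w) := by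
  have hc : ∀ (B : Matrix M M (ZMod 2)) (r : R),
      Matrix.scalar M r * B.map ι = B.map ι * Matrix.scalar M r := by
    intro B r
    ext p q
    simp [iota_comm]
  have hm : ∀ (B B' : Matrix M M (ZMod 2)) (r r' : R),
      B.map ι * Matrix.scalar M r * (B'.map ι * Matrix.scalar M r')
        = (B * B').map ι * Matrix.scalar M (r * r') := by
    intro B B' r r'
    rw [Matrix.map_mul, map_mul, mul_assoc, ← mul_assoc (Matrix.scalar M r), hc]
    simp only [mul_assoc]
  obtain ⟨ψ, hψ⟩ := h.lift (Matrix M M R) (fun t => by ext p q; simp [h.two])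
    (fun a => D.map ι * Matrix.scalar M (y a))
    ⟨fun a b c d hE => by simp only [hm, h.sat.1 a b c d hE],
      fun a b hZ => by simp only [hm, h.sat.2 a b hZ, map_zero, mul_zero]⟩
    (fun a ha => by simp only [h.out a ha, map_zero, mul_zero])
  refine ⟨ψ, fun w => ?_⟩
  induction w with
  | nil => simp
  | cons a w ih => rw [wd_cons, map_mul, hψ, ih, hm, List.length_cons, pow_succ']

theorem psi_apply {R M : Type} [Ring R] [Fintype M] [DecidableEq M] (ι : ZMod 2 →+* R)
    (B : Matrix M M (ZMod 2)) (r : R) (p q : M) :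
    (B.map ι * Matrix.scalar M r) p q = ι (B p q) * r := by
  simp

/-- Truncated shift. -/
def Nm (m : ℕ) : Matrix (Fin m) (Fin m) (ZMod 2) :=
  Matrix.of fun a c => if c.val = a.val + 1 then 1 else 0

/-- Cyclic shift. -/
def Pm (m : ℕ) : Matrix (Fin m) (Fin m) (ZMod 2) :=
  Matrix.of fun a c => if c.val = (a.val + 1) % m then 1 else 0

theorem mul_Nm {m : ℕ} (B : Matrix (Fin m) (Fin m) (ZMod 2)) (a c : Fin m) :
    (B * Nm m) a c = if h : c.val = 0 then 0 else B a ⟨c.val - 1, by omega⟩ := by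
  rw [Matrix.mul_apply]
  split_ifs with h
  · refine Finset.sum_eq_zero fun b _ => ?_
    simp [Nm, h]
  · rw [Finset.sum_eq_single ⟨c.val - 1, by omega⟩]
    · have : c.val = c.val - 1 + 1 := by omega
      simp only [Nm, Matrix.of_apply]
      rw [if_pos this, mul_one]
    · intro b _ hb
      have : ¬ c.val = b.val + 1 := fun h' => hb (Fin.ext (by simp; omega))
      simp [Nm, this]
    · simp

theorem Pm_mul {m : ℕ} (B : Matrix (Fin m) (Fin m) (ZMod 2)) (a c : Fin m) :
    (Pm m * B) a c = B ⟨(a.val + 1) % m, Nat.mod_lt _ a.pos⟩ c := by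
  rw [Matrix.mul_apply, Finset.sum_eq_single ⟨(a.val + 1) % m, Nat.mod_lt _ a.pos⟩]
  · simp [Pm]
  · intro b _ hb
    have : ¬ b.val = (a.val + 1) % m := fun h' => hb (Fin.ext h')
    simp [Pm, this]
  · simp

theorem Nm_pow {m : ℕ} (n : ℕ) (a c : Fin m) :
    (Nm m ^ n) a c = if c.val = a.val + n then 1 else 0 := by
  induction n generalizing c with
  | zero => simp [Matrix.one_apply, Fin.ext_iff, eq_comm]
  | succ n ih =>
    rw [pow_succ, mul_Nm]
    split_ifs with h1 h2 h2
    · omega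
    · rfl
    · rw [ih, if_pos (by simp; omega)]
    · rw [ih, if_neg (by simp; omega)]

theorem Pm_pow {m : ℕ} (n : ℕ) (a c : Fin m) :
    (Pm m ^ n) a c = if c.val = (a.val + n) % m then 1 else 0 := by
  induction n generalizing a with
  | zero => simp [Matrix.one_apply, Fin.ext_iff, eq_comm, Nat.mod_eq_of_lt a.2]
  | succ n ih =>
    rw [pow_succ', Pm_mul, ih]
    simp only [Nat.mod_add_mod]
    rw [add_assoc, add_comm 1 n]

theorem T_pow_two_pow {m : ℕ} (k : ℕ) : (1 + Nm m) ^ 2 ^ k = 1 + Nm m ^ 2 ^ k := by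
  induction k with
  | zero => simp
  | succ k ih =>
    rw [pow_succ, pow_mul, pow_mul, ih]
    have h2 : Nm m ^ 2 ^ k + Nm m ^ 2 ^ k = 0 := by
      ext p q
      simp [CharTwo.add_self_eq_zero]
    generalize Nm m ^ 2 ^ k = X at h2 ⊢
    rw [sq, sq, add_mul, mul_add, mul_add, one_mul, one_mul, mul_one, add_assoc, ← add_assoc X, h2,
      zero_add]

theorem T_pow_card (k : ℕ) : (1 + Nm (2 ^ k)) ^ 2 ^ k = 1 := by
  rw [T_pow_two_pow]
  ext p q
  rw [Matrix.add_apply, Nm_pow, if_neg (by omega), add_zero]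

theorem T_pow_succ {m : ℕ} (n : ℕ) (a c : Fin m) :
    ((1 + Nm m) ^ (n + 1)) a c = ((1 + Nm m) ^ n) a c +
      if h : c.val = 0 then 0 else ((1 + Nm m) ^ n) a ⟨c.val - 1, by omega⟩ := by
  rw [pow_succ, mul_add, mul_one, Matrix.add_apply, mul_Nm]

theorem T_pow_lt {m : ℕ} (n : ℕ) (a c : Fin m) (h : c.val < a.val) :
    ((1 + Nm m) ^ n) a c = 0 := by
  induction n generalizing c with
  | zero => simp [Matrix.one_apply, Fin.ext_iff]; omega
  | succ n ih =>
    rw [T_pow_succ, ih c h, zero_add]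
    split_ifs with h1
    · rfl
    · exact ih _ (by simp; omega)

theorem T_pow_diag {m : ℕ} (n : ℕ) (a : Fin m) : ((1 + Nm m) ^ n) a a = 1 := by
  induction n with
  | zero => simp
  | succ n ih =>
    rw [T_pow_succ, ih]
    split_ifs with h1
    · simp
    · rw [T_pow_lt n a _ (by simp; omega), add_zero]

theorem T_pow_gt {m : ℕ} (n : ℕ) (a c : Fin m) (h : a.val + n < c.val) :
    ((1 + Nm m) ^ n) a c = 0 := by
  induction n generalizing c with
  | zero => simp [Matrix.one_apply, Fin.ext_iff]; omega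
  | succ n ih =>
    rw [T_pow_succ, ih c (by omega), zero_add]
    split_ifs with h1
    · rfl
    · exact ih _ (by simp; omega)

theorem T_pow_top {m : ℕ} (n : ℕ) (a c : Fin m) (h : a.val + n = c.val) :
    ((1 + Nm m) ^ n) a c = 1 := by
  induction n generalizing c with
  | zero =>
    have : a = c := Fin.ext h
    simp [this]
  | succ n ih =>
    rw [T_pow_succ, T_pow_gt n a c (by omega), zero_add, dif_neg (by omega)]
    exact ih _ (by simp; omega)

theorem exists_B (k : ℕ) : ∃ B B' : Matrix (Fin (2 ^ k)) (Fin (2 ^ k)) (ZMod 2),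
    B * B' = 1 ∧ B * (1 + Nm (2 ^ k)) = Pm (2 ^ k) * B := by
  have hm : 0 < 2 ^ k := by positivity
  let B : Matrix (Fin (2 ^ k)) (Fin (2 ^ k)) (ZMod 2) :=
    Matrix.of fun a c => ((1 + Nm (2 ^ k)) ^ a.val) ⟨0, hm⟩ c
  have hdet : B.det = 1 := by
    rw [Matrix.det_of_isLowerTriangular B (fun a c hac => T_pow_gt _ _ _ (by simpa using hac))]
    exact Finset.prod_eq_one fun a _ => T_pow_top _ _ _ (by simp)
  refine ⟨B, B⁻¹, Matrix.mul_nonsing_inv B (by rw [hdet]; exact isUnit_one), ?_⟩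
  ext a c
  have h1 : (B * (1 + Nm (2 ^ k))) a c = ((1 + Nm (2 ^ k)) ^ (a.val + 1)) ⟨0, hm⟩ c := by
    rw [pow_succ, Matrix.mul_apply, Matrix.mul_apply]; rfl
  rw [h1, Pm_mul]
  show _ = ((1 + Nm (2 ^ k)) ^ ((a.val + 1) % 2 ^ k)) ⟨0, hm⟩ c
  rw [← pow_eq_pow_mod _ (T_pow_card k)]

section blk

variable {I M R : Type} [Fintype M] [DecidableEq M] [Ring R]
  {b : St I (Matrix M M R) →* St (I × M) R}

theorem blk_mem (hb : IsBlk b) {i j : I} (hij : i ≠ j) (H : Subgroup (St (I × M) R))
    (B : Matrix M M R) (h : ∀ a c, x (i, a) (j, c) (B a c) ∈ H) : b (x i j B) ∈ H := by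
  let K : AddSubmonoid (Matrix M M R) :=
    { carrier := {B | b (x i j B) ∈ H}
      zero_mem' := by
        show b (x i j 0) ∈ H
        rw [isSt.zero, map_one]; exact one_mem _
      add_mem' := by
        intro B B' h1 h2
        show b (x i j (B + B')) ∈ H
        rw [← isSt.add, map_mul]; exact mul_mem h1 h2 }
  show B ∈ K
  rw [Matrix.matrix_eq_sum_single B]
  refine sum_mem fun a _ => sum_mem fun c _ => ?_
  show b (x i j _) ∈ H
  rw [hb i j a c _ hij]; exact h a c

end blk

/-- The subgroup generated by the elements supported in the middle. -/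
def Mid (I R : Type) [Ring R] (m E lo : ℕ) : Subgroup (St (I × Fin m) R) :=
  Subgroup.closure {g | ∃ (p q : I × Fin m) (r : R), lo ≤ p.2.val ∧ p.2.val + E + lo < m ∧
    lo ≤ q.2.val ∧ q.2.val + lo < m ∧ g = x p q r}

theorem Mid_mono (I R : Type) [Ring R] (m E lo : ℕ) : Mid I R m E (lo + E) ≤ Mid I R m E lo := by
  refine Subgroup.closure_mono ?_
  rintro g ⟨p, q, r, h1, h2, h3, h4, rfl⟩
  exact ⟨p, q, r, by omega, by omega, by omega, by omega, rfl⟩

/-- Cyclic height function. -/
def cpos (m s : ℕ) (a : Fin m) : ℕ := if s ≤ a.val then a.val - s else a.val + m - s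

/-- The properties of the two shifts that are used. -/
def Shift {m : ℕ} (D : Matrix (Fin m) (Fin m) (ZMod 2)) : Prop :=
  ∀ (n : ℕ) (a c : Fin m), n ≤ m → ((D ^ n) a c = 1 → c.val = a.val + n ∨ c.val + m = a.val + n) ∧
    (a.val + n < m → (D ^ n) a c = if c.val = a.val + n then 1 else 0)

theorem shift_Nm (m : ℕ) : Shift (Nm m) := by
  intro n a c _
  rw [Nm_pow]
  refine ⟨fun h => Or.inl ?_, fun _ => rfl⟩
  by_contra h'
  rw [if_neg h'] at h
  exact zero_ne_one h

theorem shift_Pm (m : ℕ) : Shift (Pm m) := by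
  intro n a c hn
  rw [Pm_pow]
  refine ⟨fun h => ?_, fun h => by rw [Nat.mod_eq_of_lt h]⟩
  have h1 : c.val = (a.val + n) % m := by
    by_contra h'
    rw [if_neg h'] at h
    exact zero_ne_one h
  by_cases h2 : a.val + n < m
  · rw [Nat.mod_eq_of_lt h2] at h1; exact Or.inl h1
  · have := a.2
    rw [Nat.mod_eq_sub_mod (by omega), Nat.mod_eq_of_lt (by omega)] at h1
    omega

theorem split_one {A I R : Type} [Ring R] (y : A → R) (ι : ZMod 2 →+* R) {m : ℕ}
    {b : St I (Matrix (Fin m) (Fin m) R) →* St (I × Fin m) R} (hb : IsBlk b) {E lo s : ℕ}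
    (hs : lo + E ≤ s) (hm : s + E + lo ≤ m) {i j : I} (hij : i ≠ j) {w : List A}
    (hw : w.length ≤ E) :
    ∃ α ∈ Mid I R m E lo, ∀ D, Shift D → ∃ β ∈ T0 I R (cpos m s),
      (∀ g ∈ Mid I R m E (lo + E), g * β = β * g) ∧
      b (x i j ((D ^ w.length).map ι * Matrix.scalar (Fin m) (wd y w))) = α * β := by
  let A1 : Matrix (Fin m) (Fin m) R := Matrix.of fun a c =>
    if (lo ≤ a.val ∧ a.val + E + lo < m) ∧ c.val = a.val + w.length then wd y w else 0
  refine ⟨b (x i j A1), blk_mem hb hij _ _ fun a c => ?_, fun D hD => ?_⟩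
  · simp only [A1, Matrix.of_apply]
    split_ifs with h
    · exact Subgroup.subset_closure ⟨(i, a), (j, c), _, h.1.1, h.1.2, by simp; omega,
        by simp; omega, rfl⟩
    · rw [isSt.zero]; exact one_mem _
  let A2 : Matrix (Fin m) (Fin m) R := Matrix.of fun a c =>
    if ¬ (lo ≤ a.val ∧ a.val + E + lo < m) ∧ (D ^ w.length) a c = 1 then wd y w else 0
  refine ⟨b (x i j A2), blk_mem hb hij _ _ fun a c => ?_, fun g hg => ?_, ?_⟩
  · simp only [A2, Matrix.of_apply]
    split_ifs with h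
    · have h1 := (hD w.length a c (by omega)).1 h.2
      have h2 := h.1
      have := a.2
      have := c.2
      by_cases h0 : w.length = 0
      · have hac : a = c := Fin.ext (by omega)
        rw [List.length_eq_zero_iff.1 h0, wd_nil]
        exact Subgroup.subset_closure (Or.inr ⟨(i, a), (j, c), hac, rfl⟩)
      · refine Subgroup.subset_closure (Or.inl ⟨(i, a), (j, c), _, ?_, rfl⟩)
        simp only [cpos]
        split_ifs <;> omega
    · rw [isSt.zero]; exact one_mem _
  · have h1 : b (x i j A2) ∈ Subgroup.centralizer (Mid I R m E (lo + E) : Set _) := by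
      refine blk_mem hb hij _ _ fun a c => ?_
      simp only [A2, Matrix.of_apply]
      split_ifs with h
      · rw [Mid, Subgroup.centralizer_closure]
        rintro _ ⟨p, q, r, h1, h2, h3, h4, rfl⟩
        have h5 := (hD w.length a c (by omega)).1 h.2
        have h6 := h.1
        have := a.2
        have := c.2
        refine isSt.comm _ _ _ _ _ _ ?_ ?_
        · rintro rfl
          simp only at h3 h4
          omega
        · rintro rfl
          simp only at h1 h2
          omega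
      · rw [isSt.zero]; exact one_mem _
    exact h1 g hg
  · rw [← map_mul, isSt.add]
    congr 2
    ext a c
    rw [psi_apply, Matrix.add_apply]
    simp only [A1, A2, Matrix.of_apply]
    by_cases h : lo ≤ a.val ∧ a.val + E + lo < m
    · rw [(hD w.length a c (by omega)).2 (by omega)]
      by_cases h' : c.val = a.val + w.length
      · simp [h, h']
      · simp [h, h']
    · rcases zmod_cases ((D ^ w.length) a c) with h' | h'
      · simp [h, h']
      · simp [h, h']

theorem split_all {A I R : Type} [Ring R] (y : A → R) (ι : ZMod 2 →+* R) {m : ℕ}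
    {b : St I (Matrix (Fin m) (Fin m) R) →* St (I × Fin m) R} (hb : IsBlk b) {E s : ℕ}
    (hm : 2 * s ≤ m) (L : List (I × I × List A)) (hL : ∀ t ∈ L, t.1 ≠ t.2.1 ∧ t.2.2.length ≤ E)
    (lo : ℕ) (hs : lo + L.length * E ≤ s) :
    ∃ α ∈ Mid I R m E lo, ∀ D, Shift D → ∀ ψ : R →+* Matrix (Fin m) (Fin m) R,
      (∀ w, ψ (wd y w) = (D ^ w.length).map ι * Matrix.scalar (Fin m) (wd y w)) →
      ∃ β ∈ T0 I R (cpos m s),
        b (rmap ψ (L.map fun t => x t.1 t.2.1 (wd y t.2.2)).prod) = α * β := by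
  induction L generalizing lo with
  | nil => exact ⟨1, one_mem _, fun D _ ψ _ => ⟨1, one_mem _, by simp⟩⟩
  | cons t L ih =>
    rw [List.length_cons, add_mul, one_mul] at hs
    obtain ⟨α, hα, h1⟩ := split_one y ι hb (E := E) (lo := lo) (s := s) (by omega) (by omega)
      (hL t List.mem_cons_self).1 (hL t List.mem_cons_self).2
    obtain ⟨α', hα', h2⟩ := ih (fun t ht => hL t (List.mem_cons_of_mem _ ht)) (lo + E) (by omega)
    refine ⟨α * α', mul_mem hα (Mid_mono _ _ _ _ _ hα'), fun D hD ψ hψ => ?_⟩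
    obtain ⟨β, hβ, h3, h4⟩ := h1 D hD
    obtain ⟨β', hβ', h5⟩ := h2 D hD ψ hψ
    refine ⟨β * β', mul_mem hβ hβ', ?_⟩
    rw [List.map_cons, List.prod_cons, map_mul, map_mul, h5, rmap_x, hψ, h4, mul_assoc,
      ← mul_assoc β, ← h3 α' hα']
    simp only [mul_assoc]

theorem N_mem {A I R : Type} [Ring R] (y : A → R) (ι : ZMod 2 →+* R) {m : ℕ}
    {b : St I (Matrix (Fin m) (Fin m) R) →* St (I × Fin m) R} (hb : IsBlk b)
    (ψ : R →+* Matrix (Fin m) (Fin m) R)
    (hψ : ∀ w, ψ (wd y w) = (Nm m ^ w.length).map ι * Matrix.scalar (Fin m) (wd y w))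
    (L : List (I × I × List A)) (hL : ∀ t ∈ L, t.1 ≠ t.2.1) :
    b (rmap ψ (L.map fun t => x t.1 t.2.1 (wd y t.2.2)).prod) ∈ T0 I R (Fin.val : Fin m → ℕ) := by
  induction L with
  | nil => simp
  | cons t L ih =>
    rw [List.map_cons, List.prod_cons, map_mul, map_mul]
    refine mul_mem ?_ (ih fun t ht => hL t (List.mem_cons_of_mem _ ht))
    rw [rmap_x, hψ]
    refine blk_mem hb (hL t List.mem_cons_self) _ _ fun a c => ?_
    rw [psi_apply, Nm_pow]
    split_ifs with h
    · rw [map_one, one_mul]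
      by_cases h0 : t.2.2.length = 0
      · have hac : a = c := Fin.ext (by omega)
        rw [List.length_eq_zero_iff.1 h0, wd_nil]
        exact Subgroup.subset_closure (Or.inr ⟨(_, a), (_, c), hac, rfl⟩)
      · exact Subgroup.subset_closure (Or.inl ⟨(_, a), (_, c), _, by simp; omega, rfl⟩)
    · rw [map_zero, zero_mul, isSt.zero]; exact one_mem _

end Transfer

open Transfer in
theorem St.transfer {A : Type} {Q : QP A} {R : Type} [Ring R] {y : A → R}
    (h : Q.Presents R y) (ε : R →+* ZMod 2) (hu : ∀ r, ε r = 1 → IsUnit r)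
    (ι : ZMod 2 →+* R) (I : Type) [Fintype I] [DecidableEq I] (hI : 5 ≤ Fintype.card I)
    (c : St I R) (hc : St.toGL c = 1) :
    ∃ m : ℕ, 0 < m ∧ ∃ c0 : St I (ZMod 2), St.toGL c0 = 1 ∧ c ^ m = St.rmap ι c0 := by
  have hι : Function.Injective ι := by
    have h1 : ∀ u, ε (ι u) = u := by
      intro u
      rcases zmod_cases u with rfl | rfl <;> simp
    exact Function.LeftInverse.injective h1
  obtain ⟨L, E, hL, hcL⟩ := exists_list h.span c
  set k : ℕ := 2 * (L.length * E) + 1 with hk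
  have hmk : k < 2 ^ k := Nat.lt_two_pow_self
  have hM : 2 ≤ Fintype.card (Fin (2 ^ k)) := by rw [Fintype.card_fin]; omega
  obtain ⟨b, hb⟩ := St.exists_blk I (Fin (2 ^ k)) R
  obtain ⟨ψ1, h1⟩ := exists_psi h ι (Pm (2 ^ k))
  obtain ⟨ψ0, h0⟩ := exists_psi h ι (Nm (2 ^ k))
  obtain ⟨ψT, hT⟩ := exists_psi h ι (1 + Nm (2 ^ k))
  let a0 : Fin (2 ^ k) := ⟨0, by omega⟩
  have hd : ∀ r a, ψT r a a = r := by
    intro r a
    induction h.span r using AddSubmonoid.closure_induction with
    | mem r hr => obtain ⟨w, rfl⟩ := hr; rw [hT, psi_apply, T_pow_diag, map_one, one_mul]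
    | zero => simp
    | add r r' _ _ e1 e2 => rw [map_add, Matrix.add_apply, e1, e2]
  have ht : ∀ r (a a' : Fin (2 ^ k)), a ≠ a' → ¬ a.val < a'.val → ψT r a a' = 0 := by
    intro r a a' e1 e2
    have e3 : a'.val < a.val := by
      have : a.val ≠ a'.val := fun e => e1 (Fin.ext e)
      omega
    induction h.span r using AddSubmonoid.closure_induction with
    | mem r hr => obtain ⟨w, rfl⟩ := hr; rw [hT, psi_apply, T_pow_lt _ _ _ e3, map_zero, zero_mul]
    | zero => simp
    | add r r' _ _ e1 e2 => rw [map_add, Matrix.add_apply, e1, e2, add_zero]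
  have eT := hb.tri_eq h.two (by omega) hM Fin.val ψT hd ht hc a0
  rw [Fintype.card_fin] at eT
  obtain ⟨B, B', hB, hBT⟩ := exists_B k
  obtain ⟨β, hβ⟩ := hb.exists_conj ι B B' hB
  have hBn : ∀ n : ℕ, B * (1 + Nm (2 ^ k)) ^ n = Pm (2 ^ k) ^ n * B :=
    fun n => SemiconjBy.pow_right hBT n
  have hconj : ∀ r, B.map ι * ψT r * B'.map ι = ψ1 r := by
    intro r
    induction h.span r using AddSubmonoid.closure_induction with
    | mem r hr =>
      obtain ⟨w, rfl⟩ := hr
      have e1 : Matrix.scalar (Fin (2 ^ k)) (wd y w) * B'.map ι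
          = B'.map ι * Matrix.scalar (Fin (2 ^ k)) (wd y w) := by
        ext p q
        simp [iota_comm]
      rw [hT, h1, mul_assoc, mul_assoc, e1, ← mul_assoc, ← mul_assoc, ← Matrix.map_mul,
        ← Matrix.map_mul, hBn, mul_assoc _ B, hB, mul_one]
    | zero => simp
    | add r r' _ _ e1 e2 => rw [map_add, map_add, mul_add, add_mul, e1, e2]
  have e1 : b (St.rmap ψ1 c) = β * b (St.rmap ψT c) * β⁻¹ := by
    have : b.comp (St.rmap ψ1)
        = (MulAut.conj β).toMonoidHom.comp (b.comp (St.rmap ψT)) := by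
      refine St.hom_ext fun i j r => ?_
      simp only [MonoidHom.comp_apply, St.rmap_x, MulEquiv.coe_toMonoidHom, MulAut.conj_apply]
      rw [hβ, hconj]
    exact DFunLike.congr_fun this c
  have hns : ¬ Function.Surjective fun i : I => (i, a0) := by
    intro hsurj
    have : Nonempty I := Fintype.card_pos_iff.1 (by omega)
    obtain ⟨i, hi⟩ := hsurj (Classical.arbitrary I, ⟨1, by omega⟩)
    have := congrArg (fun p : I × Fin (2 ^ k) => p.2.val) hi
    simp [a0] at this
  have hcen : Commute (St.inc a0 (RingHom.id R) c) β := St.map_central _ _ hns _ hc β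
  rw [eT, ← (hcen.pow_left _).eq, mul_inv_cancel_right] at e1
  obtain ⟨α, -, hα⟩ := split_all y ι hb (E := E) (s := L.length * E) (by omega) L hL 0 (by omega)
  obtain ⟨β1, hβ1, e2⟩ := hα _ (shift_Pm _) ψ1 h1
  obtain ⟨β0, hβ0, e3⟩ := hα _ (shift_Nm _) ψ0 h0
  have e4 := N_mem y ι hb ψ0 h0 L fun t ht => (hL t ht).1
  rw [← hcL] at e2 e3 e4
  have g1 := hb.toGL_eq_one ψ1 hc
  have g0 := hb.toGL_eq_one ψ0 hc
  have e5 : β0⁻¹ * β1 = (b (St.rmap ψ0 c))⁻¹ * b (St.rmap ψ1 c) := by rw [e2, e3]; group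
  obtain ⟨c1, hc1, e6⟩ := St.T0_ker h.two (by omega) hM ι hι _ (mul_mem (inv_mem hβ0) hβ1)
    (by rw [e5, map_mul, map_inv, g0, g1]; simp) a0
  obtain ⟨c2, hc2, e7⟩ := St.T0_ker h.two (by omega) hM ι hι _ e4 g0 a0
  refine ⟨2 ^ k, by omega, c2 * c1, by rw [map_mul, hc1, hc2, one_mul], ?_⟩
  have e8 : (St.inc a0 (RingHom.id R)).comp (St.rmap ι) = (St.inc a0 ι : St I (ZMod 2) →* _) :=
    St.hom_ext fun i j r => by simp
  apply St.map_injective h.two ε hu hI (fun i : I => (i, a0)) (fun _ _ h => (Prod.ext_iff.1 h).1)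
  show St.inc a0 (RingHom.id R) _ = ((St.inc a0 (RingHom.id R)).comp (St.rmap ι)) _
  rw [e8, map_pow, ← e1, map_mul, ← e6, ← e7, e5, mul_inv_cancel_left]

end Vale.Agent.P192
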