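import Vale.Agent.P192.Unip
import Vale.Agent.P192.Blk

namespace Vale.Agent.P192

namespace St

variable {I M R S : Type} [Ring R] [Ring S]

theorem inc_commute (f : S →+* R) {a a' : M} (h : a ≠ a') (g g' : St I S) :
    Commute (inc a f g) (inc a' f g') := by
  induction g using St.induction with
  | one => simp
  | step i j r g _ ih =>
    rw [map_mul]
    refine Commute.mul_left ?_ ih
    clear ih
    induction g' using St.induction with
    | one => simp
    | step k l s g' _ ih =>
      rw [map_mul]
      refine Commute.mul_right ?_ ih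
      rw [inc_x, inc_x]
      exact isSt.commute _ _ (fun e => h (congrArg Prod.snd e)) fun e => h (congrArg Prod.snd e)

/-- The block diagonal homomorphism. -/
def delta [Fintype M] (f : S →+* R) : (M → St I S) →* St (I × M) R :=
  MonoidHom.noncommPiCoprod (fun a => inc a f) fun _ _ h g g' => inc_commute f h g g'

theorem delta_single [Fintype M] [DecidableEq M] (f : S →+* R) (a : M) (g : St I S) :
    delta f (Pi.mulSingle a g) = inc a f g :=
  MonoidHom.noncommPiCoprod_mulSingle (N := fun _ : M => St I S) _ _ _

theorem delta_induction [Fintype M] (f : S →+* R) (g : M → St I S) (P : St (I × M) R → Prop)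
    (hm : ∀ a b, P a → P b → P (a * b)) (h1 : P 1) (h : ∀ a, P (inc a f (g a))) :
    P (delta f g) :=
  Finset.noncommProd_induction _ (fun a => inc a f (g a))
    (fun _ _ _ _ h => inc_commute f h _ _) P hm h1 fun a _ => h a

theorem x_conj_mem (pos : M → ℕ) (a : M) (i j : I) (r : R) {u : St (I × M) R}
    (hu : u ∈ U R fun p : I × M => pos p.2) :
    x (i, a) (j, a) r * u * (x (i, a) (j, a) r)⁻¹ ∈ U R fun p : I × M => pos p.2 := by
  by_cases hij : i = j
  · subst hij; simpa [isSt.diag] using hu
  have hne : (i, a) ≠ (j, a) := fun e => hij (congrArg Prod.fst e)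
  have gen : ∀ (p q : I × M) (s : R), pos p.2 < pos q.2 →
      x p q s ∈ U R fun p : I × M => pos p.2 :=
    fun p q s h => Subgroup.subset_closure ⟨p, q, s, h, rfl⟩
  refine U_induction (fun _ => True) (fun p q : I × M => pos p.2 < pos q.2) (g := u)
    (P := fun u => x (i, a) (j, a) r * u * (x (i, a) (j, a) r)⁻¹ ∈ U R fun p : I × M => pos p.2)
    (by simp) ?_ (by simpa [U] using hu)
  intro p q s g _ hpq ih
  rw [conj_mul']
  refine mul_mem ?_ ih
  have hne' : ∀ p' q' : I × M, pos p'.2 < pos q'.2 → p' ≠ q' := fun p' q' h e => by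
    rw [e] at h; omega
  by_cases h1 : (j, a) = p
  · subst h1
    rw [isSt.conjL _ _ hne (hne' _ _ hpq) (hne' (i, a) _ hpq)]
    exact mul_mem (gen _ _ _ hpq) (gen _ _ _ hpq)
  by_cases h2 : (i, a) = q
  · subst h2
    rw [isSt.conjR _ _ (hne' _ _ hpq) hne (hne' _ (j, a) hpq)]
    exact mul_mem (gen _ _ _ hpq) (gen _ _ _ hpq)
  · rw [isSt.conjC _ _ h1 h2]
    exact gen _ _ _ hpq

theorem delta_conj_mem [Fintype M] (pos : M → ℕ) (f : S →+* R) (g : M → St I S) :
    ∀ u ∈ U R fun p : I × M => pos p.2,
      delta f g * u * (delta f g)⁻¹ ∈ U R fun p : I × M => pos p.2 := by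
  refine delta_induction f g (fun d => ∀ u ∈ U R fun p : I × M => pos p.2,
    d * u * d⁻¹ ∈ U R fun p : I × M => pos p.2) (fun a b ha hb u hu => ?_) (by simp) fun a => ?_
  · rw [mul_conj']
    exact ha _ (hb u hu)
  · generalize g a = s
    induction s using St.induction with
    | one => simp
    | step i j r s _ ih =>
      intro u hu
      rw [map_mul, mul_conj', inc_x]
      exact x_conj_mem pos a i j _ (ih u hu)

theorem rel_mul [Fintype M] (pos : M → ℕ) (f : S →+* R) {g g' : M → St I S}
    {t t' : St (I × M) R} (h : t * (delta f g)⁻¹ ∈ U R fun p : I × M => pos p.2)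
    (h' : t' * (delta f g')⁻¹ ∈ U R fun p : I × M => pos p.2) :
    t * t' * (delta f (g * g'))⁻¹ ∈ U R fun p : I × M => pos p.2 := by
  have := mul_mem h (delta_conj_mem pos f g _ h')
  rw [map_mul]
  convert this using 1
  group

variable [Fintype I] [DecidableEq I] [Fintype M] [DecidableEq M]

theorem toGL_delta (f : S →+* R) (g : M → St I S) :
    (toGL (delta f g) : Matrix (I × M) (I × M) R)
      = Matrix.blockDiagonal fun a => (toGL (g a) : Matrix I I S).map f := by
  let F : (M → St I S) →* Matrix (I × M) (I × M) R :=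
    { toFun := fun g => Matrix.blockDiagonal fun a => (toGL (g a) : Matrix I I S).map f
      map_one' := by
        simp only [Pi.one_apply, map_one, Units.val_one, Matrix.map_one _ f.map_zero f.map_one]
        exact Matrix.blockDiagonal_one
      map_mul' := fun g g' => by
        simp only [Pi.mul_apply, map_mul, Units.val_mul, Matrix.map_mul]
        exact Matrix.blockDiagonal_mul _ _ }
  have : ((Units.coeHom _).comp toGL).comp (delta f) = F := by
    refine MonoidHom.pi_ext fun a s => ?_
    induction s using St.induction with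
    | one => simp
    | step i j r s hij ih =>
      rw [Pi.mulSingle_mul, map_mul, map_mul, ih]
      congr 1
      change (toGL (delta f (Pi.mulSingle a (x i j r))) : Matrix (I × M) (I × M) R)
        = Matrix.blockDiagonal fun c =>
          (toGL ((Pi.mulSingle a (x i j r) : M → St I S) c) : Matrix I I S).map f
      rw [delta_single, inc_x, toGL_x, elem_val fun e => hij (congrArg Prod.fst e)]
      ext ⟨k, c⟩ ⟨l, d⟩
      rw [Matrix.blockDiagonal_apply]
      by_cases hcd : c = d
      · subst hcd
        by_cases hc : c = a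
        · subst hc
          simp [elem_val hij, Matrix.one_apply, Matrix.single_apply, apply_ite f]
        · simp [hc, Ne.symm hc, Matrix.one_apply, apply_ite f]
      · have : ¬ (a = c ∧ a = d) := fun h => hcd (h.1.symm.trans h.2)
        simp only [Matrix.add_apply, Matrix.one_apply, Matrix.single_apply, Prod.mk.injEq, hcd,
          and_false, if_false, zero_add]
        rw [if_neg fun h => this ⟨h.1.2, h.2.2⟩]
  exact DFunLike.congr_fun this g

omit [DecidableEq M] in
theorem inc_eq (two : ∀ r : R, r + r = 0) (hI : 3 ≤ Fintype.card I) (hM : 2 ≤ Fintype.card M)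
    (f : S →+* R) {c : St I S} (hc : toGL c = 1) (a a' : M) : inc a f c = inc a' f c := by
  refine map_eq_of_ker two ?_ _ _ _ _ (fun h => ?_) f hc
  · rw [Fintype.card_prod]; nlinarith
  · obtain ⟨i⟩ : Nonempty I := Fintype.card_pos_iff.1 (by omega)
    obtain ⟨d, hd⟩ := Fintype.exists_ne_of_one_lt_card (by omega : 1 < Fintype.card M) a
    obtain ⟨j, hj⟩ := h (i, d)
    exact hd (congrArg Prod.snd hj).symm

end St

theorem St.IsBlk.tri_eq {I M R : Type} [Fintype I] [DecidableEq I] [Fintype M]
    [DecidableEq M] [Ring R] (two : ∀ r : R, r + r = 0) (hI : 3 ≤ Fintype.card I)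
    (hM : 2 ≤ Fintype.card M) {b : St I (Matrix M M R) →* St (I × M) R} (hb : St.IsBlk b)
    (pos : M → ℕ) (ψ : R →+* Matrix M M R) (hd : ∀ r a, ψ r a a = r)
    (ht : ∀ r a a', a ≠ a' → ¬ pos a < pos a' → ψ r a a' = 0)
    {c : St I R} (hc : St.toGL c = 1) (a0 : M) :
    b (St.rmap ψ c) = (St.inc a0 (RingHom.id R) c) ^ Fintype.card M := by
  have h1 : ∀ s : St I R, b (St.rmap ψ s) * (St.delta (RingHom.id R) fun _ : M => s)⁻¹
      ∈ St.U R fun p : I × M => pos p.2 := by
    intro s
    induction s using St.induction with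
    | one =>
      have : (fun _ : M => (1 : St I R)) = 1 := rfl
      simp [this]
    | step i j r s hij ih =>
      rw [map_mul, map_mul]
      refine St.rel_mul pos _ (g := fun _ => St.x i j r) (g' := fun _ => s) ?_ ih
      have key : b (St.x i j (ψ r)) * (St.delta (RingHom.id R) fun a => St.x i j (ψ r a a))⁻¹
          ∈ St.U R fun p : I × M => pos p.2 := by
        have h0 : b (St.x i j 0) *
            (St.delta (RingHom.id R) fun a => St.x i j ((0 : Matrix M M R) a a))⁻¹
            ∈ St.U R fun p : I × M => pos p.2 := by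
          have : (fun _ : M => (1 : St I R)) = 1 := rfl
          simp [St.isSt.zero, this]
        rw [Matrix.matrix_eq_sum_single (ψ r), ← Finset.sum_product']
        refine Finset.sum_induction _ (fun A : Matrix M M R => b (St.x i j A) *
          (St.delta (RingHom.id R) fun a => St.x i j (A a a))⁻¹
          ∈ St.U R fun p : I × M => pos p.2) (fun A A' hA hA' => ?_) h0 ?_
        · have := St.rel_mul pos _ hA hA'
          rw [St.x_add, map_mul]
          convert this using 4
          funext a
          exact St.x_add _ _ _ _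
        · rintro ⟨a, a'⟩ -
          by_cases haa : a = a'
          · subst haa
            have : (fun a' => (St.x i j (Matrix.single a a (ψ r a a) a' a') : St I R))
                = Pi.mulSingle a (St.x i j (ψ r a a)) := by
              funext a'
              by_cases h : a' = a
              · subst h; simp
              · simp [h, Ne.symm h, St.isSt.zero]
            rw [this, St.delta_single, hb _ _ _ _ _ hij, St.inc_x]
            simp
          by_cases hp : pos a < pos a'
          · have : (fun d => (St.x i j (Matrix.single a a' (ψ r a a') d d) : St I R)) = 1 := by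
              funext d
              rw [Matrix.single_apply, if_neg fun h => haa (h.1.trans h.2.symm), St.isSt.zero]
              rfl
            rw [this, map_one, inv_one, mul_one, hb _ _ _ _ _ hij]
            exact Subgroup.subset_closure ⟨_, _, _, hp, rfl⟩
          · rw [ht r a a' haa hp, Matrix.single_zero]
            exact h0
      simpa [hd] using key
  have h2 : St.toGL (St.delta (RingHom.id R) fun _ : M => c) = 1 := by
    ext1
    rw [St.toGL_delta, hc]
    simp only [Units.val_one, Matrix.map_one _ (RingHom.id R).map_zero (RingHom.id R).map_one]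
    exact Matrix.blockDiagonal_one
  have h3 := St.U_inj _ (h1 c) (by rw [map_mul, map_inv, h2, hb.toGL_eq_one ψ hc]; simp)
  rw [mul_inv_eq_one] at h3
  rw [h3]
  exact Finset.noncommProd_eq_pow_card _ (fun a => St.inc a (RingHom.id R) c)
    (fun _ _ _ _ h => St.inc_commute _ h _ _) _ fun a _ => St.inc_eq two hI hM _ hc a a0

theorem St.T0_ker {I M R : Type} [Fintype I] [DecidableEq I] [Fintype M]
    [DecidableEq M] [Ring R] (two : ∀ r : R, r + r = 0) (hI : 3 ≤ Fintype.card I)
    (hM : 2 ≤ Fintype.card M) (ι : ZMod 2 →+* R) (hι : Function.Injective ι) (pos : M → ℕ)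
    {τ : St (I × M) R} (hτ : τ ∈ St.T0 I R pos) (h1 : St.toGL τ = 1) (a0 : M) :
    ∃ c0 : St I (ZMod 2), St.toGL c0 = 1 ∧ τ = St.inc a0 ι c0 := by
  have hdec : ∃ g : M → St I (ZMod 2),
      τ * (St.delta ι g)⁻¹ ∈ St.U R fun p : I × M => pos p.2 := by
    clear h1
    induction hτ using Subgroup.closure_induction with
    | mem t ht =>
      rcases ht with ⟨p, q, r, h, rfl⟩ | ⟨⟨i, a⟩, ⟨j, a'⟩, h, rfl⟩
      · refine ⟨1, ?_⟩
        rw [map_one, inv_one, mul_one]
        exact Subgroup.subset_closure ⟨p, q, r, h, rfl⟩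
      · obtain rfl : a = a' := h
        refine ⟨Pi.mulSingle a (St.x i j 1), ?_⟩
        rw [St.delta_single, St.inc_x]
        simp
    | one => exact ⟨1, by simp⟩
    | mul t t' _ _ h h' =>
      obtain ⟨g, hg⟩ := h
      obtain ⟨g', hg'⟩ := h'
      exact ⟨_, St.rel_mul pos ι hg hg'⟩
    | inv t _ h =>
      obtain ⟨g, hg⟩ := h
      refine ⟨g⁻¹, ?_⟩
      have := St.delta_conj_mem pos ι g⁻¹ _ (inv_mem hg)
      convert this using 1
      rw [map_inv]
      group
  obtain ⟨g, hg⟩ := hdec
  have h2 : ∀ a, St.toGL (g a) = 1 := by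
    intro a
    have e1 : St.toGL (St.delta ι g) = St.toGL (τ * (St.delta ι g)⁻¹)⁻¹ := by
      rw [map_inv, map_mul, h1]; simp
    ext i j
    apply hι
    have := St.U_mat _ (inv_mem hg) (i, a) (j, a) (lt_irrefl _)
    rw [← e1, St.toGL_delta, Matrix.blockDiagonal_apply_eq, Matrix.map_apply] at this
    rw [this]
    simp [Matrix.one_apply, apply_ite ι]
  have h3 : St.toGL (St.delta ι g) = 1 := by
    ext1
    rw [St.toGL_delta]
    simp only [h2, Units.val_one, Matrix.map_one _ ι.map_zero ι.map_one]
    exact Matrix.blockDiagonal_one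
  have h4 := St.U_inj _ hg (by rw [map_mul, map_inv, h1, h3]; simp)
  rw [mul_inv_eq_one] at h4
  rw [h4]
  refine St.delta_induction ι g (fun t => ∃ c0 : St I (ZMod 2), St.toGL c0 = 1 ∧
    t = St.inc a0 ι c0) ?_ ⟨1, map_one _, (map_one _).symm⟩
    fun a => ⟨g a, h2 a, St.inc_eq two hI hM ι (h2 a) a a0⟩
  rintro _ _ ⟨c, hc, rfl⟩ ⟨c', hc', rfl⟩
  exact ⟨c * c', by rw [map_mul, hc, hc', mul_one], (map_mul _ _ _).symm⟩

end Vale.Agent.P192
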