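import Vale.Agent.P192.UnipX

namespace Vale.Agent.P192

theorem St.U_mat {J R : Type} [Fintype J] [DecidableEq J] [Ring R] (pos : J → ℕ)
    {g : St J R} (hg : g ∈ St.U R pos) (p q : J) (h : ¬ pos p < pos q) :
    (St.toGL g : Matrix J J R) p q = (1 : Matrix J J R) p q := by
  revert p q
  refine St.U_induction (fun _ => True) (fun p q => pos p < pos q) (g := g)
    (P := fun g : St J R => ∀ p q, ¬ pos p < pos q →
      (St.toGL g : Matrix J J R) p q = (1 : Matrix J J R) p q)
    (fun p q _ => by rw [map_one, Units.val_one]) ?_ (by simpa [St.U] using hg)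
  intro a b r g _ hab ih p q h
  have hne : a ≠ b := fun e => by rw [e] at hab; omega
  rw [map_mul, Units.val_mul, St.toGL_x, St.elem_val hne, add_mul, one_mul, Matrix.add_apply,
    ih p q h]
  by_cases hp : p = a
  · subst hp
    have hq : b ≠ q := fun e => h (e ▸ hab)
    rw [Matrix.single_mul_apply_same, ih b q (by omega), Matrix.one_apply_ne hq, mul_zero, add_zero]
  · rw [Matrix.single_mul_apply_of_ne _ _ _ _ _ hp, add_zero]

theorem St.col_conj {I J R : Type} [Fintype I] [DecidableEq I] [Ring R] {e : I → J}
    (he : Function.Injective e) {k : J} {C : (I → R) → St J R}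
    (hC : ∀ v w, C (v + w) = C v * C w) (h0 : C 0 = 1)
    (h1 : ∀ i r, C (Pi.single i r) = St.x (e i) k r) {a b : I} (hab : a ≠ b) (ha : e a ≠ k)
    (hb : e b ≠ k) (r : R) (v : I → R) :
    St.x (e a) (e b) r * C v * (St.x (e a) (e b) r)⁻¹
      = C ((St.elem a b r : Matrix I I R).mulVec v) := by
  induction v using Pi.single_induction with
  | zero => simp [h0]
  | add v w hv hw => rw [hC, conj_mul', hv, hw, Matrix.mulVec_add, hC]
  | single p s =>
    rw [St.elem_mulVec hab, add_comm, hC, h1, h1]
    by_cases hp : p = b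
    · subst hp
      rw [St.isSt.conjL _ _ (he.ne hab) hb ha, Pi.single_eq_same]
    · rw [St.isSt.conjC _ _ (he.ne (Ne.symm hp)) ha, Pi.single_eq_of_ne (Ne.symm hp), mul_zero,
        St.isSt.zero, one_mul]

theorem St.row_conj {I J R : Type} [Fintype I] [DecidableEq I] [Ring R] {e : I → J}
    (he : Function.Injective e) {k : J} {C : (I → R) → St J R}
    (hC : ∀ v w, C (v + w) = C v * C w) (h0 : C 0 = 1)
    (h1 : ∀ i r, C (Pi.single i r) = St.x k (e i) r) {a b : I} (hab : a ≠ b) (ha : e a ≠ k)
    (hb : e b ≠ k) (r : R) (v : I → R) :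
    (St.x (e a) (e b) r)⁻¹ * C v * St.x (e a) (e b) r
      = C (Matrix.vecMul v (St.elem a b r : Matrix I I R)) := by
  induction v using Pi.single_induction with
  | zero => simp [h0]
  | add v w hv hw =>
    rw [hC, Matrix.add_vecMul, hC, ← hv, ← hw]; group
  | single p s =>
    rw [St.vecMul_elem hab, add_comm, hC, h1, h1]
    have e1 : St.x (e a) (e b) r = (St.x (e a) (e b) (-r) : St J R)⁻¹ := by
      rw [St.isSt.inv, neg_neg]
    rw [St.isSt.inv]
    nth_rewrite 1 [e1]
    by_cases hp : p = a
    · subst hp
      rw [St.isSt.conjR _ _ (Ne.symm ha) (he.ne hab) (Ne.symm hb), Pi.single_eq_same, mul_neg,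
        neg_neg]
    · rw [St.isSt.conjC _ _ hb (he.ne (Ne.symm hp)), Pi.single_eq_of_ne (Ne.symm hp), zero_mul,
        St.isSt.zero, one_mul]

theorem St.U_inj {J R : Type} [Fintype J] [DecidableEq J] [Ring R] (pos : J → ℕ)
    {g : St J R} (hg : g ∈ St.U R pos) (h1 : St.toGL g = 1) : g = 1 := by
  have key : ∀ s : Finset J, ∀ g : St J R, g ∈ Subgroup.closure
      {g : St J R | ∃ p q r, (q ∈ s ∧ pos p < pos q) ∧ g = St.x p q r} →
      St.toGL g = 1 → g = 1 := by
    intro s
    induction s using Finset.induction_on_max_value pos with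
    | empty => intro g hg _; simpa using hg
    | insert k t hk hmax ih =>
      intro g hg h1
      obtain ⟨C, hC, h0, hs⟩ := exists_col (fun p r => (St.x p k r : St J R))
        (fun i r s => St.isSt.add _ _ _ _) fun i j r s _ => St.isSt.commute_col _ _ _ _ _
      have hdec : ∃ v g', g' ∈ Subgroup.closure
          {g : St J R | ∃ p q r, (q ∈ t ∧ pos p < pos q) ∧ g = St.x p q r} ∧ g = C v * g' := by
        refine St.U_induction (· ∈ insert k t) (fun p q => pos p < pos q)
          (P := fun g => ∃ v g', g' ∈ Subgroup.closure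
            {g : St J R | ∃ p q r, (q ∈ t ∧ pos p < pos q) ∧ g = St.x p q r} ∧ g = C v * g')
          ⟨0, 1, one_mem _, by simp [h0]⟩ ?_ hg
        rintro p q r _ hq hpq ⟨v, g', hg', rfl⟩
        rcases Finset.mem_insert.1 hq with rfl | hq
        · exact ⟨Pi.single p r + v, g', hg', by rw [hC, hs, mul_assoc]⟩
        · have hq' : q ≠ k := fun e => hk (e ▸ hq)
          have hp' : p ≠ k := fun e => by have := hmax q hq; rw [e] at hpq; omega
          have hne : p ≠ q := fun e => by rw [e] at hpq; omega
          refine ⟨(St.elem p q r : Matrix J J R).mulVec v, St.x p q r * g',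
            mul_mem (Subgroup.subset_closure ⟨p, q, r, ⟨hq, hpq⟩, rfl⟩)
            hg', ?_⟩
          rw [← St.col_conj Function.injective_id hC h0 hs hne hp' hq' r v]
          simp only [id]
          group
      obtain ⟨v, g', hg', rfl⟩ := hdec
      have a1 : (St.toGL g' : Matrix J J R).mulVec (Pi.single k 1) = Pi.single k 1 := by
        refine St.U_induction (· ∈ t) (fun p q => pos p < pos q)
          (P := fun g => (St.toGL g : Matrix J J R).mulVec (Pi.single k 1) = Pi.single k 1)
          (by rw [map_one, Units.val_one, Matrix.one_mulVec]) ?_ hg'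
        intro p q r g hq hpq ih
        have hq' : q ≠ k := fun e => hk (e ▸ hq)
        have hne : p ≠ q := fun e => by rw [e] at hpq; omega
        rw [map_mul, Units.val_mul, ← Matrix.mulVec_mulVec, ih, St.toGL_x, St.elem_mulVec hne,
          Pi.single_eq_of_ne hq', mul_zero, Pi.single_zero, add_zero]
      have a2 : ∀ v u : J → R, (St.toGL (C v) : Matrix J J R).mulVec u
          = u + fun p => if p = k then 0 else v p * u k := by
        intro v
        induction v using Pi.single_induction with
        | zero => intro u; ext p; simp [h0]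
        | add v w hv hw =>
          intro u
          rw [hC, map_mul, Units.val_mul, ← Matrix.mulVec_mulVec, hw, hv]
          ext p
          by_cases hp : p = k
          · simp [hp]
          · simp only [Pi.add_apply, if_neg hp, if_true, add_zero, add_mul]; abel
        | single p s =>
          intro u
          rw [hs, St.toGL_x]
          by_cases hp : p = k
          · subst hp
            rw [St.isSt_elem.diag]
            ext q
            by_cases hq : q = p <;> simp [hq]
          · rw [St.elem_mulVec hp]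
            congr 1
            ext q
            by_cases hq : q = p
            · subst hq; simp [hp]
            · simp [hq]
      have a3 := congrArg (fun A : (Matrix J J R)ˣ => (A : Matrix J J R).mulVec (Pi.single k 1)) h1
      simp only [map_mul, Units.val_mul, ← Matrix.mulVec_mulVec, a1, a2, Units.val_one,
        Matrix.one_mulVec, add_eq_left] at a3
      have a4 : v = Pi.single k (v k) := by
        ext p
        by_cases hp : p = k
        · subst hp; simp
        · simpa [hp] using congrFun a3 p
      rw [a4, hs, St.isSt.diag, one_mul] at h1 ⊢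
      exact ih g' hg' h1
  exact key Finset.univ g (by simpa [St.U] using hg) h1

theorem St.map_central {I J R S : Type} [Fintype I] [DecidableEq I] [Ring R] [Ring S]
    (e : I → J) (he : Function.Injective e) (hns : ¬ Function.Surjective e) (f : S →+* R)
    {c : St I S} (hc : St.toGL c = 1) (g : St J R) :
    St.map e he f c * g = g * St.map e he f c := by
  have hfac : St.map e he f = (St.map e he (RingHom.id R)).comp (St.rmap f) :=
    St.hom_ext fun i j r => by simp
  rw [hfac, MonoidHom.comp_apply]
  have hc' := St.toGL_rmap_eq_one f hc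
  generalize St.rmap f c = d at hc'
  set φ := St.map e he (RingHom.id R) with hφ
  have hx : ∀ a b r, φ (St.x a b r) = St.x (e a) (e b) r := fun a b r => St.map_x _ _ _ _ _ _
  have col : ∀ k, k ∉ Set.range e → ∀ i r, Commute (φ d) (St.x (e i) k r) := by
    intro k hk i r
    obtain ⟨C, hC, h0, hs⟩ := exists_col (fun p r => (St.x (e p) k r : St J R))
      (fun i r s => St.isSt.add _ _ _ _) fun i j r s _ => St.isSt.commute_col _ _ _ _ _
    have : ∀ (d : St I R) v, φ d * C v * (φ d)⁻¹ = C ((St.toGL d : Matrix I I R).mulVec v) := by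
      intro d
      induction d using St.induction with
      | one => simp
      | step a b r d hab ih =>
        intro v
        rw [map_mul, mul_conj', ih, hx, St.col_conj he hC h0 hs hab (fun h => hk ⟨_, h⟩)
          (fun h => hk ⟨_, h⟩), map_mul, Units.val_mul, Matrix.mulVec_mulVec, St.toGL_x]
    have := this d (Pi.single i r)
    rw [hc', Units.val_one, Matrix.one_mulVec, hs, mul_inv_eq_iff_eq_mul] at this
    exact this
  have row : ∀ k, k ∉ Set.range e → ∀ i r, Commute (φ d) (St.x k (e i) r) := by
    intro k hk i r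
    obtain ⟨C, hC, h0, hs⟩ := exists_col (fun p r => (St.x k (e p) r : St J R))
      (fun i r s => St.isSt.add _ _ _ _) fun i j r s _ => St.isSt.commute_row _ _ _ _ _
    have : ∀ (d : St I R) v,
        (φ d)⁻¹ * C v * φ d = C (Matrix.vecMul v (St.toGL d : Matrix I I R)) := by
      intro d
      induction d using St.induction with
      | one => simp
      | step a b r d hab ih =>
        intro v
        rw [map_mul, map_mul, Units.val_mul, ← Matrix.vecMul_vecMul, ← ih, St.toGL_x,
          ← St.row_conj he hC h0 hs hab (fun h => hk ⟨_, h⟩) (fun h => hk ⟨_, h⟩), hx]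
        group
    have := this d (Pi.single i r)
    rw [hc', Units.val_one, Matrix.vecMul_one, hs, mul_assoc, inv_mul_eq_iff_eq_mul] at this
    exact this.symm
  obtain ⟨k, hk⟩ : ∃ k, k ∉ Set.range e := by
    by_contra h
    push Not at h
    exact hns h
  refine St.mem_of_x_mem (Subgroup.centralizer {φ d}) (fun p q r => ?_) g (φ d) rfl
  rintro _ rfl
  by_cases hp : p ∈ Set.range e
  · obtain ⟨i, rfl⟩ := hp
    by_cases hq : q ∈ Set.range e
    · obtain ⟨j, rfl⟩ := hq
      by_cases hij : e i = e j
      · rw [hij, St.isSt.diag]; simp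
      · have := St.isSt.mul (e i) k (e j) r 1 (fun h => hk ⟨_, h⟩) (fun h => hk ⟨_, h.symm⟩) hij
        rw [mul_one] at this
        rw [← this]
        exact (((col k hk i r).mul_right (row k hk j 1)).mul_right
          (col k hk i r).inv_right).mul_right (row k hk j 1).inv_right
    · exact col q hq i r
  · by_cases hq : q ∈ Set.range e
    · obtain ⟨j, rfl⟩ := hq
      exact row p hp j r
    · change Commute _ _
      clear hc' col row
      induction d using St.induction with
      | one => simp
      | step a b s d hab ih =>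
        rw [map_mul, hx]
        exact (St.isSt.commute _ _ (fun h => hp ⟨_, h⟩) fun h => hq ⟨_, h⟩).mul_left ih

theorem St.swap_conj {J R : Type} [Fintype J] [DecidableEq J] [Ring R]
    (two : ∀ r : R, r + r = 0) (hJ : 3 ≤ Fintype.card J) {a b : J} (hab : a ≠ b) :
    ∃ w : St J R, ∀ p q r,
      w * St.x p q r * w⁻¹ = St.x (Equiv.swap a b p) (Equiv.swap a b q) r := by
  have h := St.isSt (I := J) (R := R)
  have neg : ∀ r : R, -r = r := fun r => neg_eq_of_add_eq_zero_left (two r)
  have sq : ∀ (p q : J) (r : R) (g : St J R), Commute (St.x p q r) g →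
      St.x p q r * g * St.x p q r = g := fun p q r g hc => by
    rw [hc.eq, mul_assoc, h.add, two, h.zero, mul_one]
  refine ⟨St.x a b 1 * St.x b a 1 * St.x a b 1, ?_⟩
  have main : ∀ p q (r : R), p ≠ q → (p ≠ a ∧ p ≠ b) ∨ (q ≠ a ∧ q ≠ b) →
      St.x a b 1 * St.x b a 1 * St.x a b 1 * St.x p q r * (St.x a b 1 * St.x b a 1 * St.x a b 1)⁻¹
        = St.x (Equiv.swap a b p) (Equiv.swap a b q) r := by
    intro p q r hpq hc
    rw [mul_conj', mul_conj']
    rcases hc with ⟨h1, h2⟩ | ⟨h1, h2⟩
    · rw [Equiv.swap_apply_of_ne_of_ne h1 h2]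
      by_cases h3 : q = a
      · subst h3
        rw [h.conjR _ _ h1 hab h2, conj_mul' (St.x b q 1), h.conjR _ _ h2 hab.symm h1,
          h.conjC _ _ h1.symm hab.symm, mul_one, neg, mul_one, neg,
          sq _ _ _ _ (h.commute_row _ _ _ _ _), h.conjC _ _ h2.symm hab, Equiv.swap_apply_left]
      by_cases h4 : q = b
      · subst h4
        rw [h.conjC _ _ h2.symm hab, h.conjR _ _ h2 hab.symm h1, conj_mul',
          h.conjR _ _ h1 hab h2, h.conjC _ _ h2.symm hab, mul_one, neg, mul_one, neg,
          sq _ _ _ _ (h.commute_row _ _ _ _ _), Equiv.swap_apply_right]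
      · rw [h.conjC _ _ h2.symm (Ne.symm h3), h.conjC _ _ h1.symm (Ne.symm h4),
          h.conjC _ _ h2.symm (Ne.symm h3), Equiv.swap_apply_of_ne_of_ne h3 h4]
    · rw [Equiv.swap_apply_of_ne_of_ne h1 h2]
      by_cases h3 : p = a
      · subst h3
        rw [h.conjC _ _ hab.symm h1.symm, h.conjL _ _ hab.symm h1.symm h2.symm, conj_mul',
          h.conjL _ _ hab h2.symm h1.symm, h.conjC _ _ hab.symm h1.symm, one_mul, one_mul,
          sq _ _ _ _ (h.commute_col _ _ _ _ _), Equiv.swap_apply_left]
      by_cases h4 : p = b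
      · subst h4
        rw [h.conjL _ _ hab h2.symm h1.symm, conj_mul' (St.x p a 1),
          h.conjL _ _ hab.symm h1.symm h2.symm,
          h.conjC _ _ hab h2.symm, one_mul, one_mul, sq _ _ _ _ (h.commute_col _ _ _ _ _),
          h.conjC _ _ hab.symm h1.symm, Equiv.swap_apply_right]
      · rw [h.conjC _ _ (Ne.symm h4) h1.symm, h.conjC _ _ (Ne.symm h3) h2.symm,
          h.conjC _ _ (Ne.symm h4) h1.symm, Equiv.swap_apply_of_ne_of_ne h3 h4]
  intro p q r
  by_cases hpq : p = q
  · subst hpq; simp [h.diag]
  obtain ⟨c, hca, hcb⟩ : ∃ c, c ≠ a ∧ c ≠ b := by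
    by_contra hh
    push Not at hh
    have : (Finset.univ : Finset J) ⊆ {a, b} := fun c _ => by
      by_cases h : c = a
      · simp [h]
      · simp [hh c h]
    have h1 := Finset.card_le_card this
    have h2 : ({a, b} : Finset J).card ≤ 2 := Finset.card_le_two
    rw [Finset.card_univ] at h1
    omega
  by_cases hc : (p ≠ a ∧ p ≠ b) ∨ (q ≠ a ∧ q ≠ b)
  · exact main p q r hpq hc
  have hp : p ≠ c := fun e => hc (Or.inl (e ▸ ⟨hca, hcb⟩))
  have hq : c ≠ q := fun e => hc (Or.inr (e ▸ ⟨hca, hcb⟩))
  have e1 := h.mul p c q r 1 hp hq hpq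
  have e2 := h.mul _ _ _ r 1 ((Equiv.swap a b).injective.ne hp) ((Equiv.swap a b).injective.ne hq)
    ((Equiv.swap a b).injective.ne hpq)
  rw [mul_one] at e1 e2
  rw [← e1, ← e2, ← main p c r hp (Or.inr ⟨hca, hcb⟩), ← main c q 1 hq (Or.inl ⟨hca, hcb⟩)]
  group

theorem St.exists_perm_conj {J R : Type} [Fintype J] [DecidableEq J] [Ring R]
    (two : ∀ r : R, r + r = 0) (hJ : 3 ≤ Fintype.card J) (π : Equiv.Perm J) :
    ∃ w : St J R, ∀ p q r, w * St.x p q r * w⁻¹ = St.x (π p) (π q) r := by
  induction π using Equiv.Perm.swap_induction_on with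
  | one => exact ⟨1, by simp⟩
  | swap_mul π a b hab ih =>
    obtain ⟨w, hw⟩ := ih
    obtain ⟨w', hw'⟩ := St.swap_conj two hJ hab
    exact ⟨w' * w, fun p q r => by rw [mul_conj', hw, hw']; rfl⟩

theorem St.map_eq_of_ker {I J R S : Type} [Fintype I] [DecidableEq I] [Fintype J] [Ring R]
    [Ring S] (two : ∀ r : R, r + r = 0) (hJ : 3 ≤ Fintype.card J)
    (e e' : I → J) (he : Function.Injective e) (he' : Function.Injective e')
    (hns : ¬ Function.Surjective e) (f : S →+* R) {c : St I S} (hc : St.toGL c = 1) :
    St.map e he f c = St.map e' he' f c := by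
  classical
  obtain ⟨π, hπ⟩ := Equiv.Perm.exists_extending_pair e e' he he'
  obtain ⟨w, hw⟩ := St.exists_perm_conj two hJ π
  have : (MulAut.conj w).toMonoidHom.comp (St.map e he f) = St.map e' he' f :=
    St.hom_ext fun i j r => by simp [hw, hπ]
  rw [← this]
  change _ = w * St.map e he f c * w⁻¹
  rw [← St.map_central e he hns f hc w, mul_inv_cancel_right]

end Vale.Agent.P192
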