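import Vale.Agent.P192.St2

/-! Conjugation formulas and products of commuting root elements. -/

namespace Vale.Agent.P192

/-- Products of commuting additive families. -/
theorem exists_col {I R G : Type} [Fintype I] [DecidableEq I] [AddCommGroup R] [Group G]
    (z : I → R → G) (hadd : ∀ i r s, z i r * z i s = z i (r + s))
    (hc : ∀ i j r s, i ≠ j → Commute (z i r) (z j s)) :
    ∃ C : (I → R) → G, (∀ v w, C (v + w) = C v * C w) ∧ C 0 = 1 ∧
      ∀ i r, C (Pi.single i r) = z i r := by
  let φ : I → Multiplicative R →* G := fun i =>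
    MonoidHom.mk' (fun r => z i r.toAdd) fun r s => (hadd i _ _).symm
  let Φ := MonoidHom.noncommPiCoprod φ fun i j h r s => hc i j _ _ h
  refine ⟨fun v => Φ fun i => Multiplicative.ofAdd (v i), fun v w => map_mul Φ _ _, map_one Φ,
    fun i r => ?_⟩
  have : (fun j => Multiplicative.ofAdd ((Pi.single i r : I → R) j))
      = Pi.mulSingle i (Multiplicative.ofAdd r) := by
    funext j
    by_cases h : j = i
    · subst h; simp
    · simp [h]
  change Φ _ = _
  rw [this]
  exact MonoidHom.noncommPiCoprod_mulSingle _ _ _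

namespace IsSt

variable {I R G : Type} [Ring R] [Group G] {y : I → I → R → G}

theorem conjL (h : IsSt y) {i j k : I} (r s : R) (h1 : i ≠ j) (h2 : j ≠ k) (h3 : i ≠ k) :
    y i j r * y j k s * (y i j r)⁻¹ = y i k (r * s) * y j k s := by
  rw [← h.mul i j k r s h1 h2 h3]; group

theorem conjR (h : IsSt y) {i j k : I} (r s : R) (h1 : i ≠ j) (h2 : j ≠ k) (h3 : i ≠ k) :
    y j k s * y i j r * (y j k s)⁻¹ = y i k (-(r * s)) * y i j r := by
  rw [← h.inv, ← h.mul i j k r s h1 h2 h3]; group

theorem conjC (h : IsSt y) {i j k l : I} (r s : R) (h1 : j ≠ k) (h2 : i ≠ l) :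
    y i j r * y k l s * (y i j r)⁻¹ = y k l s := by
  rw [h.comm i j k l r s h1 h2]; group

theorem commute_col (h : IsSt y) (p q k : I) (r s : R) : Commute (y p k r) (y q k s) := by
  by_cases h1 : p = k
  · rw [h1, h.diag]; exact Commute.one_left _
  by_cases h2 : q = k
  · rw [h2, h.diag]; exact Commute.one_right _
  exact h.commute _ _ (Ne.symm h2) h1

theorem commute_row (h : IsSt y) (p q k : I) (r s : R) : Commute (y k p r) (y k q s) := by
  by_cases h1 : p = k
  · rw [h1, h.diag]; exact Commute.one_left _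
  by_cases h2 : q = k
  · rw [h2, h.diag]; exact Commute.one_right _
  exact h.commute _ _ h1 (Ne.symm h2)

end IsSt

theorem conj_mul' {G : Type} [Group G] (g a b : G) :
    g * (a * b) * g⁻¹ = g * a * g⁻¹ * (g * b * g⁻¹) := by group

theorem mul_conj' {G : Type} [Group G] (g h a : G) :
    g * h * a * (g * h)⁻¹ = g * (h * a * h⁻¹) * g⁻¹ := by group

namespace St

variable {I R S : Type} [Ring R] [Ring S] [Fintype I] [DecidableEq I]

theorem toGL_rmap (f : S →+* R) (c : St I S) :
    (toGL (rmap f c) : Matrix I I R) = (toGL c : Matrix I I S).map f := by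
  induction c using St.induction with
  | one => simp
  | step i j r g hij ih =>
    rw [map_mul, map_mul, map_mul, Units.val_mul, Units.val_mul, Matrix.map_mul, ih, rmap_x,
      toGL_x, toGL_x, elem_val hij, elem_val hij]
    congr 1
    rw [Matrix.map_add _ (map_add f), Matrix.map_single, Matrix.map_one _ f.map_zero f.map_one]

theorem toGL_rmap_eq_one (f : S →+* R) {c : St I S} (hc : toGL c = 1) : toGL (rmap f c) = 1 := by
  ext1
  rw [toGL_rmap, hc, Units.val_one, Units.val_one, Matrix.map_one _ f.map_zero f.map_one]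

theorem elem_mulVec {a b : I} (hab : a ≠ b) (r : R) (v : I → R) :
    (elem a b r : Matrix I I R).mulVec v = v + Pi.single a (r * v b) := by
  rw [elem_val hab, Matrix.add_mulVec, Matrix.one_mulVec, Matrix.single_mulVec_eq,
    ← Pi.single_smul, smul_eq_mul, mul_one]

theorem vecMul_elem {a b : I} (hab : a ≠ b) (r : R) (v : I → R) :
    Matrix.vecMul v (elem a b r : Matrix I I R) = v + Pi.single b (v a * r) := by
  rw [elem_val hab, Matrix.vecMul_add, Matrix.vecMul_one]
  congr 1
  ext j
  by_cases h : j = b
  · subst h; simp [Matrix.vecMul, dotProduct, Matrix.single_apply]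
  · simp [Matrix.vecMul, dotProduct, h, Ne.symm h]

omit [Fintype I] [DecidableEq I] in
theorem U_induction (pos : I → Prop) (lt : I → I → Prop) {P : St I R → Prop} (one : P 1)
    (step : ∀ p q r g, pos q → lt p q → P g → P (x p q r * g)) {g : St I R}
    (hg : g ∈ Subgroup.closure {g : St I R | ∃ p q r, (pos q ∧ lt p q) ∧ g = x p q r}) : P g := by
  induction hg using Subgroup.closure_induction_left with
  | one => exact one
  | mul_left a ha g _ ih =>
    obtain ⟨p, q, r, ⟨h1, h2⟩, rfl⟩ := ha
    exact step p q r g h1 h2 ih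
  | inv_mul_cancel a ha g _ ih =>
    obtain ⟨p, q, r, ⟨h1, h2⟩, rfl⟩ := ha
    rw [isSt.inv]
    exact step p q _ g h1 h2 ih

end St

end Vale.Agent.P192
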