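import Vale.Agent.P192.Moves
import Vale.Agent.P192.Sem

/-! Running and unwinding programs. -/

namespace Vale.Agent.P192

namespace Unw

theorem render_split {n : ℕ} (c : Cfg) {x k : ℕ} (hk : c.len n = x + 2 + k) :
    c.render n = (List.range x).map (c.cell n) ++ c.cell n x :: c.cell n (x + 1) ::
      (List.range k).map (fun i => c.cell n (x + 2 + i)) := by
  rw [Cfg.render, hk, List.range_add, List.range_succ, List.range_succ]
  simp [Function.comp_def]

theorem cell_bd {n : ℕ} (hn : Big n) {c : Cfg} (h : c.SV n) {x : ℕ} (hx : x < c.len n) :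
    Bd n (c.cell n x) := render_bd hn h _ (List.mem_map_of_mem (List.mem_range.2 hx))

/-- move the head -/
def mv (c : Cfg) (x : ℕ) : Cfg := { c with h := x }

theorem sv_mv {n : ℕ} {c : Cfg} (h : c.SV n) {x : ℕ} (hx : x < c.len n) : (mv c x).SV n :=
  ⟨hx, h.regs, h.ctl, h.mem_lt, h.mem_prog, h.s0_mem, h.s1_mem, h.lab_lt⟩

theorem null_at {n : ℕ} (hn : Big n) {c : Cfg} (h : c.SV n) {x y : ℕ} (hx : x + 1 < c.len n)
    (hy : y < c.len n) (hz : ZR n ((mv c y).cell n x) ((mv c y).cell n (x + 1))) :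
    (Lv n).Null (c.render n) := by
  refine QP.Null.of_eqv (eqv_head hn h hy) ?_
  obtain ⟨k, hk⟩ : ∃ k, c.len n = x + 2 + k := ⟨c.len n - (x + 2), by omega⟩
  change (Lv n).Null ((mv c y).render n)
  rw [render_split (mv c y) hk]
  exact QP.Null.of_Z (Lv_Z.2 ⟨⟨cell_bd hn (sv_mv h hy) (show x < c.len n by omega),
    cell_bd hn (sv_mv h hy) hx⟩, hz⟩) _ _

/-- the static parts agree -/
def Fr (c c' : Cfg) : Prop := c'.two = c.two ∧ c'.s0 = c.s0 ∧ c'.s1 = c.s1 ∧ c'.lab = c.lab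

theorem eqv_at {n : ℕ} (hn : Big n) {c c' : Cfg} (h : c.SV n) (h' : c'.SV n) (hf : Fr c c') {x : ℕ}
    (hx : x + 1 < c.len n) (hm : ∀ y, y ≠ x → c'.mem y = c.mem y)
    (hE : ER n ((mv c x).cell n x) ((mv c x).cell n (x + 1)) ((mv c' x).cell n x)
      ((mv c x).cell n (x + 1))) : (Lv n).Eqv (c.render n) (c'.render n) := by
  obtain ⟨f1, f2, f3, f4⟩ := hf
  have hl : c'.len n = c.len n := by simp only [Cfg.len, f1]
  have hx0 : x < c.len n := by omega
  have hx1 : x < c'.len n := by omega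
  refine (eqv_head hn h hx0).trans (QP.Eqv.trans ?_ (eqv_head hn h' hx1).symm)
  change (Lv n).Eqv ((mv c x).render n) ((mv c' x).render n)
  obtain ⟨k, hk⟩ : ∃ k, c.len n = x + 2 + k := ⟨c.len n - (x + 2), by omega⟩
  have ho : ∀ y, y ≠ x → (mv c' x).cell n y = (mv c x).cell n y := by
    intro y hy
    funext f
    cases f <;> simp [Cfg.cell, mv, hy, f1, f2, f3, f4, hm y hy] <;> congr
  rw [render_split (mv c x) hk, render_split (mv c' x) (hl.trans hk), ho (x + 1) (by omega),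
    List.map_congr_left (fun y hy => ho y (by have := List.mem_range.1 hy; omega)),
    List.map_congr_left (f := fun i => (mv c' x).cell n (x + 2 + i)) (fun y _ => ho _ (by omega))]
  exact QP.Eqv.of_E (Lv_E.2 ⟨⟨cell_bd hn (sv_mv h hx0) hx0, cell_bd hn (sv_mv h hx0) hx,
    cell_bd hn (sv_mv h' hx1) hx1, cell_bd hn (sv_mv h hx0) hx⟩, hE⟩) _ _

/-- the head is in phase `q` at entry `j` of the program -/
structure At (n : ℕ) (c : Cfg) (π : Prog) (q j : ℕ) : Prop where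
  sv : c.SV n
  two : c.two = true
  q : c.q = q
  loc : locate progs c.pc = some (π, j)
  hm : c.hm = (π.entry j).1
  ha : c.ha = (π.entry j).2

def R (n : ℕ) (c c' : Cfg) : Prop := (Lv n).Eqv (c.render n) (c'.render n) ∧ Fr c c'

theorem R.trans {n : ℕ} {a b c : Cfg} (h : R n a b) (h' : R n b c) : R n a c :=
  ⟨h.1.trans h'.1, h'.2.1.trans h.2.1, h'.2.2.1.trans h.2.2.1, h'.2.2.2.1.trans h.2.2.2.1,
    h'.2.2.2.2.trans h.2.2.2.2⟩

theorem R.refl (n : ℕ) (a : Cfg) : R n a a := ⟨QP.Eqv.refl _, rfl, rfl, rfl, rfl⟩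

theorem R.tok {n : ℕ} {a b : Cfg} (h : R n a b) (ht : a.TokOK n) : b.TokOK n := by
  have hl : b.len n = a.len n := by simp only [Cfg.len, h.2.1]
  constructor
  · rw [hl, h.2.2.2.2]; exact ht.lab_ge
  · rw [hl, h.2.2.2.2]; exact ht.lab_inj

theorem len_two {n : ℕ} {c : Cfg} (h : c.two = true) : c.len n = 2 * n := by simp [Cfg.len, h]

theorem pc_lt {n p j : ℕ} {π : Prog} (hn : Big n) (h : locate progs p = some (π, j)) :
    p + 1 < n := by
  have := (locate_spec h).2.2.2; have := PP_le_P1; have := P1_lt_P2; unfold Big at hn; omega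

/-- set the control registers -/
def ctl (c : Cfg) (q pc hm ha : ℕ) : Cfg := { c with q := q, pc := pc, hm := hm, ha := ha }

theorem at_ctl {n : ℕ} (hn : Big n) {c : Cfg} (h : c.SV n) (h2 : c.two = true) {π : Prog}
    {q p j : ℕ} (hq : q = 1 ∨ q = 2) (hl : locate progs p = some (π, j)) :
    At n (ctl c q p (π.entry j).1 (π.entry j).2) π q j := by
  have h1 := pc_lt hn hl
  have h3 := tb_of_locate hl
  have h4 := tb_lt false p
  have h5 := tb_lt true p
  unfold Big at hn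
  exact ⟨⟨h.h_lt, ⟨by simp only [ctl]; omega, by simp only [ctl]; omega, by simp only [ctl]; omega,
    h.regs.2.2.2⟩, Or.inr ⟨h2, hq⟩, h.mem_lt, h.mem_prog, h.s0_mem, h.s1_mem, h.lab_lt⟩,
    h2, rfl, hl, rfl, rfl⟩

theorem sv_free {n : ℕ} {c : Cfg} (h : c.SV n) (h1 : c.r1 = 0) (h2 : c.r2 = 0) :
    (ctl c 0 0 0 0).SV n := by
  have := h.regs.1
  exact ⟨h.h_lt, ⟨by simp only [ctl]; omega, by simp only [ctl]; omega, by simp only [ctl]; omega,
    h.regs.2.2.2⟩, Or.inl ⟨rfl, rfl, rfl, rfl, h1, h2⟩, h.mem_lt, h.mem_prog, h.s0_mem, h.s1_mem,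
    h.lab_lt⟩

theorem same_ctl (n : ℕ) (c : Cfg) (q pc hm ha q' pc' hm' ha' x : ℕ) :
    Same ctlF ((mv (ctl c q pc hm ha) x).cell n x) ((mv (ctl c q' pc' hm' ha') x).cell n x) := by
  intro f hf
  cases f <;> first | rfl | simp [ctlF] at hf

theorem adv_core {n : ℕ} (hn : Big n) {c : Cfg} (h : c.SV n) (h2 : c.two = true) {π : Prog}
    {p j : ℕ} (hl : locate progs p = some (π, j)) (hl' : locate progs (p + 1) = some (π, j + 1)) :
    (Lv n).Eqv ((ctl c 2 p (π.entry j).1 (π.entry j).2).render n)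
      ((ctl c 1 (p + 1) (π.entry (j + 1)).1 (π.entry (j + 1)).2).render n) := by
  have h1 := pc_lt hn hl
  have h0 : p < n := by omega
  refine eqv_at hn (at_ctl hn h h2 (Or.inr rfl) hl).sv (at_ctl hn h h2 (Or.inl rfl) hl').sv
    ⟨rfl, rfl, rfl, rfl⟩ (x := p) (lt_of_lt_of_eq (by omega) (len_two h2).symm) (fun _ _ => rfl) ?_
  refine ER.adv ?_ ?_ ?_ ?_ ?_ ?_ ?_ ?_ ?_ (same_ctl _ _ _ _ _ _ _ _ _ _ _) (fun _ _ => rfl) <;>
    simp [Cfg.cell, mv, ctl, adx, h0, h1, h2, tb_of_locate hl, tb_of_locate hl']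

theorem At.eq_ctl {n : ℕ} {c : Cfg} {π : Prog} {q j : ℕ} (h : At n c π q j) :
    c = ctl c q c.pc (π.entry j).1 (π.entry j).2 := by
  rw [← h.q, ← h.hm, ← h.ha]; rfl

theorem adv {n : ℕ} (hn : Big n) {c : Cfg} {π : Prog} {j : ℕ} (h : At n c π 2 j)
    (hj : j ≤ π.body.length) : ∃ c', At n c' π 1 (j + 1) ∧ R n c c' ∧ c'.ps n = c.ps n := by
  have hl' := locate_succ h.loc (by unfold Prog.len; omega)
  refine ⟨_, at_ctl hn h.sv h.two (Or.inl rfl) hl', ⟨?_, rfl, rfl, rfl, rfl⟩, rfl⟩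
  have := adv_core hn h.sv h.two h.loc hl'
  rwa [← h.eq_ctl] at this

theorem unadv {n : ℕ} (hn : Big n) {c : Cfg} {π : Prog} {j : ℕ} (h : At n c π 1 (j + 1)) :
    ∃ c', At n c' π 2 j ∧ R n c c' ∧ c'.ps n = c.ps n := by
  have hl' := locate_pred h.loc (by omega)
  have e : c.pc - 1 + 1 = c.pc := by have := (locate_spec h.loc).2.2.1; omega
  refine ⟨_, at_ctl hn h.sv h.two (Or.inr rfl) hl', ⟨?_, rfl, rfl, rfl, rfl⟩, rfl⟩
  have := adv_core hn h.sv h.two hl' (e.symm ▸ h.loc)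
  rw [e, Nat.add_sub_cancel, ← h.eq_ctl] at this
  exact this.symm

theorem start_core {n : ℕ} (hn : Big n) {c : Cfg} (h : c.SV n) (h2 : c.two = true) {π : Prog}
    {p : ℕ} (hl : locate progs p = some (π, 0)) (r1 : c.r1 = 0) (r2 : c.r2 = 0) :
    (Lv n).Eqv ((ctl c 0 0 0 0).render n) ((ctl c 2 p (π.entry 0).1 (π.entry 0).2).render n) := by
  have h1 := pc_lt hn hl
  have h0 : p < n := by omega
  refine eqv_at hn (sv_free h r1 r2) (at_ctl hn h h2 (Or.inr rfl) hl).sv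
    ⟨rfl, rfl, rfl, rfl⟩ (x := p) (lt_of_lt_of_eq (by omega) (len_two h2).symm) (fun _ _ => rfl) ?_
  refine ER.start ?_ ?_ ?_ ?_ ?_ ?_ ?_ (same_ctl _ _ _ _ _ _ _ _ _ _ _) (fun _ _ => rfl) <;>
    simp [Cfg.cell, mv, ctl, adx, h0, h2, tb_of_locate hl, R0, r1, r2, Prog.entry_zero]

theorem start {n : ℕ} (hn : Big n) {c : Cfg} (h : c.SV n) (h2 : c.two = true) (hf : c.Free)
    {π : Prog} (hπ : π ∈ progs) : ∃ c', At n c' π 2 0 ∧ R n c c' ∧ c'.ps n = c.ps n := by
  obtain ⟨p, hl⟩ := exists_locate hπ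
  refine ⟨_, at_ctl hn h h2 (Or.inr rfl) hl, ⟨?_, rfl, rfl, rfl, rfl⟩, rfl⟩
  have := start_core hn h h2 hl hf.2.2.2.2.1 hf.2.2.2.2.2
  have e : ctl c 0 0 0 0 = c := by
    obtain ⟨a1, a2, a3, a4, -⟩ := hf
    cases c
    simp_all [ctl]
  rwa [e] at this

theorem unstart {n : ℕ} (hn : Big n) {c : Cfg} {π : Prog} (h : At n c π 2 0) (r1 : c.r1 = 0)
    (r2 : c.r2 = 0) : ∃ c', c'.SV n ∧ c'.q = 0 ∧ R n c c' ∧ c'.ps n = c.ps n := by
  refine ⟨_, sv_free h.sv r1 r2, rfl, ⟨?_, rfl, rfl, rfl, rfl⟩, rfl⟩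
  have := start_core hn h.sv h.two h.loc r1 r2
  rw [← h.eq_ctl] at this
  exact this.symm

theorem finish {n : ℕ} (hn : Big n) {c : Cfg} {π : Prog} (h : At n c π 2 π.body.length)
    (hl : π.last = .fin) (r1 : c.r1 = 0) (r2 : c.r2 = 0) :
    ∃ c', c'.SV n ∧ c'.q = 0 ∧ R n c c' ∧ c'.ps n = c.ps n := by
  obtain ⟨d, hd, hr, hp⟩ := adv hn h le_rfl
  have r1' : d.r1 = 0 := (congrArg PS.r1 hp).trans r1
  have r2' : d.r2 = 0 := (congrArg PS.r2 hp).trans r2
  refine ⟨_, sv_free hd.sv r1' r2', rfl, hr.trans ⟨?_, rfl, rfl, rfl, rfl⟩, hp⟩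
  have h1 := pc_lt hn hd.loc
  have h0 : d.pc < n := by omega
  have h3 := tb_of_locate hd.loc
  have h4 := hd.hm
  have h5 := hd.ha
  rw [Prog.entry_last, hl] at h3 h4 h5
  refine eqv_at hn hd.sv (sv_free hd.sv r1' r2') ⟨rfl, rfl, rfl, rfl⟩ (x := d.pc)
    (by rw [len_two hd.two]; omega) (fun _ _ => rfl) ?_
  refine ER.fin ?_ ?_ ?_ ?_ ?_ ?_ ?_ (same_ctl n d d.q d.pc d.hm d.ha _ _ _ _ _) (fun _ _ => rfl) <;>
    simp [Cfg.cell, mv, ctl, adx, h0, hd.two, h3, h4, h5, R0, r1', r2', hd.q, Last.code]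

/-- effect of an instruction on a configuration -/
noncomputable def run (n : ℕ) (c : Cfg) (q : ℕ) : Ins → Cfg
  | .x1 α => { c with q := q, mem := Function.update c.mem (pos n α) c.r1, r1 := c.mem (pos n α) }
  | .x2 α => { c with q := q, mem := Function.update c.mem (pos n α) c.r2, r2 := c.mem (pos n α) }
  | .gate _ _ _ _ => { c with q := q }

theorem run_ps {n : ℕ} (hn : Big n) (c : Cfg) (q : ℕ) (i : Ins) :
    (run n c q i).ps n = i.exec (c.ps n) := by
  cases i <;> simp only [run, Cfg.ps, Ins.exec, PS.mk.injEq, and_true] <;>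
    exact Function.update_comp_eq_of_injective _ (pos_inj hn) _ _

theorem run_run (n : ℕ) (c : Cfg) (q : ℕ) (i : Ins) : run n (run n c q i) c.q i = c := by
  cases i <;> simp [run]

theorem run_fr (n : ℕ) (c : Cfg) (q : ℕ) (i : Ins) : Fr c (run n c q i) := by
  cases i <;> exact ⟨rfl, rfl, rfl, rfl⟩

theorem adr_ge {l : Loc} (h : ∀ c, l ≠ .K c) : PP ≤ l.adr := by
  cases l with
  | K c => exact absurd rfl (h c)
  | D f i => exact (Loc.adr_D f i).1
  | S f i => exact PP_le_P1.trans (Loc.adr_S f i).1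

theorem run_at {n : ℕ} (hn : Big n) {c : Cfg} {π : Prog} {q q' j : ℕ} (h : At n c π q j)
    (hq : q' = 1 ∨ q' = 2) {i : Ins} (hi : i.Dyn) : At n (run n c q' i) π q' j := by
  have hs := h.sv
  have hp : ∀ α, pos n α < c.len n := fun α => by
    have := pos_lt hn α; rw [len_two h.two]; omega
  have k1 : ∀ α r, r < n → ∀ x, x < c.len n → Function.update c.mem (pos n α) r x < n := by
    intro α r hr x hx
    rw [Function.update_apply]
    split_ifs
    exacts [hr, hs.mem_lt x hx]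
  have k2 : ∀ (α : Adr) r, (∀ c, α.2 ≠ .K c) → ∀ x, x < c.len n → adx n x < PP →
      Function.update c.mem (pos n α) r x = adx n x := by
    intro α r hα x hx hx'
    rw [Function.update_of_ne, hs.mem_prog x hx hx']
    rintro rfl
    rw [adx_pos hn] at hx'
    exact absurd (adr_ge hα) (by omega)
  obtain ⟨a1, a2, a3, a4, a5⟩ := hs.regs
  cases i with
  | x1 α => exact ⟨⟨hs.h_lt, ⟨a1, a2, a3, hs.mem_lt _ (hp α), a5⟩, Or.inr ⟨h.two, hq⟩, k1 α _ a4,
      k2 α _ hi, hs.s0_mem, hs.s1_mem, hs.lab_lt⟩, h.two, rfl, h.loc, h.hm, h.ha⟩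
  | x2 α => exact ⟨⟨hs.h_lt, ⟨a1, a2, a3, a4, hs.mem_lt _ (hp α)⟩, Or.inr ⟨h.two, hq⟩, k1 α _ a5,
      k2 α _ hi, hs.s0_mem, hs.s1_mem, hs.lab_lt⟩, h.two, rfl, h.loc, h.hm, h.ha⟩
  | gate md pol k β => exact ⟨⟨hs.h_lt, hs.regs, Or.inr ⟨h.two, hq⟩, hs.mem_lt, hs.mem_prog,
      hs.s0_mem, hs.s1_mem, hs.lab_lt⟩, h.two, rfl, h.loc, h.hm, h.ha⟩

theorem ar_pos {n : ℕ} (hn : Big n) {c : Cfg} (h2 : c.two = true) (α : Adr) :
    (mv c (pos n α)).cell n (pos n α) .ar = 5 + α.1.toNat := by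
  have := pos_lt_iff hn α
  cases h : α.1 <;> simp [Cfg.cell, mv, h2, this, h]

theorem exec_core {n : ℕ} (hn : Big n) {c : Cfg} {π : Prog} {e : ℕ} (h : At n c π 1 (e + 1))
    {i : Ins} (hi : π.body[e]? = some i) (hok : i.ok n (c.ps n)) :
    (Lv n).Eqv (c.render n) ((run n c 2 i).render n) := by
  have hd := body_dyn (locate_spec h.loc).1 i (List.mem_of_getElem? hi)
  have h4 := h.hm
  have h5 := h.ha
  rw [π.entry_succ hi] at h4 h5
  refine eqv_at hn h.sv (run_at hn h (Or.inr rfl) hd).sv (run_fr ..) (x := pos n i.adr)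
    (by rw [len_two h.two]; exact pos_lt hn _)
    (fun y hy => by cases i <;> first | rfl | exact Function.update_of_ne hy _ _) ?_
  cases i with
  | x1 α =>
    refine ER.x1 α.1 (ar_pos hn h.two α) ?_ ?_ ?_ ?_ ?_ ?_ (fun f hf => ?_) (fun _ _ => rfl)
    any_goals simp [Cfg.cell, mv, run, h4, h5, h.q, Ins.code, Ins.adr, adx_pos hn]
    cases f <;> first | rfl | simp at hf
  | x2 α =>
    refine ER.x2 α.1 (ar_pos hn h.two α) ?_ ?_ ?_ ?_ ?_ ?_ (fun f hf => ?_) (fun _ _ => rfl)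
    any_goals simp [Cfg.cell, mv, run, h4, h5, h.q, Ins.code, Ins.adr, adx_pos hn]
    cases f <;> first | rfl | simp at hf
  | gate md pol k β =>
    refine ER.gate md pol k β.1 (ar_pos hn h.two β) ?_ ?_ ?_ ?_ ?_ (fun f hf => ?_) (fun _ _ => rfl)
    any_goals simp [Cfg.cell, mv, run, h4, h5, h.q, Ins.code, Ins.adr, adx_pos hn]
    · exact hok
    · cases f <;> first | rfl | simp at hf

theorem step {n : ℕ} (hn : Big n) {c : Cfg} {π : Prog} {e : ℕ} (h : At n c π 2 e)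
    {i : Ins} (hi : π.body[e]? = some i) (hok : i.ok n (c.ps n)) :
    ∃ c', At n c' π 2 (e + 1) ∧ R n c c' ∧ c'.ps n = i.exec (c.ps n) := by
  have hd := body_dyn (locate_spec h.loc).1 i (List.mem_of_getElem? hi)
  obtain ⟨d, h1, h2, h3⟩ := adv hn h (List.getElem?_eq_some_iff.1 hi).1.le
  exact ⟨_, run_at hn h1 (Or.inr rfl) hd, h2.trans ⟨exec_core hn h1 hi (h3 ▸ hok), run_fr ..⟩,
    by rw [run_ps hn, h3]⟩

theorem unstep {n : ℕ} (hn : Big n) {c : Cfg} {π : Prog} {e : ℕ} (h : At n c π 2 (e + 1))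
    {i : Ins} (hi : π.body[e]? = some i) (hok : i.ok n (i.exec (c.ps n))) :
    ∃ c', At n c' π 2 e ∧ R n c c' ∧ c'.ps n = i.exec (c.ps n) := by
  have hd := body_dyn (locate_spec h.loc).1 i (List.mem_of_getElem? hi)
  have h0 := run_at hn h (Or.inl rfl) hd
  obtain ⟨d, h1, h2, h3⟩ := unadv hn h0
  have h4 := exec_core hn h0 hi (by rwa [run_ps hn])
  rw [← h.q, run_run] at h4
  exact ⟨d, h1, R.trans ⟨h4.symm, run_fr ..⟩ h2, by rw [h3, run_ps hn]⟩

theorem run_fwd {n : ℕ} (hn : Big n) {π : Prog} (l : List Ins) : ∀ (u v : List Ins) (c : Cfg),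
    π.body = u ++ l ++ v → At n c π 2 u.length → okAll n l (c.ps n) →
    ∃ c', At n c' π 2 (u ++ l).length ∧ R n c c' ∧ c'.ps n = fwd l (c.ps n) := by
  induction l with
  | nil => exact fun u v c _ h _ => ⟨c, by simpa using h, R.refl _ _, rfl⟩
  | cons i l ih =>
    intro u v c e h hok
    obtain ⟨d, h1, h2, h3⟩ := step hn h (i := i) (by simp [e]) hok.1
    obtain ⟨d', k1, k2, k3⟩ := ih (u ++ [i]) v d (by simp [e]) (by simpa using h1) (h3 ▸ hok.2)
    exact ⟨d', by simpa using k1, h2.trans k2, by rw [k3, h3]; rfl⟩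

theorem run_bwd {n : ℕ} (hn : Big n) {π : Prog} (l : List Ins) : ∀ (v : List Ins) (c : Cfg),
    π.body = l ++ v → At n c π 2 l.length → okAll n l (bwd l (c.ps n)) →
    ∃ c', At n c' π 2 0 ∧ R n c c' ∧ c'.ps n = bwd l (c.ps n) := by
  induction l using List.reverseRecOn with
  | nil => exact fun v c _ h _ => ⟨c, h, R.refl _ _, rfl⟩
  | append_singleton l i ih =>
    intro v c e h hok
    rw [okAll_append, bwd_snoc, fwd_bwd] at hok
    obtain ⟨d, h1, h2, h3⟩ := unstep hn (e := l.length) (by simpa using h) (i := i) (by simp [e])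
      hok.2.1
    obtain ⟨d', k1, k2, k3⟩ := ih (i :: v) d (by simp [e]) h1 (h3 ▸ hok.1)
    exact ⟨d', k1, h2.trans k2, by rw [k3, h3, bwd_snoc]⟩

theorem norm {n : ℕ} (hn : Big n) {c : Cfg} {π : Prog} {j : ℕ} (h : At n c π c.q j)
    (hq : c.q = 1 ∨ c.q = 2) (h1 : c.q = 1 → 1 ≤ j) (h2 : c.q = 2 → j ≤ π.body.length) :
    ∃ c', At n c' π 2 (c.ex j) ∧ R n c c' ∧ c'.ps n = c.ps n ∧ c.ex j ≤ π.body.length := by
  rcases hq with hq | hq
  · obtain ⟨e, rfl⟩ : ∃ e, j = e + 1 := ⟨j - 1, by have := h1 hq; omega⟩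
    have e1 : c.ex (e + 1) = e := by simp [Cfg.ex, hq]
    obtain ⟨d, k1, k2, k3⟩ := unadv hn (hq ▸ h)
    have := (locate_spec h.loc).2.1
    unfold Prog.len at this
    exact ⟨d, e1.symm ▸ k1, k2, k3, by omega⟩
  · have e1 : c.ex j = j := by simp [Cfg.ex, hq]
    exact ⟨c, e1.symm ▸ hq ▸ h, R.refl _ _, rfl, e1.symm ▸ h2 hq⟩

theorem last_fin {π : Prog} (h : π ∈ progs) {e : ℕ} (h1 : ¬ e ≤ π.pre.length)
    (h2 : e ≤ π.body.length) : π.last = .fin := by
  by_contra hl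
  simp [Prog.body, (prog_shape h).2.2 hl] at h2
  exact h1 h2

theorem dec_free {n : ℕ} {c : Cfg} (h2 : c.two = true) (hq : c.q = 0) :
    c.dec n = [letter n (c.ps n).mem false, letter n (c.ps n).mem true] := by
  simp [Cfg.dec, Cfg.dmem, h2, hq]

theorem null_ctl {n : ℕ} (hn : Big n) {c : Cfg} (h : c.SV n) (hq : c.q ≠ 0)
    (hc : c.hm = 0 ∨ c.hm = 1 ∨ (c.hm = 2 ∧ (c.q = 1 ∨ c.r1 ≠ 0 ∨ c.r2 ≠ 0)) ∨
      (c.hm = 3 ∧ (c.q = 2 ∨ c.r1 ≠ 0 ∨ c.r2 ≠ 0)) ∨ c.hm = 4 ∨
      ((c.hm = 5 ∨ c.hm = 6) ∧ c.q = 2)) : (Lv n).Null (c.render n) := by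
  have hl : 1 < c.len n := by unfold Cfg.len Big at *; split_ifs <;> omega
  exact null_at hn h (x := 0) (y := 0) hl (by omega)
    (ZR.ctl (by simpa [Cfg.cell, mv] using hq) (by simpa [Cfg.cell, mv] using hc))

theorem null_gate {n : ℕ} (hn : Big n) {c : Cfg} {π : Prog} {e : ℕ} {md : Bool}
    (h : At n c π (if md then 1 else 2) (e + 1)) {i : Ins} (hi : π.body[e]? = some i)
    (hm : i.Mode md) {σ : PS} (hσ : σ = c.ps n ∨ σ = i.exec (c.ps n)) (hok : ¬ i.ok n σ) :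
    (Lv n).Null (c.render n) := by
  cases i with
  | x1 α => exact absurd trivial hok
  | x2 α => exact absurd trivial hok
  | gate md' pol k β =>
    obtain rfl : md' = md := hm
    obtain rfl : σ = c.ps n := by rcases hσ with h | h <;> exact h
    have h4 := h.hm
    have h5 := h.ha
    rw [π.entry_succ hi] at h4 h5
    have := pos_lt hn β
    refine null_at hn h.sv (x := pos n β) (y := pos n β) (by rw [len_two h.two]; omega)
      (by rw [len_two h.two]; omega) (ZR.gate md' pol k β.1 ?_ (ar_pos hn h.two β) ?_ ?_ ?_)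
    any_goals simp [Cfg.cell, mv, h4, h5, h.q, Ins.code, Ins.adr, adx_pos hn]
    exact hok

theorem null_bwd {n : ℕ} (hn : Big n) {π : Prog} (e : ℕ) : ∀ c : Cfg, e ≤ π.pre.length →
    At n c π 2 e → ¬ π.Ok n e (c.ps n) → (Lv n).Null (c.render n) := by
  induction e with
  | zero =>
    intro c _ h hok
    rw [(ok_start n π _).1, not_and_or] at hok
    exact null_ctl hn h.sv (by rw [h.q]; decide) (Or.inr (Or.inr (Or.inl ⟨h.hm, Or.inr hok⟩)))
  | succ e ih =>
    intro c he h hok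
    have hπ := (locate_spec h.loc).1
    have hlt : e < π.body.length := by simp [Prog.body]; omega
    have hi : π.body[e]? = some π.body[e] := by simp
    generalize π.body[e] = i at hi
    by_cases hk : i.ok n (i.exec (c.ps n))
    · obtain ⟨d, h1, h2, h3⟩ := unstep hn h hi hk
      refine QP.Null.of_eqv h2.1 (ih d (by omega) h1 fun h4 => hok ?_)
      have := (ok_step hn hπ hi (h1.sv.mv hn h1.two) (h3 ▸ hk)).1.1 h4
      rwa [h3, Ins.exec_exec] at this
    · exact null_gate hn (md := false) h hi ((prog_shape hπ).1 i (body_pre hi he).2).2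
        (Or.inr rfl) hk

theorem null_fwd {n : ℕ} (hn : Big n) {π : Prog} (k : ℕ) : ∀ (e : ℕ) (c : Cfg),
    ¬ e ≤ π.pre.length → e + k = π.body.length →
    At n c π 2 e → ¬ π.Ok n e (c.ps n) → (Lv n).Null (c.render n) := by
  induction k with
  | zero =>
    intro e c he hk h hok
    obtain rfl : e = π.body.length := hk
    have hπ := (locate_spec h.loc).1
    have hl := last_fin hπ he le_rfl
    rw [(ok_fin hn hπ hl (h.sv.mv hn h.two)).1, not_and_or] at hok
    obtain ⟨d, h1, h2, h3⟩ := adv hn h le_rfl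
    have h4 := h1.hm
    rw [Prog.entry_last, hl] at h4
    rw [← h3] at hok
    exact QP.Null.of_eqv h2.1 (null_ctl hn h1.sv (by rw [h1.q]; decide)
      (Or.inr (Or.inr (Or.inr (Or.inl ⟨h4, Or.inr hok⟩)))))
  | succ k ih =>
    intro e c he hk h hok
    have hπ := (locate_spec h.loc).1
    have hlt : e < π.body.length := by omega
    have hi : π.body[e]? = some π.body[e] := by simp
    generalize π.body[e] = i at hi
    by_cases hk : i.ok n (c.ps n)
    · obtain ⟨d, h1, h2, h3⟩ := step hn h hi hk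
      refine QP.Null.of_eqv h2.1 (ih (e + 1) d (by omega) (by omega) h1 fun h4 => hok ?_)
      exact (ok_step hn hπ hi (h.sv.mv hn h.two) hk).1.2 (h3 ▸ h4)
    · obtain ⟨d, h1, h2, h3⟩ := adv hn h hlt.le
      exact QP.Null.of_eqv h2.1 (null_gate hn (md := true) h1 hi
        ((prog_shape hπ).2.1 i (body_post hi (by omega)).2).2 (Or.inl h3.symm) hk)

/-- contents of one block -/
noncomputable def blk (n : ℕ) (a c : Cell) (y : ℕ) : ℕ :=
  if y < P1 then (idle n a).mem y else (idle n c).mem (y - 13 * Dg)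

/-- two joined blocks with prescribed data and scratch letters -/
noncomputable def pair (n : ℕ) (a b c d : Cell) : Cfg where
  two := true
  h := 0
  q := 0
  pc := 0
  hm := 0
  ha := 0
  r1 := 0
  r2 := 0
  mem x := if x < n then blk n a c x else blk n b d (x - n)
  s0 := P1
  s1 := n + P1
  lab x := adx n x

theorem blk_lt {n : ℕ} (hn : Big n) (a c : Cell) {y : ℕ} (hy : y < n) : blk n a c y < n := by
  unfold blk
  split_ifs
  · exact (idle_valid hn a).sv.mem_lt y hy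
  · exact (idle_valid hn c).sv.mem_lt _ (show y - 13 * Dg < n by omega)

theorem blk_prog (n : ℕ) (a c : Cell) {y : ℕ} (hy : y < PP) : blk n a c y = y := by
  have := PP_le_P1
  simp [blk, idle, hy, show y < P1 by omega]

theorem blk_D (n : ℕ) (a c : Cell) (f : Fld) (i : Fin Dg) :
    blk n a c (Loc.D f i).adr = dig n (a f) i.val := by
  rw [blk, if_pos (Loc.adr_D f i).2, idle_mem]

theorem blk_S (n : ℕ) (a c : Cell) (f : Fld) (i : Fin Dg) :
    blk n a c (Loc.S f i).adr = dig n (c f) i.val := by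
  rw [blk, if_neg (not_lt.2 (Loc.adr_S f i).1), ← idle_mem]
  congr 1
  simp only [Loc.adr, P1_eq]
  omega

theorem pair_sv {n : ℕ} (hn : Big n) (a b c d : Cell) : (pair n a b c d).SV n := by
  have := PP_le_P1; have := P1_lt_P2; have hn' := hn; unfold Big at hn'
  refine ⟨?_, ?_, Or.inl ⟨rfl, rfl, rfl, rfl, rfl, rfl⟩, ?_, ?_, ?_, ?_, ?_⟩
  · simp [pair, Cfg.len]; omega
  · simp [pair]; omega
  · intro x hx
    simp only [pair, Cfg.len, if_true] at hx ⊢
    split_ifs with h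
    exacts [blk_lt hn _ _ h, blk_lt hn _ _ (by omega)]
  · intro x _ hx
    simp only [pair, adx] at hx ⊢
    split_ifs at hx ⊢ <;> exact blk_prog _ _ _ hx
  · simp [pair]; omega
  · simp [pair]; omega
  · intro x hx
    simp only [pair, Cfg.len, if_true, adx] at hx ⊢
    split_ifs <;> omega

theorem pair_tok (n : ℕ) (a b c d : Cell) : (pair n a b c d).TokOK n := by
  refine ⟨fun x _ h => h, fun x y _ _ _ _ h e => ?_⟩
  simp only [pair, adx] at e
  split_ifs at e <;> omega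

theorem pair_mem {n : ℕ} (hn : Big n) (a b c d : Cell) (l : Loc) :
    ((pair n a b c d).ps n).mem (false, l) = blk n a c l.adr ∧
      ((pair n a b c d).ps n).mem (true, l) = blk n b d l.adr := by
  have := l.adr_lt; unfold Big at hn
  simp [pair, Cfg.ps, pos, show l.adr < n by omega]

theorem pair_eqv {n : ℕ} (hn : Big n) {a b : Cell} (c d : Cell) (ha : Bd (n ^ Dg) a)
    (hb : Bd (n ^ Dg) b) : (Lv n).Eqv ((pair n a b c d).render n) (phi n a ++ phi n b) := by
  have := eqv_free hn (pair_sv hn a b c d) (pair_tok n a b c d) rfl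
  rw [dec_free rfl rfl, letter_eq ha (fun f i => by rw [(pair_mem hn ..).1, blk_D]),
    letter_eq hb (fun f i => by rw [(pair_mem hn ..).2, blk_D])] at this
  simpa using this

end Unw
open Unw

theorem eqv_dec {n : ℕ} (hn : Big n) {c : Cfg} (h : c.Valid n) :
    (Lv n).Eqv (c.render n) ((c.dec n).flatMap (phi n)) := by
  by_cases hq : c.q = 0
  · exact eqv_free hn h.sv h.tok hq
  obtain ⟨h2, hq'⟩ := h.sv.ctl.resolve_left fun h' => hq h'.1
  obtain ⟨π, j, hl, a1, a2, a3, a4, hok⟩ := h.legit.resolve_left hq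
  obtain ⟨d, k1, k2, k3, k4⟩ := norm hn ⟨h.sv, h2, rfl, hl, a1, a2⟩ hq' a3 a4
  have hd : c.dmem n = π.dmem (c.ex j) (c.ps n) := by simp [Cfg.dmem, hq, hl]
  suffices ∃ d' : Cfg, d'.SV n ∧ d'.q = 0 ∧ R n d d' ∧ (d'.ps n).mem = c.dmem n by
    obtain ⟨d', b1, b2, b3, b4⟩ := this
    have b5 := k2.trans b3
    have := eqv_free hn b1 (b5.tok h.tok) b2
    rw [dec_free (b5.2.1.trans h2) b2, b4] at this
    simp only [Cfg.dec, h2, if_true]
    exact b5.1.trans this
  rw [hd, ← k3]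
  rw [← k3] at hok
  generalize c.ex j = e at *
  by_cases he : e ≤ π.pre.length
  · simp only [Prog.Ok, Prog.dmem, he, if_true] at hok ⊢
    obtain ⟨d1, b1, b2, b3⟩ := run_bwd hn (π.pre.take e) (π.pre.drop e ++ π.post) d
      (by rw [← List.append_assoc, List.take_append_drop]; rfl)
      (by rwa [List.length_take_of_le he]) hok.2.2
    rw [← b3] at hok ⊢
    obtain ⟨d2, b4, b5, b6, b7⟩ := unstart hn b1 hok.1 hok.2.1
    exact ⟨d2, b4, b5, b2.trans b6, by rw [b7]⟩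
  · simp only [Prog.Ok, Prog.dmem, he, if_false] at hok ⊢
    have hb : π.body = π.pre ++ π.post.take (e - π.pre.length) ++
        π.post.drop (e - π.pre.length) := by
      rw [List.append_assoc, List.take_append_drop]; rfl
    have k5 := k4
    simp only [Prog.body, List.length_append] at k5
    obtain ⟨d1, b1, b2, b3⟩ := run_fwd hn (π.post.drop (e - π.pre.length))
      (π.pre ++ π.post.take (e - π.pre.length)) [] d (by rw [List.append_nil, hb])
      (by
        rwa [List.length_append, List.length_take_of_le (by omega),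
          Nat.add_sub_cancel' (by omega)]) hok.1
    rw [← b3] at hok ⊢
    rw [← hb] at b1
    obtain ⟨d2, b4, b5, b6, b7⟩ := finish hn b1 (last_fin (locate_spec hl).1 he k4) hok.2.1 hok.2.2
    exact ⟨d2, b4, b5, b2.trans b6, by rw [b7]⟩

theorem null_illegit {n : ℕ} (hn : Big n) {c : Cfg} (h : c.SV n) (hl : ¬ c.Legit n) :
    (Lv n).Null (c.render n) := by
  have hq : c.q ≠ 0 := fun h' => hl (Or.inl h')
  obtain ⟨h2, hq'⟩ := h.ctl.resolve_left fun h' => hq h'.1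
  have hp := h.regs.1
  by_cases hf : c.hm ≠ tb false c.pc ∨ c.ha ≠ tb true c.pc
  · refine null_at hn h (x := c.pc) (y := c.pc) (by rw [len_two h2]; omega)
      (by rw [len_two h2]; omega) (ZR.fetch ?_ ?_ ?_ ?_) <;>
      simp only [Cfg.cell, mv, adx, hp, h2, if_true, lt_irrefl, if_false]
    exacts [hq, hf]
  push Not at hf
  by_cases hpc : c.pc < PP
  swap
  · refine null_ctl hn h hq ?_
    rw [hf.1, (tb_of_ge (not_lt.1 hpc)).1]
    split_ifs <;> simp
  obtain ⟨π, j, hloc⟩ := locate_iff.1 hpc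
  have a1 := hf.1.trans (tb_of_locate hloc).1
  have a2 := hf.2.trans (tb_of_locate hloc).2
  by_cases a3 : c.q = 1 → 1 ≤ j
  swap
  · push Not at a3
    obtain rfl : j = 0 := by omega
    exact null_ctl hn h hq (Or.inr (Or.inr (Or.inl ⟨a1, Or.inl a3.1⟩)))
  by_cases a4 : c.q = 2 → j ≤ π.body.length
  swap
  · push Not at a4
    have := (locate_spec hloc).2.1
    unfold Prog.len at this
    obtain rfl : j = π.body.length + 1 := by omega
    rw [Prog.entry_last] at a1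
    have := π.last.code_bd
    have := a4.1
    exact null_ctl hn h hq (by simp only at a1; omega)
  have hok : ¬ π.Ok n (c.ex j) (c.ps n) := fun h' => hl (Or.inr ⟨π, j, hloc, a1, a2, a3, a4, h'⟩)
  obtain ⟨d, k1, k2, k3, k4⟩ := norm hn ⟨h, h2, rfl, hloc, a1, a2⟩ hq' a3 a4
  rw [← k3] at hok
  refine QP.Null.of_eqv k2.1 ?_
  by_cases he : c.ex j ≤ π.pre.length
  · exact null_bwd hn _ d he k1 hok
  · exact null_fwd hn _ _ d he (Nat.add_sub_cancel' k4) k1 hok

theorem sim_E {n : ℕ} (hn : Big n) {a b c d : Cell} (h : (Lv (n ^ Dg)).E a b c d) :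
    (Lv n).Eqv (phi n a ++ phi n b) (phi n c ++ phi n d) := by
  obtain ⟨π, hπ, hl, hp⟩ := prog_fin_complete hn h
  have hs := pair_sv hn a b c d
  obtain ⟨h1, h2, h3⟩ := hp _ (hs.mv hn rfl) (fun f i => by rw [(pair_mem hn ..).1, blk_D])
    (fun f i => by rw [(pair_mem hn ..).2, blk_D]) (fun f i => by rw [(pair_mem hn ..).1, blk_S])
    (fun f i => by rw [(pair_mem hn ..).2, blk_S])
  obtain ⟨c1, a1, a2, a3⟩ := start hn hs rfl ⟨rfl, rfl, rfl, rfl, rfl, rfl⟩ hπ
  obtain ⟨c2, b1, b2, b3⟩ := run_fwd hn π.body [] [] c1 (by simp) a1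
    (by rw [a3]; exact (okAll_append ..).2 ⟨h1, (prog_fin_iff hπ hl _).1 h1⟩)
  rw [a3, Prog.body, fwd_append, (prog_fin_regs hπ hl _).1] at b3
  obtain ⟨c3, d1, d2, d3, d4⟩ := finish hn b1 hl
    ((congrArg PS.r1 b3).trans (prog_fin_regs hπ hl _).2.1)
    ((congrArg PS.r2 b3).trans (prog_fin_regs hπ hl _).2.2)
  have e := (a2.trans b2).trans d3
  have := eqv_free hn d1 (e.tok (pair_tok ..)) d2
  rw [dec_free e.2.1 d2, d4, b3, h2, h3] at this
  exact (pair_eqv hn c d h.1.1 h.1.2.1).symm.trans (e.1.trans (by simpa using this))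

theorem sim_Z {n : ℕ} (hn : Big n) {a b : Cell} (h : (Lv (n ^ Dg)).Z a b) :
    (Lv n).Null (phi n a ++ phi n b) := by
  obtain ⟨π, hπ, hl, hp⟩ := prog_zero_complete hn h
  have hs := pair_sv hn a b a b
  obtain ⟨h1, h2⟩ := hp _ (hs.mv hn rfl) (fun f i => by rw [(pair_mem hn ..).1, blk_D])
    (fun f i => by rw [(pair_mem hn ..).2, blk_D])
  have hb : π.body = π.pre := by simp [Prog.body, (prog_shape hπ).2.2 hl]
  obtain ⟨c1, a1, a2, a3⟩ := start hn hs rfl ⟨rfl, rfl, rfl, rfl, rfl, rfl⟩ hπ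
  obtain ⟨c2, b1, b2, b3⟩ := run_fwd hn π.body [] [] c1 (by simp) a1 (by rwa [a3, hb])
  obtain ⟨c3, d1, d2, d3⟩ := adv hn b1 le_rfl
  rw [← hb, ← a3, ← b3, ← d3] at h2
  refine QP.Null.of_eqv ((pair_eqv hn a b h.1.1 h.1.2).symm.trans ((a2.trans b2).trans d2).1) ?_
  have h4 : c3.hm = π.last.code := d1.hm.trans (congrArg Prod.fst π.entry_last)
  rcases hc : π.last with _ | _ | w
  · exact absurd hc hl
  · rw [hc] at h4
    exact null_ctl hn d1.sv (by rw [d1.q]; decide) (by simp [h4, Last.code])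
  · rw [hc] at h4 h2
    have h5 : c3.r2 ≠ tb w c3.r1 := h2
    have h6 := d1.sv.regs.2.2.2.1
    obtain ⟨x, hx⟩ : ∃ x, n + c3.r1 = x + 1 := ⟨n + c3.r1 - 1, by omega⟩
    have h7 : ¬ x + 1 < n := by omega
    have h8 : x + 1 - n = c3.r1 := by omega
    refine null_at hn d1.sv (x := x) (y := x + 1) (by rw [len_two d1.two]; omega)
      (by rw [len_two d1.two]; omega) (ZR.tab ?_ ?_ ?_ ?_) <;>
      simp only [Cfg.cell, mv, adx, h7, h8, d1.two, d1.q, if_true, lt_irrefl, if_false, h4]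
    cases w <;> simp [Last.code, h5.symm]

end Vale.Agent.P192
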